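import Crest.Agent.R290.Lines

/-!
# rid 290, task Complete: chains; the Spoiler follows a derivation
-/

set_option autoImplicit false

namespace Crest.Agent.R290

section chain

variable {X : Type} {E : List (Eqn X)}

theorem cpl_three (x : ZMod 2) : x + (x + (x + 0)) = x := by revert x; decide

theorem cpl_take_succ (ℓ : List X) (p : ℕ) :
    ℓ.take (p + 1) = ℓ.take p ++ (ℓ.drop p).take 1 := List.take_add

theorem cpl_col {ℓ : List X} {p : ℕ} {x : X} (h : ℓ[p]? = some x) : (ℓ.drop p).take 1 = [x] := by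
  obtain ⟨hp, rfl⟩ := List.getElem?_eq_some_iff.1 h
  rw [List.drop_eq_getElem_cons hp]
  rfl

theorem cpl_mem_chain {e' : Eqn (List X)} : e' ∈ chain E ↔ ∃ e ∈ E, e' = ([e.1, e.1, e.1], e.2) ∨
    ∃ p < e.1.length, e' = ([e.1.take p, (e.1.drop p).take 1, e.1.take (p + 1)], false) := by
  simp only [chain, chainOne, List.mem_flatMap, List.mem_cons, List.mem_map, List.mem_range,
    eq_comm (a := e')]

/-- Choose for every equation of `chain E` a parent in `E` (classical).  `𝒱' R η' :=` some `η` has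
`𝒱 (parent '' R) η` and `η' = lsum η`.  The variables of a small equation are sublists of its
parent's list, so their values only depend on the parent's variables. -/
theorem chain_lcons {K : ℕ} (h : LCons E K) : LCons (chain E) K := by
  classical
  obtain ⟨𝒱, h⟩ := h
  have hpar : ∀ e' : Eqn (List X), ∃ e : Eqn X, e' ∈ chain E → e ∈ E ∧
      (∀ x' ∈ e'.1, ∀ x ∈ x', x ∈ e.1) ∧ ∀ η, Sat η e → Sat (lsum η) e' := by
    intro e'
    by_cases he' : e' ∈ chain E
    · obtain ⟨e, he, rfl | ⟨p, -, rfl⟩⟩ := cpl_mem_chain.1 he'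
      · refine ⟨e, fun _ => ⟨he, by simp, fun η hη => ?_⟩⟩
        simpa only [Sat, lsum_cons, lsum_nil, cpl_three] using hη
      · refine ⟨e, fun _ => ⟨he, ?_, fun η _ => ?_⟩⟩
        · simp only [List.mem_cons, List.not_mem_nil, or_false]
          rintro x' (rfl | rfl | rfl) x hx
          · exact List.mem_of_mem_take hx
          · exact List.mem_of_mem_drop (List.mem_of_mem_take hx)
          · exact List.mem_of_mem_take hx
        · simp only [Sat, lsum_cons, lsum_nil, cpl_take_succ e.1 p, lsum_append]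
          generalize lsum η (e.1.take p) = u
          generalize lsum η ((e.1.drop p).take 1) = v
          revert u v
          decide
    · exact ⟨([], false), fun h => absurd h he'⟩
  choose par hpar using hpar
  refine ⟨fun R η' => (∀ e' ∈ R, e' ∈ chain E) ∧ ∃ η, 𝒱 (R.image par) η ∧ η' = lsum η,
    ?_, ?_, ?_, ?_⟩
  · obtain ⟨η, hη⟩ := h.empty
    exact ⟨_, by simp, η, by simpa using hη, rfl⟩
  · rintro R R' η' hR ⟨h1, η, h2, h3⟩
    exact ⟨fun e' he' => h1 e' (hR he'), η, h.mono (Finset.image_subset_image hR) h2, h3⟩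
  · rintro R η' ⟨h1, η, h2, rfl⟩ e' he'
    exact (hpar e' (h1 e' he')).2.2 η (h.sat h2 _ (Finset.mem_image_of_mem _ he'))
  · rintro R R' η' hR hE hK ⟨h1, η, h2, rfl⟩
    obtain ⟨η₂, h3, h4⟩ := h.ext (Finset.image_subset_image hR) (fun e he => by
      obtain ⟨e', he', rfl⟩ := Finset.mem_image.1 he
      exact (hpar e' (hE e' he')).1) (Finset.card_image_le.trans hK) h2
    refine ⟨_, ⟨hE, η₂, h3, rfl⟩, fun e' he' x' hx' => lsum_congr fun x hx => ?_⟩
    exact h4 _ (Finset.mem_image_of_mem _ he') x ((hpar e' (h1 e' he')).2.1 x' hx' x hx)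

/-- `η x := η' [x]`; induction on `p` shows `η' (ℓ.take p) = lsum η (ℓ.take p)` (for `p = 0` use
the step equation at `0`, or the top equation if `ℓ = []`: then `η' [] = rhs`, handle this case
through another argument or note `3 x = x`). Careful with `ℓ = []`: the top equation says
`η' [] = rhs`; if some other equation is nonempty `η' [] = 0`. The hypothesis excludes `ℓ = []`. -/
theorem solvable_of_chain (hne : ∀ e ∈ E, e.1 ≠ []) (h : Solvable (chain E)) : Solvable E := by
  obtain ⟨η', hη'⟩ := h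
  refine ⟨fun x => η' [x], fun e he => ?_⟩
  have key : ∀ p ≤ e.1.length, η' (e.1.take p) = lsum (fun x => η' [x]) (e.1.take p) := by
    intro p
    induction p with
    | zero =>
      intro _
      have := hη' _ (step_mem_chain he (List.length_pos_iff.2 (hne e he)))
      simp only [Sat, lsum_cons, lsum_nil, List.drop_zero, List.take_zero, zero_add] at this ⊢
      generalize η' [] = u at this ⊢
      generalize η' (e.1.take 1) = v at this
      revert u v
      decide
    | succ p ih =>
      intro hp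
      have := hη' _ (step_mem_chain he (Nat.lt_of_succ_le hp))
      have hc := cpl_col (List.getElem?_eq_getElem (Nat.lt_of_succ_le hp))
      conv_rhs => rw [cpl_take_succ, lsum_append, ← ih (Nat.le_of_succ_le hp), hc]
      simp only [Sat, lsum_cons, lsum_nil, hc] at this ⊢
      generalize η' (e.1.take p) = u at this ⊢
      generalize η' [e.1[p]] = v at this ⊢
      generalize η' (e.1.take (p + 1)) = w at this ⊢
      revert u v w
      decide
  have h1 := key _ le_rfl
  have h2 := hη' _ (top_mem_chain he)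
  rw [List.take_length] at h1
  simp only [Sat, lsum_cons, lsum_nil, cpl_three] at h2
  rw [Sat, ← h1, h2]

/-- Pebble all occurring variables. -/
theorem solvable_of_vstrat (h : ∀ K, ∃ 𝒮, IsVStrat E K 𝒮 ∧ ∃ δ, 𝒮 ∅ δ) : Solvable E := by
  classical
  obtain ⟨𝒮, h𝒮, δ, hδ⟩ := h (E.flatMap fun e => e.1).toFinset.card
  obtain ⟨δ', h1, -⟩ := h𝒮.ext hδ (Finset.empty_subset _) le_rfl fun x hx => by
    simpa [Occ] using hx
  exact ⟨δ', fun e he => h𝒮.sat h1 e he fun x hx =>
    List.mem_toFinset.2 (List.mem_flatMap.2 ⟨e, he, hx⟩)⟩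

theorem not_vstrat_of_forced0 {w : ℕ} (h : Forced0 E w) (hw : 1 ≤ w) {x : X}
    (hx : ([x, x, x], true) ∈ E) {𝒮 : Finset X → (X → ZMod 2) → Prop} (h𝒮 : IsVStrat E w 𝒮) :
    ¬ ∃ δ, 𝒮 ∅ δ := by
  rintro ⟨δ, hδ⟩
  have ho : Occ E x := ⟨_, hx, by simp⟩
  obtain ⟨δ', h1, -⟩ := h𝒮.ext (T' := {x}) hδ (Finset.empty_subset _) (by simpa using hw)
    (by simpa using ho)
  have h2 := h𝒮.sat h1 _ hx (by simp)
  have h3 := h 𝒮 h𝒮 _ _ h1 x (by simp) ho
  simp [Sat, h3, b2z] at h2

/-- The list `ℓ` of variables is forced to have sum zero. -/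
def Fo {Y : Type} (𝒮 : Finset Y → (Y → ZMod 2) → Prop) (ℓ : List Y) : Prop :=
  ∀ T δ, 𝒮 T δ → (∀ x ∈ ℓ, x ∈ T) → lsum δ ℓ = 0

theorem Fo.basic {Y : Type} {E : List (Eqn Y)} {w : ℕ} {𝒮 : Finset Y → (Y → ZMod 2) → Prop}
    (h𝒮 : IsVStrat E w 𝒮) {ℓ : List Y} (ℓ' : List Y) (hsub : ∀ x ∈ ℓ, x ∈ ℓ')
    (hocc : ∀ x ∈ ℓ', Occ E x) (hlen : ℓ'.length ≤ w)
    (h : ∀ T δ, 𝒮 T δ → (∀ x ∈ ℓ', x ∈ T) → lsum δ ℓ = 0) : Fo 𝒮 ℓ := by
  classical
  intro T δ hδ hT
  obtain ⟨δ', h1, h2⟩ := h𝒮.ext (T' := ℓ'.toFinset)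
    (h𝒮.down (T' := ℓ.toFinset) hδ fun x hx => hT x (List.mem_toFinset.1 hx))
    (fun x hx => List.mem_toFinset.2 (hsub x (List.mem_toFinset.1 hx)))
    ((List.toFinset_card_le _).trans hlen) fun x hx => hocc x (List.mem_toFinset.1 hx)
  rw [← h _ δ' h1 fun x hx => List.mem_toFinset.2 hx]
  exact lsum_congr fun x hx => (h2 x (List.mem_toFinset.2 hx)).symm

theorem Fo.of_single {Y : Type} {𝒮 : Finset Y → (Y → ZMod 2) → Prop} {ℓ : List Y}
    (h : ∀ x ∈ ℓ, Fo 𝒮 [x]) : Fo 𝒮 ℓ := by
  intro T δ hδ hT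
  rw [lsum_congr (η' := fun _ => 0) fun x hx => by simpa using h x hx T δ hδ (by simpa using hT x hx)]
  simp [lsum]

theorem cpl_occ_take {e : Eqn X} (he : e ∈ E) {p : ℕ} (hp : p ≤ e.1.length) :
    Occ (chain E) (e.1.take p) := by
  rcases hp.lt_or_eq with hp | rfl
  · exact ⟨_, step_mem_chain he hp, by simp⟩
  · exact ⟨_, top_mem_chain he, by simp⟩

theorem cpl_occ_col {e : Eqn X} (he : e ∈ E) {p : ℕ} (hp : p < e.1.length) :
    Occ (chain E) ((e.1.drop p).take 1) := ⟨_, step_mem_chain he hp, by simp⟩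

theorem cpl_occ_single {e : Eqn X} (he : e ∈ E) {x : X} (hx : x ∈ e.1) : Occ (chain E) [x] := by
  obtain ⟨p, hp, rfl⟩ := List.getElem_of_mem hx
  rw [← cpl_col (List.getElem?_eq_getElem hp)]
  exact cpl_occ_col he hp

variable {w : ℕ} {𝒮 : Finset (List X) → (List X → ZMod 2) → Prop}

theorem cpl_step (h𝒮 : IsVStrat (chain E) w 𝒮) {T : Finset (List X)} {δ : List X → ZMod 2}
    (hδ : 𝒮 T δ) {e : Eqn X} (he : e ∈ E) {p : ℕ} (hp : p < e.1.length) (h1 : e.1.take p ∈ T)
    (h2 : (e.1.drop p).take 1 ∈ T) (h3 : e.1.take (p + 1) ∈ T) :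
    δ (e.1.take (p + 1)) = δ (e.1.take p) + δ ((e.1.drop p).take 1) := by
  have := h𝒮.sat hδ _ (step_mem_chain he hp) (by simp [h1, h2, h3])
  simp only [Sat, lsum_cons, lsum_nil] at this
  generalize δ (e.1.take p) = u at this ⊢
  generalize δ ((e.1.drop p).take 1) = v at this ⊢
  generalize δ (e.1.take (p + 1)) = w at this ⊢
  revert u v w
  decide

theorem Fo.nil (h𝒮 : IsVStrat (chain E) w 𝒮) (hw : 3 ≤ w) {e : Eqn X} (he : e ∈ E)
    (h0 : e.1 ≠ []) : Fo 𝒮 [[]] := by
  have hp := List.length_pos_iff.2 h0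
  refine Fo.basic h𝒮 [[], e.1.take 1] (by simp) ?_ (by simp; omega) fun T δ hδ hT => ?_
  · simp only [List.mem_cons, List.not_mem_nil, or_false]
    rintro x (rfl | rfl)
    · exact cpl_occ_take he (Nat.zero_le _)
    · exact cpl_occ_take he hp
  · have := cpl_step h𝒮 hδ he hp (hT _ (by simp)) (hT _ (by simp)) (hT _ (by simp))
    simpa using this

theorem Fo.top (h𝒮 : IsVStrat (chain E) w 𝒮) {ℓ : List X} (he : (ℓ, false) ∈ E) : Fo 𝒮 [ℓ] := by
  intro T δ hδ hT
  have := h𝒮.sat hδ _ (top_mem_chain he) (by simpa using hT)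
  simp only [Sat, lsum_cons, lsum_nil, cpl_three] at this
  simpa [b2z] using this

/-- the three columns at position `p` of a family of equations -/
theorem cpl_cols (h𝒮 : IsVStrat (chain E) w 𝒮) {L : List (Eqn X)} (hL : 3 * L.length ≤ w)
    (hE : ∀ e ∈ L, e ∈ E) {p : ℕ} (hp : ∀ e ∈ L, p < e.1.length)
    (h1 : Fo 𝒮 (L.map fun e => e.1.take p)) :
    Fo 𝒮 (L.map fun e => (e.1.drop p).take 1) ↔ Fo 𝒮 (L.map fun e => e.1.take (p + 1)) := by
  have key : ∀ T δ, 𝒮 T δ → (∀ x ∈ (L.map fun e => e.1.take p) ++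
      (L.map fun e => (e.1.drop p).take 1) ++ (L.map fun e => e.1.take (p + 1)), x ∈ T) →
      lsum δ (L.map fun e => e.1.take (p + 1)) = lsum δ (L.map fun e => (e.1.drop p).take 1) := by
    intro T δ hδ hT
    simp only [List.mem_append] at hT
    rw [← zero_add (lsum δ (L.map fun e => (e.1.drop p).take 1)),
      ← h1 T δ hδ fun x hx => hT x (.inl (.inl hx))]
    simp only [lsum, List.map_map, Function.comp_def, ← List.sum_map_add]
    refine congrArg List.sum (List.map_congr_left fun e he => ?_)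
    exact cpl_step h𝒮 hδ (hE e he) (hp e he) (hT _ (.inl (.inl (List.mem_map_of_mem he))))
      (hT _ (.inl (.inr (List.mem_map_of_mem he)))) (hT _ (.inr (List.mem_map_of_mem he)))
  have hocc : ∀ x ∈ (L.map fun e => e.1.take p) ++
      (L.map fun e => (e.1.drop p).take 1) ++ (L.map fun e => e.1.take (p + 1)),
      Occ (chain E) x := by
    simp only [List.mem_append, List.mem_map]
    rintro x ((⟨e, he, rfl⟩ | ⟨e, he, rfl⟩) | ⟨e, he, rfl⟩)
    · exact cpl_occ_take (hE e he) (hp e he).le
    · exact cpl_occ_col (hE e he) (hp e he)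
    · exact cpl_occ_take (hE e he) (hp e he)
  constructor
  · intro h2
    refine Fo.basic h𝒮 _ (fun x hx => List.mem_append_right _ hx) hocc (by simp; omega)
      fun T δ hδ hT => ?_
    rw [key T δ hδ hT]
    exact h2 T δ hδ fun x hx => hT x (List.mem_append_left _ (List.mem_append_right _ hx))
  · intro h2
    refine Fo.basic h𝒮 _ (fun x hx => List.mem_append_left _ (List.mem_append_right _ hx)) hocc
      (by simp; omega) fun T δ hδ hT => ?_
    rw [← key T δ hδ hT]
    exact h2 T δ hδ fun x hx => hT x (List.mem_append_right _ hx)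

theorem Fo.prefix (h𝒮 : IsVStrat (chain E) w 𝒮) (hw : 3 ≤ w) {L : List (Eqn X)}
    (hL : 3 * L.length ≤ w) (hE : ∀ e ∈ L, e ∈ E) (h0 : ∀ e ∈ L, e.1 ≠ []) (p : ℕ)
    (hp : ∀ e ∈ L, p ≤ e.1.length) (hc : ∀ p' < p, Fo 𝒮 (L.map fun e => (e.1.drop p').take 1)) :
    Fo 𝒮 (L.map fun e => e.1.take p) := by
  induction p with
  | zero =>
    refine Fo.of_single fun x hx => ?_
    obtain ⟨e, he, rfl⟩ := List.mem_map.1 hx
    exact Fo.nil h𝒮 hw (hE e he) (h0 e he)
  | succ p ih =>
    exact (cpl_cols h𝒮 hL hE hp (ih (fun e he => Nat.le_of_succ_le (hp e he))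
      fun p' hp' => hc p' (Nat.lt_succ_of_lt hp'))).1 (hc p (Nat.lt_succ_self p))

/-- the parallel rule -/
theorem Fo.parallel (h𝒮 : IsVStrat (chain E) w 𝒮) (hw : 3 ≤ w) {ι : Type} {I : List ι}
    (hI : 3 * I.length ≤ w) {ℓ : ι → List X} (hE : ∀ i ∈ I, (ℓ i, false) ∈ E) {t : ℕ}
    (ht : ∀ i ∈ I, (ℓ i).length = t + 1)
    (hc : ∀ p < t, Fo 𝒮 (I.map fun i => ((ℓ i).drop p).take 1)) :
    Fo 𝒮 (I.map fun i => ((ℓ i).drop t).take 1) := by
  have hE' : ∀ e ∈ I.map fun i => ((ℓ i, false) : Eqn X), e ∈ E := by simpa using hE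
  have ht' : ∀ e ∈ I.map fun i => ((ℓ i, false) : Eqn X), e.1.length = t + 1 := by simpa using ht
  have h1 := Fo.prefix h𝒮 hw (by simpa using hI) hE'
    (fun e he => List.length_pos_iff.1 (by rw [ht' e he]; omega)) t
    (fun e he => by rw [ht' e he]; omega) 
    (by simpa only [List.map_map, Function.comp_def] using hc)
  have h2 := (cpl_cols h𝒮 (by simpa using hI) hE' (fun e he => by rw [ht' e he]; omega) h1).2
    (Fo.of_single fun x hx => by
      simp only [List.map_map, List.mem_map, Function.comp_apply] at hx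
      obtain ⟨i, hi, rfl⟩ := hx
      rw [← ht i hi, List.take_length]
      exact Fo.top h𝒮 (hE i hi))
  simpa only [List.map_map, Function.comp_def] using h2

theorem Fo.cancel {Y : Type} {E : List (Eqn Y)} {w : ℕ} {𝒮 : Finset Y → (Y → ZMod 2) → Prop}
    (h𝒮 : IsVStrat E w 𝒮) {A B : List Y} (h1 : Fo 𝒮 (A ++ B)) (h2 : Fo 𝒮 A)
    (hocc : ∀ x ∈ A ++ B, Occ E x) (hlen : (A ++ B).length ≤ w) : Fo 𝒮 B := by
  refine Fo.basic h𝒮 _ (fun x hx => List.mem_append_right _ hx) hocc hlen fun T δ hδ hT => ?_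
  have := h1 T δ hδ hT
  rwa [lsum_append, h2 T δ hδ fun x hx => hT x (List.mem_append_left _ hx), zero_add] at this

/-- the single rule -/
theorem Fo.single (h𝒮 : IsVStrat (chain E) w 𝒮) {ℓ : List X} (he : (ℓ, false) ∈ E) (h0 : ℓ ≠ [])
    (hw : ℓ.length + 2 ≤ w) : Fo 𝒮 (ℓ.map fun x => [x]) := by
  have hpos := List.length_pos_iff.2 h0
  have hs : ∀ x ∈ ℓ.map fun x => [x], Occ (chain E) x := by
    intro x hx
    obtain ⟨y, hy, rfl⟩ := List.mem_map.1 hx
    exact cpl_occ_single he hy
  have key : ∀ p ≤ ℓ.length, Fo 𝒮 (ℓ.take p :: (ℓ.take p).map fun x => [x]) := by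
    intro p
    induction p with
    | zero => exact fun _ => Fo.nil h𝒮 (by omega) he h0
    | succ p ih =>
      intro hp
      have hp' : p < ℓ.length := hp
      have hc := cpl_col (List.getElem?_eq_getElem hp')
      have hm : ((ℓ.take (p + 1)).map fun x => [x]) =
          ((ℓ.take p).map fun x => [x]) ++ [(ℓ.drop p).take 1] := by
        rw [cpl_take_succ, List.map_append, hc]
        rfl
      refine Fo.basic h𝒮 (ℓ.take p :: ℓ.take (p + 1) :: (ℓ.take (p + 1)).map fun x => [x])
        (fun x hx => List.mem_cons_of_mem _ hx) ?_ (by simp; omega) fun T δ hδ hT => ?_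
      · simp only [List.mem_cons]
        rintro x (rfl | rfl | hx)
        · exact cpl_occ_take he hp'.le
        · exact cpl_occ_take he hp
        · exact hs x (List.map_subset _ (List.take_subset _ _) hx)
      · rw [hm] at hT ⊢
        simp only [List.mem_cons, List.mem_append, List.not_mem_nil, or_false] at hT
        have h1 := ih hp'.le T δ hδ (by
          simp only [List.mem_cons]
          rintro x (rfl | hx)
          · exact hT _ (.inl rfl)
          · exact hT _ (.inr (.inr (.inl hx))))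
        have h2 := cpl_step h𝒮 hδ he hp' (hT _ (.inl rfl)) (hT _ (.inr (.inr (.inr rfl))))
          (hT _ (.inr (.inl rfl)))
        simp only [lsum_cons, lsum_append, lsum_nil] at h1 h2 ⊢
        rw [h2]
        generalize δ (ℓ.take p) = u at h1 ⊢
        generalize δ ((ℓ.drop p).take 1) = v
        generalize lsum δ ((ℓ.take p).map fun x => [x]) = z at h1 ⊢
        revert u v z
        decide
  have h1 := key _ le_rfl
  rw [List.take_length] at h1
  refine Fo.cancel h𝒮 (A := [ℓ]) h1 (Fo.top h𝒮 he) ?_ (by simp; omega)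
  intro x hx
  rcases List.mem_cons.1 hx with rfl | hx
  · exact ⟨_, top_mem_chain he, by simp⟩
  · exact hs x hx

/-- if all singletons are forced then all occurring variables are -/
theorem cpl_finish (h𝒮 : IsVStrat (chain E) w 𝒮) (hw : 3 ≤ w) (h0 : ∀ e ∈ E, e.1 ≠ [])
    (h : ∀ e ∈ E, ∀ x ∈ e.1, Fo 𝒮 [[x]]) {y : List X} (hy : Occ (chain E) y) : Fo 𝒮 [y] := by
  have hc : ∀ e ∈ E, ∀ p < e.1.length, Fo 𝒮 [(e.1.drop p).take 1] := fun e he p hp => by
    rw [cpl_col (List.getElem?_eq_getElem hp)]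
    exact h e he _ (List.getElem_mem hp)
  have hp : ∀ e ∈ E, ∀ p ≤ e.1.length, Fo 𝒮 [e.1.take p] := fun e he p hp =>
    Fo.prefix h𝒮 hw (L := [e]) hw (by simpa using he) (by simpa using h0 e he) p
      (by simpa using hp) fun p' hp' => hc e he p' (hp'.trans_le hp)
  obtain ⟨e', he', hy⟩ := hy
  obtain ⟨e, he, rfl | ⟨p, hp', rfl⟩⟩ := cpl_mem_chain.1 he'
  · obtain rfl : y = e.1 := by simpa using hy
    simpa using hp e he _ le_rfl
  · simp only [List.mem_cons, List.not_mem_nil, or_false] at hy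
    rcases hy with rfl | rfl | rfl
    · exact hp e he p hp'.le
    · exact hc e he p hp'
    · exact hp e he _ hp'

end chain

variable {H : List HRule} {qs : List ℕ} {lam : ℕ}

theorem longSys_ne_nil (hlam : 0 < lam) (hr : 0 < qs.length) (b : ℕ → Cp → Bool) :
    ∀ e ∈ longSys H qs lam b, e.1 ≠ [] := by
  intro e he
  rw [← List.length_pos_iff]
  rcases mem_longSysS.1 he with ⟨γ, -, l, -, i, -, α, -, rfl⟩ | ⟨j, -, rfl⟩ | ⟨j, -, rfl⟩ |
    ⟨W, -, l, -, i, -, α, -, rfl⟩ | ⟨g, -, l, -, rfl⟩
  · simp [gateL]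
  · simpa [factL] using hr
  · simp
  · simp [amL]
  · simpa [length_line] using hlam

theorem cpl_zero_mem (hlam : 0 < lam) : ((0, 0) : Cp) ∈ copies lam (sigma H qs lam) := by
  refine mem_copies.2 ⟨hlam, ?_⟩
  have : 0 < gnum H qs := by unfold gnum; omega
  unfold sigma
  positivity

theorem cpl_line {g : ℕ} (hg : g < gnum H qs) {l : Cp} (hl : l ∈ copies lam (sigma H qs lam)) :
    ∀ j ∈ line lam (sigma H qs lam) g l, j ∈ copies lam (sigma H qs lam) := line_subset hg hl

theorem pure_mem (hlam : 0 < lam) (b : Bool) :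
    ∃ ℓ, (ℓ, b) ∈ longSys H qs lam fun _ _ => b := by
  exact ⟨_, mem_longSysS.2 (.inr (.inr (.inr (.inr
    ⟨0, two_pos, _, cpl_zero_mem hlam, rfl⟩))))⟩

/-- The pure equations alone: `2 |copies|` equations in `|copies| > 0` unknowns `u j`; the map from
assignments of the `u j`, `j ∈ copies`, to right-hand sides is not onto (`line_subset`, `0, 1 <
gnum`). -/
theorem exists_unsolvable (hlam : 0 < lam) : ∃ b, ¬ Solvable (longSys H qs lam b) := by
  classical
  by_contra hc
  simp only [not_exists, not_not] at hc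
  let C := {j : Cp // j ∈ copies lam (sigma H qs lam)}
  let F : (C → ZMod 2) → (Fin 2 × C → ZMod 2) := fun u x =>
    lsum (fun j => if h : j ∈ copies lam (sigma H qs lam) then u ⟨j, h⟩ else 0)
      (line lam (sigma H qs lam) x.1 x.2)
  have hF : Function.Surjective F := by
    intro y
    obtain ⟨η, hη⟩ := hc fun g l =>
      if h : g < 2 ∧ l ∈ copies lam (sigma H qs lam) then decide (y (⟨g, h.1⟩, ⟨l, h.2⟩) = 1)
      else false
    refine ⟨fun j => η (Sum.inr j.1), funext fun x => ?_⟩
    have h1 := hη _ (mem_longSysS.2 (.inr (.inr (.inr (.inr ⟨x.1, x.1.2, x.2, x.2.2, rfl⟩)))))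
    have hg : (x.1 : ℕ) < gnum H qs := by have := x.1.2; unfold gnum; omega
    have h2 : ∀ z : ZMod 2, b2z (decide (z = 1)) = z := by decide
    simp only [Sat, dif_pos (And.intro x.1.2 x.2.2), h2] at h1
    refine Eq.trans ?_ h1
    simp only [F, lsum, List.map_map]
    exact congrArg List.sum (List.map_congr_left fun j hj => dif_pos (cpl_line hg x.2.2 j hj))
  have h1 := Fintype.card_le_of_surjective F hF
  have h2 : 0 < Fintype.card C := Fintype.card_pos_iff.2 ⟨⟨_, cpl_zero_mem hlam⟩⟩
  simp only [Fintype.card_fun, Fintype.card_prod, Fintype.card_fin, ZMod.card] at h1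
  have := (Nat.pow_le_pow_iff_right one_lt_two).1 h1
  omega

theorem cpl_res_lt (hq : ∀ q ∈ qs, 0 < q) (i : ℕ) (a : ℤ) :
    (a % (qq qs i : ℤ)).toNat < qq qs i := by
  have h : (0 : ℤ) < qq qs i := by exact_mod_cast qq_pos hq i
  have h1 := Int.emod_lt_of_pos a h
  have h2 := Int.emod_nonneg a h.ne'
  omega

theorem cpl_gate_mem (hq : ∀ q ∈ qs, 0 < q) (b : ℕ → Cp → Bool) {γ : ℕ} (hγ : γ < H.length)
    {l : Cp} (hl : l ∈ copies lam (sigma H qs lam)) {i : ℕ} (hi : i < qs.length) (a : ℤ) :
    (gateL H qs lam (sigma H qs lam) γ l i a, false) ∈ longSys H qs lam b := by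
  have h : (0 : ℤ) < qq qs i := by exact_mod_cast qq_pos hq i
  refine mem_longSysS.2 (.inl ⟨γ, hγ, l, hl, i, hi, _, cpl_res_lt hq i a, ?_⟩)
  rw [gateL_congr (a' := ((a % (qq qs i : ℤ)).toNat : ℕ))]
  rw [Int.toNat_of_nonneg (Int.emod_nonneg a h.ne'), Int.emod_emod_of_dvd _ dvd_rfl]

/-- Fix a strategy `𝒮`.  Say that a list `ℓ` of variables of the chain system is forced if
`lsum δ ℓ = 0` whenever `𝒮 T δ` and `ℓ ⊆ T`.  Basic rule: to prove that `ℓ` is forced go `down` to
`ℓ`, `ext` to a set `T' ⊇ ℓ` of at most `3 r` occurring variables and use `sat` and other forced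
lists inside `T'`.
(a) PARALLEL RULE: let `ℓ_i` (`i < ρ`, `ρ ≤ r`) be lists of long equations of `E` with right-hand
side `false`, all of length `t + 1`, such that for each `p < t` the column `[[ℓ_i[p]] | i]` is
forced.  Induction on `p ≤ t`: the column `[ℓ_i.take p | i]` is forced (`[]` is forced by the step
equation at `0`; the step uses `3 ρ` variables).  The top equations force each `ℓ_i`, so the last
column `[[ℓ_i[t]] | i]` is forced.
(b) SINGLE RULE: for a long equation `ℓ` (right-hand side `false`) the list `ℓ.take p ::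
[[x] | x ∈ ℓ.take p]` is forced (width `p + 3`), so `[[x] | x ∈ ℓ]` is forced (width
`length + 3 ≤ r + 4 ≤ 3 r`).
Induction on `Der`: for all `l ∈ copies`, `(factL qs W l a).map fun x => [x]` is forced ((b) for
`w0`; (a) with `ℓ_i = gateL .. i a`, `gateL_congr`, `line_subset`).  For `wf` at `0`, (b) gives
`[u j]` forced; (a) with `ρ = 1` and the amplifier equations force every `[inl v]`; induction along
each chain forces every prefix.  Every variable occurring in `chain` is a prefix or a singleton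
`[x]` with `x` a valid variable (wire in `wires H`, copy in `copies`, row `< r`, residue `< qq`). -/
theorem core_complete (hd : Der H wf 0) (hq : ∀ q ∈ qs, 0 < q) (hr : 2 ≤ qs.length)
    (hlam : 0 < lam) (b : ℕ → Cp → Bool) :
    Forced0 (chain (longSys H qs lam b)) (3 * qs.length) := by
  intro 𝒮 h𝒮
  have hw : 3 ≤ 3 * qs.length := by omega
  have h0 := longSys_ne_nil (H := H) hlam (by omega : 0 < qs.length) b
  have hfact : ∀ W a, Der H W a → ∀ l ∈ copies lam (sigma H qs lam),
      Fo 𝒮 ((factL qs W l a).map fun x => [x]) := by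
    intro W a hd
    induction hd with
    | ax =>
      intro l hl
      have he : (factL qs w0 l 0, false) ∈ longSys H qs lam b :=
        mem_longSysS.2 (.inr (.inl ⟨l, hl, rfl⟩))
      exact Fo.single h𝒮 he (h0 _ he) (by simp [factL]; omega)
    | rule ρ hρ a _ _ ih1 ih2 =>
      intro l hl
      obtain ⟨γ, hγ, rfl⟩ := exists_ruleAt hρ
      have h := Fo.parallel h𝒮 hw (I := List.range qs.length) (by simp)
        (ℓ := fun i => gateL H qs lam (sigma H qs lam) γ l i a)
        (fun i hi => cpl_gate_mem hq b hγ hl (List.mem_range.1 hi) a) (t := lam + lam)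
        (fun i _ => by simp [gateL, length_line, add_assoc]) fun p hp => by
          rcases lt_or_ge p lam with hp' | hp'
          · have hp1 : p < (line lam (sigma H qs lam) (2 * γ) l).length := by rwa [length_line]
            have := ih1 _ (cpl_line (by unfold gnum; omega) hl _ (List.getElem_mem hp1))
            rw [factL, List.map_map] at this
            convert this using 2
            funext i
            refine cpl_col ?_
            rw [gateL, List.append_assoc, List.getElem?_append_left (by simpa using hp1),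
              List.getElem?_map, List.getElem?_eq_getElem hp1]
            rfl
          · have hp1 : p - lam < (line lam (sigma H qs lam) (2 * γ + 1) l).length := by
              rw [length_line]; omega
            have := ih2 _ (cpl_line (by unfold gnum; omega) hl _ (List.getElem_mem hp1))
            rw [factL, List.map_map] at this
            convert this using 2
            funext i
            refine cpl_col ?_
            rw [gateL, List.append_assoc,
              List.getElem?_append_right (by simpa [length_line] using hp'), List.length_map,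
              length_line, List.getElem?_append_left (by simpa using hp1),
              List.getElem?_map, List.getElem?_eq_getElem hp1]
            rfl
      rw [factL, List.map_map]
      convert h using 2
      funext i
      refine (cpl_col ?_).symm
      rw [gateL, List.getElem?_append_right (by simp [length_line])]
      simp [length_line]
  have hu : ∀ j ∈ copies lam (sigma H qs lam), Fo 𝒮 [[Sum.inr j]] := by
    intro j hj
    have he : (factL qs wf j 0 ++ [Sum.inr j], false) ∈ longSys H qs lam b :=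
      mem_longSysS.2 (.inr (.inr (.inl ⟨j, hj, rfl⟩)))
    have h1 := Fo.single h𝒮 he (h0 _ he) (by simp [factL]; omega)
    rw [List.map_append] at h1
    refine Fo.cancel h𝒮 h1 (hfact _ _ hd j hj) (fun x hx => ?_) (by simp [factL]; omega)
    have hx' : x ∈ (factL qs wf j 0 ++ [Sum.inr j]).map fun x => [x] := by
      rwa [List.map_append]
    obtain ⟨y, hy, rfl⟩ := List.mem_map.1 hx'
    exact cpl_occ_single he hy
  have hv : ∀ W ∈ wires H, ∀ l ∈ copies lam (sigma H qs lam), ∀ i < qs.length, ∀ α < qq qs i,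
      Fo 𝒮 [[Sum.inl (W, l, i, α)]] := by
    intro W hW l hl i hi α hα
    have h := Fo.parallel h𝒮 hw (I := [()]) hw
      (ℓ := fun _ => amL H qs lam (sigma H qs lam) W l i α)
      (fun _ _ => mem_longSysS.2 (.inr (.inr (.inr (.inl ⟨W, hW, l, hl, i, hi, α, hα, rfl⟩)))))
      (t := lam) (fun _ _ => by simp [amL, length_line]) fun p hp => by
        have hp1 : p < (line lam (sigma H qs lam) (amIdx H qs W i α) l).length := by
          rwa [length_line]
        have := hu _ (cpl_line (amIdx_lt hW hi hα) hl _ (List.getElem_mem hp1))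
        rw [List.map_singleton, cpl_col (x := Sum.inr (line lam (sigma H qs lam) _ l)[p])]
        · exact this
        · rw [amL, List.getElem?_append_left (by simpa using hp1), List.getElem?_map,
            List.getElem?_eq_getElem hp1]
          rfl
    rwa [List.map_singleton, cpl_col (x := Sum.inl (W, l, i, α))] at h
    rw [amL, List.getElem?_append_right (by simp [length_line])]
    simp [length_line]
  have hrow : ∀ W ∈ wires H, ∀ l ∈ copies lam (sigma H qs lam), ∀ i < qs.length, ∀ a,
      Fo 𝒮 [[rowv qs W l i a]] := fun W hW l hl i hi a => hv W hW l hl i hi _ (cpl_res_lt hq i a)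
  have hall : ∀ e ∈ longSys H qs lam b, ∀ x ∈ e.1, Fo 𝒮 [[x]] := by
    intro e he x hx
    rcases mem_longSysS.1 he with ⟨γ, hγ, l, hl, i, hi, α, -, rfl⟩ | ⟨j, hj, rfl⟩ | ⟨j, hj, rfl⟩ |
      ⟨W, hW, l, hl, i, hi, α, hα, rfl⟩ | ⟨g, hg, l, hl, rfl⟩
    · obtain ⟨h1, h2, h3⟩ := mem_wires_of_rule (ruleAt_mem hγ)
      simp only [gateL, List.mem_append, List.mem_map, List.mem_singleton] at hx
      rcases hx with (⟨j, hj, rfl⟩ | ⟨j, hj, rfl⟩) | rfl
      · exact hrow _ h2 j (cpl_line (by unfold gnum; omega) hl j hj) i hi _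
      · exact hrow _ h3 j (cpl_line (by unfold gnum; omega) hl j hj) i hi _
      · exact hrow _ h1 l hl i hi _
    · simp only [factL, List.mem_map, List.mem_range] at hx
      obtain ⟨i, hi, rfl⟩ := hx
      exact hrow _ (by simp [wires]) j hj i hi _
    · simp only [factL, List.mem_append, List.mem_map, List.mem_range, List.mem_singleton] at hx
      rcases hx with ⟨i, hi, rfl⟩ | rfl
      · exact hrow _ (by simp [wires]) j hj i hi _
      · exact hu j hj
    · simp only [amL, List.mem_append, List.mem_map, List.mem_singleton] at hx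
      rcases hx with ⟨j, hj, rfl⟩ | rfl
      · exact hu j (cpl_line (amIdx_lt hW hi hα) hl j hj)
      · exact hv W hW l hl i hi α hα
    · obtain ⟨j, hj, rfl⟩ := List.mem_map.1 hx
      exact hu j (cpl_line (by unfold gnum; omega) hl j hj)
  intro T δ hδ y hy ho
  simpa using cpl_finish h𝒮 hw h0 hall ho T δ hδ (by simpa using hy)

end Crest.Agent.R290
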