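import Crest.Agent.R290.Game
import Crest.Agent.Lib.PT.All

/-!
# rid 290, task Cone: cones over graphs, and decoding of the languages
-/

set_option autoImplicit false

namespace Crest.Agent.R290

open Crest.WLRefine Crest.Enc

theorem coneN_eq_true {N : ℕ} {g : ℕ → ℕ → Bool} {i j : ℕ} :
    coneN N g i j = true ↔
      i ≠ j ∧ (i = 0 ∨ j = 0 ∨ (i ≤ N ∧ j ≤ N ∧ g (i - 1) (j - 1) = true)) := by
  simp [coneN, or_assoc, and_assoc]

theorem coneN_symm {N : ℕ} {g : ℕ → ℕ → Bool} (hg : IsSimple (toMat N g)) (i j : ℕ) :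
    coneN N g i j = coneN N g j i := by
  have key : ∀ i j, coneN N g i j = true → coneN N g j i = true := by
    intro i j h
    rw [coneN_eq_true] at h ⊢
    obtain ⟨hne, h⟩ := h
    refine ⟨hne.symm, ?_⟩
    by_cases hi : i = 0
    · exact Or.inr (Or.inl hi)
    by_cases hj : j = 0
    · exact Or.inl hj
    rcases h with h | h | ⟨h1, h2, h3⟩
    · exact absurd h hi
    · exact absurd h hj
    · refine Or.inr (Or.inr ⟨h2, h1, ?_⟩)
      have := hg.1 ⟨i - 1, by omega⟩ ⟨j - 1, by omega⟩
      simp only [toMat] at this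
      rw [← this]
      exact h3
  rw [Bool.eq_iff_iff]
  exact ⟨key i j, key j i⟩

theorem cone_simple {N n : ℕ} {g : ℕ → ℕ → Bool} (hg : IsSimple (toMat N g)) (hn : 0 < n) :
    SimpleConnDiamTwo (toMat n (coneN N g)) := by
  have h0 : ∀ v : Fin n, v ≠ ⟨0, hn⟩ → toMat n (coneN N g) v ⟨0, hn⟩ = true := by
    intro v hv
    simp only [toMat]
    rw [coneN_eq_true]
    exact ⟨fun h => hv (Fin.ext h), Or.inr (Or.inl rfl)⟩
  have h0' : ∀ v : Fin n, v ≠ ⟨0, hn⟩ → toMat n (coneN N g) ⟨0, hn⟩ v = true := by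
    intro v hv
    simp only [toMat]
    rw [coneN_eq_true]
    exact ⟨fun h => hv (Fin.ext h.symm), Or.inl rfl⟩
  refine ⟨⟨fun v w => coneN_symm hg _ _, fun v => by simp [toMat, coneN]⟩, ?_, ?_⟩
  · have hr : ∀ v : Fin n, (adjGraph (toMat n (coneN N g))).Reachable v ⟨0, hn⟩ := by
      intro v
      by_cases hv : v = ⟨0, hn⟩
      · rw [hv]
      · refine SimpleGraph.Adj.reachable ?_
        rw [adjGraph, SimpleGraph.fromRel_adj]
        exact ⟨hv, Or.inl (h0 v hv)⟩
    have : Nonempty (Fin n) := ⟨⟨0, hn⟩⟩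
    exact ⟨fun v w => (hr v).trans (hr w).symm⟩
  · intro v w hvw
    by_cases hv : v = ⟨0, hn⟩
    · subst hv
      exact Or.inl (h0' w hvw.symm)
    by_cases hw : w = ⟨0, hn⟩
    · subst hw
      exact Or.inl (h0 v hv)
    exact Or.inr ⟨⟨0, hn⟩, h0 v hv, h0' w hw⟩

/-- The vertices `1..N` of the cone. -/
def coneEmb {N n : ℕ} (hn : N < n) : Fin N ↪ Fin n :=
  ⟨fun x => ⟨x + 1, by omega⟩, fun x y h => by
    have := congrArg Fin.val h
    exact Fin.ext (by simpa using this)⟩

theorem coneEmb_val {N n : ℕ} (hn : N < n) (x : Fin N) : (coneEmb hn x : ℕ) = x + 1 := rfl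

theorem mem_range_coneEmb {N n : ℕ} (hn : N < n) (z : Fin n) :
    z ∈ Set.range (coneEmb hn) ↔ 1 ≤ (z : ℕ) ∧ (z : ℕ) ≤ N := by
  constructor
  · rintro ⟨x, rfl⟩
    rw [coneEmb_val]
    have := x.2
    omega
  · rintro ⟨h1, h2⟩
    refine ⟨⟨z - 1, by omega⟩, Fin.ext ?_⟩
    rw [coneEmb_val]
    simp only
    omega

theorem cone_emb_emb {N n : ℕ} {g : ℕ → ℕ → Bool} (hn : N < n) (x y : Fin N) :
    toMat n (coneN N g) (coneEmb hn x) (coneEmb hn y) = (decide (x ≠ y) && toMat N g x y) := by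
  rw [Bool.eq_iff_iff]
  simp only [toMat]
  rw [coneN_eq_true, coneEmb_val, coneEmb_val]
  have hx := x.2
  have hy := y.2
  simp only [Nat.add_sub_cancel, Bool.and_eq_true, decide_eq_true_eq, ne_eq, Fin.ext_iff]
  constructor
  · rintro ⟨h1, h | h | ⟨_, _, h⟩⟩
    · omega
    · omega
    · exact ⟨by omega, h⟩
  · rintro ⟨h1, h⟩
    exact ⟨by omega, Or.inr (Or.inr ⟨by omega, by omega, h⟩)⟩

/-- An edge at a vertex outside `1..N` does not depend on the graph. -/
theorem cone_out {N n : ℕ} (g : ℕ → ℕ → Bool) (hn : N < n) {a b : Fin n}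
    (h : a ∉ Set.range (coneEmb hn) ∨ b ∉ Set.range (coneEmb hn)) :
    toMat n (coneN N g) a b = (decide (a ≠ b) && (decide ((a : ℕ) = 0) || decide ((b : ℕ) = 0))) := by
  rw [Bool.eq_iff_iff]
  simp only [toMat]
  rw [coneN_eq_true]
  rw [mem_range_coneEmb, mem_range_coneEmb] at h
  simp only [Bool.and_eq_true, decide_eq_true_eq, ne_eq, Fin.ext_iff, Bool.or_eq_true]
  constructor
  · rintro ⟨h1, h' | h' | ⟨h2, h3, _⟩⟩
    · exact ⟨h1, Or.inl h'⟩
    · exact ⟨h1, Or.inr h'⟩
    · exact ⟨h1, by omega⟩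
  · rintro ⟨h1, h' | h'⟩
    · exact ⟨h1, Or.inl h'⟩
    · exact ⟨h1, Or.inr (Or.inl h')⟩

/-- The Duplicator plays the identity on the apex and the pendant vertices. -/
theorem cone_game {N n K : ℕ} {g h : ℕ → ℕ → Bool} (hn : N < n)
    (H : Game (toMat N g) (toMat N h) K) :
    Game (toMat n (coneN N g)) (toMat n (coneN N h)) K := by
  obtain ⟨Pos, hP⟩ := H
  have hinj : Function.Injective (Prod.map (coneEmb hn) (coneEmb hn)) :=
    (coneEmb hn).injective.prodMap (coneEmb hn).injective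
  refine ⟨fun S => (∀ p ∈ S, (∃ q, Prod.map (coneEmb hn) (coneEmb hn) q = p) ∨
      (p.1 ∉ Set.range (coneEmb hn) ∧ p.1 = p.2)) ∧
      Pos (Prod.map (coneEmb hn) (coneEmb hn) ⁻¹' S), ?_, ?_, ?_, ?_, ?_⟩
  · exact ⟨fun p hp => absurd hp (Set.notMem_empty p), by simpa using hP.empty⟩
  · rintro S S' ⟨h1, h2⟩ hs
    exact ⟨fun p hp => h1 p (hs hp), hP.down h2 (Set.preimage_mono hs)⟩
  · rintro S ⟨h1, h2⟩ p hp q hq
    rcases h1 p hp with ⟨p', rfl⟩ | ⟨hp1, hp2⟩ <;> rcases h1 q hq with ⟨q', rfl⟩ | ⟨hq1, hq2⟩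
    · have := hP.inj h2 p' hp q' hq
      simpa [(coneEmb hn).injective.eq_iff] using this
    · simp only [Prod.map_fst, Prod.map_snd]
      rw [← hq2]
      exact ⟨fun e => absurd ⟨_, e⟩ hq1, fun e => absurd ⟨_, e⟩ hq1⟩
    · simp only [Prod.map_fst, Prod.map_snd]
      rw [← hp2]
      exact ⟨fun e => absurd ⟨_, e.symm⟩ hp1, fun e => absurd ⟨_, e.symm⟩ hp1⟩
    · rw [← hp2, ← hq2]
  · rintro S ⟨h1, h2⟩ p hp q hq
    rcases h1 p hp with ⟨p', rfl⟩ | ⟨hp1, hp2⟩ <;> rcases h1 q hq with ⟨q', rfl⟩ | ⟨hq1, hq2⟩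
    · have ha := hP.adj h2 p' hp q' hq
      have hi := hP.inj h2 p' hp q' hq
      simp only [Prod.map_fst, Prod.map_snd]
      rw [cone_emb_emb, cone_emb_emb, ha]
      congr 1
      simp only [ne_eq, hi]
    · simp only [Prod.map_fst, Prod.map_snd]
      rw [← hq2, cone_out g hn (Or.inr hq1), cone_out h hn (Or.inr hq1)]
      have e1 : coneEmb hn p'.1 ≠ q.1 := fun e => hq1 ⟨_, e⟩
      have e2 : coneEmb hn p'.2 ≠ q.1 := fun e => hq1 ⟨_, e⟩
      simp [e1, e2, coneEmb_val]
    · simp only [Prod.map_fst, Prod.map_snd]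
      rw [← hp2, cone_out g hn (Or.inl hp1), cone_out h hn (Or.inl hp1)]
      have e1 : p.1 ≠ coneEmb hn q'.1 := fun e => hp1 ⟨_, e.symm⟩
      have e2 : p.1 ≠ coneEmb hn q'.2 := fun e => hp1 ⟨_, e.symm⟩
      simp [e1, e2, coneEmb_val]
    · rw [← hp2, ← hq2, cone_out g hn (Or.inl hp1), cone_out h hn (Or.inl hp1)]
  · rintro S ⟨h1, h2⟩ hc
    have hc' : (Prod.map (coneEmb hn) (coneEmb hn) ⁻¹' S).ncard < K := by
      refine lt_of_le_of_lt ?_ hc
      rw [← Set.ncard_image_of_injective _ hinj]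
      exact Set.ncard_le_ncard (Set.image_preimage_subset _ _) (Set.toFinite S)
    obtain ⟨f, hf⟩ := hP.ext h2 hc'
    refine ⟨Equiv.Perm.viaEmbedding f (coneEmb hn), fun z => ?_⟩
    by_cases hz : z ∈ Set.range (coneEmb hn)
    · obtain ⟨x, rfl⟩ := hz
      rw [Equiv.Perm.viaEmbedding_apply]
      refine ⟨?_, hP.down (hf x) ?_⟩
      · rintro p (rfl | hp)
        · exact Or.inl ⟨(x, f x), rfl⟩
        · exact h1 p hp
      · rintro q (hq | hq)
        · exact Or.inl (hinj hq)
        · exact Or.inr hq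
    · rw [Equiv.Perm.viaEmbedding_apply_of_notMem _ _ _ hz]
      refine ⟨?_, hP.down h2 ?_⟩
      · rintro p (rfl | hp)
        · exact Or.inr ⟨hz, rfl⟩
        · exact h1 p hp
      · rintro q (hq | hq)
        · exact absurd ⟨q.1, congrArg Prod.fst hq⟩ hz
        · exact hq

/-- With two pebbles, a winning pair has equal degrees. -/
theorem IsGame.deg_eq {n K : ℕ} {G H : Fin n → Fin n → Bool} {Pos : Set (Fin n × Fin n) → Prop}
    (hP : IsGame G H K Pos) (hK : 2 ≤ K) {a c : Fin n} (h : Pos {(a, c)}) :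
    (Finset.univ.filter fun w => G a w = true).card =
      (Finset.univ.filter fun w => H c w = true).card := by
  obtain ⟨f, hf⟩ := hP.ext h (by rw [Set.ncard_singleton]; omega)
  refine Finset.card_equiv f fun z => ?_
  have := hP.adj (hf z) (a, c) (Or.inr rfl) (z, f z) (Or.inl rfl)
  simp only at this
  simp [this]

/-- In the cone the vertices `1..N` are those of degree between `2` and `4`. -/
theorem cone_deg {N n : ℕ} {g : ℕ → ℕ → Bool} (hn : N < n) (h6 : 6 ≤ n)
    (sg : IsSimple (toMat N g)) (dg : MaxDegLeThree (toMat N g)) (ig : NoIsolated (toMat N g))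
    (z : Fin n) :
    z ∈ Set.range (coneEmb hn) ↔
      2 ≤ (Finset.univ.filter fun w => toMat n (coneN N g) z w = true).card ∧
        (Finset.univ.filter fun w => toMat n (coneN N g) z w = true).card ≤ 4 := by
  have hn0 : 0 < n := by omega
  constructor
  · rintro ⟨x, rfl⟩
    have hset : (Finset.univ.filter fun w => toMat n (coneN N g) (coneEmb hn x) w = true) =
        insert ⟨0, hn0⟩ ((Finset.univ.filter fun w => toMat N g x w = true).map (coneEmb hn)) := by
      ext w
      simp only [Finset.mem_filter, Finset.mem_univ, true_and, Finset.mem_insert, Finset.mem_map]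
      by_cases hw : w ∈ Set.range (coneEmb hn)
      · obtain ⟨y, rfl⟩ := hw
        rw [cone_emb_emb]
        have e0 : coneEmb hn y ≠ ⟨0, hn0⟩ := fun e => by
          have := congrArg Fin.val e
          rw [coneEmb_val] at this
          simp at this
        simp only [Bool.and_eq_true, decide_eq_true_eq, e0, false_or,
          (coneEmb hn).injective.eq_iff, exists_eq_right]
        constructor
        · exact fun h => h.2
        · intro h
          refine ⟨?_, h⟩
          rintro rfl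
          rw [sg.2] at h
          exact absurd h (by simp)
      · rw [cone_out g hn (Or.inr hw)]
        have e1 : coneEmb hn x ≠ w := fun e => hw ⟨_, e⟩
        have e2 : ¬ ∃ a, toMat N g x a = true ∧ coneEmb hn a = w := fun ⟨a, _, e⟩ => hw ⟨a, e⟩
        simp only [ne_eq, e1, not_false_eq_true, decide_true, coneEmb_val, e2, or_false]
        simp [Fin.ext_iff]
    have hnot : (⟨0, hn0⟩ : Fin n) ∉
        (Finset.univ.filter fun w => toMat N g x w = true).map (coneEmb hn) := by
      simp only [Finset.mem_map, not_exists, not_and]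
      intro a _ e
      have := congrArg Fin.val e
      rw [coneEmb_val] at this
      simp at this
    rw [hset, Finset.card_insert_of_notMem hnot, Finset.card_map]
    have h1 := dg x
    have h2 : 0 < (Finset.univ.filter fun w => toMat N g x w = true).card := by
      obtain ⟨w, hw⟩ := ig x
      exact Finset.card_pos.2 ⟨w, by simpa using hw⟩
    omega
  · rintro ⟨h1, h2⟩
    by_contra hz
    by_cases z0 : (z : ℕ) = 0
    · have hset : (Finset.univ.filter fun w => toMat n (coneN N g) z w = true) =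
          Finset.univ.erase z := by
        ext w
        rw [Finset.mem_filter, cone_out g hn (Or.inl hz)]
        simp only [Finset.mem_univ, z0, decide_true, Bool.true_or, Bool.and_true,
          decide_eq_true_eq, true_and, Finset.mem_erase, and_true]
        exact ne_comm
      rw [hset, Finset.card_erase_of_mem (Finset.mem_univ _), Finset.card_univ,
        Fintype.card_fin] at h2
      omega
    · have hsub : (Finset.univ.filter fun w => toMat n (coneN N g) z w = true) ⊆ {⟨0, hn0⟩} := by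
        intro w hw
        rw [Finset.mem_filter, cone_out g hn (Or.inl hz)] at hw
        simp only [Finset.mem_univ, z0, decide_false, Bool.false_or, Bool.and_eq_true,
          decide_eq_true_eq, true_and] at hw
        exact Finset.mem_singleton.2 (Fin.ext hw.2)
      have := Finset.card_le_card hsub
      rw [Finset.card_singleton] at this
      omega

/-- `Pos {(a, c)}` forces equal degrees (`K ≥ 2`: the bijection from `ext` maps neighbours onto
neighbours).  In the cones the apex has degree `n - 1 ≥ 5`, the vertices `1..N` have degree in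
`[2, 4]`, the pendant vertices degree `1`.  So every bijection given by `ext` maps `1..N` onto
`1..N`; new positions: `S` with `Pos (shift '' S)`. -/
theorem game_of_cone {N n K : ℕ} {g h : ℕ → ℕ → Bool} (hn : N < n) (h6 : 6 ≤ n) (hK : 2 ≤ K)
    (sg : IsSimple (toMat N g)) (sh : IsSimple (toMat N h))
    (dg : MaxDegLeThree (toMat N g)) (dh : MaxDegLeThree (toMat N h))
    (ig : NoIsolated (toMat N g)) (ih : NoIsolated (toMat N h))
    (H : Game (toMat n (coneN N g)) (toMat n (coneN N h)) K) :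
    Game (toMat N g) (toMat N h) K := by
  obtain ⟨Pos, hP⟩ := H
  have hinj : Function.Injective (Prod.map (coneEmb hn) (coneEmb hn)) :=
    (coneEmb hn).injective.prodMap (coneEmb hn).injective
  refine ⟨fun S => Pos (Prod.map (coneEmb hn) (coneEmb hn) '' S), ?_, ?_, ?_, ?_, ?_⟩
  · simpa using hP.empty
  · exact fun hS hs => hP.down hS (Set.image_mono hs)
  · intro S hS p hp q hq
    have := hP.inj hS _ (Set.mem_image_of_mem _ hp) _ (Set.mem_image_of_mem _ hq)
    simpa [(coneEmb hn).injective.eq_iff] using this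
  · intro S hS p hp q hq
    have ha := hP.adj hS _ (Set.mem_image_of_mem _ hp) _ (Set.mem_image_of_mem _ hq)
    have hi := hP.inj hS _ (Set.mem_image_of_mem _ hp) _ (Set.mem_image_of_mem _ hq)
    simp only [Prod.map_fst, Prod.map_snd, (coneEmb hn).injective.eq_iff] at ha hi
    rw [cone_emb_emb, cone_emb_emb] at ha
    by_cases e : p.1 = q.1
    · rw [e, hi.1 e, sg.2, sh.2]
    · have e' : p.2 ≠ q.2 := fun e' => e (hi.2 e')
      simpa [e, e'] using ha
  · intro S hS hc
    obtain ⟨f, hf⟩ := hP.ext hS (by rwa [Set.ncard_image_of_injective _ hinj])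
    have hr : ∀ x : Fin N, f (coneEmb hn x) ∈ Set.range (coneEmb hn) := by
      intro x
      have h1 : Pos {(coneEmb hn x, f (coneEmb hn x))} :=
        hP.down (hf (coneEmb hn x)) (Set.singleton_subset_iff.2 (Set.mem_insert _ _))
      rw [cone_deg hn h6 sh dh ih, ← hP.deg_eq hK h1, ← cone_deg hn h6 sg dg ig]
      exact ⟨x, rfl⟩
    choose f0 hf0 using hr
    have hf0i : Function.Injective f0 := by
      intro x y e
      have : f (coneEmb hn x) = f (coneEmb hn y) := by rw [← hf0, ← hf0, e]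
      exact (coneEmb hn).injective (f.injective this)
    refine ⟨Equiv.ofBijective f0 (Finite.injective_iff_bijective.1 hf0i), fun x => ?_⟩
    have := hf (coneEmb hn x)
    rw [← hf0] at this
    rw [Set.image_insert_eq]
    exact this

theorem length_adjMatrixCode {n : ℕ} (G : Fin n → Fin n → Bool) :
    (adjMatrixCode G).length = (natCode n).length + n * n := by
  simp [adjMatrixCode, List.length_flatMap]

theorem flatMap_inj_of_length {α β : Type} {a b : α → List β}
    (hl : ∀ x, (a x).length = (b x).length) :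
    ∀ {l : List α}, l.flatMap a = l.flatMap b → ∀ x ∈ l, a x = b x
  | [], _, x, hx => absurd hx List.not_mem_nil
  | y :: l, h, x, hx => by
    rw [List.flatMap_cons, List.flatMap_cons] at h
    obtain ⟨h1, h2⟩ := List.append_inj h (hl y)
    rcases List.mem_cons.1 hx with rfl | hx
    · exact h1
    · exact flatMap_inj_of_length hl h2 x hx

theorem natCode_append_inj {n n' : ℕ} {r r' : List Bool} (h : natCode n ++ r = natCode n' ++ r') :
    n = n' ∧ r = r' := by
  have := congrArg Crest.Agent.Lib.PT.parseNat h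
  simpa using this

/-- Codes are prefix-free (use `parseNat_natCode`). -/
theorem adjMatrixCode_append_inj {n n' : ℕ} {G : Fin n → Fin n → Bool}
    {G' : Fin n' → Fin n' → Bool} {r r' : List Bool}
    (h : adjMatrixCode G ++ r = adjMatrixCode G' ++ r') : n = n' ∧ HEq G G' ∧ r = r' := by
  unfold adjMatrixCode at h
  rw [List.append_assoc, List.append_assoc] at h
  obtain ⟨rfl, h⟩ := natCode_append_inj h
  obtain ⟨h1, h2⟩ := List.append_inj h (by simp [List.length_flatMap])
  refine ⟨rfl, heq_of_eq ?_, h2⟩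
  funext v w
  have := flatMap_inj_of_length (by simp) h1 v (List.mem_finRange v)
  exact List.map_inj_left.1 this w (List.mem_finRange w)

theorem adjMatrixCode_inj {n n' : ℕ} {G : Fin n → Fin n → Bool} {G' : Fin n' → Fin n' → Bool}
    (h : adjMatrixCode G = adjMatrixCode G') : n = n' ∧ HEq G G' := by
  have := adjMatrixCode_append_inj (G := G) (G' := G') (r := []) (r' := []) (by simpa using h)
  exact ⟨this.1, this.2.1⟩

variable {n m k : ℕ}

theorem mem_jointEquivLang (G : Fin n → Fin n → Bool) (H : Fin m → Fin m → Bool) :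
    adjMatrixCode G ++ adjMatrixCode H ∈ jointEquivLang k ↔
      IsSimple G ∧ IsSimple H ∧ JEquiv k G H := by
  constructor
  · rintro ⟨n', m', G', H', h1, h2, h3, h⟩
    obtain ⟨rfl, hG, h⟩ := adjMatrixCode_append_inj h
    obtain ⟨rfl, hH⟩ := adjMatrixCode_inj h
    obtain rfl := eq_of_heq hG
    obtain rfl := eq_of_heq hH
    exact ⟨h1, h2, h3⟩
  · rintro ⟨h1, h2, h3⟩
    exact ⟨n, m, G, H, h1, h2, h3, rfl⟩

theorem mem_sepEquivLang (G : Fin n → Fin n → Bool) (H : Fin m → Fin m → Bool) :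
    adjMatrixCode G ++ adjMatrixCode H ∈ sepEquivLang k ↔
      IsSimple G ∧ IsSimple H ∧ SEquiv k G H := by
  constructor
  · rintro ⟨n', m', G', H', h1, h2, h3, h⟩
    obtain ⟨rfl, hG, h⟩ := adjMatrixCode_append_inj h
    obtain ⟨rfl, hH⟩ := adjMatrixCode_inj h
    obtain rfl := eq_of_heq hG
    obtain rfl := eq_of_heq hH
    exact ⟨h1, h2, h3⟩
  · rintro ⟨h1, h2, h3⟩
    exact ⟨n, m, G, H, h1, h2, h3, rfl⟩

theorem mem_varDimEquivLang (G : Fin n → Fin n → Bool) (H : Fin m → Fin m → Bool) :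
    natCode k ++ adjMatrixCode G ++ adjMatrixCode H ∈ varDimEquivLang ↔
      2 ≤ k ∧ IsSimple G ∧ IsSimple H ∧ JEquiv k G H := by
  constructor
  · rintro ⟨k', n', m', G', H', h0, h1, h2, h3, h⟩
    rw [List.append_assoc, List.append_assoc] at h
    obtain ⟨rfl, ha⟩ := natCode_append_inj h
    obtain ⟨rfl, hG, hb⟩ := adjMatrixCode_append_inj ha
    obtain ⟨rfl, hH⟩ := adjMatrixCode_inj hb
    obtain rfl := eq_of_heq hG
    obtain rfl := eq_of_heq hH
    exact ⟨h0, h1, h2, h3⟩
  · rintro ⟨h0, h1, h2, h3⟩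
    exact ⟨k, n, m, G, H, h0, h1, h2, h3, rfl⟩

theorem mem_subcubicVarDimEquivLang (G H : Fin n → Fin n → Bool) :
    natCode k ++ adjMatrixCode G ++ adjMatrixCode H ∈ subcubicVarDimEquivLang ↔
      2 ≤ k ∧ 0 < n ∧ SimpleConnSubcubic G ∧ SimpleConnSubcubic H ∧ JEquiv k G H := by
  constructor
  · rintro ⟨k', n', G', H', h0, h0', h1, h2, h3, h⟩
    rw [List.append_assoc, List.append_assoc] at h
    obtain ⟨rfl, ha⟩ := natCode_append_inj h
    obtain ⟨rfl, hG, hb⟩ := adjMatrixCode_append_inj ha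
    obtain ⟨-, hH⟩ := adjMatrixCode_inj hb
    obtain rfl := eq_of_heq hG
    obtain rfl := eq_of_heq hH
    exact ⟨h0, h0', h1, h2, h3⟩
  · rintro ⟨h0, h0', h1, h2, h3⟩
    exact ⟨k, n, G, H, h0, h0', h1, h2, h3, rfl⟩

theorem mem_wlDimLeLang (G : Fin n → Fin n → Bool) :
    natCode k ++ adjMatrixCode G ∈ wlDimLeLang ↔
      1 ≤ k ∧ 0 < n ∧ IsSimple G ∧ ∃ k', 1 ≤ k' ∧ k' ≤ k ∧ Identifies k' G := by
  constructor
  · rintro ⟨k', n', G', h0, h1, h2, h3, h⟩
    obtain ⟨rfl, ha⟩ := natCode_append_inj h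
    obtain ⟨rfl, hG⟩ := adjMatrixCode_inj ha
    obtain rfl := eq_of_heq hG
    exact ⟨h0, h1, h2, h3⟩
  · rintro ⟨h0, h1, h2, h3⟩
    exact ⟨k, n, G, h0, h1, h2, h3, rfl⟩

end Crest.Agent.R290
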