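import Crest.Agent.R290.Mach
import Crest.Agent.Lib.CookLevin.Abs

/-!
# rid 290, task MachRun: numeric machines of library machines; universal simulation
-/

set_option autoImplicit false

namespace Crest.Agent.R290

open Crest.Agent.Lib.PT Turing

section md

open Crest.Agent.Lib.CookLevin Turing.TM2

/-- Copy the proof of `Crest.Agent.Lib.CookLevin.exists_mach` (file `Lib/CookLevin/Abs.lean`); the
machine data do not depend on the input.  `TM2ComputableAux` has the same fields `tm`,
`inputAlphabet`, `outputAlphabet`. -/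
theorem exists_md (tm : TM2ComputableAux Bool Bool) : ∃ M : MD, ∀ (x : List Bool) (b : Bool) (T : ℕ),
    Nonempty (TM2OutputsInTime tm.tm (x.map tm.inputAlphabet.invFun)
      (some ([b].map tm.outputAlphabet.invFun)) T) → M.Answers x b T := by
  classical
  obtain ⟨tm, iA, oA⟩ := tm
  let := tm.kFin
  let := tm.ΛFin
  let := tm.σFin
  let := tm.Γk₀Fin
  obtain ⟨d, hd⟩ : ∃ d, ∀ l, depth (tm.m l) ≤ d :=
    ⟨Finset.univ.sup fun l => depth (tm.m l), fun l =>
      Finset.le_sup (f := fun l => depth (tm.m l)) (Finset.mem_univ l)⟩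
  let G : Set (Σ k, tm.Γ k) := (⋃ l, pushed (tm.m l)) ∪
    ((Set.range fun a : tm.Γ tm.k₀ => (⟨tm.k₀, a⟩ : Σ k, tm.Γ k)) ∪
      Set.range fun b : Bool => (⟨tm.k₁, oA.symm b⟩ : Σ k, tm.Γ k))
  have hG : G.Finite := (Set.finite_iUnion fun l => pushed_finite _).union
    ((Set.finite_range _).union (Set.finite_range _))
  have hGp : ∀ l, pushed (tm.m l) ⊆ G := fun l a ha => Or.inl (Set.mem_iUnion.2 ⟨l, ha⟩)
  let L := hG.toFinset.toList
  have hL : ∀ a, a ∈ L ↔ a ∈ G := fun a => by simp [L]
  have hW := finite_windows (Λ := tm.Λ) (σ := tm.σ) hG d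
  let rule : Cfg tm.Γ tm.Λ tm.σ → MRule := fun c =>
    (sc c, SL L c, sc (nxt tm.m c), SL L (nxt tm.m c))
  let M : MD := ((⟨Fintype.card tm.K⟩, ⟨d⟩, ⟨L.length + 2⟩),
    ((Fintype.equivFin _ tm.k₀).val, (Fintype.equivFin _ tm.k₁).val, sc (initList tm [])),
    (code L _ (iA.symm false), code L _ (iA.symm true), code L _ (oA.symm false)),
    hW.toFinset.toList.map rule)
  have eκ : M.κ = Fintype.card tm.K := rfl
  have ed : M.d = d := rfl
  have eg : M.g = L.length + 2 := rfl
  have e₀ : M.k₀ = (Fintype.equivFin _ tm.k₀).val := rfl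
  have e₁ : M.k₁ = (Fintype.equivFin _ tm.k₁).val := rfl
  have eL : M.cL = fun c => code L _ (iA.symm c) := by
    funext c; cases c <;> rfl
  have eF : M.cF = code L _ (oA.symm false) := rfl
  have eR : M.R = hW.toFinset.toList.map rule := rfl
  refine ⟨M, fun x b T hT => ?_⟩
  let c₀ : Cfg tm.Γ tm.Λ tm.σ := initList tm (x.map iA.invFun)
  let c : ℕ → Cfg tm.Γ tm.Λ tm.σ := fun t => (nxt tm.m)^[t] c₀
  have hc : ∀ t, c (t + 1) = nxt tm.m (c t) := fun t => Function.iterate_succ_apply' _ _ _
  have hgood : ∀ t, Good G (c t).stk := by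
    intro t
    induction t with
    | zero =>
      intro k a ha
      by_cases hk : k = tm.k₀
      · subst hk; exact Or.inr (Or.inl ⟨a, rfl⟩)
      · simp [c, c₀, initList, hk] at ha
    | succ t ih => rw [hc]; exact nxt_good _ hGp _ ih
  have hwin : ∀ t, (∀ k, ((win d (c t)).stk k).length ≤ d) ∧ Good G (win d (c t)).stk :=
    fun t => ⟨fun k => by simp [win], fun k a ha => hgood t k a (List.mem_of_mem_take ha)⟩
  refine ⟨fun t => sc (c t), fun t k j => ((SL L (c t)).getD k []).getD j 0,
    Fin.is_lt _, Fin.is_lt _, ?_, ?_, ?_, ?_, ?_, ?_⟩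
  · rfl
  · intro i hi j
    rw [eκ] at hi
    obtain ⟨k, rfl⟩ := exists_equivFin hi
    simp only [SL_getD, e₀, eL]
    by_cases hk : k = tm.k₀
    · subst hk
      simp [c, c₀, initList, Function.comp_def]
    · have : (Fintype.equivFin tm.K k).val ≠ (Fintype.equivFin tm.K tm.k₀).val := fun e =>
        hk ((Fintype.equivFin tm.K).injective (Fin.ext e))
      simp [c, c₀, initList, hk, this]
  · intro t
    refine ⟨rule (win d (c t)), List.mem_map_of_mem (by simpa using hwin t), rfl, ?_⟩
    intro i hi j hj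
    rw [eκ] at hi
    rw [ed] at hj
    obtain ⟨k, rfl⟩ := exists_equivFin hi
    simp only [rule, SL_getD, win, List.map_take]
    simp [List.getD_eq_getElem?_getD, hj]
  · intro t r hr hm
    obtain ⟨u, hu, rfl⟩ := List.mem_map.1 hr
    have hu' : (∀ k, (u.stk k).length ≤ d) ∧ Good G u.stk := by simpa using hu
    have e : u = win d (c t) := by
      obtain ⟨h1, h2⟩ := sc_inj hm.1
      have h3 : ∀ k, u.stk k = (win d (c t)).stk k := fun k => by
        refine map_inj_of_injOn (code_injOn L k) (fun a ha => (hL _).2 (hu'.2 k a ha))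
          (fun a ha => (hL _).2 ((hwin t).2 k a ha)) ?_
        refine list_eq_of_getD (d := d) (by simpa using hu'.1 k) (by simpa using (hwin t).1 k)
          (by simp [Lib.CookLevin.code]) (by simp [Lib.CookLevin.code]) fun j hj => ?_
        have := hm.2 _ (Fintype.equivFin tm.K k).is_lt j hj
        simp only [rule, SL_getD] at this
        rw [← this]
        simp [win, List.getD_eq_getElem?_getD, hj]
      obtain ⟨l, v, S⟩ := u
      simp only at h1 h2 h3
      simp only [win, h1, h2]
      congr 1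
      funext k
      exact h3 k
    subst e
    have hf := nxt_frame tm.m hd (c t)
    refine ⟨?_, fun i hi j => ?_⟩
    · simp only [rule, hc]
      rw [hf]; rfl
    · rw [eκ] at hi
      obtain ⟨k, rfl⟩ := exists_equivFin hi
      simp only [rule, SL_getD, hc, ed]
      rw [← getD_append_drop, ← List.map_drop, ← List.map_append]
      conv_lhs => rw [hf]
      rfl
  · intro t i j
    rw [eg]
    by_cases hi : i < Fintype.card tm.K
    · obtain ⟨k, rfl⟩ := exists_equivFin hi
      simp only [SL_getD]
      rw [List.getD_eq_getElem?_getD, List.getElem?_map]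
      cases ((c t).stk k)[j]? with
      | none => simp
      | some a => simpa using code_lt L k a
    · have e : (SL L (c t)).getD i [] = [] :=
        List.getD_eq_default _ _ (by simp [SL]; omega)
      simp only [e]
      simp
  · intro t ht
    obtain ⟨⟨n, hn⟩, hle⟩ := hT.some
    have h1 : c n = haltList tm [oA.symm b] := iterate_getD tm.step n _ _ hn
    have h2 : ∀ m, c (n + m) = haltList tm [oA.symm b] := by
      intro m
      induction m with
      | zero => exact h1
      | succ m ih => rw [← Nat.add_assoc, hc, ih]; rfl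
    obtain ⟨m, rfl⟩ := Nat.exists_eq_add_of_le (hle.trans ht)
    simp only [SL_getD, e₁, eF]
    have h3 : (c (n + m)).stk tm.k₁ = [oA.symm b] := by
      rw [h2]; simp [haltList]
    rw [h3]
    simp only [List.map_cons, List.getD_cons_zero]
    constructor
    · intro e
      have := code_injOn L tm.k₁ ((hL _).2 (Or.inr (Or.inr ⟨_, rfl⟩)))
        ((hL _).2 (Or.inr (Or.inr ⟨_, rfl⟩))) e
      exact oA.symm.injective this
    · intro e; rw [e]

end md

theorem MD.Answers.mono {M : MD} {x : List Bool} {b : Bool} {T T' : ℕ} (h : M.Answers x b T)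
    (hT : T ≤ T') : M.Answers x b T' := by
  obtain ⟨st, cell, h⟩ := h
  exact ⟨st, cell, h.k0, h.k1, h.st0, h.cell0, h.ex, h.step, h.lt, fun t ht => h.fin t (hT.trans ht)⟩

/-- Copy the proof of `PT.timeBoundComputable_pad` (file `Lib/PT/Bridge.lean`) but finish with
`exists_tm` (which has a bound for every single input) and `exists_md`. -/
theorem exists_md_pad {τ : List Bool → ℕ} (hτ : PT τ) {g : List Bool × Un → Bool} (hg : PT g) :
    ∃ (M : MD) (c e : ℕ), ∀ x, M.Answers x (g (x, ⟨τ x⟩)) (c * (x.length + τ x + 1) ^ e) := by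
  obtain ⟨c₁, k₁, h₁⟩ := cmp_pad (α := List Bool)
  obtain ⟨T₀, ⟨c₀, k₀, b₀⟩, h₀⟩ : PT fun l : List Bool => (l.reverse, τ l.reverse) := by fun_prop
  obtain ⟨T₂, b₂, h₂⟩ : PT fun q => [g q] := hg.cons (PT.const [])
  have all := Cmp.trans (Cmp.reindex h₀ fun a : List Bool => a.reverse)
    (Cmp.trans (Cmp.congr (Cmp.reindex h₁ fun a : List Bool => (a, τ a)) (fun a => by simp)
      fun _ => rfl) (Cmp.reindex h₂ fun a : List Bool => (a, ⟨τ a⟩)))
  have hb : PB fun q : List Bool × Un => q.1.length + (c₀ * sz q.1 ^ k₀ +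
      (c₁ * (sz q.1 + q.2.n + 1) ^ k₁ + T₂ q)) + 9 * 1 + 4 := by fun_prop
  obtain ⟨c, k, hb⟩ := hb
  obtain ⟨tm, htm⟩ := exists_tm (fun a : List Bool => a) (fun a => [g (a, ⟨τ a⟩)]) all
  obtain ⟨M, hM⟩ := exists_md tm
  refine ⟨M, c * 7 ^ k, k, fun a => (hM a _ _ (htm a)).mono ?_⟩
  have g0 := hb (a, ⟨τ a⟩)
  have g1 := b₀ a.reverse
  have g4 : sz (a, Un.mk (τ a)) ≤ 7 * (a.length + τ a + 1) := by
    have := sz_boolList_le a
    simp only [sz_mk, sz_un]
    omega
  have g5 := Nat.mul_le_mul_left c (Nat.pow_le_pow_left g4 k)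
  rw [mul_pow, ← mul_assoc] at g5
  rw [sz_reverse] at g1
  simp only [List.length_singleton] at g0 ⊢
  omega

/-! ### Universal simulation -/

/-- The rule `r` matches the configuration `c`. -/
def simMatch (M : MD) (c : ℕ × List (List ℕ)) (r : MRule) : Bool :=
  (c.1 == r.1) && (List.range M.κ).all fun k => (List.range M.d).all fun j =>
    (c.2.getD k []).getD j 0 == (r.2.1.getD k []).getD j 0

/-- The first matching rule. -/
def simRule (M : MD) (c : ℕ × List (List ℕ)) : MRule :=
  (M.R.find? (simMatch M c)).getD (0, [], 0, [])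

/-- One step of the simulation. -/
def simStep (M : MD) (c : ℕ × List (List ℕ)) : ℕ × List (List ℕ) :=
  ((simRule M c).2.2.1,
    (List.range M.κ).map fun k => (simRule M c).2.2.2.getD k [] ++ (c.2.getD k []).drop M.d)

/-- The initial configuration. -/
def simInit (M : MD) (x : List Bool) : ℕ × List (List ℕ) :=
  (M.s₀, (List.range M.κ).map fun k => if k = M.k₀ then x.map M.cL else [])

section pt

variable {α : Type} [Enc α] {M : α → MD}

theorem pt_κ (hM : PT M) : PT fun a => (M a).κ := by unfold MD.κ; fun_prop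
theorem pb_κ (hM : PT M) : PB fun a => (M a).κ := by unfold MD.κ; fun_prop
theorem pt_d (hM : PT M) : PT fun a => (M a).d := by unfold MD.d; fun_prop
theorem pb_d (hM : PT M) : PB fun a => (M a).d := by unfold MD.d; fun_prop

theorem simMatch_pt : PT fun p : (MD × ℕ × List (List ℕ)) × MRule => simMatch p.1.1 p.1.2 p.2 := by
  unfold simMatch MD.κ MD.d
  fun_prop

theorem simRule_pt : PT fun p : MD × ℕ × List (List ℕ) => simRule p.1 p.2 := by
  unfold simRule
  refine PT.option_getD (PT.find? (f := fun (p : MD × ℕ × List (List ℕ)) r => simMatch p.1 p.2 r)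
    ?_ simMatch_pt) (PT.const _)
  unfold MD.R
  fun_prop

theorem simStep_pt : PT fun p : MD × ℕ × List (List ℕ) => simStep p.1 p.2 := by
  have h : PT fun q : (MD × ℕ × List (List ℕ)) × MRule => (q.2.2.2.1,
      (List.range q.1.1.κ).map fun k => q.2.2.2.2.getD k [] ++ (q.1.2.2.getD k []).drop q.1.1.d) := by
    unfold MD.κ MD.d
    fun_prop
  have h2 : PT fun p : MD × ℕ × List (List ℕ) => (p, simRule p.1 p.2) := PT.id.pair simRule_pt
  have h3 := h.comp h2
  exact h3

theorem simInit_pt : PT fun p : MD × List Bool => simInit p.1 p.2 := by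
  unfold simInit MD.κ MD.k₀ MD.s₀ MD.cL
  fun_prop

end pt

theorem sz_getD_le {β : Type} [Enc β] (l : List (List β)) (k : ℕ) : sz (l.getD k []) ≤ sz l := by
  rw [List.getD_eq_getElem?_getD]
  cases h : l[k]? with
  | none => simpa using one_le_sz l
  | some a => simpa using sz_le_of_mem (List.mem_of_getElem? h)

theorem sz_simRule_le (M : MD) (c : ℕ × List (List ℕ)) : sz (simRule M c) ≤ sz M + 7 := by
  unfold simRule
  cases h : M.R.find? (simMatch M c) with
  | none => simp [sz_nat]
  | some r =>
    have h1 := sz_le_of_mem (List.mem_of_find?_eq_some h)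
    have h2 : sz M.R ≤ sz M := by
      obtain ⟨a, b, c, d⟩ := M
      simp only [MD.R, sz_mk]; omega
    simp only [Option.getD_some]
    omega

theorem simIter_pt : PT fun p : MD × List Bool × Un => (simStep p.1)^[p.2.2.n] (simInit p.1 p.2.1) := by
  have hi : PT fun p : MD × List Bool × Un => simInit p.1 p.2.1 :=
    simInit_pt.comp (f := fun p : MD × List Bool × Un => (p.1, p.2.1)) (by fun_prop)
  have hκ : PB fun p : MD × List Bool × Un => p.1.κ := pb_κ (by fun_prop)
  refine PT.iterate_inv (fun p i c => sz c.1 ≤ sz (simInit p.1 p.2.1) + (sz p.1 + 7) ∧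
      c.2.length ≤ p.1.κ ∧ ∀ k, sz (c.2.getD k []) ≤ sz (simInit p.1 p.2.1) + i * (sz p.1 + 7))
    (by fun_prop) (by fun_prop) hi (fun p => ⟨?_, ?_, fun k => ?_⟩) (fun p i c _ h => ⟨?_, ?_, fun k => ?_⟩)
    ((simStep_pt.comp (f := fun q : (MD × List Bool × Un) × ℕ × List (List ℕ) => (q.1.1, q.2))
      (by fun_prop)).restrict _)
    (B := fun p => sz (simInit p.1 p.2.1) + (sz p.1 + 7) +
      (p.1.κ * (sz (simInit p.1 p.2.1) + p.2.2.n * (sz p.1 + 7) + 1) + 1) + 1)
    (by have := PB.sz hi; fun_prop) fun p i c hi h => ?_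
  · rw [sz_prod (simInit p.1 p.2.1)]; omega
  · simp [simInit]
  · have := sz_getD_le (simInit p.1 p.2.1).2 k
    rw [sz_prod (simInit p.1 p.2.1)]; omega
  · have := sz_simRule_le p.1 c
    rw [sz_prod (simRule p.1 c), sz_prod (simRule p.1 c).2, sz_prod (simRule p.1 c).2.2] at this
    simp only [simStep]
    omega
  · simp [simStep]
  · have h1 := sz_simRule_le p.1 c
    rw [sz_prod (simRule p.1 c), sz_prod (simRule p.1 c).2, sz_prod (simRule p.1 c).2.2] at h1
    by_cases hk : k < p.1.κ
    · have e : (simStep p.1 c).2.getD k [] =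
          (simRule p.1 c).2.2.2.getD k [] ++ (c.2.getD k []).drop p.1.d := by
        simp [simStep, List.getD_eq_getElem?_getD, hk]
      rw [e]
      have h2 := sz_append ((simRule p.1 c).2.2.2.getD k []) ((c.2.getD k []).drop p.1.d)
      have h3 := sz_getD_le (simRule p.1 c).2.2.2 k
      have h4 := sz_sublist (List.drop_sublist p.1.d (c.2.getD k []))
      have h5 := h.2.2 k
      rw [Nat.succ_mul]
      omega
    · have e : (simStep p.1 c).2.getD k [] = [] :=
        List.getD_eq_default _ _ (by simp [simStep]; omega)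
      rw [e, sz_nil]
      have := one_le_sz (simInit p.1 p.2.1)
      omega
  · have h1 : ∀ l ∈ c.2, sz l ≤ sz (simInit p.1 p.2.1) + p.2.2.n * (sz p.1 + 7) := by
      intro l hl
      obtain ⟨k, hk, rfl⟩ := List.getElem_of_mem hl
      have h2 := h.2.2 k
      rw [List.getD_eq_getElem _ _ hk] at h2
      have := Nat.mul_le_mul_right (sz p.1 + 7) hi
      omega
    have h2 := sz_list_le h1
    have h3 := Nat.mul_le_mul_right (sz (simInit p.1 p.2.1) + p.2.2.n * (sz p.1 + 7) + 1) h.2.1
    have h4 := h.1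
    rw [sz_prod c]
    omega

theorem simIter_spec {M : MD} {x : List Bool} {b : Bool} {T : ℕ} {st : ℕ → ℕ}
    {cell : ℕ → ℕ → ℕ → ℕ} (h : M.Run x b T st cell) (t : ℕ) :
    ((simStep M)^[t] (simInit M x)).1 = st t ∧ ∀ k < M.κ, ∀ j,
      ((((simStep M)^[t] (simInit M x)).2.getD k []).getD j 0 = cell t k j) := by
  induction t with
  | zero =>
    refine ⟨h.st0.symm, fun k hk j => ?_⟩
    rw [h.cell0 k hk]
    have e : (simInit M x).2.getD k [] = if k = M.k₀ then x.map M.cL else [] := by
      simp [simInit, List.getD_eq_getElem?_getD, hk]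
    simp only [Function.iterate_zero, id_eq, e]
    split_ifs <;> simp
  | succ t ih =>
    rw [Function.iterate_succ_apply']
    generalize (simStep M)^[t] (simInit M x) = c at ih
    have hm : ∀ r, simMatch M c r = true ↔ M.Match st cell r t := by
      intro r
      simp only [simMatch, MD.Match, Bool.and_eq_true, beq_iff_eq, List.all_eq_true,
        List.mem_range, ih.1]
      refine and_congr_right fun _ => forall₂_congr fun k hk => forall₂_congr fun j _ => ?_
      rw [ih.2 k hk]
    have hr : simRule M c ∈ M.R ∧ M.Match st cell (simRule M c) t := by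
      unfold simRule
      cases e : M.R.find? (simMatch M c) with
      | none =>
        obtain ⟨r, hr, hr'⟩ := h.ex t
        exact absurd ((hm r).2 hr') (List.find?_eq_none.1 e r hr)
      | some r => exact ⟨List.mem_of_find?_eq_some e, (hm r).1 (List.find?_some e)⟩
    obtain ⟨h1, h2⟩ := h.step t _ hr.1 hr.2
    refine ⟨h1.symm, fun k hk j => ?_⟩
    have e : (simStep M c).2.getD k [] =
        (simRule M c).2.2.2.getD k [] ++ (c.2.getD k []).drop M.d := by
      simp [simStep, List.getD_eq_getElem?_getD, hk]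
    rw [e, Crest.Agent.Lib.CookLevin.getD_append_drop, h2 k hk, ih.2 k hk]

/-- Configurations are pairs (state, list of `κ` stacks), `cell t k j = (stacks.getD k []).getD j 0`.
One step: `find?` a matching rule, new stack `k` is `F_k ++ drop d (stack k)`
(`CookLevin.getD_append_drop`); the size grows by at most a polynomial in `sz M` per step
(`PT.iterate_grow` or `iterate_inv`).  Answer: `cell k₁ 0 ≠ cF`. -/
theorem exists_simMD : ∃ sim : MD × List Bool × Un → Bool, PT sim ∧
    ∀ (M : MD) (x : List Bool) (b : Bool) (T t : ℕ), M.Answers x b T → T ≤ t →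
      sim (M, x, ⟨t⟩) = b := by
  refine ⟨fun p => ((((simStep p.1)^[p.2.2.n] (simInit p.1 p.2.1)).2.getD p.1.k₁ []).getD 0 0
    != p.1.cF), ?_, ?_⟩
  · have h : PT fun q : MD × ℕ × List (List ℕ) => ((q.2.2.getD q.1.k₁ []).getD 0 0 != q.1.cF) := by
      unfold MD.k₁ MD.cF
      fun_prop
    have h2 : PT fun p : MD × List Bool × Un =>
        (p.1, (simStep p.1)^[p.2.2.n] (simInit p.1 p.2.1)) := PT.id.fst.pair simIter_pt
    have h3 := h.comp h2
    exact h3
  · rintro M x b T t ⟨st, cell, h⟩ ht
    have h1 := (simIter_spec h t).2 _ h.k1 0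
    have h2 := h.fin t ht
    simp only [h1]
    cases b
    · simpa using h2
    · simpa using h2

end Crest.Agent.R290
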