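import Crest.Agent.R290.Mach

/-!
# rid 290, task PTsys: the reduction is computable in polynomial time

Go bottom up (`hornB`, `primesFrom`, `copies`, `line`, `gateL`, `longSys`, `chain`, `verts`, `link`,
`arc`, `gN`), one `@[fun_prop]` lemma per definition; see the user guide in `Lib/PT/All.lean`.
Counters that are loop variables (`List.range (qq qs i)`, `2 ^ min ..`) are bounded through
`PB.mono` (`qq qs i ≤ qs.sum + 1`), `PB.min_right`; the entries of
`primesFrom q r` are `< (q + r + 8) ^ 2`, so its sum is polynomially bounded.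
-/

set_option autoImplicit false

namespace Crest.Agent.R290

open Crest.Agent.Lib.PT

variable {α : Type} [Enc α]

theorem matCode_pt {n : α → ℕ} {g : α → ℕ → ℕ → Bool} (hn : PT n) (bn : PB n)
    (hg : PT fun p : α × ℕ × ℕ => g p.1 p.2.1 p.2.2) : PT fun a => matCode (n a) (g a) := by
  unfold matCode
  refine PT.append (by fun_prop) (PT.flatMap (hn.range bn) (PT.map (by fun_prop) ?_))
  exact hg.comp_eq (fun p : (α × ℕ) × ℕ => (p.1.1, p.1.2, p.2)) (by fun_prop)

theorem coneN_pt {N i j : α → ℕ} {g : α → ℕ → ℕ → Bool} (hN : PT N) (hi : PT i) (hj : PT j)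
    (hg : PT fun p : α × ℕ × ℕ => g p.1 p.2.1 p.2.2) : PT fun a => coneN (N a) (g a) (i a) (j a) := by
  have h : PT fun a => g a (i a - 1) (j a - 1) :=
    hg.comp_eq (fun a => (a, i a - 1, j a - 1)) (by fun_prop)
  unfold coneN
  exact PT.band (by fun_prop) (PT.bor (by fun_prop) (PT.band (by fun_prop) h))

/-! ### Machines -/

section mach

variable {M : α → MD}

@[fun_prop] theorem kappa_pt (hM : PT M) : PT fun a => (M a).κ := by unfold MD.κ; fun_prop
@[fun_prop] theorem kappa_pb (hM : PT M) : PB fun a => (M a).κ := by unfold MD.κ; fun_prop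
@[fun_prop] theorem d_pt (hM : PT M) : PT fun a => (M a).d := by unfold MD.d; fun_prop
@[fun_prop] theorem d_pb (hM : PT M) : PB fun a => (M a).d := by unfold MD.d; fun_prop
@[fun_prop] theorem g_pt (hM : PT M) : PT fun a => (M a).g := by unfold MD.g; fun_prop
@[fun_prop] theorem g_pb (hM : PT M) : PB fun a => (M a).g := by unfold MD.g; fun_prop
@[fun_prop] theorem k0_pt (hM : PT M) : PT fun a => (M a).k₀ := by unfold MD.k₀; fun_prop
@[fun_prop] theorem k1_pt (hM : PT M) : PT fun a => (M a).k₁ := by unfold MD.k₁; fun_prop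
@[fun_prop] theorem s0_pt (hM : PT M) : PT fun a => (M a).s₀ := by unfold MD.s₀; fun_prop
@[fun_prop] theorem cF_pt (hM : PT M) : PT fun a => (M a).cF := by unfold MD.cF; fun_prop
@[fun_prop] theorem R_pt (hM : PT M) : PT fun a => (M a).R := by unfold MD.R; fun_prop
@[fun_prop] theorem cL_pt {c : α → Bool} (hM : PT M) (hc : PT c) :
    PT fun a => (M a).cL (c a) := by unfold MD.cL; fun_prop

@[fun_prop] theorem r1_pt {o W : α → Wire} {δ : α → ℤ} (ho : PT o) (hW : PT W) (hδ : PT δ) :
    PT fun a => r1 (o a) (W a) (δ a) := by unfold r1; fun_prop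

@[fun_prop] theorem bnd_pt {x : α → List Bool} (hM : PT M) (hx : PT x) :
    PT fun a => bnd (M a) (x a) := by unfold bnd; fun_prop

@[fun_prop] theorem bnd_pb {x : α → List Bool} (hM : PT M) (hx : PT x) :
    PB fun a => bnd (M a) (x a) := by unfold bnd; fun_prop

theorem pb_min_right {f g : α → ℕ} (hg : PB g) : PB fun a => min (f a) (g a) := PB.min_right f hg

attribute [local fun_prop] pb_min_right
attribute [local irreducible] r1 MD.κ MD.d MD.g MD.k₀ MD.k₁ MD.s₀ MD.cF MD.R MD.cL w0 wf

theorem hornB_pt {x : α → List Bool} {L B : α → ℕ} {pol : α → Bool} (hM : PT M) (hx : PT x)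
    (hL : PT L) (bL : PB L) (hB : PT B) (bB : PB B) (hpol : PT pol) :
    PT fun a => hornB (M a) (x a) (L a) (B a) (pol a) := by
  unfold hornB
  refine PT.append (PT.append (PT.append (PT.append (PT.append ?_ ?_) ?_) ?_) ?_) ?_
  · fun_prop
  · fun_prop
  · fun_prop
  · fun_prop
  · refine PT.flatMap (by fun_prop) (PT.append (PT.append ?_ ?_) ?_)
    · fun_prop
    · fun_prop
    · refine PT.flatMap (by fun_prop) (PT.append ?_ ?_)
      · fun_prop
      · fun_prop
  · fun_prop

theorem horn_pt {x : α → List Bool} {L : α → ℕ} {pol : α → Bool} (hM : PT M) (hx : PT x)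
    (hL : PT L) (bL : PB L) (hpol : PT pol) :
    PT fun a => horn (M a) (x a) (L a) (pol a) :=
  hornB_pt hM hx hL bL (bnd_pt hM hx) (bnd_pb hM hx) hpol

end mach

/-! ### The long system -/

section long

variable {H : α → List HRule} {qs : α → List ℕ} {lam σ : α → ℕ}

@[fun_prop] theorem wires_pt (hH : PT H) : PT fun a => wires (H a) := by
  unfold wires; fun_prop

@[fun_prop] theorem copies_pt (hl : PT lam) (bl : PB lam) (hσ : PT σ) (bσ : PB σ) :
    PT fun a => copies (lam a) (σ a) := by
  unfold copies; fun_prop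

@[fun_prop] theorem line_pt {g : α → ℕ} {l : α → Cp} (hl : PT lam) (bl : PB lam) (hσ : PT σ)
    (hg : PT g) (hc : PT l) : PT fun a => line (lam a) (σ a) (g a) (l a) := by
  unfold line; fun_prop

@[fun_prop] theorem qq_pt {i : α → ℕ} (hq : PT qs) (hi : PT i) :
    PT fun a => qq (qs a) (i a) := by
  unfold qq; fun_prop

theorem qq_le (qs : List ℕ) (i : ℕ) : qq qs i ≤ qs.sum + 1 := by
  unfold qq
  rw [List.getD_eq_getElem?_getD]
  rcases h : qs[i]? with _ | m
  · simp
  · have := List.single_le_sum (l := qs) (fun _ _ => Nat.zero_le _) m (List.mem_of_getElem? h)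
    simp only [Option.getD_some]
    omega

@[fun_prop] theorem rowv_pt {W : α → Wire} {j : α → Cp} {i : α → ℕ} {z : α → ℤ} (hq : PT qs)
    (hW : PT W) (hj : PT j) (hi : PT i) (hz : PT z) :
    PT fun a => rowv (qs a) (W a) (j a) (i a) (z a) := by
  unfold rowv; fun_prop

attribute [local irreducible] rowv w0 wf

@[fun_prop] theorem factL_pt {W : α → Wire} {j : α → Cp} {z : α → ℤ} (hq : PT qs)
    (hW : PT W) (hj : PT j) (hz : PT z) : PT fun a => factL (qs a) (W a) (j a) (z a) := by
  unfold factL; fun_prop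

@[fun_prop] theorem ruleAt_pt {γ : α → ℕ} (hH : PT H) (hγ : PT γ) :
    PT fun a => ruleAt (H a) (γ a) := by
  unfold ruleAt; fun_prop

attribute [local irreducible] ruleAt

@[fun_prop] theorem gateL_pt {γ i : α → ℕ} {l : α → Cp} {z : α → ℤ} (hH : PT H) (hq : PT qs)
    (hl : PT lam) (bl : PB lam) (hσ : PT σ) (hγ : PT γ) (hc : PT l) (hi : PT i) (hz : PT z) :
    PT fun a => gateL (H a) (qs a) (lam a) (σ a) (γ a) (l a) (i a) (z a) := by
  unfold gateL; fun_prop

@[fun_prop] theorem amIdx_pt {W : α → Wire} {i m : α → ℕ} (hH : PT H) (hq : PT qs) (hW : PT W)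
    (hi : PT i) (hm : PT m) : PT fun a => amIdx (H a) (qs a) (W a) (i a) (m a) := by
  unfold amIdx; fun_prop

@[fun_prop] theorem amL_pt {W : α → Wire} {l : α → Cp} {i m : α → ℕ} (hH : PT H) (hq : PT qs)
    (hl : PT lam) (bl : PB lam) (hσ : PT σ) (hW : PT W) (hc : PT l) (hi : PT i) (hm : PT m) :
    PT fun a => amL (H a) (qs a) (lam a) (σ a) (W a) (l a) (i a) (m a) := by
  unfold amL; fun_prop

theorem range_qq_pt {i : α → ℕ} (hq : PT qs) (bq : PB fun a => (qs a).sum) (hi : PT i) :
    PT fun a => List.range (qq (qs a) (i a)) :=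
  (qq_pt hq hi).range ((bq.add (PB.const 1)).mono fun _ => qq_le _ _)

theorem longSysS_pt {tw : α → Bool} (hH : PT H) (hq : PT qs) (bq : PB fun a => (qs a).sum)
    (hl : PT lam) (bl : PB lam) (hσ : PT σ) (bσ : PB σ) (ht : PT tw) :
    PT fun a => longSysS (H a) (qs a) (lam a) (σ a) fun _ _ => tw a := by
  unfold longSysS
  refine PT.append (PT.append (PT.append (PT.append ?_ ?_) ?_) ?_) ?_
  · refine PT.flatMap (by fun_prop) (PT.flatMap (by fun_prop) (PT.flatMap (by fun_prop)
      (PT.map (range_qq_pt (by fun_prop) (bq.comp (by fun_prop)) (by fun_prop)) ?_)))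
    fun_prop
  · fun_prop
  · fun_prop
  · refine PT.flatMap (by fun_prop) (PT.flatMap (by fun_prop) (PT.flatMap (by fun_prop)
      (PT.map (range_qq_pt (by fun_prop) (bq.comp (by fun_prop)) (by fun_prop)) ?_)))
    fun_prop
  · fun_prop

theorem sigma_pt (hH : PT H) (hq : PT qs) (hl : PT lam) :
    PT fun a => sigma (H a) (qs a) (lam a) := by
  unfold sigma gnum; fun_prop

theorem sigma_pb (hH : PT H) (hq : PT qs) (bq : PB fun a => (qs a).sum) (bl : PB lam) :
    PB fun a => sigma (H a) (qs a) (lam a) := by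
  unfold sigma gnum
  exact ((PB.add (by fun_prop) (PB.mul (by fun_prop) bq)).mul bl).mul (by fun_prop)

theorem longSys_pt {tw : α → Bool} (hH : PT H) (hq : PT qs) (bq : PB fun a => (qs a).sum)
    (hl : PT lam) (bl : PB lam) (ht : PT tw) :
    PT fun a => longSys (H a) (qs a) (lam a) fun _ _ => tw a :=
  longSysS_pt hH hq bq hl bl (sigma_pt hH hq hl) (sigma_pb hH hq bq bl) ht

attribute [local fun_prop] pb_min_right

theorem primesFrom_pt {q r : α → ℕ} (hq : PT q) (bq : PB q) (hr : PT r) (br : PB r) :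
    PT fun a => primesFrom (q a) (r a) := by
  unfold primesFrom; fun_prop

theorem primesFrom_sum_le (q r : ℕ) : (primesFrom q r).sum ≤ r * (q + r + 8) ^ 2 := by
  have h1 : (primesFrom q r).length ≤ r := by
    unfold primesFrom
    exact List.length_take_le _ _
  have h2 : ∀ p ∈ primesFrom q r, p ≤ (q + r + 8) ^ 2 := by
    intro p hp
    unfold primesFrom at hp
    exact (List.mem_range.1 (List.mem_of_mem_filter (List.mem_of_mem_take hp))).le
  have h3 := List.sum_le_card_nsmul _ _ h2
  rw [smul_eq_mul] at h3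
  exact h3.trans (Nat.mul_le_mul_right _ h1)

theorem primesFrom_pb {q r : α → ℕ} (bq : PB q) (br : PB r) :
    PB fun a => (primesFrom (q a) (r a)).sum :=
  PB.mono (g := fun a => r a * (q a + r a + 8) ^ 2) (by fun_prop) fun _ => primesFrom_sum_le _ _

end long

/-! ### Chains and graphs -/

section graph

variable {X : Type} [Enc X]

@[fun_prop] theorem chainOne_pt {e : α → Eqn X} (he : PT e) : PT fun a => chainOne (e a) := by
  unfold chainOne; fun_prop

@[fun_prop] theorem chain_pt {E : α → List (Eqn X)} (hE : PT E) : PT fun a => chain (E a) := by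
  unfold chain; fun_prop

@[fun_prop] theorem verts_pt {m : α → ℕ} (hm : PT m) (bm : PB m) : PT fun a => verts (m a) := by
  unfold verts; fun_prop

variable [DecidableEq X] {E : α → List (Eqn X)}

omit [DecidableEq X] in
@[fun_prop] theorem var_pt {o : α → ℕ} (hE : PT E) (ho : PT o) : PT fun a => var (E a) (o a) := by
  unfold var; fun_prop

omit [DecidableEq X] in
@[fun_prop] theorem rhs_pt {o : α → ℕ} (hE : PT E) (ho : PT o) : PT fun a => rhs (E a) (o a) := by
  unfold rhs; fun_prop

attribute [local irreducible] var rhs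

@[fun_prop] theorem link_pt {o o' : α → ℕ} (hE : PT E) (ho : PT o) (ho' : PT o') :
    PT fun a => link (E a) (o a) (o' a) := by
  unfold link; fun_prop

@[fun_prop] theorem slotVal_pt {c x y : α → Bool} {s : α → ℕ} (hc : PT c) (hs : PT s)
    (hx : PT x) (hy : PT y) : PT fun a => slotVal (c a) (s a) (x a) (y a) := by
  unfold slotVal; fun_prop

attribute [local irreducible] link slotVal

@[fun_prop] theorem arc_pt {v w : α → Vx} (hE : PT E) (hv : PT v) (hw : PT w) :
    PT fun a => arc (E a) (v a) (w a) := by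
  unfold arc; fun_prop

attribute [local irreducible] arc

theorem gN_pt {m i j : α → ℕ} (hm : PT m) (bm : PB m) (hE : PT E) (hi : PT i) (hj : PT j) :
    PT fun a => gN (m a) (E a) (i a) (j a) := by
  unfold gN adjV; fun_prop

end graph

variable {M : α → MD} {x : α → List Bool} {L q k : α → ℕ} {pol tw : α → Bool}

theorem sys_pt (hM : PT M) (hx : PT x) (hL : PT L) (bL : PB L) (hq : PT q) (bq : PB q)
    (hk : PT k) (bk : PB k) (hpol : PT pol) (htw : PT tw) :
    PT fun a => sys (M a) (x a) (L a) (q a) (k a) (pol a) (tw a) :=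
  chain_pt (longSys_pt (horn_pt hM hx hL bL hpol)
    (primesFrom_pt hq bq (by fun_prop) (by fun_prop)) (primesFrom_pb bq (by fun_prop))
    (by fun_prop) (by fun_prop) htw)

theorem sysM_pt (hM : PT M) (hx : PT x) (hL : PT L) (bL : PB L) (hq : PT q) (bq : PB q)
    (hk : PT k) (bk : PB k) (hpol : PT pol) :
    (PT fun a => sysM (M a) (x a) (L a) (q a) (k a) (pol a)) ∧
      PB fun a => sysM (M a) (x a) (L a) (q a) (k a) (pol a) :=
  have h := sys_pt hM hx hL bL hq bq hk bk hpol (PT.const false)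
  ⟨h.length, PB.length h⟩

theorem sysN_pt (hM : PT M) (hx : PT x) (hL : PT L) (bL : PB L) (hq : PT q) (bq : PB q)
    (hk : PT k) (bk : PB k) (hpol : PT pol) :
    (PT fun a => sysN (M a) (x a) (L a) (q a) (k a) (pol a)) ∧
      PB fun a => sysN (M a) (x a) (L a) (q a) (k a) (pol a) :=
  have h := sysM_pt hM hx hL bL hq bq hk bk hpol
  ⟨(verts_pt h.1 h.2).length, PB.length (verts_pt h.1 h.2)⟩

theorem sysG_pt (hM : PT M) (hx : PT x) (hL : PT L) (bL : PB L) (hq : PT q) (bq : PB q)
    (hk : PT k) (bk : PB k) (hpol : PT pol) (htw : PT tw) :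
    PT fun p : α × ℕ × ℕ =>
      sysG (M p.1) (x p.1) (L p.1) (q p.1) (k p.1) (pol p.1) (tw p.1) p.2.1 p.2.2 :=
  have h := sysM_pt hM hx hL bL hq bq hk bk hpol
  have h' := sys_pt hM hx hL bL hq bq hk bk hpol htw
  gN_pt (h.1.comp PT.id.fst) (h.2.comp PT.id.fst) (h'.comp PT.id.fst) PT.id.snd.fst PT.id.snd.snd

end Crest.Agent.R290
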