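import Crest.Agent.R290.Pipe
import Crest.Agent.R290.PTsys
import Crest.Agent.R290.MachRun
import Crest.Agent.R290.Cone

/-!
# rid 290, task Diag: self-referential diagonalisation
-/

set_option autoImplicit false

namespace Crest.Agent.R290

open Crest.WLRefine Crest.Agent.Lib.PT

/-- Linear functions are eventually below `2 ^ u`. -/
theorem diag_lin_le (K : ℕ) : ∃ u₀, ∀ u ≥ u₀, K * (u + 1) ≤ 2 ^ u := by
  refine ⟨2 * K + 4, fun u hu => ?_⟩
  induction u, hu using Nat.le_induction with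
  | base =>
    have h1 : K + 2 < 2 ^ (K + 2) := Nat.lt_two_pow_self
    have h2 : 2 * K + 4 = (K + 2) + (K + 2) := by ring
    have h3 : K + 1 ≤ 2 ^ K := Nat.lt_two_pow_self
    have h4 : 2 ^ (K + 2) = 4 * 2 ^ K := by ring
    rw [h2, pow_add]
    nlinarith
  | succ u hu ih =>
    rw [pow_succ]
    nlinarith

theorem diag_time {c₀ e₀ n s e Y : ℕ} (he : 1 ≤ e) (hs : n < 2 ^ (s + 1)) (hY : Y < n)
    (hc : c₀ < 2 ^ s) :
    c₀ * (Y + (n ^ e + n) + 1) ^ e₀ < 2 ^ ((s + 2) * (e + 1) * (e₀ + 1)) := by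
  have h1 : n ≤ n ^ e := Nat.le_self_pow (by omega) n
  have h2 : n ^ e ≤ (2 ^ (s + 1)) ^ e := Nat.pow_le_pow_left hs.le e
  have h3 : Y + (n ^ e + n) + 1 ≤ 2 ^ ((s + 1) * e + 2) := by
    rw [pow_add, pow_mul]; omega
  have h4 : (Y + (n ^ e + n) + 1) ^ e₀ ≤ 2 ^ (((s + 1) * e + 2) * e₀) := by
    rw [pow_mul]; exact Nat.pow_le_pow_left h3 _
  calc c₀ * (Y + (n ^ e + n) + 1) ^ e₀ ≤ c₀ * 2 ^ (((s + 1) * e + 2) * e₀) := by gcongr
    _ < 2 ^ s * 2 ^ (((s + 1) * e + 2) * e₀) := by gcongr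
    _ = 2 ^ (s + ((s + 1) * e + 2) * e₀) := (pow_add _ _ _).symm
    _ ≤ 2 ^ ((s + 2) * (e + 1) * (e₀ + 1)) := Nat.pow_le_pow_right (by norm_num) (by
        have h5 : (s + 2) * (e + 1) * (e₀ + 1) + 2 * e₀ =
          s + ((s + 1) * e + 2) * e₀ + 2 * e₀ + (e * e₀ + s * e₀ + (s + 2) * e + 2) := by ring
        omega)

theorem diag_addr {E u s e e₀ m B : ℕ} (hE : 1 ≤ E) (hu : 1 ≤ u) (he : 1 ≤ e)
    (hs : s < E * (u + 1)) (hB : B ≤ s + 1) (hm : 21 * E * (e₀ + 1) * e ≤ m) :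
    2 * ((s + 2) * (e + 1) * (e₀ + 1)) + B + 5 ≤ u * (m + 1) := by
  have h0 : E ≤ E * u := Nat.le_mul_of_pos_right _ hu
  have h2 : s + 2 ≤ 3 * (E * u) := by
    rw [mul_add] at hs; omega
  have h3 : (s + 2) * (e + 1) * (e₀ + 1) ≤ 3 * (E * u) * (2 * e) * (e₀ + 1) := by
    gcongr; omega
  have h4 : E * u ≤ E * u * (e * (e₀ + 1)) := Nat.le_mul_of_pos_right _ (by positivity)
  have h5 : u * (21 * E * (e₀ + 1) * e) ≤ u * (m + 1) := by gcongr; omega
  have h6 : u * (21 * E * (e₀ + 1) * e) = 21 * (E * u * (e * (e₀ + 1))) := by ring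
  have h7 : 3 * (E * u) * (2 * e) * (e₀ + 1) = 6 * (E * u * (e * (e₀ + 1))) := by ring
  omega

theorem diag_size {E u s e e₀ a c : ℕ} (hs : s < E * (u + 1))
    (h : (5 * a + 16 * E + 20 * E * (e + 1) * (e₀ + 1) + c) * (u + 1) ≤ 2 ^ u) :
    5 * a + 16 * (s + 1) + 10 * ((s + 2) * (e + 1) * (e₀ + 1)) ≤ 2 ^ u ∧ c < 2 ^ u := by
  have h0 : 1 ≤ E * (u + 1) := by omega
  have h1 : (s + 2) * (e + 1) * (e₀ + 1) ≤ 2 * (E * (u + 1)) * (e + 1) * (e₀ + 1) := by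
    gcongr; omega
  have h2 : 5 * a ≤ 5 * a * (u + 1) := Nat.le_mul_of_pos_right _ (by omega)
  have h3 : c ≤ c * (u + 1) := Nat.le_mul_of_pos_right _ (by omega)
  have h4 : (5 * a + 16 * E + 20 * E * (e + 1) * (e₀ + 1) + c) * (u + 1) =
      5 * a * (u + 1) + 16 * (E * (u + 1)) + 10 * (2 * (E * (u + 1)) * (e + 1) * (e₀ + 1)) +
        c * (u + 1) := by ring
  omega

theorem diag_count {c₁ e₁ u s Z : ℕ} (hc : c₁ < 2 ^ u) (hZ : Z ≤ 2 ^ (2 * u))
    (hs : u * (2 * e₁ + 2) ≤ s) : c₁ * Z ^ e₁ < 2 ^ s := by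
  have h1 : Z ^ e₁ ≤ 2 ^ (2 * u * e₁) := by
    rw [pow_mul]; exact Nat.pow_le_pow_left hZ _
  calc c₁ * Z ^ e₁ ≤ c₁ * 2 ^ (2 * u * e₁) := by gcongr
    _ < 2 ^ u * 2 ^ (2 * u * e₁) := by gcongr
    _ = 2 ^ (u + 2 * u * e₁) := (pow_add _ _ _).symm
    _ ≤ 2 ^ s := Nat.pow_le_pow_right (by norm_num) (by
        have : u * (2 * e₁ + 2) = 2 * u * e₁ + 2 * u := by ring
        omega)

/-- The exponent arithmetic of the diagonalisation. -/
theorem diag_arith (c₀ e₀ c₁ e₁ a k e : ℕ) (he1 : 1 ≤ e)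
    (heC : 21 * (2 * e₁ + 2) * (e₀ + 1) * e * 2400 ≤ k) :
    ∃ n₀, ∀ n ≥ n₀, ∃ L q : ℕ, ∀ Y, Y ≤ a + 4 * n.size + 2 * L + 2 * q →
      c₀ * (Y + (n ^ e + n) + 1) ^ e₀ < 2 ^ L ∧
      2 ^ (2 * L + (a + Y).size + 5) ≤ q ^ (k / 2400 + 1) ∧
      c₁ * (a + 4 * Y + 2 * L + 2 * q) ^ e₁ < n ∧ 6 ≤ n := by
  have hk2 : 21 * (2 * e₁ + 2) * (e₀ + 1) * e ≤ k / 2400 :=
    (Nat.le_div_iff_mul_le (by norm_num)).2 heC
  obtain ⟨u₀, hu₀⟩ :=
    diag_lin_le (5 * a + 16 * (2 * e₁ + 2) + 20 * (2 * e₁ + 2) * (e + 1) * (e₀ + 1) + (c₀ + c₁))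
  refine ⟨2 ^ ((u₀ + 4) * (2 * e₁ + 2)), fun n hn => ?_⟩
  have hnpos : 0 < n := lt_of_lt_of_le (by positivity) hn
  have hs1 : 2 ^ Nat.log 2 n ≤ n := Nat.pow_log_le_self 2 hnpos.ne'
  have hs2 : n < 2 ^ (Nat.log 2 n + 1) := Nat.lt_pow_succ_log_self (by norm_num) n
  have hs3 : (u₀ + 4) * (2 * e₁ + 2) ≤ Nat.log 2 n := Nat.le_log_of_pow_le (by norm_num) hn
  generalize Nat.log 2 n = s at hs1 hs2 hs3
  have hEpos : 0 < 2 * e₁ + 2 := by omega
  have hu1 : u₀ + 4 ≤ s / (2 * e₁ + 2) := (Nat.le_div_iff_mul_le hEpos).2 hs3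
  have hu2 : s / (2 * e₁ + 2) * (2 * e₁ + 2) ≤ s := Nat.div_mul_le_self _ _
  have hu3 : s < (2 * e₁ + 2) * (s / (2 * e₁ + 2) + 1) := Nat.lt_mul_div_succ s hEpos
  generalize s / (2 * e₁ + 2) = u at hu1 hu2 hu3
  have hsize : n.size ≤ s + 1 := Nat.size_le.2 hs2
  obtain ⟨h1, hc⟩ := diag_size hu3 (hu₀ u (by omega))
  refine ⟨(s + 2) * (e + 1) * (e₀ + 1), 2 ^ u, fun Y hY => ?_⟩
  have hZ2 : 16 * 2 ^ u ≤ 2 ^ (2 * u) := by
    have h1 : 2 ^ 4 ≤ 2 ^ u := Nat.pow_le_pow_right (by norm_num) (by omega)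
    rw [two_mul, pow_add]
    exact Nat.mul_le_mul_right _ h1
  have h2u : 2 * u ≤ s := by
    have : u * (2 * e₁ + 2) = u * (2 * e₁) + 2 * u := by ring
    omega
  have hus : 2 ^ (2 * u) ≤ 2 ^ s := Nat.pow_le_pow_right (by norm_num) h2u
  have hpos : 0 < 2 ^ u := by positivity
  refine ⟨diag_time he1 hs2 (by omega) (by omega), ?_,
    lt_of_lt_of_le (diag_count (u := u) (by omega) (by omega) hu2) hs1, by omega⟩
  rw [← pow_mul]
  exact Nat.pow_le_pow_right (by norm_num)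
    (diag_addr hEpos (by omega) he1 hu3 (Nat.size_le.2 (by omega)) hk2)

/-- The inputs of the diagonal machine: `(A, D, n, e, L, q, k)`. -/
abbrev DIn (δ : Type) := MD × δ × ℕ × Un × Un × Un × Un

/-- The code of one of the two cones built from the computation described by `d` on `y`. -/
def diagCode {δ : Type} (d : DIn δ) (y : List Bool) (n : ℕ) (tw : Bool) : List Bool :=
  matCode n (coneN (sysN d.1 y d.2.2.2.2.1.n d.2.2.2.2.2.1.n d.2.2.2.2.2.2.n true)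
    (sysG d.1 y d.2.2.2.2.1.n d.2.2.2.2.2.1.n d.2.2.2.2.2.2.n true tw))

attribute [local irreducible] sysN sysG matCode coneN

theorem diagCode_pt {δ : Type} [Enc δ] (tw : Bool) :
    PT fun p : DIn δ × List Bool × Un => diagCode p.1 p.2.1 (min p.1.2.2.1 p.2.2.n) tw := by
  unfold diagCode
  have hN := (sysN_pt (α := DIn δ × List Bool × Un) (M := fun p => p.1.1) (x := fun p => p.2.1)
    (L := fun p => p.1.2.2.2.2.1.n) (q := fun p => p.1.2.2.2.2.2.1.n)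
    (k := fun p => p.1.2.2.2.2.2.2.n) (pol := fun _ => true) (by fun_prop) (by fun_prop)
    (by fun_prop) (by fun_prop) (by fun_prop) (by fun_prop) (by fun_prop) (by fun_prop)
    (by fun_prop)).1
  have hG := sysG_pt (α := DIn δ × List Bool × Un) (M := fun p => p.1.1) (x := fun p => p.2.1)
    (L := fun p => p.1.2.2.2.2.1.n) (q := fun p => p.1.2.2.2.2.2.1.n)
    (k := fun p => p.1.2.2.2.2.2.2.n) (pol := fun _ => true) (tw := fun _ => tw) (by fun_prop)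
    (by fun_prop) (by fun_prop) (by fun_prop) (by fun_prop) (by fun_prop) (by fun_prop)
    (by fun_prop) (by fun_prop) (by fun_prop)
  refine matCode_pt (by fun_prop) (PB.min_right _ (by fun_prop)) ?_
  have h1 : PT fun p : (DIn δ × List Bool × Un) × ℕ × ℕ => p.1 := by fun_prop
  have h2 : PT fun p : ((DIn δ × List Bool × Un) × ℕ × ℕ) × ℕ × ℕ => (p.1.1, p.2) := by fun_prop
  exact coneN_pt (α := (DIn δ × List Bool × Un) × ℕ × ℕ) (hN.comp h1) (by fun_prop) (by fun_prop)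
    (hG.comp h2)

/-- The diagonal function, on decoded inputs. -/
def diagG {δ : Type} (sim : δ × List Bool × Un → Bool) (p : DIn δ × List Bool × Un) : Bool :=
  sim (p.1.2.1, diagCode p.1 p.2.1 (min p.1.2.2.1 p.2.2.n) false ++
    diagCode p.1 p.2.1 (min p.1.2.2.1 p.2.2.n) true, ⟨min (p.1.2.2.1 ^ p.1.2.2.2.1.n) p.2.2.n⟩)

theorem diagG_pt {δ : Type} [Enc δ] {sim : δ × List Bool × Un → Bool} (hsim : PT sim) :
    PT (diagG sim) := by
  have h : PT fun p : DIn δ × List Bool × Un => (p.1.2.1,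
      diagCode p.1 p.2.1 (min p.1.2.2.1 p.2.2.n) false ++
        diagCode p.1 p.2.1 (min p.1.2.2.1 p.2.2.n) true,
      Un.mk (min (p.1.2.2.1 ^ p.1.2.2.2.1.n) p.2.2.n)) :=
    PT.pair (by fun_prop) (PT.pair (PT.append (diagCode_pt false) (diagCode_pt true))
      (PT.un_mk (by fun_prop) (PB.min_right _ (by fun_prop))))
  have h2 := hsim.comp h
  exact h2

/-- One machine answers the diagonal function. -/
theorem exists_diag_md {δ : Type} [Enc δ] [Dec δ] {sim : δ × List Bool × Un → Bool}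
    (hsim : PT sim) : ∃ (A₀ : MD) (c₀ e₀ : ℕ), ∀ d : DIn δ, A₀.Answers (toBits d)
      (sim (d.2.1, diagCode d (toBits d) d.2.2.1 false ++ diagCode d (toBits d) d.2.2.1 true,
        ⟨d.2.2.1 ^ d.2.2.2.1.n⟩))
      (c₀ * ((toBits d).length + (d.2.2.1 ^ d.2.2.2.1.n + d.2.2.1) + 1) ^ e₀) := by
  have h0 : PT fun p : List Bool × Un => ((fromBits p.1 : DIn δ), p.1, p.2) := by fun_prop
  have h1 : PT fun d : DIn δ => d.2.2.1 ^ d.2.2.2.1.n + d.2.2.1 := by fun_prop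
  have h2 : PT fun y : List Bool => (fromBits y : DIn δ) := by fun_prop
  obtain ⟨A₀, c₀, e₀, hA⟩ := exists_md_pad (h1.comp h2) ((diagG_pt hsim).comp h0)
  refine ⟨A₀, c₀, e₀, fun d => ?_⟩
  have h := hA (toBits d)
  simp only [fromBits_toBits, diagG, Nat.min_eq_left (Nat.le_add_left _ _),
    Nat.min_eq_left (Nat.le_add_right _ _)] at h
  exact h

/-- Decode `y` by `fromBits` as `(A, D, n, e, L, q, k) : MD × δ × ℕ × Un × Un × Un × Un`.  Clock
`τ y = n ^ e + n`.  With `n' = min n t`, `N = sysN A y L q k true`,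
`pair = matCode n' (coneN N (sysG A y L q k true false)) ++ matCode n' (coneN N (sysG .. true true))`
put `g (y, t) = sim (D, pair, min (n ^ e) t)`; it is `PT` (file `PTsys`).  `exists_md_pad` gives ONE
machine `A₀` and `c₀, e₀`; `sysN_pt` (on the input type `MD × List Bool × Un × Un × Un`) gives
`sysN ≤ c₁ * sz ^ e₁`.  Put `E = 2 e₁ + 2`, `C = 2400 * 16 * E * (e₀ + 1)`, `k₀ = C`.  For `k ≥ k₀`,
`D`, and large `n` let `s = Nat.log 2 n`, `q = 2 ^ (s / E)`, `e = k / C`,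
`L = (s + 2) * (e + 1) * (e₀ + 1)` (or similar), `y = toBits (A₀, D, n, e, L, q, k)` (self-reference).
Then `|y| = O(q)` (constants depend on `D, k`), the running time is `< 2 ^ L`,
`2 L + bnd A₀ y + 5 ≤ (s / E) (k / 2400 + 1)`, and `N < n`, `6 ≤ n`.  Take the cones; if the answer is
`true`, `sys_not_game` and `game_of_cone`; if it is `false`, `sys_game` and `cone_game`;
`adjMatrixCode_toMat` identifies the codes. -/
theorem diag {δ : Type} [Enc δ] [Dec δ] (sim : δ × List Bool × Un → Bool) (hsim : PT sim) :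
    ∃ C k₀ : ℕ, 0 < C ∧ ∀ k ≥ k₀, ∀ D : δ, ∃ n₀, ∀ n ≥ n₀, ∃ G H : Fin n → Fin n → Bool,
      SimpleConnDiamTwo G ∧ SimpleConnDiamTwo H ∧
      (sim (D, adjMatrixCode G ++ adjMatrixCode H, ⟨n ^ (k / C)⟩) = true → ¬ Game G H k) ∧
      (sim (D, adjMatrixCode G ++ adjMatrixCode H, ⟨n ^ (k / C)⟩) = false → Game G H (k + 1)) := by
  obtain ⟨A₀, c₀, e₀, hA⟩ := exists_diag_md hsim
  obtain ⟨c₁, e₁, hN⟩ := (sysN_pt (α := MD × List Bool × Un × Un × Un) (M := fun p => p.1)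
    (x := fun p => p.2.1) (L := fun p => p.2.2.1.n) (q := fun p => p.2.2.2.1.n)
    (k := fun p => p.2.2.2.2.n) (pol := fun _ => true) (by fun_prop) (by fun_prop)
    (by fun_prop) (by fun_prop) (by fun_prop) (by fun_prop) (by fun_prop) (by fun_prop)
    (by fun_prop)).2
  obtain ⟨C, hC⟩ : ∃ C, C = 21 * (2 * e₁ + 2) * (e₀ + 1) * 2400 := ⟨_, rfl⟩
  have hC1 : 2400 ≤ C := by
    have : 0 < 21 * (2 * e₁ + 2) * (e₀ + 1) := by positivity
    omega
  refine ⟨C, C, by omega, fun k hk D => ?_⟩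
  have hk' : 2400 ≤ k := hC1.trans hk
  obtain ⟨n₀, hn₀⟩ := diag_arith c₀ e₀ c₁ e₁ (sz A₀ + sz D + 2 * (k / C) + 2 * k + 20) k (k / C)
    ((Nat.le_div_iff_mul_le (by omega)).2 (by omega))
    (le_of_eq_of_le (by rw [mul_right_comm, ← hC, mul_comm]) (Nat.div_mul_le_self k C))
  refine ⟨n₀, fun n hn => ?_⟩
  obtain ⟨L, q, hLq⟩ := hn₀ n hn
  obtain ⟨y, hy⟩ : ∃ y, y = toBits ((A₀, D, n, ⟨k / C⟩, ⟨L⟩, ⟨q⟩, ⟨k⟩) : DIn δ) := ⟨_, rfl⟩
  have hlen : y.length ≤ sz A₀ + sz D + 2 * (k / C) + 2 * k + 20 + 4 * n.size + 2 * L + 2 * q := by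
    have := sz_nat_le n
    rw [hy, length_toBits]
    simp only [sz_mk, sz_un]
    omega
  obtain ⟨hT, hq, hNn, h6⟩ := hLq _ hlen
  have hans := hA (A₀, D, n, ⟨k / C⟩, ⟨L⟩, ⟨q⟩, ⟨k⟩)
  simp only [diagCode, ← hy] at hans
  have hlt : sysN A₀ y L q k true < n := by
    refine lt_of_le_of_lt ((hN (A₀, y, ⟨L⟩, ⟨q⟩, ⟨k⟩)).trans ?_) hNn
    have := sz_boolList_le y
    gcongr
    simp only [sz_mk, sz_un]
    omega
  have hq' : 2 ^ (2 * L + bnd A₀ y + 5) ≤ q ^ (k / 2400 + 1) := by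
    refine le_trans (Nat.pow_le_pow_right (by norm_num) ?_) hq
    have : bnd A₀ y ≤ (sz A₀ + sz D + 2 * (k / C) + 2 * k + 20 + y.length).size := by
      unfold bnd
      rw [length_toBits]
      exact Nat.size_le_size (by omega)
    omega
  have hsub := fun tw => sysMat_subcubic A₀ y L q k true tw
  have hiso := fun tw => sysMat_noIsolated A₀ y L q k true (by omega) tw
  refine ⟨toMat n (coneN (sysN A₀ y L q k true) (sysG A₀ y L q k true false)),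
    toMat n (coneN (sysN A₀ y L q k true) (sysG A₀ y L q k true true)),
    cone_simple (hsub false).1 (by omega), cone_simple (hsub true).1 (by omega), ?_, ?_⟩
  · rw [adjMatrixCode_toMat, adjMatrixCode_toMat]
    intro hb hG
    exact sys_not_game hans hT (by omega) hb (game_of_cone hlt h6 (by omega) (hsub false).1
      (hsub true).1 (hsub false).2.2 (hsub true).2.2 (hiso false) (hiso true) hG)
  · rw [adjMatrixCode_toMat, adjMatrixCode_toMat]
    intro hb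
    exact cone_game hlt (sys_game hans hT hk' (by rw [hb]; decide) hq')

end Crest.Agent.R290
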