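import Mathlib
import Crest.Prelude.Def_WL

/-!
# rid 290: the bijective pebble game (definitions)

A position is a set of pebbled pairs.  `IsGame G H K Pos`: `Pos` is a winning family of the
Duplicator in the bijective game with `K` pebbles.
-/

set_option autoImplicit false

namespace Crest.Agent.R290

/-- `Pos` is a winning family of positions for the Duplicator in the bijective `K`-pebble game. -/
structure IsGame {V W : Type} (G : V → V → Bool) (H : W → W → Bool) (K : ℕ)
    (Pos : Set (V × W) → Prop) : Prop where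
  empty : Pos ∅
  down : ∀ {S S' : Set (V × W)}, Pos S → S' ⊆ S → Pos S'
  inj : ∀ {S : Set (V × W)}, Pos S → ∀ p ∈ S, ∀ q ∈ S, (p.1 = q.1 ↔ p.2 = q.2)
  adj : ∀ {S : Set (V × W)}, Pos S → ∀ p ∈ S, ∀ q ∈ S, G p.1 q.1 = H p.2 q.2
  ext : ∀ {S : Set (V × W)}, Pos S → S.ncard < K → ∃ f : V ≃ W, ∀ z, Pos (insert (z, f z) S)

/-- The Duplicator wins the bijective `K`-pebble game. -/
def Game {V W : Type} (G : V → V → Bool) (H : W → W → Bool) (K : ℕ) : Prop :=
  ∃ Pos, IsGame G H K Pos

/-- With `K` pebbles the Spoiler tells any two distinct vertices of `G` apart. -/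
def Rigid {V : Type} (G : V → V → Bool) (K : ℕ) : Prop :=
  ∀ Pos, IsGame G G K Pos → ∀ a c, Pos {(a, c)} → a = c

/-- The matrix on `Fin n` of a graph given on numbers. -/
def toMat (n : ℕ) (g : ℕ → ℕ → Bool) : Fin n → Fin n → Bool := fun i j => g i j

/-- The cone over the graph `g` on `N` vertices: vertex `0` is the apex, the vertices `1..N` carry
`g`, all later vertices are pendant at the apex. -/
def coneN (N : ℕ) (g : ℕ → ℕ → Bool) : ℕ → ℕ → Bool := fun i j =>
  decide (i ≠ j) && (decide (i = 0) || decide (j = 0) ||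
    (decide (i ≤ N) && decide (j ≤ N) && g (i - 1) (j - 1)))

/-- Every vertex has a neighbour. -/
def NoIsolated {n : ℕ} (G : Fin n → Fin n → Bool) : Prop := ∀ v, ∃ w, G v w = true

/-- The code of `toMat n g`, written with `List.range`. -/
def matCode (n : ℕ) (g : ℕ → ℕ → Bool) : List Bool :=
  Crest.Enc.natCode n ++ (List.range n).flatMap fun i => (List.range n).map fun j => g i j

theorem IsGame.mono {V W : Type} {G : V → V → Bool} {H : W → W → Bool} {K K' : ℕ}
    {Pos : Set (V × W) → Prop} (h : IsGame G H K Pos) (hK : K' ≤ K) : IsGame G H K' Pos :=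
  ⟨h.empty, h.down, h.inj, h.adj, fun hS hc => h.ext hS (lt_of_lt_of_le hc hK)⟩

theorem Game.mono {V W : Type} {G : V → V → Bool} {H : W → W → Bool} {K K' : ℕ}
    (h : Game G H K) (hK : K' ≤ K) : Game G H K' :=
  let ⟨Pos, hP⟩ := h
  ⟨Pos, hP.mono hK⟩

/-- Transport of a winning family along relabellings of both graphs. -/
theorem IsGame.comap {V W V' W' : Type} {G : V → V → Bool} {H : W → W → Bool} {K : ℕ}
    {Pos : Set (V × W) → Prop} (h : IsGame G H K Pos) (e : V' ≃ V) (e' : W' ≃ W) :
    IsGame (fun a b => G (e a) (e b)) (fun a b => H (e' a) (e' b)) K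
      (fun S => Pos (Prod.map e e' '' S)) where
  empty := by simpa using h.empty
  down hS hs := h.down hS (Set.image_mono hs)
  inj hS p hp q hq := by
    have := h.inj hS _ (Set.mem_image_of_mem _ hp) _ (Set.mem_image_of_mem _ hq)
    simpa using this
  adj hS p hp q hq := h.adj hS _ (Set.mem_image_of_mem _ hp) _ (Set.mem_image_of_mem _ hq)
  ext {S} hS hc := by
    have hinj : Function.Injective (Prod.map e e') := e.injective.prodMap e'.injective
    obtain ⟨f, hf⟩ := h.ext hS (by rwa [Set.ncard_image_of_injective _ hinj])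
    refine ⟨e.trans (f.trans e'.symm), fun z => ?_⟩
    have := hf (e z)
    rw [Set.image_insert_eq]
    simpa using this

theorem Game.comap {V W V' W' : Type} {G : V → V → Bool} {H : W → W → Bool} {K : ℕ}
    (h : Game G H K) (e : V' ≃ V) (e' : W' ≃ W) :
    Game (fun a b => G (e a) (e b)) (fun a b => H (e' a) (e' b)) K :=
  let ⟨_, hP⟩ := h
  ⟨_, hP.comap e e'⟩

theorem adjMatrixCode_toMat (n : ℕ) (g : ℕ → ℕ → Bool) :
    Crest.WLRefine.adjMatrixCode (toMat n g) = matCode n g := by
  unfold Crest.WLRefine.adjMatrixCode matCode toMat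
  congr 1
  rw [← List.map_coe_finRange_eq_range, List.flatMap_map]
  congr 1
  funext v
  rw [List.map_map]
  rfl

end Crest.Agent.R290
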