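import Mathlib

/-!
# rid 290: linear systems over `ZMod 2` and their pebble games (definitions)

An equation is a list of variables with a Boolean right-hand side.
* `LCons E K`: the Duplicator survives when the Spoiler pebbles at most `K` whole equations.
* `IsVStrat E K 𝒮`: a strategy when the Spoiler pebbles at most `K` variables.
* `Forced0 E w`: with `w` pebbles on variables every variable is forced to be `0`.
* `chain E`: every equation is cut into equations with three variables; the new variables are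
  lists of old variables (the list `ℓ` stands for the sum of `ℓ`, so `[x]` stands for `x`).
-/

set_option autoImplicit false

namespace Crest.Agent.R290

/-- A bit as an element of `ZMod 2`. -/
def b2z (c : Bool) : ZMod 2 := if c then 1 else 0

/-- Equations. -/
abbrev Eqn (X : Type) := List X × Bool

variable {X : Type}

/-- The sum of an assignment over a list of variables. -/
def lsum (η : X → ZMod 2) (ℓ : List X) : ZMod 2 := (ℓ.map η).sum

/-- The assignment satisfies the equation. -/
def Sat (η : X → ZMod 2) (e : Eqn X) : Prop := lsum η e.1 = b2z e.2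

/-- The system has a solution. -/
def Solvable (E : List (Eqn X)) : Prop := ∃ η, ∀ e ∈ E, Sat η e

/-- The variable occurs in the system. -/
def Occ (E : List (Eqn X)) (x : X) : Prop := ∃ e ∈ E, x ∈ e.1

/-- The homogeneous system. -/
def homog (E : List (Eqn X)) : List (Eqn X) := E.map fun e => (e.1, false)

/-- Strategy of the Duplicator against pebbles on whole equations: `𝒱 R η` says that the global
assignment `η` is good for the set `R` of pebbled equations. -/
structure IsLCons (E : List (Eqn X)) (K : ℕ) (𝒱 : Finset (Eqn X) → (X → ZMod 2) → Prop) :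
    Prop where
  empty : ∃ η, 𝒱 ∅ η
  mono : ∀ {R R' : Finset (Eqn X)} {η : X → ZMod 2}, R ⊆ R' → 𝒱 R' η → 𝒱 R η
  sat : ∀ {R : Finset (Eqn X)} {η : X → ZMod 2}, 𝒱 R η → ∀ e ∈ R, Sat η e
  ext : ∀ {R R' : Finset (Eqn X)} {η : X → ZMod 2}, R ⊆ R' → (∀ e ∈ R', e ∈ E) → R'.card ≤ K →
    𝒱 R η → ∃ η', 𝒱 R' η' ∧ ∀ e ∈ R, ∀ x ∈ e.1, η' x = η x

/-- The system is consistent against `K` pebbles on equations. -/
def LCons (E : List (Eqn X)) (K : ℕ) : Prop := ∃ 𝒱, IsLCons E K 𝒱

/-- Strategy of the Duplicator against pebbles on variables: `𝒮 T δ` says that the values of `δ` on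
the set `T` of pebbled variables form a good position. -/
structure IsVStrat (E : List (Eqn X)) (K : ℕ) (𝒮 : Finset X → (X → ZMod 2) → Prop) : Prop where
  down : ∀ {T T' : Finset X} {δ : X → ZMod 2}, 𝒮 T δ → T' ⊆ T → 𝒮 T' δ
  ext : ∀ {T T' : Finset X} {δ : X → ZMod 2}, 𝒮 T δ → T ⊆ T' → T'.card ≤ K →
    (∀ x ∈ T', Occ E x) → ∃ δ', 𝒮 T' δ' ∧ ∀ x ∈ T, δ' x = δ x
  sat : ∀ {T : Finset X} {δ : X → ZMod 2}, 𝒮 T δ → ∀ e ∈ E, (∀ x ∈ e.1, x ∈ T) → Sat δ e

/-- With `w` pebbles every occurring variable is forced to vanish. -/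
def Forced0 (E : List (Eqn X)) (w : ℕ) : Prop :=
  ∀ 𝒮, IsVStrat E w 𝒮 → ∀ T δ, 𝒮 T δ → ∀ x ∈ T, Occ E x → δ x = 0

/-- The equations with three variables that implement one long equation. -/
def chainOne (e : Eqn X) : List (Eqn (List X)) :=
  ([e.1, e.1, e.1], e.2) :: (List.range e.1.length).map fun p =>
    ([e.1.take p, (e.1.drop p).take 1, e.1.take (p + 1)], false)

/-- The system with three variables per equation. -/
def chain (E : List (Eqn X)) : List (Eqn (List X)) := E.flatMap chainOne

theorem IsVStrat.mono {E : List (Eqn X)} {K K' : ℕ} {𝒮 : Finset X → (X → ZMod 2) → Prop}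
    (h : IsVStrat E K 𝒮) (hK : K' ≤ K) : IsVStrat E K' 𝒮 :=
  ⟨h.down, fun h1 h2 h3 h4 => h.ext h1 h2 (h3.trans hK) h4, h.sat⟩

theorem Forced0.mono {E : List (Eqn X)} {w w' : ℕ} (h : Forced0 E w) (hw : w ≤ w') :
    Forced0 E w' := fun 𝒮 h𝒮 => h 𝒮 (h𝒮.mono hw)

@[simp] theorem lsum_nil (η : X → ZMod 2) : lsum η [] = 0 := rfl

@[simp] theorem lsum_cons (η : X → ZMod 2) (x : X) (ℓ : List X) :
    lsum η (x :: ℓ) = η x + lsum η ℓ := by simp [lsum]

@[simp] theorem lsum_append (η : X → ZMod 2) (ℓ ℓ' : List X) :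
    lsum η (ℓ ++ ℓ') = lsum η ℓ + lsum η ℓ' := by simp [lsum]

theorem lsum_congr {η η' : X → ZMod 2} {ℓ : List X} (h : ∀ x ∈ ℓ, η x = η' x) :
    lsum η ℓ = lsum η' ℓ := by
  unfold lsum
  rw [List.map_congr_left h]

@[simp] theorem length_homog (E : List (Eqn X)) : (homog E).length = E.length := by simp [homog]

@[simp] theorem homog_homog (E : List (Eqn X)) : homog (homog E) = homog E := by
  simp [homog, Function.comp_def]

theorem homog_chain (E : List (Eqn X)) : homog (chain E) = chain (homog E) := by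
  induction E with
  | nil => rfl
  | cons e E ih =>
    simp only [homog, chain, List.flatMap_cons, List.map_append, List.map_cons] at ih ⊢
    rw [ih]
    simp [chainOne, Function.comp_def]

theorem chain_len3 (E : List (Eqn X)) : ∀ e ∈ chain E, e.1.length = 3 := by
  intro e he
  simp only [chain, chainOne, List.mem_flatMap, List.mem_cons, List.mem_map] at he
  obtain ⟨_, _, rfl | ⟨_, _, rfl⟩⟩ := he <;> rfl

theorem top_mem_chain {E : List (Eqn X)} {e : Eqn X} (he : e ∈ E) :
    ([e.1, e.1, e.1], e.2) ∈ chain E :=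
  List.mem_flatMap.2 ⟨e, he, by simp [chainOne]⟩

theorem step_mem_chain {E : List (Eqn X)} {e : Eqn X} (he : e ∈ E) {p : ℕ} (hp : p < e.1.length) :
    ([e.1.take p, (e.1.drop p).take 1, e.1.take (p + 1)], false) ∈ chain E :=
  List.mem_flatMap.2 ⟨e, he, by
    simp only [chainOne, List.mem_cons, List.mem_map, List.mem_range]
    exact Or.inr ⟨p, hp, rfl⟩⟩

end Crest.Agent.R290
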