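import Crest.Agent.R290.Game
import Crest.Agent.R290.Lin

/-!
# rid 290: the subcubic graph of a system with three variables per equation (definitions)

Let `M` be the number of equations; equation `e` has the occurrences `o = 3e, 3e+1, 3e+2`.
A vertex is `(kind, index, bit, bit)`:
* kind `0`: the spine `W i`, `i ≤ 12 M` (a path; `W 0` is a leaf);
* kind `1`: the connector `c t`, `t < 6 M`, adjacent to `W (2t+2)` and to both `B t _`;
* kind `2`: the labelled pair `B t a`; `B (2o) a ~ B (2o+1) a`;
* kind `3`: the port `A o a ~ B (2o) a`;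
* kind `4`: the cable pair `C o a ~ B (2o+1) a`, and `C o a ~ C o' a` for consecutive
  occurrences `o < o'` of the same variable;
* kind `5`: `X e x y`, adjacent to `A (3e) x`, `A (3e+1) y`, `A (3e+2) (x + y + rhs e)`.
The vertex set depends on `M` only.
-/

set_option autoImplicit false

namespace Crest.Agent.R290

/-- Vertices: kind, index, two bits. -/
abbrev Vx := ℕ × ℕ × Bool × Bool

/-- The list of all vertices. -/
def verts (M : ℕ) : List Vx :=
  ((List.range (12 * M + 1)).map fun i => (0, i, false, false)) ++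
  ((List.range (6 * M)).map fun t => (1, t, false, false)) ++
  ((List.range (6 * M)).flatMap fun t => [(2, t, false, false), (2, t, true, false)]) ++
  ((List.range (3 * M)).flatMap fun o => [(3, o, false, false), (3, o, true, false)]) ++
  ((List.range (3 * M)).flatMap fun o => [(4, o, false, false), (4, o, true, false)]) ++
  ((List.range M).flatMap fun e =>
    [(5, e, false, false), (5, e, false, true), (5, e, true, false), (5, e, true, true)])

/-- Number of vertices. -/
def nV (M : ℕ) : ℕ := (verts M).length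

variable {Y : Type} [DecidableEq Y]

/-- The variable at occurrence `o`. -/
def var (E : List (Eqn Y)) (o : ℕ) : Option Y := (E.getD (o / 3) ([], false)).1[o % 3]?

/-- The right-hand side of equation `e`. -/
def rhs (E : List (Eqn Y)) (e : ℕ) : Bool := (E.getD e ([], false)).2

/-- `o < o'` are consecutive occurrences of the same variable. -/
def link (E : List (Eqn Y)) (o o' : ℕ) : Bool :=
  decide (o < o') && decide (var E o = var E o') &&
    (List.range (3 * E.length)).all fun u =>
      !(decide (o < u) && decide (u < o') && decide (var E u = var E o))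

/-- The value that the vertex `X e x y` gives to slot `s`. -/
def slotVal (c : Bool) (s : ℕ) (x y : Bool) : Bool :=
  if s = 0 then x else if s = 1 then y else xor (xor x y) c

/-- Oriented edges. -/
def arc (E : List (Eqn Y)) (v w : Vx) : Bool :=
  (decide (v.1 = 0) && decide (w.1 = 0) && decide (w.2.1 = v.2.1 + 1)) ||
  (decide (v.1 = 1) && decide (w.1 = 0) && decide (w.2.1 = 2 * v.2.1 + 2)) ||
  (decide (v.1 = 2) && decide (w.1 = 1) && decide (w.2.1 = v.2.1)) ||
  (decide (v.1 = 2) && decide (w.1 = 2) && decide (v.2.1 % 2 = 0) &&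
    decide (w.2.1 = v.2.1 + 1) && decide (v.2.2.1 = w.2.2.1)) ||
  (decide (v.1 = 3) && decide (w.1 = 2) && decide (w.2.1 = 2 * v.2.1) &&
    decide (v.2.2.1 = w.2.2.1)) ||
  (decide (v.1 = 4) && decide (w.1 = 2) && decide (w.2.1 = 2 * v.2.1 + 1) &&
    decide (v.2.2.1 = w.2.2.1)) ||
  (decide (v.1 = 4) && decide (w.1 = 4) && link E v.2.1 w.2.1 && decide (v.2.2.1 = w.2.2.1)) ||
  (decide (v.1 = 5) && decide (w.1 = 3) && decide (w.2.1 / 3 = v.2.1) &&
    decide (w.2.2.1 = slotVal (rhs E v.2.1) (w.2.1 % 3) v.2.2.1 v.2.2.2))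

/-- Adjacency of vertices. -/
def adjV (E : List (Eqn Y)) (v w : Vx) : Bool := arc E v w || arc E w v

/-- Adjacency of vertex numbers. -/
def gN (M : ℕ) (E : List (Eqn Y)) (i j : ℕ) : Bool :=
  adjV E ((verts M).getD i (0, 0, false, false)) ((verts M).getD j (0, 0, false, false))

/-- The adjacency matrix of the graph of `E` (used with `M = E.length`). -/
def grMat (M : ℕ) (E : List (Eqn Y)) : Fin (nV M) → Fin (nV M) → Bool := toMat (nV M) (gN M E)

/-- The type of vertices. -/
abbrev VT (M : ℕ) := {v : Vx // v ∈ verts M}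

/-- Adjacency on the type of vertices. -/
def adjT (M : ℕ) (E : List (Eqn Y)) (v w : VT M) : Bool := adjV E v.1 w.1

theorem mem_verts {M : ℕ} {v : Vx} : v ∈ verts M ↔
    (v.1 = 0 ∧ v.2.1 ≤ 12 * M ∧ v.2.2.1 = false ∧ v.2.2.2 = false) ∨
    (v.1 = 1 ∧ v.2.1 < 6 * M ∧ v.2.2.1 = false ∧ v.2.2.2 = false) ∨
    (v.1 = 2 ∧ v.2.1 < 6 * M ∧ v.2.2.2 = false) ∨
    (v.1 = 3 ∧ v.2.1 < 3 * M ∧ v.2.2.2 = false) ∨
    (v.1 = 4 ∧ v.2.1 < 3 * M ∧ v.2.2.2 = false) ∨
    (v.1 = 5 ∧ v.2.1 < M) := by
  obtain ⟨k, i, a, c⟩ := v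
  simp only [verts, List.mem_append, List.mem_map, List.mem_flatMap, List.mem_range,
    List.mem_cons, Prod.mk.injEq, List.not_mem_nil, or_false]
  cases a <;> cases c <;> simp <;> aesop

theorem nodup_verts (M : ℕ) : (verts M).Nodup := by
  have h : ∀ (n k : ℕ) (l : List (Bool × Bool)), l.Nodup →
      ((List.range n).flatMap fun t => l.map fun b => ((k, t, b) : Vx)).Nodup := by
    intro n k l hl
    rw [List.nodup_flatMap]
    refine ⟨fun t _ => hl.map fun a b h => by simpa using h, ?_⟩
    refine List.nodup_range.pairwise_of_forall_ne fun a _ b _ hab => ?_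
    simp only [Function.onFun, List.disjoint_left, List.mem_map]
    rintro _ ⟨x, _, rfl⟩ ⟨y, _, h⟩
    simp only [Prod.mk.injEq] at h
    exact hab h.2.1.symm
  have h0 := h (12 * M + 1) 0 [(false, false)] (by simp)
  have h1 := h (6 * M) 1 [(false, false)] (by simp)
  have h2 := h (6 * M) 2 [(false, false), (true, false)] (by simp)
  have h3 := h (3 * M) 3 [(false, false), (true, false)] (by simp)
  have h4 := h (3 * M) 4 [(false, false), (true, false)] (by simp)
  have h5 := h M 5 [(false, false), (false, true), (true, false), (true, true)] (by simp)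
  simp only [List.map_cons, List.map_nil] at h0 h1 h2 h3 h4 h5
  rw [← List.map_eq_flatMap] at h0 h1
  unfold verts
  simp only [List.nodup_append, h0, h1, h2, h3, h4, h5, true_and, List.mem_append,
    List.mem_map, List.mem_flatMap, List.mem_cons, List.not_mem_nil, or_false]
  refine ⟨⟨⟨⟨?_, ?_⟩, ?_⟩, ?_⟩, ?_⟩ <;> aesop

/-- Numbering of the vertices. -/
def vEquiv (M : ℕ) : Fin (nV M) ≃ VT M := List.Nodup.getEquiv (verts M) (nodup_verts M)

theorem grMat_eq (M : ℕ) (E : List (Eqn Y)) :
    grMat M E = fun i j => adjT M E (vEquiv M i) (vEquiv M j) := by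
  funext i j
  have h : ∀ i : Fin (nV M), (verts M).getD i (0, 0, false, false) = (vEquiv M i).1 := fun i => by
    rw [List.getD_eq_getElem _ _ i.2]; rfl
  simp only [grMat, toMat, gN, adjT, h]

theorem nV_eq (M : ℕ) : nV M = 46 * M + 1 := by
  simp [nV, verts, List.length_flatMap]
  omega

end Crest.Agent.R290
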