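import Crest.Agent.R290.Gr

/-!
# rid 290, task GrGame: the graph of a system is subcubic and connected; a consistent system gives
a winning family
-/

set_option autoImplicit false

namespace Crest.Agent.R290

open Crest.WLRefine

variable {Y : Type} [DecidableEq Y] {E : List (Eqn Y)} {M : ℕ}

namespace GrGame

theorem arc_iff {v w : Vx} : arc E v w = true ↔
    (v.1 = 0 ∧ w.1 = 0 ∧ w.2.1 = v.2.1 + 1) ∨
    (v.1 = 1 ∧ w.1 = 0 ∧ w.2.1 = 2 * v.2.1 + 2) ∨
    (v.1 = 2 ∧ w.1 = 1 ∧ w.2.1 = v.2.1) ∨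
    (v.1 = 2 ∧ w.1 = 2 ∧ v.2.1 % 2 = 0 ∧ w.2.1 = v.2.1 + 1 ∧ v.2.2.1 = w.2.2.1) ∨
    (v.1 = 3 ∧ w.1 = 2 ∧ w.2.1 = 2 * v.2.1 ∧ v.2.2.1 = w.2.2.1) ∨
    (v.1 = 4 ∧ w.1 = 2 ∧ w.2.1 = 2 * v.2.1 + 1 ∧ v.2.2.1 = w.2.2.1) ∨
    (v.1 = 4 ∧ w.1 = 4 ∧ link E v.2.1 w.2.1 = true ∧ v.2.2.1 = w.2.2.1) ∨
    (v.1 = 5 ∧ w.1 = 3 ∧ w.2.1 / 3 = v.2.1 ∧
      w.2.2.1 = slotVal (rhs E v.2.1) (w.2.1 % 3) v.2.2.1 v.2.2.2) := by
  simp only [arc, Bool.or_eq_true, Bool.and_eq_true, decide_eq_true_eq, or_assoc, and_assoc]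

theorem link_iff {o o' : ℕ} : link E o o' = true ↔ o < o' ∧ var E o = var E o' ∧
    ∀ u < 3 * E.length, ¬ (o < u ∧ u < o' ∧ var E u = var E o) := by
  simp only [link, Bool.and_eq_true, decide_eq_true_eq, List.all_eq_true, List.mem_range,
    Bool.not_eq_true', and_assoc]
  refine and_congr_right fun _ => and_congr_right fun _ => forall₂_congr fun u _ => ?_
  rw [← Bool.not_eq_true]
  simp only [Bool.and_eq_true, decide_eq_true_eq, and_assoc]

theorem link_succ_unique {o a b : ℕ} (ha : link E o a = true) (hb : link E o b = true)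
    (la : a < 3 * E.length) (lb : b < 3 * E.length) : a = b := by
  rw [link_iff] at ha hb
  by_contra hne
  rcases Nat.lt_or_gt_of_ne hne with h | h
  · exact hb.2.2 a la ⟨ha.1, h, ha.2.1.symm⟩
  · exact ha.2.2 b lb ⟨hb.1, h, hb.2.1.symm⟩

theorem link_pred_unique {o a b : ℕ} (ha : link E a o = true) (hb : link E b o = true)
    (la : a < 3 * E.length) (lb : b < 3 * E.length) : a = b := by
  rw [link_iff] at ha hb
  by_contra hne
  rcases Nat.lt_or_gt_of_ne hne with h | h
  · exact ha.2.2 b lb ⟨h, hb.1, hb.2.1.trans ha.2.1.symm⟩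
  · exact hb.2.2 a la ⟨h, ha.1, ha.2.1.trans hb.2.1.symm⟩

theorem arc_irrefl (v : Vx) : arc E v v = false := by
  rw [← Bool.not_eq_true, arc_iff]
  rintro (h | h | h | h | h | h | h | h)
  · omega
  · omega
  · omega
  · omega
  · omega
  · omega
  · exact lt_irrefl _ (link_iff.1 h.2.2.1).1
  · omega

theorem adjV_iff {v w : Vx} : adjV E v w = true ↔ arc E v w = true ∨ arc E w v = true := by
  simp [adjV]

theorem adjV_comm (v w : Vx) : adjV E v w = adjV E w v := by
  simp [adjV, Bool.or_comm]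

theorem adjV_irrefl (v : Vx) : adjV E v v = false := by simp [adjV, arc_irrefl]

/-- Each slot value is taken by at most two pairs of bits. -/
theorem slot_two (c : Bool) (s : ℕ) (a : Bool) : ∃ p q : Bool × Bool, ∀ x y,
    a = slotVal c s x y → (x, y) = p ∨ (x, y) = q := by
  unfold slotVal
  by_cases h0 : s = 0
  · refine ⟨(a, false), (a, true), fun x y => ?_⟩
    simp only [h0, if_true]
    rintro rfl
    cases y <;> simp
  · by_cases h1 : s = 1
    · refine ⟨(false, a), (true, a), fun x y => ?_⟩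
      simp only [h1, if_true, one_ne_zero, if_false]
      rintro rfl
      cases x <;> simp
    · refine ⟨(false, xor a c), (true, !(xor a c)), fun x y => ?_⟩
      simp only [h0, h1, if_false]
      rintro rfl
      cases x <;> cases y <;> cases c <;> simp

theorem vx_ext {v : Vx} {k i : ℕ} {a b : Bool} (h1 : v.1 = k) (h2 : v.2.1 = i) (h3 : v.2.2.1 = a)
    (h4 : v.2.2.2 = b) : v = (k, i, a, b) := by
  obtain ⟨k', i', a', b'⟩ := v
  simp_all

theorem three_nbrs (hM : E.length = M) {v : Vx} (hv : v ∈ verts M) : ∃ a b c : Vx,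
    ∀ w ∈ verts M, adjV E v w = true → w = a ∨ w = b ∨ w = c := by
  rcases mem_verts.1 hv with h | h | h | h | h | h
  · refine ⟨(0, v.2.1 + 1, false, false), (0, v.2.1 - 1, false, false),
      (1, (v.2.1 - 2) / 2, false, false), fun w hw ha => ?_⟩
    have hw := mem_verts.1 hw
    rw [adjV_iff, arc_iff, arc_iff] at ha
    have hb : (w.1 = 0 ∧ w.2.1 = v.2.1 + 1) ∨ (w.1 = 0 ∧ w.2.1 = v.2.1 - 1) ∨
        (w.1 = 1 ∧ w.2.1 = (v.2.1 - 2) / 2) := by omega
    have hc : w.2.2.1 = false ∧ w.2.2.2 = false := by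
      rcases hw with h' | h' | h' | h' | h' | h'
      · exact h'.2.2
      · exact h'.2.2
      all_goals omega
    rcases hb with h' | h' | h'
    · exact Or.inl (vx_ext h'.1 h'.2 hc.1 hc.2)
    · exact Or.inr (Or.inl (vx_ext h'.1 h'.2 hc.1 hc.2))
    · exact Or.inr (Or.inr (vx_ext h'.1 h'.2 hc.1 hc.2))
  · refine ⟨(0, 2 * v.2.1 + 2, false, false), (2, v.2.1, false, false),
      (2, v.2.1, true, false), fun w hw ha => ?_⟩
    have hw := mem_verts.1 hw
    rw [adjV_iff, arc_iff, arc_iff] at ha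
    have hb : (w.1 = 0 ∧ w.2.1 = 2 * v.2.1 + 2) ∨ (w.1 = 2 ∧ w.2.1 = v.2.1) := by omega
    rcases hb with h' | h'
    · have hc : w.2.2.1 = false ∧ w.2.2.2 = false := by
        rcases hw with h' | h' | h' | h' | h' | h'
        · exact h'.2.2
        all_goals omega
      exact Or.inl (vx_ext h'.1 h'.2 hc.1 hc.2)
    · have hc : w.2.2.2 = false := by
        rcases hw with h' | h' | h' | h' | h' | h'
        · omega
        · omega
        · exact h'.2.2
        all_goals omega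
      cases hb : w.2.2.1
      · exact Or.inr (Or.inl (vx_ext h'.1 h'.2 hb hc))
      · exact Or.inr (Or.inr (vx_ext h'.1 h'.2 hb hc))
  · refine ⟨(1, v.2.1, false, false),
      (2, if v.2.1 % 2 = 0 then v.2.1 + 1 else v.2.1 - 1, v.2.2.1, false),
      (if v.2.1 % 2 = 0 then 3 else 4, v.2.1 / 2, v.2.2.1, false), fun w hw ha => ?_⟩
    have hw := mem_verts.1 hw
    rw [adjV_iff, arc_iff, arc_iff] at ha
    have hc : w.2.2.2 = false := by
      rcases hw with h' | h' | h' | h' | h' | h'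
      · exact h'.2.2.2
      · exact h'.2.2.2
      · exact h'.2.2
      · exact h'.2.2
      · exact h'.2.2
      · omega
    rcases ha with (h' | h' | h' | h' | h' | h' | h' | h') | (h' | h' | h' | h' | h' | h' | h' | h')
    any_goals omega
    · refine Or.inl (vx_ext h'.2.1 h'.2.2 ?_ hc)
      rcases hw with h' | h' | h' | h' | h' | h'
      · omega
      · exact h'.2.2.1
      all_goals omega
    · exact Or.inr (Or.inl (vx_ext h'.2.1 (by rw [if_pos h'.2.2.1]; omega) h'.2.2.2.2.symm hc))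
    · exact Or.inr (Or.inl (vx_ext h'.1 (by rw [if_neg (by omega)]; omega) h'.2.2.2.2 hc))
    · exact Or.inr (Or.inr (vx_ext (by rw [if_pos (by omega)]; omega) (by omega) h'.2.2.2 hc))
    · exact Or.inr (Or.inr (vx_ext (by rw [if_neg (by omega)]; omega) (by omega) h'.2.2.2 hc))
  · obtain ⟨p, q, hpq⟩ := slot_two (rhs E (v.2.1 / 3)) (v.2.1 % 3) v.2.2.1
    refine ⟨(2, 2 * v.2.1, v.2.2.1, false), (5, v.2.1 / 3, p.1, p.2),
      (5, v.2.1 / 3, q.1, q.2), fun w hw ha => ?_⟩
    have hw := mem_verts.1 hw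
    rw [adjV_iff, arc_iff, arc_iff] at ha
    rcases ha with (h' | h' | h' | h' | h' | h' | h' | h') | (h' | h' | h' | h' | h' | h' | h' | h')
    any_goals omega
    · refine Or.inl (vx_ext h'.2.1 h'.2.2.1 h'.2.2.2.symm ?_)
      rcases hw with h' | h' | h' | h' | h' | h'
      · omega
      · omega
      · exact h'.2.2
      all_goals omega
    · have := hpq w.2.2.1 w.2.2.2 (by rw [h'.2.2.1]; exact h'.2.2.2)
      rcases this with e | e
      · exact Or.inr (Or.inl (vx_ext h'.1 h'.2.2.1.symm (by rw [← e]) (by rw [← e])))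
      · exact Or.inr (Or.inr (vx_ext h'.1 h'.2.2.1.symm (by rw [← e]) (by rw [← e])))
  · obtain ⟨s, hs⟩ : ∃ s, ∀ a < 3 * M, link E v.2.1 a = true → a = s := by
      by_cases hx : ∃ a < 3 * M, link E v.2.1 a = true
      · obtain ⟨s, hs, hs'⟩ := hx
        exact ⟨s, fun a ha ha' => link_succ_unique ha' hs' (hM ▸ ha) (hM ▸ hs)⟩
      · exact ⟨0, fun a ha ha' => absurd ⟨a, ha, ha'⟩ hx⟩
    obtain ⟨p, hp⟩ : ∃ s, ∀ a < 3 * M, link E a v.2.1 = true → a = s := by
      by_cases hx : ∃ a < 3 * M, link E a v.2.1 = true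
      · obtain ⟨s, hs, hs'⟩ := hx
        exact ⟨s, fun a ha ha' => link_pred_unique ha' hs' (hM ▸ ha) (hM ▸ hs)⟩
      · exact ⟨0, fun a ha ha' => absurd ⟨a, ha, ha'⟩ hx⟩
    refine ⟨(2, 2 * v.2.1 + 1, v.2.2.1, false), (4, s, v.2.2.1, false),
      (4, p, v.2.2.1, false), fun w hw ha => ?_⟩
    have hw := mem_verts.1 hw
    rw [adjV_iff, arc_iff, arc_iff] at ha
    have hc : w.2.2.2 = false := by
      rcases hw with h' | h' | h' | h' | h' | h'
      · exact h'.2.2.2
      · exact h'.2.2.2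
      · exact h'.2.2
      · exact h'.2.2
      · exact h'.2.2
      · omega
    rcases ha with (h' | h' | h' | h' | h' | h' | h' | h') | (h' | h' | h' | h' | h' | h' | h' | h')
    any_goals omega
    · exact Or.inl (vx_ext h'.2.1 h'.2.2.1 h'.2.2.2.symm hc)
    · exact Or.inr (Or.inl (vx_ext h'.2.1 (hs _ (by omega) h'.2.2.1) h'.2.2.2.symm hc))
    · exact Or.inr (Or.inr (vx_ext h'.1 (hp _ (by omega) h'.2.2.1) h'.2.2.2 hc))
  · refine ⟨(3, 3 * v.2.1, slotVal (rhs E v.2.1) 0 v.2.2.1 v.2.2.2, false),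
      (3, 3 * v.2.1 + 1, slotVal (rhs E v.2.1) 1 v.2.2.1 v.2.2.2, false),
      (3, 3 * v.2.1 + 2, slotVal (rhs E v.2.1) 2 v.2.2.1 v.2.2.2, false), fun w hw ha => ?_⟩
    have hw := mem_verts.1 hw
    rw [adjV_iff, arc_iff, arc_iff] at ha
    rcases ha with (h' | h' | h' | h' | h' | h' | h' | h') | (h' | h' | h' | h' | h' | h' | h' | h')
    any_goals omega
    have hc : w.2.2.2 = false := by
      rcases hw with h' | h' | h' | h' | h' | h'
      · omega
      · omega
      · omega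
      · exact h'.2.2
      all_goals omega
    have h3 : w.2.1 % 3 = 0 ∨ w.2.1 % 3 = 1 ∨ w.2.1 % 3 = 2 := by omega
    rcases h3 with e | e | e
    · exact Or.inl (vx_ext h'.2.1 (by omega) (e ▸ h'.2.2.2) hc)
    · exact Or.inr (Or.inl (vx_ext h'.2.1 (by omega) (e ▸ h'.2.2.2) hc))
    · exact Or.inr (Or.inr (vx_ext h'.2.1 (by omega) (e ▸ h'.2.2.2) hc))

theorem root_mem (M : ℕ) : ((0, 0, false, false) : Vx) ∈ verts M := by simp [mem_verts]

/-- The vertex reaches the end of the spine. -/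
def Reach (M : ℕ) (E : List (Eqn Y)) (v : Vx) : Prop :=
  ∃ h : v ∈ verts M, (adjGraph (grMat M E)).Reachable ((vEquiv M).symm ⟨v, h⟩)
    ((vEquiv M).symm ⟨_, root_mem M⟩)

theorem Reach.step {v w : Vx} (hw : Reach M E w) (hv : v ∈ verts M) (h : adjV E v w = true) :
    Reach M E v := by
  obtain ⟨hw, hr⟩ := hw
  refine ⟨hv, SimpleGraph.Reachable.trans (SimpleGraph.Adj.reachable ?_) hr⟩
  rw [adjGraph, SimpleGraph.fromRel_adj]
  refine ⟨fun e => ?_, Or.inl ?_⟩
  · have := congrArg Subtype.val ((vEquiv M).symm.injective e)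
    simp only at this
    rw [this, adjV_irrefl] at h
    cases h
  · rw [grMat_eq]
    simpa [adjT] using h

theorem reach_spine : ∀ i ≤ 12 * M, Reach M E (0, i, false, false) := by
  intro i
  induction i with
  | zero => intro _; exact ⟨root_mem M, SimpleGraph.Reachable.refl _⟩
  | succ i ih =>
    intro hi
    exact (ih (by omega)).step (by simp [mem_verts]; omega) (by simp [adjV_iff, arc_iff])

theorem reach_c {t : ℕ} (ht : t < 6 * M) : Reach M E (1, t, false, false) :=
  (reach_spine (2 * t + 2) (by omega)).step (by simp [mem_verts, ht]) (by simp [adjV_iff, arc_iff])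

theorem reach_B {t : ℕ} (ht : t < 6 * M) (a : Bool) : Reach M E (2, t, a, false) :=
  (reach_c ht).step (by simp [mem_verts, ht]) (by simp [adjV_iff, arc_iff])

theorem reach_A {o : ℕ} (ho : o < 3 * M) (a : Bool) : Reach M E (3, o, a, false) :=
  (reach_B (t := 2 * o) (by omega) a).step (by simp [mem_verts, ho]) (by simp [adjV_iff, arc_iff])

theorem reach_C {o : ℕ} (ho : o < 3 * M) (a : Bool) : Reach M E (4, o, a, false) :=
  (reach_B (t := 2 * o + 1) (by omega) a).step (by simp [mem_verts, ho])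
    (by simp [adjV_iff, arc_iff])

theorem reach_X {e : ℕ} (he : e < M) (x y : Bool) : Reach M E (5, e, x, y) :=
  (reach_A (o := 3 * e) (by omega) x).step (by simp [mem_verts, he])
    (by simp [adjV_iff, arc_iff, slotVal])

theorem reach_all {v : Vx} (hv : v ∈ verts M) : Reach M E v := by
  rcases mem_verts.1 hv with h | h | h | h | h | h
  · rw [vx_ext h.1 rfl h.2.2.1 h.2.2.2]; exact reach_spine _ h.2.1
  · rw [vx_ext h.1 rfl h.2.2.1 h.2.2.2]; exact reach_c h.2.1
  · rw [vx_ext h.1 rfl rfl h.2.2]; exact reach_B h.2.1 _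
  · rw [vx_ext h.1 rfl rfl h.2.2]; exact reach_A h.2.1 _
  · rw [vx_ext h.1 rfl rfl h.2.2]; exact reach_C h.2.1 _
  · rw [vx_ext h.1 rfl rfl rfl]; exact reach_X h.2 _ _

theorem connected : (adjGraph (grMat M E)).Connected := by
  have key : ∀ i, (adjGraph (grMat M E)).Reachable i ((vEquiv M).symm ⟨_, root_mem M⟩) := by
    intro i
    obtain ⟨h, hr⟩ := reach_all (E := E) (vEquiv M i).2
    simpa using hr
  have : Nonempty (Fin (nV M)) := ⟨(vEquiv M).symm ⟨_, root_mem M⟩⟩
  exact ⟨fun i j => (key i).trans (key j).symm⟩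

/-! ### The game -/

/-- The flip of the first bit. -/
def fl1 (φ : ℕ → Bool) (k i : ℕ) : Bool :=
  if k = 2 then φ (i / 2) else if k = 3 ∨ k = 4 then φ i else if k = 5 then φ (3 * i) else false

/-- The flip of the second bit. -/
def fl2 (φ : ℕ → Bool) (k i : ℕ) : Bool := if k = 5 then φ (3 * i + 1) else false

/-- Translation of vertices. -/
def trV (φ : ℕ → Bool) (v : Vx) : Vx :=
  (v.1, v.2.1, xor v.2.2.1 (fl1 φ v.1 v.2.1), xor v.2.2.2 (fl2 φ v.1 v.2.1))

theorem trV_trV (φ : ℕ → Bool) (v : Vx) : trV φ (trV φ v) = v := by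
  simp [trV]

theorem trV_mem (φ : ℕ → Bool) {v : Vx} (hv : v ∈ verts M) : trV φ v ∈ verts M := by
  rw [mem_verts] at hv ⊢
  rcases hv with h | h | h | h | h | h <;> simp [trV, fl1, fl2, h]

/-- The number of the equation of a vertex of kind `2, …, 5`. -/
def eqIdx (k i : ℕ) : ℕ := if k = 2 then i / 2 / 3 else if k = 5 then i else i / 3

theorem trV_congr {φ ψ : ℕ → Bool} {v : Vx}
    (h : 2 ≤ v.1 → ∀ o, o / 3 = eqIdx v.1 v.2.1 → φ o = ψ o) : trV φ v = trV ψ v := by
  have h1 : fl1 φ v.1 v.2.1 = fl1 ψ v.1 v.2.1 := by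
    unfold fl1
    split_ifs with a b c
    · exact h (by omega) _ (by simp [eqIdx, a])
    · exact h (by omega) _ (by rcases b with b | b <;> simp [eqIdx, b])
    · exact h (by omega) _ (by simp [eqIdx, c])
    · rfl
  have h2 : fl2 φ v.1 v.2.1 = fl2 ψ v.1 v.2.1 := by
    unfold fl2
    split_ifs with a
    · exact h (by omega) _ (by simp [eqIdx, a]; omega)
    · rfl
  simp only [trV, h1, h2]

omit [DecidableEq Y] in
theorem var_homog (o : ℕ) : var (homog E) o = var E o := by
  simp only [var, homog, List.getD_eq_getElem?_getD, List.getElem?_map]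
  cases E[o / 3]? <;> rfl

omit [DecidableEq Y] in
theorem rhs_homog (e : ℕ) : rhs (homog E) e = false := by
  simp only [rhs, homog, List.getD_eq_getElem?_getD, List.getElem?_map]
  cases E[e]? <;> rfl

theorem link_homog (o o' : ℕ) : link (homog E) o o' = link E o o' := by
  simp only [link, var_homog, length_homog]

theorem arc_trV {φ : ℕ → Bool} (hφ : ∀ o o', var E o = var E o' → φ o = φ o') {v w : Vx}
    (hs : v.1 = 5 → xor (xor (φ (3 * v.2.1)) (φ (3 * v.2.1 + 1))) (φ (3 * v.2.1 + 2)) =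
      rhs E v.2.1) :
    arc (homog E) v w = arc E (trV φ v) (trV φ w) := by
  rw [Bool.eq_iff_iff, arc_iff, arc_iff]
  simp only [link_homog, rhs_homog]
  refine or_congr Iff.rfl (or_congr Iff.rfl (or_congr Iff.rfl (or_congr ?_ (or_congr ?_
    (or_congr ?_ (or_congr ?_ ?_))))))
  · refine and_congr_right fun h1 => and_congr_right fun h2 => and_congr_right fun h3 =>
      and_congr_right fun h4 => ?_
    have h4 : w.2.1 = v.2.1 + 1 := h4
    have e : w.2.1 / 2 = v.2.1 / 2 := by omega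
    simp [trV, fl1, h1, h2, e]
  · refine and_congr_right fun h1 => and_congr_right fun h2 => and_congr_right fun h3 => ?_
    have h3 : w.2.1 = 2 * v.2.1 := h3
    have e : w.2.1 / 2 = v.2.1 := by omega
    simp [trV, fl1, h1, h2, e]
  · refine and_congr_right fun h1 => and_congr_right fun h2 => and_congr_right fun h3 => ?_
    have h3 : w.2.1 = 2 * v.2.1 + 1 := h3
    have e : w.2.1 / 2 = v.2.1 := by omega
    simp [trV, fl1, h1, h2, e]
  · refine and_congr_right fun h1 => and_congr_right fun h2 => and_congr_right fun h3 => ?_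
    have e := hφ _ _ (link_iff.1 h3).2.1
    simp [trV, fl1, h1, h2, e]
  · refine and_congr_right fun h1 => and_congr_right fun h2 => and_congr_right fun h3 => ?_
    have h3 : w.2.1 / 3 = v.2.1 := h3
    have hs := hs h1
    have h4 : w.2.1 % 3 = 0 ∨ w.2.1 % 3 = 1 ∨ w.2.1 % 3 = 2 := by omega
    rcases h4 with e | e | e
    · have e' : w.2.1 = 3 * v.2.1 := by omega
      simp [trV, fl1, fl2, h1, h2, e', slotVal]
    · have e' : w.2.1 = 3 * v.2.1 + 1 := by omega
      simp [trV, fl1, fl2, h1, h2, e', slotVal]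
    · have e' : φ w.2.1 = φ (3 * v.2.1 + 2) := by congr 1; omega
      have g1 : fl1 φ 3 w.2.1 = φ (3 * v.2.1 + 2) := by simp [fl1, e']
      have g2 : fl1 φ 5 v.2.1 = φ (3 * v.2.1) := by simp [fl1]
      have g3 : fl2 φ 5 v.2.1 = φ (3 * v.2.1 + 1) := by simp [fl2]
      simp only [trV, h1, h2, e, g1, g2, g3, slotVal, ← hs]
      generalize φ (3 * v.2.1) = a, φ (3 * v.2.1 + 1) = b, φ (3 * v.2.1 + 2) = c,
        w.2.2.1 = d, v.2.2.1 = x, v.2.2.2 = y
      revert a b c d x y
      decide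

/-- An element of `ZMod 2` as a bit. -/
def z2b (a : ZMod 2) : Bool := decide (a = 1)

/-- The flips of an assignment. -/
def flp (E : List (Eqn Y)) (η : Y → ZMod 2) (o : ℕ) : Bool := z2b ((var E o).elim 0 η)

omit [DecidableEq Y] in
theorem flp_sat {η : Y → ZMod 2} {e : ℕ} (h3 : (E.getD e ([], false)).1.length = 3)
    (hs : Sat η (E.getD e ([], false))) :
    xor (xor (flp E η (3 * e)) (flp E η (3 * e + 1))) (flp E η (3 * e + 2)) = rhs E e := by
  have e0 : 3 * e / 3 = e := by omega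
  have e1 : (3 * e + 1) / 3 = e := by omega
  have e2 : (3 * e + 2) / 3 = e := by omega
  have m0 : 3 * e % 3 = 0 := by omega
  have m1 : (3 * e + 1) % 3 = 1 := by omega
  have m2 : (3 * e + 2) % 3 = 2 := by omega
  simp only [flp, var, rhs, e0, e1, e2, m0, m1, m2]
  generalize E.getD e ([], false) = q at h3 hs
  obtain ⟨l, c⟩ := q
  obtain ⟨x, y, z, rfl⟩ := List.length_eq_three.1 h3
  simp only [Sat, lsum_cons, lsum_nil, b2z] at hs
  simp only [List.getElem?_cons_zero, List.getElem?_cons_succ, Option.elim_some]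
  have key : ∀ (c : Bool) (a b d : ZMod 2), (a + (b + (d + 0)) = if c = true then 1 else 0) →
      xor (xor (z2b a) (z2b b)) (z2b d) = c := by decide
  exact key _ _ _ _ hs

omit [DecidableEq Y] in
theorem flp_congr {η η' : Y → ZMod 2} {o : ℕ}
    (h : ∀ x ∈ (E.getD (o / 3) ([], false)).1, η x = η' x) : flp E η o = flp E η' o := by
  unfold flp
  cases e : var E o with
  | none => rfl
  | some x =>
    simp only [Option.elim_some]
    rw [h x (List.mem_of_getElem? e)]

theorem eqIdx_lt {v : Vx} (hv : v ∈ verts M) (h2 : 2 ≤ v.1) : eqIdx v.1 v.2.1 < M := by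
  unfold eqIdx
  rcases mem_verts.1 hv with h | h | h | h | h | h <;> split_ifs <;> omega

/-- The equation of a vertex. -/
def eqOf (E : List (Eqn Y)) (v : Vx) : Eqn Y := E.getD (eqIdx v.1 v.2.1) ([], false)

omit [DecidableEq Y] in
theorem eqOf_mem (hM : E.length = M) {v : Vx} (hv : v ∈ verts M) (h2 : 2 ≤ v.1) :
    eqOf E v ∈ E := by
  have := eqIdx_lt hv h2
  rw [eqOf, List.getD_eq_getElem _ _ (by omega)]
  exact List.getElem_mem _

theorem game_VT {K : ℕ} (h3 : ∀ e ∈ E, e.1.length = 3) (hM : E.length = M) (h : LCons E K) :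
    Game (adjT M (homog E)) (adjT M E) K := by
  classical
  obtain ⟨𝒱, h𝒱⟩ := h
  refine ⟨fun S => ∃ η R, 𝒱 R η ∧ (∀ p ∈ S, 2 ≤ p.1.1.1 → eqOf E p.1.1 ∈ R) ∧
    ∀ p ∈ S, p.2.1 = trV (flp E η) p.1.1, ?_, ?_, ?_, ?_, ?_⟩
  · obtain ⟨η, hη⟩ := h𝒱.empty
    exact ⟨η, ∅, hη, by simp, by simp⟩
  · rintro S S' ⟨η, R, h1, h2, h4⟩ hs
    exact ⟨η, R, h1, fun p hp => h2 p (hs hp), fun p hp => h4 p (hs hp)⟩
  · rintro S ⟨η, R, -, -, h4⟩ p hp q hq
    rw [Subtype.ext_iff, Subtype.ext_iff, h4 p hp, h4 q hq]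
    refine ⟨fun e => by rw [e], fun e => ?_⟩
    have := congrArg (trV (flp E η)) e
    rwa [trV_trV, trV_trV] at this
  · rintro S ⟨η, R, h1, h2, h4⟩ p hp q hq
    have hφ : ∀ o o', var E o = var E o' → flp E η o = flp E η o' := fun o o' e => by
      simp only [flp, e]
    have hs : ∀ p ∈ S, p.1.1.1 = 5 → xor (xor (flp E η (3 * p.1.1.2.1)) (flp E η (3 * p.1.1.2.1 + 1)))
        (flp E η (3 * p.1.1.2.1 + 2)) = rhs E p.1.1.2.1 := by
      intro p hp h5
      have e : eqOf E p.1.1 = E.getD p.1.1.2.1 ([], false) := by simp [eqOf, eqIdx, h5]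
      refine flp_sat ?_ ?_
      · rw [← e]; exact h3 _ (eqOf_mem hM p.1.2 (by omega))
      · rw [← e]; exact h𝒱.sat h1 _ (h2 p hp (by omega))
    simp only [adjT, adjV, h4 p hp, h4 q hq]
    rw [arc_trV hφ (hs p hp), arc_trV hφ (hs q hq)]
  · rintro S ⟨η, R, h1, h2, h4⟩ hc
    have hS : S.Finite := S.toFinite
    let R₀ : Finset (Eqn Y) := (hS.toFinset.filter fun p => 2 ≤ p.1.1.1).image fun p => eqOf E p.1.1
    have hR : ∀ p ∈ S, 2 ≤ p.1.1.1 → eqOf E p.1.1 ∈ R₀ := fun p hp hk =>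
      Finset.mem_image.2 ⟨p, Finset.mem_filter.2 ⟨hS.mem_toFinset.2 hp, hk⟩, rfl⟩
    have hR' : ∀ e ∈ R₀, e ∈ R ∧ e ∈ E := by
      intro e he
      obtain ⟨p, hp, rfl⟩ := Finset.mem_image.1 he
      simp only [Finset.mem_filter, Set.Finite.mem_toFinset] at hp
      exact ⟨h2 p hp.1 hp.2, eqOf_mem hM p.1.2 hp.2⟩
    have hcard : R₀.card < K := by
      refine lt_of_le_of_lt (Finset.card_image_le.trans ((Finset.card_filter_le _ _).trans ?_)) hc
      rw [Set.ncard_eq_toFinset_card S hS]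
    have h0 : 𝒱 R₀ η := h𝒱.mono (fun e he => (hR' e he).1) h1
    have hex : ∀ k i : ℕ, ∃ η' R', 𝒱 R' η' ∧ R₀ ⊆ R' ∧ (∀ e ∈ R₀, ∀ x ∈ e.1, η' x = η x) ∧
        ∀ a b, (k, i, a, b) ∈ verts M → 2 ≤ k → eqOf E (k, i, a, b) ∈ R' := by
      intro k i
      by_cases hk : eqOf E (k, i, false, false) ∈ E
      · obtain ⟨η', g1, g2⟩ := h𝒱.ext (Finset.subset_insert (eqOf E (k, i, false, false)) R₀)
          (fun e he => by
            rcases Finset.mem_insert.1 he with rfl | he
            · exact hk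
            · exact (hR' e he).2)
          ((Finset.card_insert_le _ _).trans hcard) h0
        exact ⟨η', _, g1, Finset.subset_insert _ _, g2, fun a b _ _ => Finset.mem_insert_self _ _⟩
      · exact ⟨η, R₀, h0, subset_rfl, fun _ _ _ _ => rfl, fun a b hv h2 =>
          absurd (eqOf_mem hM hv h2) hk⟩
    choose η' R' g1 g2 g3 g4 using hex
    let f : VT M → VT M := fun v => ⟨trV (flp E (η' v.1.1 v.1.2.1)) v.1, trV_mem _ v.2⟩
    have hf : Function.Involutive f := fun v => Subtype.ext (trV_trV _ _)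
    refine ⟨hf.toPerm, fun z => ⟨η' z.1.1 z.1.2.1, R' z.1.1 z.1.2.1, g1 _ _, ?_, ?_⟩⟩
    · rintro p (rfl | hp) hk
      · exact g4 _ _ _ _ z.2 hk
      · exact g2 _ _ (hR p hp hk)
    · rintro p (rfl | hp)
      · rfl
      · rw [h4 p hp]
        refine trV_congr fun hk o ho => flp_congr fun x hx => ?_
        rw [ho] at hx
        exact (g3 _ _ _ (hR p hp hk) x hx).symm

end GrGame

open GrGame

/-- Work on `VT M` through `grMat_eq`, `vEquiv`, `mem_verts`.  Degrees: list the (at most three)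
possible neighbours of each kind; `link` has at most one successor and one predecessor.
Connected: every vertex reaches the spine (`X e x y ~ A (3e) x ~ B (6e) x ~ c ~ W`). -/
theorem gr_subcubic (hM : E.length = M) : SimpleConnSubcubic (grMat M E) := by
  refine ⟨⟨fun v w => ?_, fun v => ?_⟩, connected, fun v => ?_⟩
  · rw [grMat_eq]; exact adjV_comm _ _
  · rw [grMat_eq]; exact adjV_irrefl _
  · obtain ⟨a, b, c, h⟩ := three_nbrs hM (vEquiv M v).2
    refine le_trans (Finset.card_le_card_of_injOn (t := {a, b, c}) (fun w => (vEquiv M w).1)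
      (fun w hw => ?_) fun w _ w' _ e => (vEquiv M).injective (Subtype.ext e)) Finset.card_le_three
    have hw : grMat M E v w = true := by simpa using hw
    rw [grMat_eq] at hw
    simpa using h _ (vEquiv M w).2 hw

theorem gr_noIsolated (hM : E.length = M) (hpos : 0 < M) : NoIsolated (grMat M E) := by
  intro v
  have hc := (gr_subcubic hM).2.1
  have hs := (gr_subcubic hM).1
  have : Nontrivial (Fin (nV M)) := Fin.nontrivial_iff_two_le.2 (by rw [nV_eq]; omega)
  obtain ⟨w, hw⟩ := hc.preconnected.exists_adj_of_nontrivial v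
  rw [adjGraph, SimpleGraph.fromRel_adj] at hw
  rcases hw.2 with h | h
  · exact ⟨w, h⟩
  · exact ⟨w, by rw [hs.1]; exact h⟩

/-- Every vertex of kind `2..5` belongs to an equation `eqOf v = E[e]` (`e = t/2/3`, `o/3`, `e`).
An assignment `η` translates vertices: kind `2`: flip the bit if `η (var (t/2)) = 1`; kinds `3, 4`:
if `η (var o) = 1`; kind `5`: flip `x` if `η (var (3e)) = 1`, `y` if `η (var (3e+1)) = 1`; kinds
`0, 1`: fixed.  Positions: `S` such that some `η` has `𝒱 (eqOf '' S) η` and every pair of `S` is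
`(v, tr η v)`.  Extension: for every equation `e` choose `η_e` good for `eqOf '' S ∪ {e}` that
agrees with `η` on the variables of the old equations; `f v = tr η_{eqOf v} v` is an involution.
Adjacency `X e x y ~ A (3e+2) _` is preserved since `η` satisfies `E[e]`; `var`, `link` are the
same for `homog E` and `E`, and `rhs (homog E) e = false`.  Finish with `Game.comap`. -/
theorem gr_game {K : ℕ} (h3 : ∀ e ∈ E, e.1.length = 3) (hM : E.length = M) (h : LCons E K) :
    Game (grMat M (homog E)) (grMat M E) K := by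
  rw [grMat_eq, grMat_eq]
  exact (game_VT h3 hM h).comap (vEquiv M) (vEquiv M)

end Crest.Agent.R290
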