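import Crest.Agent.R290.Gr

/-!
# rid 290, task GrStrat: a winning family on the graphs gives a strategy on the variables
-/

set_option autoImplicit false

namespace Crest.Agent.R290

variable {Y : Type} [DecidableEq Y] {E : List (Eqn Y)} {M : ℕ}

/-! ### rigidity -/

/-- kind and index -/
def gsNd (v : VT M) : ℕ × ℕ := (v.1.1, v.1.2.1)

/-- a relation that survives one round of the game -/
def GsBis (M : ℕ) (E₁ E₂ : List (Eqn Y)) (R : VT M → VT M → Prop) : Prop :=
  ∀ a c, R a c → ∃ f : VT M ≃ VT M, ∀ z, R z (f z) ∧ adjT M E₁ z a = adjT M E₂ (f z) c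

theorem GsBis.symm {E₁ E₂ : List (Eqn Y)} {R : VT M → VT M → Prop} (h : GsBis M E₁ E₂ R) :
    GsBis M E₂ E₁ fun c a => R a c := by
  intro c a hac
  obtain ⟨f, hf⟩ := h a c hac
  refine ⟨f.symm, fun z => ?_⟩
  have := hf (f.symm z)
  rw [f.apply_symm_apply] at this
  exact ⟨this.1, this.2.symm⟩

/-- at most one neighbour -/
def GsDeg1 (E : List (Eqn Y)) (v : VT M) : Prop :=
  ∀ x y, adjT M E x v = true → adjT M E y v = true → x = y

/-- at most two neighbours -/
def GsDeg2 (E : List (Eqn Y)) (v : VT M) : Prop :=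
  ∀ x y z, adjT M E x v = true → adjT M E y v = true → adjT M E z v = true →
    x = y ∨ x = z ∨ y = z

theorem GsBis.deg1 {E₁ E₂ : List (Eqn Y)} {R : VT M → VT M → Prop} (h : GsBis M E₁ E₂ R)
    {a c : VT M} (hac : R a c) (hd : GsDeg1 E₁ a) : GsDeg1 E₂ c := by
  obtain ⟨f, hf⟩ := h a c hac
  intro x y hx hy
  obtain ⟨x, rfl⟩ := f.surjective x
  obtain ⟨y, rfl⟩ := f.surjective y
  rw [← (hf _).2] at hx hy
  rw [hd x y hx hy]

theorem GsBis.deg2 {E₁ E₂ : List (Eqn Y)} {R : VT M → VT M → Prop} (h : GsBis M E₁ E₂ R)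
    {a c : VT M} (hac : R a c) (hd : GsDeg2 E₁ a) : GsDeg2 E₂ c := by
  obtain ⟨f, hf⟩ := h a c hac
  intro x y z hx hy hz
  obtain ⟨x, rfl⟩ := f.surjective x
  obtain ⟨y, rfl⟩ := f.surjective y
  obtain ⟨z, rfl⟩ := f.surjective z
  rw [← (hf _).2] at hx hy hz
  simpa only [f.injective.eq_iff] using hd x y z hx hy hz

theorem gs_not_deg2 {v : VT M} (x y z : Vx) (hx : x ∈ verts M) (hy : y ∈ verts M)
    (hz : z ∈ verts M) (h1 : adjV E x v.1 = true) (h2 : adjV E y v.1 = true)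
    (h3 : adjV E z v.1 = true) (hne : x ≠ y ∧ x ≠ z ∧ y ≠ z) : ¬ GsDeg2 E v := by
  intro h
  have := h ⟨x, hx⟩ ⟨y, hy⟩ ⟨z, hz⟩ h1 h2 h3
  simp only [Subtype.mk.injEq] at this
  tauto

theorem gs_deg2_kind {v : VT M} (h : GsDeg2 E v) : v.1.1 = 0 ∨ v.1.1 = 4 := by
  obtain ⟨⟨k, i, a, b⟩, hv⟩ := v
  have hv' := mem_verts.1 hv
  simp only at hv' ⊢
  rcases hv' with ⟨rfl, -⟩ | ⟨rfl, hi, rfl, rfl⟩ | ⟨rfl, hi, rfl⟩ | ⟨rfl, hi, rfl⟩ | ⟨rfl, -⟩ |
    ⟨rfl, hi⟩
  · exact Or.inl rfl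
  · refine absurd h (gs_not_deg2 (0, 2 * i + 2, false, false) (2, i, false, false)
      (2, i, true, false) ?_ ?_ ?_ ?_ ?_ ?_ ?_) <;> simp [mem_verts, adjV, arc] <;> omega
  · rcases Nat.even_or_odd' i with ⟨o, rfl | rfl⟩
    · refine absurd h (gs_not_deg2 (1, 2 * o, false, false) (2, 2 * o + 1, a, false)
        (3, o, a, false) ?_ ?_ ?_ ?_ ?_ ?_ ?_) <;> simp [mem_verts, adjV, arc] <;> omega
    · refine absurd h (gs_not_deg2 (1, 2 * o + 1, false, false) (2, 2 * o, a, false)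
        (4, o, a, false) ?_ ?_ ?_ ?_ ?_ ?_ ?_) <;> simp [mem_verts, adjV, arc] <;> omega
  · have h3 : i % 3 = 0 ∨ i % 3 = 1 ∨ i % 3 = 2 := by omega
    rcases h3 with h3 | h3 | h3
    · refine absurd h (gs_not_deg2 (2, 2 * i, a, false) (5, i / 3, a, false)
        (5, i / 3, a, true) ?_ ?_ ?_ ?_ ?_ ?_ ?_) <;> simp [mem_verts, adjV, arc, slotVal, h3] <;>
        omega
    · refine absurd h (gs_not_deg2 (2, 2 * i, a, false) (5, i / 3, false, a)
        (5, i / 3, true, a) ?_ ?_ ?_ ?_ ?_ ?_ ?_) <;> simp [mem_verts, adjV, arc, slotVal, h3] <;>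
        omega
    · refine absurd h (gs_not_deg2 (2, 2 * i, a, false) (5, i / 3, false, xor a (rhs E (i / 3)))
        (5, i / 3, true, !(xor a (rhs E (i / 3)))) ?_ ?_ ?_ ?_ ?_ ?_ ?_) <;>
        simp [mem_verts, adjV, arc, slotVal, h3] <;> omega
  · exact Or.inr rfl
  · have e1 : (3 * i + 1) / 3 = i := by omega
    have e2 : (3 * i + 2) / 3 = i := by omega
    refine absurd h (gs_not_deg2 (3, 3 * i, slotVal (rhs E i) 0 a b, false)
      (3, 3 * i + 1, slotVal (rhs E i) 1 a b, false)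
      (3, 3 * i + 2, slotVal (rhs E i) 2 a b, false) ?_ ?_ ?_ ?_ ?_ ?_ ?_) <;>
      simp [mem_verts, adjV, arc, e1, e2] <;> omega

theorem gs_deg1_kind (hpos : 0 < M) {v : VT M} (h : GsDeg1 E v) :
    gsNd v = (0, 0) ∨ v.1.1 = 4 := by
  rcases gs_deg2_kind (E := E) (v := v) (fun x y z hx hy _ => Or.inl (h x y hx hy)) with h0 | h0
  · left
    obtain ⟨⟨k, i, a, b⟩, hv⟩ := v
    have hv' := mem_verts.1 hv
    simp only at h0
    subst h0
    simp only [true_and, OfNat.zero_ne_ofNat, false_and, or_false, zero_ne_one] at hv'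
    obtain ⟨hi, rfl, rfl⟩ := hv'
    rcases i with _ | i
    · rfl
    · exfalso
      by_cases hi' : i + 1 = 12 * M
      · have := h ⟨(0, i, false, false), by simp [mem_verts]; omega⟩
          ⟨(1, 6 * M - 1, false, false), by simp [mem_verts]; omega⟩
          (by simp [adjT, adjV, arc]) (by simp [adjT, adjV, arc]; omega)
        simp at this
      · have := h ⟨(0, i, false, false), by simp [mem_verts]; omega⟩
          ⟨(0, i + 2, false, false), by simp [mem_verts]; omega⟩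
          (by simp [adjT, adjV, arc]) (by simp [adjT, adjV, arc])
        simp at this
  · exact Or.inr h0

theorem gs_eq_of_nd0 {v w : VT M} (h : gsNd v = gsNd w) (h0 : v.1.1 = 0 ∨ v.1.1 = 1) : v = w := by
  obtain ⟨⟨k, i, a, b⟩, hv⟩ := v
  obtain ⟨⟨k', i', a', b'⟩, hw⟩ := w
  have hv' := mem_verts.1 hv
  have hw' := mem_verts.1 hw
  simp only [gsNd, Prod.mk.injEq] at h h0
  obtain ⟨rfl, rfl⟩ := h
  rcases h0 with rfl | rfl <;> simp_all

theorem gs_W0_deg1 {v : VT M} (h : gsNd v = (0, 0)) : GsDeg1 E v := by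
  have key : ∀ x : VT M, adjT M E x v = true → gsNd x = (0, 1) := by
    rintro ⟨⟨k', i', a', b'⟩, hx⟩ hxv
    obtain ⟨⟨k, i, a, b⟩, hv⟩ := v
    simp only [gsNd, Prod.mk.injEq] at h ⊢
    obtain ⟨rfl, rfl⟩ := h
    simpa [adjT, adjV, arc] using hxv
  intro x y hx hy
  have h1 := key x hx
  exact gs_eq_of_nd0 (h1.trans (key y hy).symm) (Or.inl (congrArg Prod.fst h1))

theorem gs_Wodd_deg2 {v : VT M} {t : ℕ} (h : gsNd v = (0, 2 * t + 1)) : GsDeg2 E v := by
  have key : ∀ x : VT M, adjT M E x v = true → gsNd x = (0, 2 * t) ∨ gsNd x = (0, 2 * t + 2) := by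
    rintro ⟨⟨k', i', a', b'⟩, hx⟩ hxv
    obtain ⟨⟨k, i, a, b⟩, hv⟩ := v
    simp only [gsNd, Prod.mk.injEq] at h ⊢
    obtain ⟨rfl, rfl⟩ := h
    simp [adjT, adjV, arc] at hxv
    omega
  have e : ∀ {x y : VT M} {i : ℕ}, gsNd x = (0, i) → gsNd y = (0, i) → x = y :=
    fun h1 h2 => gs_eq_of_nd0 (h1.trans h2.symm) (Or.inl (congrArg Prod.fst h1))
  intro x y z hx hy hz
  rcases key x hx with h1 | h1 <;> rcases key y hy with h2 | h2 <;> rcases key z hz with h3 | h3
  all_goals first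
    | exact Or.inl (e h1 h2)
    | exact Or.inr (Or.inl (e h1 h3))
    | exact Or.inr (Or.inr (e h2 h3))

variable (Y M) in
/-- the node `β` is identified -/
def GsId (β : ℕ × ℕ) : Prop :=
  ∀ (E₁ E₂ : List (Eqn Y)) (R : VT M → VT M → Prop), GsBis M E₁ E₂ R →
    ∀ a c, R a c → gsNd a = β → gsNd c = β

theorem GsId.rev {E₁ E₂ : List (Eqn Y)} {R : VT M → VT M → Prop} (hR : GsBis M E₁ E₂ R)
    {a c : VT M} (hac : R a c) {β : ℕ × ℕ} (h : GsId Y M β) (hc : gsNd c = β) : gsNd a = β :=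
  h E₂ E₁ _ hR.symm c a hac hc

theorem GsId.step {E₁ E₂ : List (Eqn Y)} {R : VT M → VT M → Prop} (hR : GsBis M E₁ E₂ R)
    {a c : VT M} (hac : R a c) (z : Vx) (hz : z ∈ verts M) (hza : adjV E₁ z a.1 = true)
    (h : GsId Y M (z.1, z.2.1)) : ∃ x y : Bool, adjV E₂ (z.1, z.2.1, x, y) c.1 = true := by
  obtain ⟨f, hf⟩ := hR a c hac
  have h1 := h E₁ E₂ R hR _ _ (hf ⟨z, hz⟩).1 rfl
  have h2 : adjV E₂ (f ⟨z, hz⟩).1 c.1 = true := (hf ⟨z, hz⟩).2.symm.trans hza
  generalize f ⟨z, hz⟩ = w at h1 h2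
  obtain ⟨⟨k, i, x, y⟩, hw⟩ := w
  simp only [gsNd, Prod.mk.injEq] at h1
  obtain ⟨rfl, rfl⟩ := h1
  exact ⟨x, y, h2⟩

theorem gs_id0 (hpos : 0 < M) : ∀ i, GsId Y M (0, i) := by
  intro i
  induction i using Nat.strong_induction_on with
  | _ i ih =>
    intro E₁ E₂ R hR a c hac ha
    rcases i with _ | i
    · rcases gs_deg1_kind hpos (hR.deg1 hac (gs_W0_deg1 ha)) with h | h
      · exact h
      · exfalso
        obtain ⟨⟨k, o, x, y⟩, hc⟩ := c
        simp only at h
        subst h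
        have hc' := mem_verts.1 hc
        obtain ⟨f, hf⟩ := hR a _ hac
        obtain ⟨z, hz⟩ := f.surjective ⟨(2, 2 * o + 1, x, false), by
          simp [mem_verts] at hc' ⊢; omega⟩
        have h1 := hf z
        rw [hz] at h1
        have h2 : adjT M E₁ z a = true := h1.2.trans (by simp [adjT, adjV, arc])
        have h3 : gsNd z = (0, 2 * 0 + 1) := by
          obtain ⟨⟨k', i', a', b'⟩, hx⟩ := z
          obtain ⟨⟨k, i, a, b⟩, hv⟩ := a
          simp only [gsNd, Prod.mk.injEq] at ha ⊢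
          obtain ⟨rfl, rfl⟩ := ha
          simpa [adjT, adjV, arc] using h2
        simpa using gs_deg2_kind (hR.deg2 h1.1 (gs_Wodd_deg2 h3))
    · have hdeg : ∀ t, i = 2 * t + 2 → GsDeg2 E₂ c := fun t ht =>
        hR.deg2 hac (gs_Wodd_deg2 (t := t + 1) (by rw [ha, ht]; rfl))
      have hrev : ∀ j < i + 1, gsNd c = (0, j) → gsNd a = (0, j) := fun j hj =>
        GsId.rev hR hac (ih j hj)
      obtain ⟨⟨k, j, x, y⟩, hv⟩ := a
      simp only [gsNd, Prod.mk.injEq] at ha
      obtain ⟨rfl, rfl⟩ := ha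
      have hv' := mem_verts.1 hv
      obtain ⟨x', y', h1⟩ := GsId.step hR hac (0, i, false, false)
        (by simp [mem_verts] at hv' ⊢; omega) (by simp [adjV, arc]) (ih i (by omega))
      obtain ⟨⟨k, j, x'', y''⟩, hc⟩ := c
      simp [adjV, arc] at h1
      simp only [gsNd, Prod.mk.injEq] at hrev ⊢
      rcases h1 with h1 | h1 | h1
      · exact h1
      · have := hrev j (by omega) ⟨h1.1, rfl⟩
        omega
      · have := gs_deg2_kind (hdeg j h1.2)
        simp only at this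
        omega

theorem gs_id1 (hpos : 0 < M) : ∀ i, GsId Y M (1, i) := by
  intro i E₁ E₂ R hR a c hac ha
  have hrev0 := fun j => GsId.rev hR hac (gs_id0 hpos j)
  obtain ⟨⟨k, j, x, y⟩, hv⟩ := a
  simp only [gsNd, Prod.mk.injEq] at ha
  obtain ⟨rfl, rfl⟩ := ha
  have hv' := mem_verts.1 hv
  obtain ⟨x', y', h1⟩ := GsId.step hR hac (0, 2 * j + 2, false, false)
    (by simp [mem_verts] at hv' ⊢; omega) (by simp [adjV, arc]) (gs_id0 hpos _)
  obtain ⟨⟨k, j', x'', y''⟩, hc⟩ := c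
  simp [adjV, arc] at h1
  have h0 := hrev0 j'
  simp only [gsNd, Prod.mk.injEq] at h0 ⊢
  grind

theorem gs_id2 (hpos : 0 < M) : ∀ i, GsId Y M (2, i) := by
  intro i E₁ E₂ R hR a c hac ha
  have hrev0 := fun j => GsId.rev hR hac (gs_id0 hpos j)
  obtain ⟨⟨k, j, x, y⟩, hv⟩ := a
  simp only [gsNd, Prod.mk.injEq] at ha
  obtain ⟨rfl, rfl⟩ := ha
  have hv' := mem_verts.1 hv
  obtain ⟨x', y', h1⟩ := GsId.step hR hac (1, j, false, false)
    (by simp [mem_verts] at hv' ⊢; omega) (by simp [adjV, arc]) (gs_id1 hpos _)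
  obtain ⟨⟨k, j', x'', y''⟩, hc⟩ := c
  simp [adjV, arc] at h1
  have h0 := hrev0 j'
  simp only [gsNd, Prod.mk.injEq] at h0 ⊢
  grind

theorem gs_id3 (hpos : 0 < M) : ∀ i, GsId Y M (3, i) := by
  intro i E₁ E₂ R hR a c hac ha
  have hrev1 := fun j => GsId.rev hR hac (gs_id1 hpos j)
  have hrev2 := fun j => GsId.rev hR hac (gs_id2 hpos j)
  obtain ⟨⟨k, j, x, y⟩, hv⟩ := a
  simp only [gsNd, Prod.mk.injEq] at ha
  obtain ⟨rfl, rfl⟩ := ha
  have hv' := mem_verts.1 hv
  obtain ⟨x', y', h1⟩ := GsId.step hR hac (2, 2 * j, x, false)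
    (by simp [mem_verts] at hv' ⊢; omega) (by simp [adjV, arc]) (gs_id2 hpos _)
  obtain ⟨⟨k, j', x'', y''⟩, hc⟩ := c
  simp [adjV, arc] at h1
  have h0 := hrev1 j'
  have h2 := hrev2 j'
  simp only [gsNd, Prod.mk.injEq] at h0 h2 ⊢
  grind

theorem gs_id4 (hpos : 0 < M) : ∀ i, GsId Y M (4, i) := by
  intro i E₁ E₂ R hR a c hac ha
  have hrev1 := fun j => GsId.rev hR hac (gs_id1 hpos j)
  have hrev2 := fun j => GsId.rev hR hac (gs_id2 hpos j)
  obtain ⟨⟨k, j, x, y⟩, hv⟩ := a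
  simp only [gsNd, Prod.mk.injEq] at ha
  obtain ⟨rfl, rfl⟩ := ha
  have hv' := mem_verts.1 hv
  obtain ⟨x', y', h1⟩ := GsId.step hR hac (2, 2 * j + 1, x, false)
    (by simp [mem_verts] at hv' ⊢; omega) (by simp [adjV, arc]) (gs_id2 hpos _)
  obtain ⟨⟨k, j', x'', y''⟩, hc⟩ := c
  simp [adjV, arc] at h1
  have h0 := hrev1 j'
  have h2 := hrev2 j'
  simp only [gsNd, Prod.mk.injEq] at h0 h2 ⊢
  grind

theorem gs_id5 (hpos : 0 < M) : ∀ i, GsId Y M (5, i) := by
  intro i E₁ E₂ R hR a c hac ha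
  have hrev2 := fun j => GsId.rev hR hac (gs_id2 hpos j)
  obtain ⟨⟨k, j, x, y⟩, hv⟩ := a
  simp only [gsNd, Prod.mk.injEq] at ha
  obtain ⟨rfl, rfl⟩ := ha
  have hv' := mem_verts.1 hv
  obtain ⟨x', y', h1⟩ := GsId.step hR hac (3, 3 * j, x, false)
    (by simp [mem_verts] at hv' ⊢; omega) (by simp [adjV, arc, slotVal]) (gs_id3 hpos _)
  obtain ⟨⟨k, j', x'', y''⟩, hc⟩ := c
  simp [adjV, arc] at h1
  have h2 := hrev2 j'
  simp only [gsNd, Prod.mk.injEq] at h2 ⊢
  grind

theorem gs_rigid (hpos : 0 < M) {E₁ E₂ : List (Eqn Y)} {R : VT M → VT M → Prop}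
    (hR : GsBis M E₁ E₂ R) {a c : VT M} (hac : R a c) : gsNd c = gsNd a := by
  have hk : a.1.1 = 0 ∨ a.1.1 = 1 ∨ a.1.1 = 2 ∨ a.1.1 = 3 ∨ a.1.1 = 4 ∨ a.1.1 = 5 := by
    have := mem_verts.1 a.2
    tauto
  have : GsId Y M (gsNd a) := by
    unfold gsNd
    rcases hk with h | h | h | h | h | h <;> rw [h]
    exacts [gs_id0 hpos _, gs_id1 hpos _, gs_id2 hpos _, gs_id3 hpos _, gs_id4 hpos _,
      gs_id5 hpos _]
  exact this E₁ E₂ R hR a c hac rfl

/-! ### ties -/

omit [DecidableEq Y] in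
theorem gs_var_homog (o : ℕ) : var (homog E) o = var E o := by
  unfold var homog
  have : ∀ i, ((E.map fun e => (e.1, false)).getD i ([], false)).1 = (E.getD i ([], false)).1 := by
    intro i
    simp only [List.getD_eq_getElem?_getD, List.getElem?_map]
    cases E[i]? <;> rfl
  rw [this]

omit [DecidableEq Y] in
theorem gs_rhs_homog (e : ℕ) : rhs (homog E) e = false := by
  unfold rhs homog
  simp only [List.getD_eq_getElem?_getD, List.getElem?_map]
  cases E[e]? <;> rfl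

theorem gs_link_homog (o o' : ℕ) : link (homog E) o o' = link E o o' := by
  unfold link
  simp only [gs_var_homog, length_homog]

theorem gs_sub1 {α : Type} (z p q : α) : ({p, z} : Set α) ⊆ {z, p, q} := by grind

theorem gs_sub2 {α : Type} (z p q : α) : ({z, q} : Set α) ⊆ {z, p, q} := by grind

/-- the difference of the first bits -/
def gsDiff (p : VT M × VT M) : Bool := xor p.1.1.2.2.1 p.2.1.2.2.1

section game
variable {K : ℕ} {Pos : Set (VT M × VT M) → Prop}
  (h : IsGame (adjT M (homog E)) (adjT M E) K Pos) (hK : 5 ≤ K) (hpos : 0 < M)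
include h hK hpos

omit hpos in
theorem gs_bis : GsBis M (homog E) E fun a c => Pos {(a, c)} := by
  intro a c hac
  obtain ⟨f, hf⟩ := h.ext hac (by rw [Set.ncard_singleton]; omega)
  exact ⟨f, fun z => ⟨h.down (hf z) (by simp), h.adj (hf z) (z, f z) (by simp) (a, c) (by simp)⟩⟩

theorem gs_nd {S : Set (VT M × VT M)} (hS : Pos S) {p : VT M × VT M} (hp : p ∈ S) :
    gsNd p.2 = gsNd p.1 :=
  gs_rigid hpos (gs_bis h hK) (h.down hS (by simpa using hp))

/-- add a pebble -/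
theorem gs_ext {S : Set (VT M × VT M)} (hS : Pos S) (hc : S.ncard < K) (z : VT M) :
    ∃ w, gsNd w = gsNd z ∧ Pos (insert (z, w) S) := by
  obtain ⟨f, hf⟩ := h.ext hS hc
  exact ⟨f z, gs_nd h hK hpos (hf z) (p := (z, f z)) (by simp), hf z⟩

omit h hK hpos in
variable (Pos) in
/-- the differences over `β` and `β'` agree -/
def GsTie (β β' : ℕ × ℕ) : Prop :=
  ∀ p q, Pos {p, q} → gsNd p.1 = β → gsNd q.1 = β' → gsDiff p = gsDiff q

omit h hK hpos in
theorem GsTie.symm {β β' : ℕ × ℕ} (ht : GsTie Pos β β') : GsTie Pos β' β := by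
  intro p q hpq hp hq
  rw [Set.pair_comm] at hpq
  exact (ht q p hpq hq hp).symm

theorem gs_tie_trans {β β' β'' : ℕ × ℕ} (h1 : GsTie Pos β β') (h2 : GsTie Pos β' β'')
    (hz : (β'.1, β'.2, false, false) ∈ verts M) : GsTie Pos β β'' := by
  intro p q hpq hp hq
  obtain ⟨w, -, hw⟩ := gs_ext h hK hpos hpq
    (lt_of_le_of_lt (Set.ncard_insert_le _ _) (by rw [Set.ncard_singleton]; omega)) ⟨_, hz⟩
  exact (h1 p _ (h.down hw (gs_sub1 _ _ _)) hp rfl).trans
    (h2 _ q (h.down hw (gs_sub2 _ _ _)) rfl hq)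

theorem gs_tie_refl {k : ℕ} (hk : k = 2 ∨ k = 3 ∨ k = 4) (i : ℕ) : GsTie Pos (k, i) (k, i) := by
  intro p q hpq hp hq
  have h1 := gs_nd h hK hpos hpq (p := p) (by simp)
  have h2 := gs_nd h hK hpos hpq (p := q) (by simp)
  have h3 := h.inj hpq p (by simp) q (by simp)
  rw [hp] at h1
  rw [hq] at h2
  obtain ⟨⟨⟨k1, i1, a1, b1⟩, m1⟩, ⟨⟨k2, i2, a2, b2⟩, m2⟩⟩ := p
  obtain ⟨⟨⟨k3, i3, a3, b3⟩, m3⟩, ⟨⟨k4, i4, a4, b4⟩, m4⟩⟩ := q
  simp only [gsNd, Prod.mk.injEq] at hp hq h1 h2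
  obtain ⟨rfl, rfl⟩ := hp
  obtain ⟨rfl, rfl⟩ := hq
  obtain ⟨rfl, rfl⟩ := h1
  obtain ⟨rfl, rfl⟩ := h2
  have n1 := mem_verts.1 m1
  have n2 := mem_verts.1 m2
  have n3 := mem_verts.1 m3
  have n4 := mem_verts.1 m4
  simp only [Subtype.mk.injEq, Prod.mk.injEq, true_and] at h3
  simp only [gsDiff]
  have e1 : b1 = false := by grind
  have e2 : b2 = false := by grind
  have e3 : b3 = false := by grind
  have e4 : b4 = false := by grind
  subst e1 e2 e3 e4
  revert h3
  cases a1 <;> cases a2 <;> cases a3 <;> cases a4 <;> simp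

theorem gs_tie_match {β β' : ℕ × ℕ}
    (h1 : ∀ a b a' b', adjV (homog E) (β.1, β.2, a, b) (β'.1, β'.2, a', b') = decide (a = a'))
    (h2 : ∀ a b a' b', adjV E (β.1, β.2, a, b) (β'.1, β'.2, a', b') = decide (a = a')) :
    GsTie Pos β β' := by
  intro p q hpq hp hq
  have h3 := gs_nd h hK hpos hpq (p := p) (by simp)
  have h4 := gs_nd h hK hpos hpq (p := q) (by simp)
  have h5 := h.adj hpq p (by simp) q (by simp)
  rw [hp] at h3
  rw [hq] at h4
  obtain ⟨⟨⟨k1, i1, a1, b1⟩, m1⟩, ⟨⟨k2, i2, a2, b2⟩, m2⟩⟩ := p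
  obtain ⟨⟨⟨k3, i3, a3, b3⟩, m3⟩, ⟨⟨k4, i4, a4, b4⟩, m4⟩⟩ := q
  obtain ⟨k, i⟩ := β
  obtain ⟨k', i'⟩ := β'
  simp only [gsNd, Prod.mk.injEq] at hp hq h3 h4
  obtain ⟨rfl, rfl⟩ := hp
  obtain ⟨rfl, rfl⟩ := hq
  obtain ⟨rfl, rfl⟩ := h3
  obtain ⟨rfl, rfl⟩ := h4
  simp only [adjT, h1, h2] at h5
  simp only [gsDiff]
  revert h5
  cases a1 <;> cases a2 <;> cases a3 <;> cases a4 <;> simp

theorem gs_tie24 {t : ℕ} (ht : t < 6 * M) : GsTie Pos (2, t) (4, t / 2) := by
  have h1 : ∀ o, GsTie Pos (2, 2 * o + 1) (4, o) := fun o =>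
    gs_tie_match h hK hpos (fun a b a' b' => by simp [adjV, arc, eq_comm])
      fun a b a' b' => by simp [adjV, arc, eq_comm]
  rcases Nat.even_or_odd' t with ⟨o, rfl | rfl⟩
  · have h2 : GsTie Pos (2, 2 * o) (2, 2 * o + 1) :=
      gs_tie_match h hK hpos (fun a b a' b' => by simp [adjV, arc])
        fun a b a' b' => by simp [adjV, arc]
    rw [show 2 * o / 2 = o by omega]
    exact gs_tie_trans h hK hpos h2 (h1 o) (by simp [mem_verts]; omega)
  · rw [show (2 * o + 1) / 2 = o by omega]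
    exact h1 o

theorem gs_tie34 {o : ℕ} (ho : o < 3 * M) : GsTie Pos (3, o) (4, o) := by
  have h1 : GsTie Pos (3, o) (2, 2 * o) :=
    gs_tie_match h hK hpos (fun a b a' b' => by simp [adjV, arc])
      fun a b a' b' => by simp [adjV, arc]
  have h2 := gs_tie24 h hK hpos (t := 2 * o) (by omega)
  rw [show 2 * o / 2 = o by omega] at h2
  exact gs_tie_trans h hK hpos h1 h2 (by simp [mem_verts]; omega)

theorem gs_tie44 {o o' : ℕ} (ho : o < 3 * M) (ho' : o' < 3 * M) (hv : var E o = var E o') :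
    GsTie Pos (4, o) (4, o') := by
  have key : ∀ d o, o + d < 3 * M → var E o = var E (o + d) → GsTie Pos (4, o) (4, o + d) := by
    intro d
    induction d using Nat.strong_induction_on with
    | _ d ih =>
      intro o hod hv
      rcases Nat.eq_zero_or_pos d with rfl | hd
      · exact gs_tie_refl h hK hpos (by simp) o
      · have hex : ∃ u, o < u ∧ var E u = var E o := ⟨o + d, by omega, hv.symm⟩
        classical
        set u := Nat.find hex with hu
        have hu1 : o < u ∧ var E u = var E o := Nat.find_spec hex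
        have hu2 : u ≤ o + d := Nat.find_min' hex ⟨by omega, hv.symm⟩
        have hl : link E o u = true := by
          simp only [link, Bool.and_eq_true, decide_eq_true_eq, List.all_eq_true,
            Bool.not_eq_true', Bool.and_eq_false_imp, decide_eq_false_iff_not]
          exact ⟨⟨hu1.1, hu1.2.symm⟩, fun v _ hv1 hv2 => Nat.find_min hex hv1.2 ⟨hv1.1, hv2⟩⟩
        have hl' : link E u o = false := by
          have : ¬ u < o := by omega
          simp [link, this]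
        have h1 : GsTie Pos (4, o) (4, u) :=
          gs_tie_match h hK hpos (fun a b a' b' => by simp [adjV, arc, gs_link_homog, hl, hl'])
            fun a b a' b' => by simp [adjV, arc, hl, hl']
        have h2 := ih (o + d - u) (by omega) u (by omega)
          (by rw [show u + (o + d - u) = o + d by omega, hu1.2, hv])
        rw [show u + (o + d - u) = o + d by omega] at h2
        exact gs_tie_trans h hK hpos h1 h2 (by simp [mem_verts]; omega)
  rcases le_total o o' with hle | hle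
  · obtain ⟨d, rfl⟩ := Nat.exists_eq_add_of_le hle
    exact key d o ho' hv
  · obtain ⟨d, rfl⟩ := Nat.exists_eq_add_of_le hle
    exact (key d o' ho hv.symm).symm

theorem gs_tie5 {p q : VT M × VT M} (hpq : Pos {p, q}) {j s o : ℕ} (hs : s < 3)
    (hp : gsNd p.1 = (5, j)) (hq : gsNd q.1 = (4, o)) (hv : var E (3 * j + s) = var E o) :
    gsDiff q = xor (slotVal false s p.1.1.2.2.1 p.1.1.2.2.2)
      (slotVal (rhs E j) s p.2.1.2.2.1 p.2.1.2.2.2) := by
  have h3 := gs_nd h hK hpos hpq (p := p) (by simp)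
  rw [hp] at h3
  have hj : j < M := by
    have := mem_verts.1 p.1.2
    simp only [gsNd, Prod.mk.injEq] at hp
    grind
  have ho : o < 3 * M := by
    have := mem_verts.1 q.1.2
    simp only [gsNd, Prod.mk.injEq] at hq
    grind
  obtain ⟨w, hw1, hw⟩ := gs_ext h hK hpos hpq
    (lt_of_le_of_lt (Set.ncard_insert_le _ _) (by rw [Set.ncard_singleton]; omega))
    ⟨(3, 3 * j + s, slotVal false s p.1.1.2.2.1 p.1.1.2.2.2, false), by simp [mem_verts]; omega⟩
  have ht : GsTie Pos (3, 3 * j + s) (4, o) :=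
    gs_tie_trans h hK hpos (gs_tie34 h hK hpos (by omega)) (gs_tie44 h hK hpos (by omega) ho hv)
      (by simp [mem_verts]; omega)
  rw [← ht _ q (h.down hw (gs_sub2 _ _ _)) rfl hq]
  have h5 := h.adj hw p (by simp) _ (Set.mem_insert _ _)
  obtain ⟨⟨⟨k1, i1, a1, b1⟩, m1⟩, ⟨⟨k2, i2, a2, b2⟩, m2⟩⟩ := p
  obtain ⟨⟨k3, i3, a3, b3⟩, m3⟩ := w
  simp only [gsNd, Prod.mk.injEq] at hp h3 hw1
  obtain ⟨rfl, rfl⟩ := hp
  obtain ⟨rfl, rfl⟩ := h3
  obtain ⟨rfl, rfl⟩ := hw1
  have e1 : (3 * i2 + s) / 3 = i2 := by omega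
  have e2 : (3 * i2 + s) % 3 = s := by omega
  simp [adjT, adjV, arc, e1, e2, gs_rhs_homog] at h5
  simp only [gsDiff, h5]

end game

/-! ### occurrences -/

omit [DecidableEq Y] in
theorem gs_var_eq (hM : E.length = M) {j s : ℕ} (hj : j < M) (hs : s < 3) :
    var E (3 * j + s) = (E[j]'(by omega)).1[s]? := by
  unfold var
  rw [show (3 * j + s) / 3 = j by omega, show (3 * j + s) % 3 = s by omega,
    List.getD_eq_getElem _ _ (by omega)]

omit [DecidableEq Y] in
theorem gs_var_occ (h3 : ∀ e ∈ E, e.1.length = 3) (hM : E.length = M) {o : ℕ} (ho : o < 3 * M) :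
    ∃ x, var E o = some x ∧ Occ E x := by
  have hj : o / 3 < M := by omega
  have h1 := gs_var_eq hM hj (s := o % 3) (by omega)
  rw [show 3 * (o / 3) + o % 3 = o by omega] at h1
  have hm : E[o / 3]'(by omega) ∈ E := List.getElem_mem _
  have h2 := h3 _ hm
  rw [List.getElem?_eq_getElem (by omega)] at h1
  exact ⟨_, h1, _, hm, List.getElem_mem _⟩

omit [DecidableEq Y] in
theorem gs_exists_oc (h3 : ∀ e ∈ E, e.1.length = 3) (hM : E.length = M) (hpos : 0 < M) (x : Y) :
    ∃ o, o < 3 * M ∧ (Occ E x → var E o = some x) := by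
  by_cases hx : Occ E x
  · obtain ⟨e, he, hxe⟩ := hx
    obtain ⟨j, hj, rfl⟩ := List.getElem_of_mem he
    obtain ⟨s, hs, rfl⟩ := List.getElem_of_mem hxe
    have h2 := h3 _ he
    refine ⟨3 * j + s, by omega, fun _ => ?_⟩
    rw [gs_var_eq hM (by omega) (by omega), List.getElem?_eq_getElem hs]
  · exact ⟨0, by omega, fun h => absurd h hx⟩

theorem gs_b2z_decide (z : ZMod 2) : b2z (decide (z = 1)) = z := by
  revert z; decide

theorem gs_decide_b2z (b : Bool) : decide (b2z b = 1) = b := by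
  revert b; decide

theorem gs_strat {K : ℕ} (h3 : ∀ e ∈ E, e.1.length = 3) (hM : E.length = M) (hpos : 0 < M)
    (hK : 5 ≤ K) {Pos : Set (VT M × VT M) → Prop}
    (h : IsGame (adjT M (homog E)) (adjT M E) K Pos) :
    ∃ 𝒮, IsVStrat E K 𝒮 ∧ (∃ δ, 𝒮 ∅ δ) ∧ ∀ a c, Pos {(a, c)} →
      a = c ∨ ∃ T δ x, 𝒮 T δ ∧ x ∈ T ∧ Occ E x ∧ δ x ≠ 0 := by
  choose oc hoc1 hoc2 using gs_exists_oc h3 hM hpos
  let Cv : Y → Bool → VT M := fun x b => ⟨(4, oc x, b, false), by simp [mem_verts, hoc1]⟩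
  have hCv : ∀ x (w : VT M), gsNd w = (4, oc x) → ∃ b, w = Cv x b := by
    rintro x ⟨⟨k, i, a, b⟩, hw⟩ h1
    simp only [gsNd, Prod.mk.injEq] at h1
    obtain ⟨rfl, rfl⟩ := h1
    have := mem_verts.1 hw
    obtain rfl : b = false := by grind
    exact ⟨a, rfl⟩
  let pr : (Y → Bool) → (Y → ZMod 2) → Y → VT M × VT M :=
    fun a δ x => (Cv x (a x), Cv x (xor (a x) (decide (δ x = 1))))
  let 𝒮 : Finset Y → (Y → ZMod 2) → Prop := fun T δ => ∃ a, Pos (pr a δ '' T)
  have hcard : ∀ (T : Finset Y) a δ, (pr a δ '' T).ncard ≤ T.card := fun T a δ =>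
    (Set.ncard_image_le T.finite_toSet).trans (Set.ncard_coe_finset T).le
  have hdiff : ∀ a δ x, gsDiff (pr a δ x) = decide (δ x = 1) := by
    intro a δ x
    simp [gsDiff, pr, Cv]
  have hins : ∀ (T : Finset Y) δ x, x ∉ T → 𝒮 T δ → T.card < K →
      ∃ δ', 𝒮 (insert x T) δ' ∧ ∀ y ∈ T, δ' y = δ y := by
    rintro T δ x hx ⟨a, ha⟩ hc
    obtain ⟨w, hw1, hw⟩ := gs_ext h hK hpos ha ((hcard _ _ _).trans_lt hc) (Cv x false)
    obtain ⟨b, rfl⟩ := hCv x w hw1
    have hne : ∀ y ∈ T, y ≠ x := fun y hy e => hx (e ▸ hy)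
    refine ⟨Function.update δ x (b2z b), ⟨Function.update a x false, h.down hw ?_⟩,
      fun y hy => Function.update_of_ne (hne y hy) _ _⟩
    rintro _ ⟨y, hy, rfl⟩
    rcases Finset.mem_insert.1 (Finset.mem_coe.1 hy) with rfl | hy'
    · left
      simp [pr, gs_decide_b2z]
    · right
      exact ⟨y, hy', by simp [pr, Function.update_of_ne (hne y hy')]⟩
  have hfin : ∀ p : VT M × VT M, Pos {p} → ∀ x, Occ E x →
      (∀ q, Pos {p, q} → gsNd q.1 = (4, oc x) → gsDiff q = true) →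
      ∃ T δ x, 𝒮 T δ ∧ x ∈ T ∧ Occ E x ∧ δ x ≠ 0 := by
    intro p hp x hx hq
    obtain ⟨w, hw1, hw⟩ := gs_ext h hK hpos hp (by rw [Set.ncard_singleton]; omega) (Cv x false)
    obtain ⟨b, rfl⟩ := hCv x w hw1
    have hb := hq _ (by rwa [Set.pair_comm]) rfl
    simp only [gsDiff, Cv, Bool.false_xor] at hb
    subst hb
    refine ⟨{x}, fun _ => 1, x, ⟨fun _ => false, h.down hw ?_⟩, by simp, hx, one_ne_zero⟩
    simp [pr]
  refine ⟨𝒮, ⟨?_, ?_, ?_⟩, ⟨0, fun _ => false, by simpa using h.empty⟩, ?_⟩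
  · rintro T T' δ ⟨a, ha⟩ hT
    exact ⟨a, h.down ha (Set.image_mono hT)⟩
  · intro T T' δ hδ hT hc _
    have key : ∀ D : Finset Y, (T ∪ D).card ≤ K → ∃ δ', 𝒮 (T ∪ D) δ' ∧ ∀ y ∈ T, δ' y = δ y := by
      intro D
      induction D using Finset.induction_on with
      | empty => intro _; exact ⟨δ, by simpa using hδ, fun _ _ => rfl⟩
      | insert x D _ ih =>
        rw [Finset.union_insert]
        intro hc
        by_cases hx : x ∈ T ∪ D
        · rw [Finset.insert_eq_of_mem hx] at hc ⊢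
          exact ih hc
        · rw [Finset.card_insert_of_notMem hx] at hc
          obtain ⟨δ', h1, h2⟩ := ih (by omega)
          obtain ⟨δ'', h4, h5⟩ := hins _ δ' x hx h1 (by omega)
          exact ⟨δ'', h4, fun y hy => (h5 y (Finset.mem_union_left _ hy)).trans (h2 y hy)⟩
    have := key T'
    rw [Finset.union_eq_right.2 hT] at this
    exact this hc
  · rintro T δ ⟨a, ha⟩ e he hT
    obtain ⟨j, hj, rfl⟩ := List.getElem_of_mem he
    have hl := h3 _ he
    have h1 : Pos (pr a δ '' (E[j].1.toFinset : Finset Y)) :=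
      h.down ha (Set.image_mono fun x hx => hT x (by simpa using hx))
    obtain ⟨w, hw1, hw⟩ := gs_ext h hK hpos h1
      ((hcard _ _ _).trans_lt ((List.toFinset_card_le _).trans_lt (by omega)))
      ⟨(5, j, false, false), by simp [mem_verts]; omega⟩
    have h2 : ∀ s (hs : s < 3), δ (E[j].1[s]) =
        b2z (slotVal (rhs E j) s w.1.2.2.1 w.1.2.2.2) := by
      intro s hs
      have hm : E[j].1[s] ∈ E[j].1 := List.getElem_mem _
      have h4 := gs_tie5 h hK hpos (q := pr a δ (E[j].1[s])) (j := j) (o := oc (E[j].1[s]))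
        (h.down hw (by
          rintro p (rfl | rfl)
          · exact Or.inl rfl
          · exact Or.inr ⟨_, by simp, rfl⟩)) hs rfl rfl
        (by rw [hoc2 _ ⟨_, he, hm⟩, gs_var_eq hM (by omega) hs, List.getElem?_eq_getElem])
      rw [hdiff] at h4
      have h5 : slotVal false s false false = false := by simp [slotVal]
      simp only [h5, Bool.false_xor] at h4
      rw [← h4, gs_b2z_decide]
    have hr : rhs E j = E[j].2 := by
      unfold rhs; rw [List.getD_eq_getElem _ _ hj]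
    have e0 := h2 0 (by omega)
    have e1 := h2 1 (by omega)
    have e2 := h2 2 (by omega)
    obtain ⟨x0, x1, x2, hx⟩ := List.length_eq_three.1 hl
    unfold Sat
    simp only [hx, List.getElem_cons_zero, List.getElem_cons_succ] at e0 e1 e2
    rw [hx, lsum_cons, lsum_cons, lsum_cons, lsum_nil, e0, e1, e2, hr]
    generalize w.1.2.2.1 = x
    generalize w.1.2.2.2 = y
    generalize E[j].2 = c
    revert x y c
    decide
  · intro a c hac
    by_cases hne : a = c
    · exact Or.inl hne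
    right
    have hnd : gsNd c = gsNd a := gs_nd h hK hpos hac (p := (a, c)) rfl
    have hone : ∀ k i o, gsNd a = (k, i) → (k = 2 ∨ k = 3 ∨ k = 4) → o < 3 * M →
        GsTie Pos (k, i) (4, o) → ∃ T δ x, 𝒮 T δ ∧ x ∈ T ∧ Occ E x ∧ δ x ≠ 0 := by
      intro k i o ha hk ho ht
      obtain ⟨x, hx1, hx2⟩ := gs_var_occ h3 hM ho
      refine hfin _ hac x hx2 fun q hq hq' => ?_
      have ht' : GsTie Pos (k, i) (4, oc x) := gs_tie_trans h hK hpos ht
        (gs_tie44 h hK hpos ho (hoc1 x) (hx1.trans (hoc2 x hx2).symm)) (by simpa [mem_verts])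
      rw [← ht' _ q hq ha hq']
      obtain ⟨⟨k1, i1, a1, b1⟩, m1⟩ := a
      obtain ⟨⟨k2, i2, a2, b2⟩, m2⟩ := c
      have n1 := mem_verts.1 m1
      have n2 := mem_verts.1 m2
      simp only [gsNd, Prod.mk.injEq, Subtype.mk.injEq] at hnd ha hne
      simp only [gsDiff]
      grind
    have hfive : ∀ j s, gsNd a = (5, j) → j < M → s < 3 →
        xor (slotVal false s a.1.2.2.1 a.1.2.2.2) (slotVal (rhs E j) s c.1.2.2.1 c.1.2.2.2) = true →
        ∃ T δ x, 𝒮 T δ ∧ x ∈ T ∧ Occ E x ∧ δ x ≠ 0 := by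
      intro j s ha hj hs hx
      obtain ⟨x, hx1, hx2⟩ := gs_var_occ h3 hM (o := 3 * j + s) (by omega)
      refine hfin _ hac x hx2 fun q hq hq' => ?_
      rw [gs_tie5 h hK hpos hq hs ha hq' (hx1.trans (hoc2 x hx2).symm)]
      exact hx
    rcases mem_verts.1 a.2 with n | n | n | n | n | n
    · exact absurd (gs_eq_of_nd0 hnd.symm (Or.inl n.1)) hne
    · exact absurd (gs_eq_of_nd0 hnd.symm (Or.inr n.1)) hne
    · exact hone 2 _ (a.1.2.1 / 2) (Prod.ext n.1 rfl) (by simp) (by omega)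
        (gs_tie24 h hK hpos n.2.1)
    · exact hone 3 _ _ (Prod.ext n.1 rfl) (by simp) n.2.1 (gs_tie34 h hK hpos n.2.1)
    · exact hone 4 _ _ (Prod.ext n.1 rfl) (by simp) n.2.1 (gs_tie_refl h hK hpos (by simp) _)
    · by_cases hx : a.1.2.2.1 = c.1.2.2.1
      · refine hfive _ 1 (Prod.ext n.1 rfl) n.2 (by omega) ?_
        obtain ⟨⟨k1, i1, a1, b1⟩, m1⟩ := a
        obtain ⟨⟨k2, i2, a2, b2⟩, m2⟩ := c
        simp only [gsNd, Prod.mk.injEq, Subtype.mk.injEq] at hnd hne hx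
        simp only [slotVal]
        grind
      · refine hfive _ 0 (Prod.ext n.1 rfl) n.2 (by omega) ?_
        simpa [slotVal] using hx

/-- Transport `Pos` to `VT M` (`IsGame.comap` with `(vEquiv M).symm`).  Write `a ~ c` for
`Pos {(a, c)}`.  If `a ~ c`, the bijection `f` from `ext` maps neighbours of `a` onto neighbours of
`c` and has `z ~ f z`; so degrees agree and every neighbour of one has a `~`-partner among the
neighbours of the other.

(1) RIGIDITY: `a ~ c` implies equal kind and index.  Prove "`a` lies over the node `β` iff `c`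
does" for the nodes in this order: `W 0` (degree `1` with a neighbour of degree `2`; the only other
vertices of degree `1` are `C o _`, whose neighbour `B` has degree `3`), `W (i+1)` (neighbour of
`W i` other than `W (i-1)` and, for even `i`, of degree `2` while the connector has degree `3`),
`c t`, `B t`, `A o` (neighbour of `B (2o)` that is not `c`, `B (2o+1)`), `C o`, `X e`.  The
statement is symmetric in the two graphs (the node structure does not depend on `rhs`).

(2) TIES: if `S ∈ Pos` contains pairs over two one-bit nodes joined by a matching then the two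
differences (xor of the bits of the pair) agree, by `adj`.  With a third pebble this is transitive
(`down` to the two pairs, `ext` by a vertex over the middle node, (1)).  Along
`A o - B (2o) - B (2o+1) - C o` and the links (strong induction on `o' - o`) all one-bit nodes of
occurrences of the same variable are tied.

(3) For an occurring variable `x` fix an occurrence `oc x < 3M`.  Put `𝒮 T δ :=` for some
`a : Y → Bool`, `Pos` holds for the pairs `(C (oc x) (a x), C (oc x) (a x xor [δ x = 1]))`,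
`x ∈ T` occurring.  `ext`: induction on `T' \ T`.  `sat`: go down to the three variables, add a
pebble on `X e false false` (partner `X e x y`), then for each slot `s` a pebble on
`A (3e+s) false`; `adj` and (2) give `δ (var (3e+s)) = slotVal (rhs e) s x y`, and these three values
sum to `rhs e`.  Last claim: a pair of different vertices over the same node has a nonzero
difference at a one-bit node (for kind `5` go to a port), tie it to `C (oc x)`. -/
theorem gr_strat {K : ℕ} (h3 : ∀ e ∈ E, e.1.length = 3) (hM : E.length = M) (hpos : 0 < M)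
    (hK : 5 ≤ K) {Pos : Set (Fin (nV M) × Fin (nV M)) → Prop}
    (h : IsGame (grMat M (homog E)) (grMat M E) K Pos) :
    ∃ 𝒮, IsVStrat E K 𝒮 ∧ (∃ δ, 𝒮 ∅ δ) ∧ ∀ a c, Pos {(a, c)} →
      a = c ∨ ∃ T δ x, 𝒮 T δ ∧ x ∈ T ∧ Occ E x ∧ δ x ≠ 0 := by
  have h' := h.comap (vEquiv M).symm (vEquiv M).symm
  simp only [grMat_eq, Equiv.apply_symm_apply] at h'
  obtain ⟨𝒮, h1, h2, h4⟩ := gs_strat h3 hM hpos hK h'
  refine ⟨𝒮, h1, h2, fun a c hac => ?_⟩
  rcases h4 (vEquiv M a) (vEquiv M c) (by simpa using hac) with h5 | h5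
  · exact Or.inl ((vEquiv M).injective h5)
  · exact Or.inr h5

end Crest.Agent.R290
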