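import Crest.Agent.R290.Game

/-!
# rid 290, task WL2: Weisfeiler-Leman equivalence gives a winning family
-/

set_option autoImplicit false

namespace Crest.Agent.R290

open Crest.WLRefine

variable {n m k : ℕ} {G : Fin n → Fin n → Bool} {H : Fin m → Fin m → Bool}

namespace WL2

/-- Equal histograms give a bijection. -/
theorem exists_equiv {α β γ : Type} [Fintype α] [Fintype β] {f : α → γ} {g : β → γ}
    (h : (Finset.univ : Finset α).val.map f = (Finset.univ : Finset β).val.map g) :
    ∃ e : α ≃ β, ∀ a, g (e a) = f a := by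
  classical
  have hc : ∀ c, Fintype.card {a // f a = c} = Fintype.card {b // g b = c} := fun c => by
    have := congrArg (Multiset.count c) h
    rw [Multiset.count_map, Multiset.count_map] at this
    simp only [Fintype.card_subtype, Finset.card_def, Finset.filter_val]
    simpa only [eq_comm] using this
  exact ⟨Equiv.ofFiberEquiv fun c => Fintype.equivOfCardEq (hc c),
    fun a => Equiv.ofFiberEquiv_map _ a⟩

theorem exists_forall {ι : Type} [Finite ι] {P : ℕ → ι → Prop}
    (hP : ∀ s x, P (s + 1) x → P s x) (h : ∀ s, ∃ x, P s x) : ∃ x, ∀ s, P s x := by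
  by_contra hcon
  push Not at hcon
  choose f hf using hcon
  obtain ⟨M, hM⟩ := (Set.finite_range f).bddAbove
  obtain ⟨x, hx⟩ := h M
  exact hf x (Nat.decreasingInduction (fun s _ hs => hP s x hs) hx (hM ⟨x, rfl⟩))

theorem game_of_rel (R : ℕ → (Fin k → Fin n) → (Fin k → Fin m) → Prop)
    (h0 : ∀ v w, R 0 v w → atomicType G v = atomicType H w)
    (hs : ∀ s v w, R (s + 1) v w → R s v w)
    (he : ∀ s v w, R (s + 1) v w → ∀ i, ∃ f : Fin n ≃ Fin m, ∀ z,
      R s (Function.update v i z) (Function.update w i (f z)))
    (v₀ : Fin k → Fin n) (hne : ∀ s, ∃ w, R s v₀ w) : Game G H k := by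
  refine ⟨fun S => ∃ v w, (∀ s, R s v w) ∧ S ⊆ Set.range fun i => (v i, w i), ?_,
    fun ⟨v, w, h1, h2⟩ hS => ⟨v, w, h1, hS.trans h2⟩, ?_, ?_, ?_⟩
  · obtain ⟨w, hw⟩ := exists_forall (P := fun s w => R s v₀ w) (fun s w => hs s v₀ w) hne
    exact ⟨v₀, w, hw, Set.empty_subset _⟩
  · rintro S ⟨v, w, h1, h2⟩ p hp q hq
    obtain ⟨i, rfl⟩ := h2 hp
    obtain ⟨j, rfl⟩ := h2 hq
    simpa [atomicType] using congrFun (congrFun (congrArg Prod.fst (h0 v w (h1 0))) i) j
  · rintro S ⟨v, w, h1, h2⟩ p hp q hq
    obtain ⟨i, rfl⟩ := h2 hp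
    obtain ⟨j, rfl⟩ := h2 hq
    exact congrFun (congrFun (congrArg Prod.snd (h0 v w (h1 0))) i) j
  · rintro S ⟨v, w, h1, h2⟩ hS
    obtain ⟨i, hi⟩ : ∃ i, ∀ p ∈ S, ∃ j, j ≠ i ∧ (v j, w j) = p := by
      by_contra hcon
      push Not at hcon
      choose P hP hP' using hcon
      have hPi : ∀ i, P i = (v i, w i) := fun i => by
        obtain ⟨j, hj⟩ := h2 (hP i)
        by_cases e : j = i
        · rw [← hj, e]
        · exact absurd hj (hP' i j e)
      have := Set.ncard_le_ncard_of_injOn (s := Set.univ) (t := S) P (fun a _ => hP a)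
        fun a _ c _ e => by_contra fun hac => hP' c a hac ((hPi a).symm.trans e)
      rw [Set.ncard_univ, Nat.card_eq_fintype_card, Fintype.card_fin] at this
      omega
    obtain ⟨f, hf⟩ := exists_forall (P := fun s (f : Fin n ≃ Fin m) => ∀ z,
      R s (Function.update v i z) (Function.update w i (f z))) (fun s f h z => hs _ _ _ (h z))
      fun s => he s v w (h1 (s + 1)) i
    refine ⟨f, fun z => ⟨_, _, fun s => hf s z, ?_⟩⟩
    rintro p (rfl | hp)
    · exact ⟨i, by simp⟩
    · obtain ⟨j, hj, rfl⟩ := hi p hp
      exact ⟨j, by simp [Function.update_of_ne hj]⟩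

end WL2

/-- Call `v ≈ w` if the colours agree at every round.  Colours at round `s + 1` determine colours
at round `s`, so by finiteness: (a) some pair has `v ≈ w` (fix `v`; for every `s` some `w` has the
colour of `v` at round `s`; one `w` works for infinitely many `s`); (b) if `v ≈ w` then for every
`i` some bijection `f` has `update v i z ≈ update w i (f z)` for all `z` (equal multisets give a
bijection for every `s`; one bijection works for infinitely many `s`).  Positions: subsets `S` of
`Set.range fun i => (v i, w i)` with `v ≈ w`.  If `S.ncard < k` there is an index `i` such that `S`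
is contained in the pairs with index `≠ i` (otherwise `i ↦ (v i, w i)` injects `Fin k` into `S`). -/
theorem game_of_jequiv (hk : 1 ≤ k) (hn : 0 < n) (h : JEquiv k G H) : Game G H k := by
  refine WL2.game_of_rel (fun s v w => jcolor G k s v = jcolor H k s w) (fun _ _ h => h)
    (fun s v w h => congrArg Prod.fst h) (fun s v w h i => ?_) (fun _ => ⟨0, hn⟩) fun s => ?_
  · obtain ⟨f, hf⟩ := WL2.exists_equiv
      (f := fun z i => jcolor G k s (Function.update v i z))
      (g := fun z i => jcolor H k s (Function.update w i z)) (congrArg Prod.snd h)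
    exact ⟨f, fun z => (congrFun (hf z) i).symm⟩
  · obtain ⟨e, he⟩ := WL2.exists_equiv (h s)
    exact ⟨_, (he _).symm⟩

/-- Same proof as `game_of_jequiv` (factor out the common part). -/
theorem game_of_sequiv (hk : 1 ≤ k) (hn : 0 < n) (h : SEquiv k G H) : Game G H k := by
  refine WL2.game_of_rel (fun s v w => scolor G k s v = scolor H k s w) (fun _ _ h => h)
    (fun s v w h => congrArg Prod.fst h) (fun s v w h i => ?_) (fun _ => ⟨0, hn⟩) fun s => ?_
  · obtain ⟨f, hf⟩ := WL2.exists_equiv
      (f := fun z => scolor G k s (Function.update v i z))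
      (g := fun z => scolor H k s (Function.update w i z)) (congrFun (congrArg Prod.snd h) i)
    exact ⟨f, fun z => (hf z).symm⟩
  · obtain ⟨e, he⟩ := WL2.exists_equiv (h s)
    exact ⟨_, (he _).symm⟩

/-- The histograms have `n ^ k` and `m ^ k` elements. -/
theorem order_eq_of_jequiv (hk : 1 ≤ k) (h : JEquiv k G H) : n = m := by
  have := congrArg Multiset.card (h 0)
  simp only [Multiset.card_map, Finset.card_val, Finset.card_univ, Fintype.card_pi,
    Fintype.card_fin, Finset.prod_const] at this
  exact Nat.pow_left_injective (by omega) this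

theorem order_eq_of_crequiv (h : CREquiv G H) : n = m := by
  simpa using congrArg Multiset.card (h 0)

/-- Round `0`: a surjective tuple `v` has a partner `w` with the same atomic type; `v i ↦ w i` is
well defined, injective, hence bijective since `n = m`, and preserves the entries. -/
theorem iso_of_jequiv (hk : 1 ≤ k) (hnk : n ≤ k) (h : JEquiv k G H) : AdjIso G H := by
  obtain rfl := order_eq_of_jequiv hk h
  rcases Nat.eq_zero_or_pos n with rfl | hn
  · exact ⟨Equiv.refl _, fun v => v.elim0⟩
  have : Nonempty (Fin n) := ⟨⟨0, hn⟩⟩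
  obtain ⟨v, hv⟩ : ∃ v : Fin k → Fin n, ∀ a, v (Fin.castLE hnk a) = a :=
    ⟨_, Function.leftInverse_invFun (Fin.castLE_injective hnk)⟩
  obtain ⟨e, he⟩ := WL2.exists_equiv (h 0)
  have h1 : atomicType H (e v) = atomicType G v := he v
  have hinj : Function.Injective fun a => e v (Fin.castLE hnk a) := fun a b hab => by
    have := congrFun (congrFun (congrArg Prod.fst h1) (Fin.castLE hnk a)) (Fin.castLE hnk b)
    simp only [atomicType, hv, decide_eq_decide] at this
    exact this.1 hab
  refine ⟨Equiv.ofBijective _ (Finite.injective_iff_bijective.1 hinj), fun a b => ?_⟩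
  have := congrFun (congrFun (congrArg Prod.snd h1) (Fin.castLE hnk a)) (Fin.castLE hnk b)
  simp only [atomicType, hv] at this
  exact this

end Crest.Agent.R290
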