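import Crest.Agent.R290.Pipe
import Crest.Agent.R290.PTsys
import Crest.Agent.R290.MachRun
import Crest.Agent.R290.Cone
import Crest.Agent.R290.WL2
import Crest.Prelude.Def_ExpTime

/-!
# rid 290: EXPTIME-hardness (helper93)
-/

set_option autoImplicit false

namespace Crest.Agent.R290

open Crest.WLRefine Crest.ExpTime Crest.Agent.Lib.PT Crest.Complexity Crest.Enc

/-- Every language in EXPTIME has a numeric machine with a polynomial exponent of the clock. -/
theorem exists_md_of_inEXP {A : Set (List Bool)} (hA : InEXP A) :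
    ∃ (M : MD) (L : List Bool → ℕ) (f : List Bool → Bool), PT L ∧ PB L ∧
      (∀ x, x ∈ A ↔ f x = true) ∧ ∀ x, ∃ T, T < 2 ^ L x ∧ M.Answers x (f x) T := by
  obtain ⟨k, f, c, ⟨tm, htm⟩, hf⟩ := hA
  obtain ⟨M, hM⟩ := exists_md tm.toTM2ComputableAux
  refine ⟨M, fun x => c + 1 + x.length ^ k, f, by fun_prop, by fun_prop, hf, fun x => ?_⟩
  refine ⟨tm.time x.length, ?_, hM x (f x) _ ⟨tm.outputsFun x⟩⟩
  refine lt_of_le_of_lt (htm _) ?_
  have h1 : c < 2 ^ c := Nat.lt_two_pow_self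
  have h2 : 1 ≤ 2 ^ (x.length ^ k) := Nat.one_le_two_pow
  rw [pow_add, pow_succ]
  nlinarith

/-- The dimension used by the reductions. -/
def dimOf (M : MD) (x : List Bool) (L : ℕ) : ℕ := 2400 * (2 * L + bnd M x + 5)

theorem dimOf_spec (M : MD) (x : List Bool) (L : ℕ) :
    2400 ≤ dimOf M x L ∧ 2 ^ (2 * L + bnd M x + 5) ≤ 2 ^ (dimOf M x L / 2400 + 1) := by
  unfold dimOf
  refine ⟨by omega, Nat.pow_le_pow_right (by norm_num) (by omega)⟩

theorem dimOf_pt (M : MD) {L : List Bool → ℕ} (hL : PT L) (bL : PB L) :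
    (PT fun x => dimOf M x (L x)) ∧ PB fun x => dimOf M x (L x) := by
  unfold dimOf bnd
  constructor <;> fun_prop

theorem sysCode_pt (M : MD) {L : List Bool → ℕ} (hL : PT L) (bL : PB L) (pol tw : Bool) :
    PT fun x => adjMatrixCode (sysMat M x (L x) 2 (dimOf M x (L x)) pol tw) := by
  obtain ⟨h1, h2⟩ := dimOf_pt M hL bL
  obtain ⟨h3, h4⟩ := sysN_pt (M := fun _ => M) (x := fun x => x) (q := fun _ => 2)
    (pol := fun _ => pol) (PT.const _) PT.id hL bL (PT.const _) (PB.const _) h1 h2 (PT.const _)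
  have h5 := sysG_pt (M := fun _ => M) (x := fun x => x) (q := fun _ => 2)
    (pol := fun _ => pol) (tw := fun _ => tw) (PT.const _) PT.id hL bL (PT.const _) (PB.const _)
    h1 h2 (PT.const _) (PT.const _)
  have h6 := matCode_pt (g := fun x => sysG M x (L x) 2 (dimOf M x (L x)) pol tw) h3 h4 h5
  simp only [sysMat, adjMatrixCode_toMat]
  exact h6

theorem pair_reduction {A : Set (List Bool)} (hA : InEXP A) :
    ∃ F : List Bool → List Bool, PT F ∧ ∀ x, ∃ (k n : ℕ) (G H : Fin n → Fin n → Bool),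
      F x = natCode k ++ adjMatrixCode G ++ adjMatrixCode H ∧ 2 ≤ k ∧ 0 < n ∧
      SimpleConnSubcubic G ∧ SimpleConnSubcubic H ∧ (x ∈ A ↔ JEquiv k G H) := by
  obtain ⟨M, L, f, hL, bL, hf, hM⟩ := exists_md_of_inEXP hA
  obtain ⟨h1, h2⟩ := dimOf_pt M hL bL
  have h3 := sysCode_pt M hL bL false false
  have h4 := sysCode_pt M hL bL false true
  refine ⟨fun x => natCode (dimOf M x (L x)) ++
    adjMatrixCode (sysMat M x (L x) 2 (dimOf M x (L x)) false false) ++
    adjMatrixCode (sysMat M x (L x) 2 (dimOf M x (L x)) false true),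
    (h1.natCode.append h3).append h4, fun x => ?_⟩
  obtain ⟨T, hT, hx⟩ := hM x
  obtain ⟨d1, d2⟩ := dimOf_spec M x (L x)
  refine ⟨_, _, _, _, rfl, by omega, sysN_pos _ _ _ _ _ _, sysMat_subcubic _ _ _ _ _ _ _,
    sysMat_subcubic _ _ _ _ _ _ _, ?_⟩
  rw [hf]
  constructor
  · intro h
    exact (sys_game hx hT d1 (by simp [h]) d2).jequiv
  · intro h
    by_contra hb
    exact sys_not_game hx hT (by omega) (by simpa using hb)
      (game_of_jequiv (by omega) (sysN_pos _ _ _ _ _ _) h)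

theorem varDim_hard : EXPHard varDimEquivLang := by
  intro A hA
  obtain ⟨F, hF, h⟩ := pair_reduction hA
  refine hF.polyTimeReducible fun x => ?_
  obtain ⟨k, n, G, H, e, hk, -, hG, hH, hx⟩ := h x
  rw [e, mem_varDimEquivLang, hx]
  exact ⟨fun h => ⟨hk, hG.1, hH.1, h⟩, fun h => h.2.2.2⟩

theorem subcubic_hard : EXPHard subcubicVarDimEquivLang := by
  intro A hA
  obtain ⟨F, hF, h⟩ := pair_reduction hA
  refine hF.polyTimeReducible fun x => ?_
  obtain ⟨k, n, G, H, e, hk, hn, hG, hH, hx⟩ := h x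
  rw [e, mem_subcubicVarDimEquivLang, hx]
  exact ⟨fun h => ⟨hk, hn, hG, hH, h⟩, fun h => h.2.2.2.2⟩

theorem wlDim_hard : EXPHard wlDimLeLang := by
  intro A hA
  obtain ⟨M, L, f, hL, bL, hf, hM⟩ := exists_md_of_inEXP hA
  obtain ⟨h1, h2⟩ := dimOf_pt M hL bL
  have h3 := sysCode_pt M hL bL true false
  refine (h1.natCode.append h3).polyTimeReducible fun x => ?_
  obtain ⟨T, hT, hx⟩ := hM x
  obtain ⟨d1, d2⟩ := dimOf_spec M x (L x)
  rw [mem_wlDimLeLang, hf]
  constructor
  · intro h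
    refine ⟨by omega, sysN_pos _ _ _ _ _ _, (sysMat_subcubic _ _ _ _ _ _ _).1, _, by omega, le_rfl,
      fun m H _ hH => ?_⟩
    rw [WLEquiv, if_neg (by omega)] at hH
    exact iso_of_rigid (sys_rigid hx hT (by omega) h)
      (game_of_jequiv (by omega) (sysN_pos _ _ _ _ _ _) hH) (by omega)
  · rintro ⟨-, -, -, k', hk1, hk2, hid⟩
    by_contra hb
    obtain ⟨H, hH, hg, hn⟩ := sys_twin hx hT d1 (pol := true) hb d2
    refine hn (hid _ H hH ?_)
    unfold WLEquiv
    split_ifs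
    · exact (hg.mono (by omega)).crequiv
    · exact (hg.mono (by omega)).jequiv

end Crest.Agent.R290
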