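import Crest.Agent.R290.HornA

/-!
# rid 290, task Horn: the Horn system of a computation
-/

set_option autoImplicit false

namespace Crest.Agent.R290

open Crest.Agent.Lib.PT

theorem hornOK {M : MD} {x : List Bool} {b : Bool} {T L B : ℕ} {st : ℕ → ℕ}
    {cell : ℕ → ℕ → ℕ → ℕ} (h : M.Run x b T st cell) (hB : HB M x B) (pol : Bool) :
    HornOK (hornB M x L B pol) (2 ^ (2 * L + B + 2)) := by
  have hw : 2 ^ (L + B + 1) = 2 * 2 ^ (L + B) := by rw [pow_succ, mul_comm]
  have hBP : 2 ^ B ≤ 2 ^ (L + B) := Nat.pow_le_pow_right (by norm_num) (by omega)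
  have hLpos : 0 < 2 ^ L := by positivity
  have hN : 2 ^ (2 * L + B + 2) = 2 * (2 ^ L * 2 ^ (L + B + 1)) := by
    rw [← pow_add, ← pow_succ']; congr 1; omega
  have hwN : 2 ^ (L + B + 1) ≤ 2 ^ L * 2 ^ (L + B + 1) := Nat.le_mul_of_pos_left _ hLpos
  have hmul : ∀ t, t ≤ 2 ^ L → t * 2 ^ (L + B + 1) ≤ 2 ^ L * 2 ^ (L + B + 1) :=
    fun t ht => Nat.mul_le_mul_right _ ht
  have hlast := hmul (2 ^ L - 1) (by omega)
  have hx := hB.hx
  have hd := hB.hd
  refine ⟨fun W a hD => ?_, fun r hr => ?_, fun r hr => ?_⟩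
  · have hs := hsound h hB hD
    rw [abs_le]
    obtain ⟨n, s, γ⟩ := W
    match n, hs with
    | 0, ⟨hs, t, j, e, hj, ht⟩ =>
      have h1 : j < 2 ^ (L + B) := hj.trans_le (Nat.pow_le_pow_right (by norm_num) (by omega))
      have h2 := hmul t (ht.le.trans (Nat.pow_le_pow_right (by norm_num) (by omega)))
      omega
    | 1, ⟨t, j, e, ht, hj, _⟩ =>
      have h2 := hmul t ht
      omega
    | 2, ⟨t, e, ht, _⟩ =>
      have h2 := hmul t ht.le
      omega
    | 3, ⟨t, j, e, ht, hj, _⟩ =>
      have h2 := hmul t ht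
      omega
    | 4, ⟨t, e, ht, _⟩ =>
      have h2 := hmul t ht.le
      omega
    | 5, ⟨t, j, e, ht, hj, _⟩ =>
      have h2 := hmul t ht.le
      omega
  · rw [mem_hornB] at hr
    rw [abs_le, abs_le]
    cases hr with
    | a1 s hs => simp only [r1]; omega
    | a2 s hs =>
      have h1 : 2 ^ min (if s < L + B then s else s + 1) (L + B + L) ≤ 2 ^ (2 * L + B + 2) :=
        Nat.pow_le_pow_right (by norm_num) ((min_le_right _ _).trans (by omega))
      simp only [r1]
      generalize 2 ^ min (if s < L + B then s else s + 1) (L + B + L) = m at h1 ⊢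
      omega
    | b => simp only [r1]; omega
    | c j hj => simp only [r1]; omega
    | d k hk => simp only; split_ifs <;> omega
    | e1 ρ hρ => simp only [r1]; omega
    | e2 ρ hρ => simp only [r1]; omega
    | e3 ρ hρ => simp only; omega
    | e4 ρ hρ => simp only; omega
    | f ρ hρ p hp =>
      have hd0 : 0 < M.d := Nat.pos_of_ne_zero fun h0 => by simp [h0] at hp
      have hpd := Nat.mod_lt p hd0
      simp only
      omega
    | g ρ hρ k hk j hj =>
      have hl := hB.htop ρ k
      simp only [r1]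
      omega
    | h ρ hρ k hk γ hγ =>
      have hl := hB.htop ρ k
      simp only
      omega
    | i γ hγ hp => simp only [r1]; omega
  · rw [mem_hornB] at hr
    cases hr <;> simp [r1, wf, w0]

section complete

variable {M : MD} {x : List Bool} {L B : ℕ} {pol : Bool}

theorem HR.der1 {out W : Wire} {δ a : ℤ} (hr : HR M x L B pol (r1 out W δ)) {a1 : ℤ}
    (h1 : Der (hornB M x L B pol) W a1) (e1 : a1 = a + δ) : Der (hornB M x L B pol) out a :=
  Der.rule _ (mem_hornB.2 hr) a (e1 ▸ h1) (e1 ▸ h1)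

theorem HR.der2 {out W1 W2 : Wire} {δ1 δ2 a : ℤ} (hr : HR M x L B pol (out, (W1, δ1), (W2, δ2)))
    {a1 a2 : ℤ} (h1 : Der (hornB M x L B pol) W1 a1) (h2 : Der (hornB M x L B pol) W2 a2)
    (e1 : a1 = a + δ1) (e2 : a2 = a + δ2) : Der (hornB M x L B pol) out a :=
  Der.rule _ (mem_hornB.2 hr) a (e1 ▸ h1) (e2 ▸ h2)

theorem hdouble (s : ℕ) (hs : s ≤ L + B + L) (t j : ℕ) (hj : j < 2 ^ min s (L + B))
    (ht : t < 2 ^ (s - (L + B))) :
    Der (hornB M x L B pol) (0, s, 0) (t * 2 ^ (L + B + 1) + j : ℕ) := by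
  induction s generalizing t j with
  | zero =>
    simp only [zero_tsub, pow_zero, Nat.lt_one_iff, Nat.zero_min] at hj ht
    subst hj ht
    simpa [w0] using Der.ax (H := hornB M x L B pol)
  | succ s ih =>
    by_cases hsP : s < L + B
    · rw [min_eq_left (by omega), pow_succ] at hj
      have ht' : t < 2 ^ (s - (L + B)) := by
        rwa [show s + 1 - (L + B) = s - (L + B) by omega] at ht
      by_cases hj2 : j < 2 ^ s
      · exact (HR.a1 s hs).der1 (ih (by omega) t j (by rwa [min_eq_left hsP.le]) ht') (by omega)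
      · refine (HR.a2 s hs).der1 (ih (by omega) t (j - 2 ^ s)
          (by rw [min_eq_left hsP.le]; omega) ht') ?_
        rw [if_pos hsP, min_eq_left (by omega)]
        omega
    · have hj' : j < 2 ^ min s (L + B) := by
        rwa [show min (s + 1) (L + B) = min s (L + B) by omega] at hj
      rw [show s + 1 - (L + B) = s - (L + B) + 1 by omega, pow_succ] at ht
      by_cases ht2 : t < 2 ^ (s - (L + B))
      · exact (HR.a1 s hs).der1 (ih (by omega) t j hj' ht2) (by omega)
      · refine (HR.a2 s hs).der1 (ih (by omega) (t - 2 ^ (s - (L + B))) j hj' (by omega)) ?_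
        rw [if_neg hsP, min_eq_left (by omega)]
        have e2 : 2 ^ (s + 1) = 2 ^ (s - (L + B)) * 2 ^ (L + B + 1) := by
          rw [← pow_add]; congr 1; omega
        have e3 : t * 2 ^ (L + B + 1) =
            (t - 2 ^ (s - (L + B))) * 2 ^ (L + B + 1) + 2 ^ (s + 1) := by
          rw [e2, ← add_mul]; congr 1; omega
        omega

theorem hrow (j : ℕ) (hj : j < 2 ^ (L + B)) : Der (hornB M x L B pol) (0, L + B, 0) j := by
  simpa using hdouble (M := M) (x := x) (pol := pol) (L + B) (by omega) 0 j (by simpa using hj)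
    (by positivity)

theorem hrect (t j : ℕ) (ht : t < 2 ^ L) (hj : j < 2 ^ (L + B)) :
    Der (hornB M x L B pol) (0, L + B + L, 0) (t * 2 ^ (L + B + 1) + j : ℕ) :=
  hdouble (L + B + L) le_rfl t j (by rwa [min_eq_right (by omega)])
    (by rwa [show L + B + L - (L + B) = L by omega])

variable {b : Bool} {T : ℕ} {st : ℕ → ℕ} {cell : ℕ → ℕ → ℕ → ℕ}

theorem hrun (h : M.Run x b T st cell) (hB : HB M x B) (t : ℕ) (ht : t < 2 ^ L) :
    Der (hornB M x L B pol) (2, st t, 0) (t * 2 ^ (L + B + 1) : ℕ) ∧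
      ∀ k < M.κ, ∀ j, j + t * M.d < 2 ^ (L + B) →
        Der (hornB M x L B pol) (3, k, cell t k j) (t * 2 ^ (L + B + 1) + j : ℕ) := by
  induction t with
  | zero =>
    refine ⟨h.st0 ▸ HR.b.der1 Der.ax (by simp), fun k hk j hj => ?_⟩
    rw [h.cell0 k hk]
    by_cases hc : k = M.k₀ ∧ j < x.length
    · obtain ⟨rfl, hc⟩ := hc
      rw [if_pos rfl, List.getD_eq_getElem _ _ (by simpa using hc), List.getElem_map,
        ← List.getD_eq_getElem _ false hc]
      exact (HR.c j hc).der1 Der.ax (by omega)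
    · by_cases hk0 : k = M.k₀
      · have hj2 : x.length ≤ j := by
          by_contra h3
          exact hc ⟨hk0, by omega⟩
        rw [if_pos hk0, List.getD_eq_default _ _ (by rwa [List.length_map])]
        refine (HR.d k hk).der2 (hrow j (by omega)) (hrow (j - x.length) (by omega))
          (by omega) ?_
        rw [if_pos hk0]
        omega
      · rw [if_neg hk0]
        refine (HR.d k hk).der2 (hrow j (by omega)) (hrow j (by omega)) (by omega) ?_
        rw [if_neg hk0]
        omega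
  | succ t ih =>
    obtain ⟨ih1, ih2⟩ := ih (by omega)
    obtain ⟨r, hr, hm⟩ := h.ex t
    obtain ⟨ρ, hρ, rfl⟩ := exists_hrule hr
    obtain ⟨s1, s2⟩ := h.step t _ hr hm
    have e3 : (t + 1) * 2 ^ (L + B + 1) = t * 2 ^ (L + B + 1) + 2 ^ (L + B + 1) := by ring
    have e4 : (t + 1) * M.d = t * M.d + M.d := by ring
    have e5 : (t + 1) * M.d ≤ 2 ^ (L + B) := by
      rw [pow_add]; exact Nat.mul_le_mul ht.le hB.hd.le
    have h4 : ∀ p ≤ M.κ * M.d, Der (hornB M x L B pol) (4, ρ, p) (t * 2 ^ (L + B + 1) : ℕ) := by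
      intro p hp
      induction p with
      | zero => exact (HR.e1 ρ hρ).der1 (hm.1 ▸ ih1) (by omega)
      | succ p ihp =>
        have hd0 : 0 < M.d := Nat.pos_of_ne_zero fun h0 => by simp [h0] at hp
        have hpd := Nat.mod_lt p hd0
        have hpk : p / M.d < M.κ := (Nat.div_lt_iff_lt_mul hd0).2 hp
        have h5 := ih2 _ hpk (p % M.d) (by omega)
        rw [hm.2 _ hpk _ hpd] at h5
        exact (HR.f ρ hρ p hp).der2 (ihp (by omega)) h5 (by omega) (by omega)
    have h4' := h4 _ le_rfl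
    have h5 : ∀ j < 2 ^ (L + B),
        Der (hornB M x L B pol) (5, ρ, 0) (t * 2 ^ (L + B + 1) + j : ℕ) := by
      intro j hj
      induction j with
      | zero => exact (HR.e2 ρ hρ).der1 h4' (by omega)
      | succ j ihj =>
        exact (HR.e3 ρ hρ).der2 (ihj (by omega)) (hrect t (j + 1) (by omega) hj) (by omega)
          (by omega)
    refine ⟨?_, fun k hk j hj => ?_⟩
    · rw [s1]
      exact (HR.e4 ρ hρ).der2 h4' (hrect (t + 1) 0 ht (by positivity)) (by omega) (by omega)
    · rw [s2 k hk j]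
      split_ifs with hl
      · exact (HR.g ρ hρ k hk j hl).der1 h4' (by omega)
      · change ¬ j < (htop M ρ k).length at hl
        change Der _ (3, k, cell t k (j - (htop M ρ k).length + M.d)) _
        exact (HR.h ρ hρ k hk _ (h.lt _ _ _)).der2 (h5 (j - (htop M ρ k).length) (by omega))
          (ih2 k hk _ (by omega)) (by omega) (by omega)

theorem hcomplete (h : M.Run x b T st cell) (hB : HB M x B) (hT : T < 2 ^ L) (hb : b = pol) :
    Der (hornB M x L B pol) wf 0 := by
  have e5 : (2 ^ L - 1) * M.d < 2 ^ (L + B) := by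
    rw [pow_add]
    exact Nat.mul_lt_mul_of_le_of_lt (by omega) hB.hd (by positivity)
  have h1 := (hrun (L := L) (pol := pol) h hB (2 ^ L - 1) (by omega)).2 _ h.k1 0 (by omega)
  have h2 := h.fin (2 ^ L - 1) (by omega)
  rw [hb] at h2
  exact (HR.i (L := L) (B := B) _ (h.lt _ _ _) h2).der1 h1 (by omega)

end complete

/-- Let `B = bnd M x`, `P = L + B`, `w = 2 ^ (P + 1)`; `|x|`, `d` and the lengths of all new tops are
`< 2 ^ B` (`length_toBits`, `sz_le_of_mem`, `length_le_sz`, `Nat.lt_size_self`).  First prove a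
membership lemma for `hornB` (a disjunction of the eleven kinds of rules).

SOUNDNESS (induction on `Der`): every derivable fact `(W, a)` is true, where
`(0, s, 0)`: `s ≤ P + L` and `a = t w + j` with `j < 2 ^ min s P`, `t < 2 ^ (s - P)`;
`(2, s, 0)`: `a = t w`, `t < 2 ^ L`, `st t = s`;
`(3, k, γ)`: `a = t w + j`, `t ≤ 2 ^ L`, `j < w`, `k < κ`, `cell t k j = γ`;
`(4, ρ, p)`: `a = t w`, `t < 2 ^ L`, `ρ < |R|`, `p ≤ κ d`, state and first `p` window cells match;
`(5, ρ, 0)`: `a = t w + j`, `t < 2 ^ L`, `j < 2 ^ P`, rule `ρ` matches at time `t`;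
`wf`: `a + (2 ^ L - 1) w = t w + j` (`t ≤ 2 ^ L`, `j < w`) and `cell t k₁ j = cF ↔ pol = false`.
The representation `t w + j`, `j < w`, is unique.  This gives the bound and `Der wf 0 → b = pol`
(`fin` at time `2 ^ L - 1 ≥ T`).
COMPLETENESS: the doubling wires hold on their boxes; by induction on `t < 2 ^ L`: the state fact at
`t w` and the cell facts for all `k < κ` and `j + t d < 2 ^ P` are derivable (pick a matching rule
by `ex`, derive `(4, ρ, p)` by induction on `p`, broadcast, then `step`). -/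
theorem horn_spec {M : MD} {x : List Bool} {b : Bool} {T L : ℕ} (h : M.Answers x b T)
    (hT : T < 2 ^ L) (pol : Bool) :
    HornOK (horn M x L pol) (2 ^ (2 * L + bnd M x + 2)) ∧
      (Der (horn M x L pol) wf 0 ↔ b = pol) := by
  obtain ⟨st, cell, h⟩ := h
  have hB := hb_bnd M x
  rw [horn]
  generalize bnd M x = B at hB ⊢
  refine ⟨hornOK h hB pol, fun hD => ?_, fun hb => hcomplete h hB hT hb⟩
  obtain ⟨t, j, e, ht, hj, hc⟩ := hsound h hB hD
  obtain ⟨h1, h2⟩ := haddr_unique (w := 2 ^ (L + B + 1)) (t := 2 ^ L - 1) (j := 0) (t' := t)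
    (j' := j) (by positivity) hj (by omega)
  rw [← h1, ← h2, h.fin _ (by omega)] at hc
  revert hc
  cases b <;> cases pol <;> simp

end Crest.Agent.R290
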