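import Crest.Agent.R290.Mach

/-!
# rid 290, task Horn: the rules of `hornB` as an inductive predicate, soundness
-/

set_option autoImplicit false

namespace Crest.Agent.R290

open Crest.Agent.Lib.PT

/-- Rule number `ρ` of the machine. -/
def hrule (M : MD) (ρ : ℕ) : MRule := M.R.getD ρ (0, [], 0, [])

/-- New top of stack `k` in rule `ρ`. -/
def htop (M : MD) (ρ k : ℕ) : List ℕ := (hrule M ρ).2.2.2.getD k []

/-- Window entry `(k, j)` of rule `ρ`. -/
def hwin (M : MD) (ρ k j : ℕ) : ℕ := ((hrule M ρ).2.1.getD k []).getD j 0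

/-- The rules of `hornB`. -/
inductive HR (M : MD) (x : List Bool) (L B : ℕ) (pol : Bool) : HRule → Prop
  | a1 (s : ℕ) (hs : s < L + B + L) : HR M x L B pol (r1 (0, s + 1, 0) (0, s, 0) 0)
  | a2 (s : ℕ) (hs : s < L + B + L) : HR M x L B pol (r1 (0, s + 1, 0) (0, s, 0)
      (-((2 ^ min (if s < L + B then s else s + 1) (L + B + L) : ℕ) : ℤ)))
  | b : HR M x L B pol (r1 (2, M.s₀, 0) w0 0)
  | c (j : ℕ) (hj : j < x.length) :
      HR M x L B pol (r1 (3, M.k₀, M.cL (x.getD j false)) w0 (-(j : ℤ)))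
  | d (k : ℕ) (hk : k < M.κ) : HR M x L B pol
      ((3, k, 0), ((0, L + B, 0), 0), ((0, L + B, 0), if k = M.k₀ then -(x.length : ℤ) else 0))
  | e1 (ρ : ℕ) (hρ : ρ < M.R.length) : HR M x L B pol (r1 (4, ρ, 0) (2, (hrule M ρ).1, 0) 0)
  | e2 (ρ : ℕ) (hρ : ρ < M.R.length) : HR M x L B pol (r1 (5, ρ, 0) (4, ρ, M.κ * M.d) 0)
  | e3 (ρ : ℕ) (hρ : ρ < M.R.length) :
      HR M x L B pol ((5, ρ, 0), ((5, ρ, 0), -1), ((0, L + B + L, 0), 0))
  | e4 (ρ : ℕ) (hρ : ρ < M.R.length) : HR M x L B pol ((2, (hrule M ρ).2.2.1, 0),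
       ((4, ρ, M.κ * M.d), -((2 ^ (L + B + 1) : ℕ) : ℤ)), ((0, L + B + L, 0), 0))
  | f (ρ : ℕ) (hρ : ρ < M.R.length) (p : ℕ) (hp : p < M.κ * M.d) : HR M x L B pol
      ((4, ρ, p + 1), ((4, ρ, p), 0),
        ((3, p / M.d, hwin M ρ (p / M.d) (p % M.d)), ((p % M.d : ℕ) : ℤ)))
  | g (ρ : ℕ) (hρ : ρ < M.R.length) (k : ℕ) (hk : k < M.κ) (j : ℕ)
      (hj : j < (htop M ρ k).length) : HR M x L B pol
      (r1 (3, k, (htop M ρ k).getD j 0) (4, ρ, M.κ * M.d) (-((2 ^ (L + B + 1) + j : ℕ) : ℤ)))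
  | h (ρ : ℕ) (hρ : ρ < M.R.length) (k : ℕ) (hk : k < M.κ) (γ : ℕ) (hγ : γ < M.g) :
      HR M x L B pol ((3, k, γ),
          ((5, ρ, 0), -((2 ^ (L + B + 1) + (htop M ρ k).length : ℕ) : ℤ)),
          ((3, k, γ), -((2 ^ (L + B + 1) + (htop M ρ k).length : ℕ) : ℤ) + (M.d : ℤ)))
  | i (γ : ℕ) (hγ : γ < M.g) (hp : γ = M.cF ↔ pol = false) :
      HR M x L B pol (r1 wf (3, M.k₁, γ) (((2 ^ L - 1) * 2 ^ (L + B + 1) : ℕ) : ℤ))

theorem mem_hornB {M : MD} {x : List Bool} {L B : ℕ} {pol : Bool} {r : HRule} :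
    r ∈ hornB M x L B pol ↔ HR M x L B pol r := by
  have hI : ∀ γ : ℕ, (decide (γ = M.cF) != pol) = true ↔ (γ = M.cF ↔ pol = false) := by
    intro γ
    cases pol <;> simp
  constructor
  · intro h
    simp only [hornB, List.mem_append, List.mem_flatMap, List.mem_map, List.mem_range,
      List.mem_cons, List.not_mem_nil, or_false, List.mem_filter, hI] at h
    rcases h with ((((⟨s, hs, rfl | rfl⟩ | rfl) | ⟨j, hj, rfl⟩) | ⟨k, hk, rfl⟩) |
      ⟨ρ, hρ, ((rfl | rfl | rfl | rfl) | ⟨p, hp, rfl⟩) |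
        ⟨k, hk, ⟨j, hj, rfl⟩ | ⟨γ, hγ, rfl⟩⟩⟩) | ⟨γ, ⟨hγ, hp⟩, rfl⟩
    · exact .a1 s hs
    · exact .a2 s hs
    · exact .b
    · exact .c j hj
    · exact .d k hk
    · exact .e1 ρ hρ
    · exact .e2 ρ hρ
    · exact .e3 ρ hρ
    · exact .e4 ρ hρ
    · exact .f ρ hρ p hp
    · exact .g ρ hρ k hk j hj
    · exact .h ρ hρ k hk γ hγ
    · exact .i γ hγ hp
  · intro h
    simp only [hornB, List.mem_append, List.mem_flatMap, List.mem_map, List.mem_range,
      List.mem_cons, List.not_mem_nil, or_false, List.mem_filter, hI]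
    cases h with
    | a1 s hs => exact .inl (.inl (.inl (.inl (.inl ⟨s, hs, .inl rfl⟩))))
    | a2 s hs => exact .inl (.inl (.inl (.inl (.inl ⟨s, hs, .inr rfl⟩))))
    | b => exact .inl (.inl (.inl (.inl (.inr rfl))))
    | c j hj => exact .inl (.inl (.inl (.inr ⟨j, hj, rfl⟩)))
    | d k hk => exact .inl (.inl (.inr ⟨k, hk, rfl⟩))
    | e1 ρ hρ => exact .inl (.inr ⟨ρ, hρ, .inl (.inl (.inl rfl))⟩)
    | e2 ρ hρ => exact .inl (.inr ⟨ρ, hρ, .inl (.inl (.inr (.inl rfl)))⟩)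
    | e3 ρ hρ => exact .inl (.inr ⟨ρ, hρ, .inl (.inl (.inr (.inr (.inl rfl))))⟩)
    | e4 ρ hρ => exact .inl (.inr ⟨ρ, hρ, .inl (.inl (.inr (.inr (.inr rfl))))⟩)
    | f ρ hρ p hp => exact .inl (.inr ⟨ρ, hρ, .inl (.inr ⟨p, hp, rfl⟩)⟩)
    | g ρ hρ k hk j hj => exact .inl (.inr ⟨ρ, hρ, .inr ⟨k, hk, .inl ⟨j, hj, rfl⟩⟩⟩)
    | h ρ hρ k hk γ hγ => exact .inl (.inr ⟨ρ, hρ, .inr ⟨k, hk, .inr ⟨γ, hγ, rfl⟩⟩⟩)
    | i γ hγ hp => exact .inr ⟨γ, ⟨hγ, hp⟩, rfl⟩

/-- `2 ^ B` bounds the relevant sizes. -/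
structure HB (M : MD) (x : List Bool) (B : ℕ) : Prop where
  hx : x.length < 2 ^ B
  hd : M.d < 2 ^ B
  htop : ∀ ρ k, (htop M ρ k).length < 2 ^ B

theorem hrule_mem {M : MD} {ρ : ℕ} (hρ : ρ < M.R.length) : hrule M ρ ∈ M.R := by
  rw [hrule, List.getD_eq_getElem _ _ hρ]
  exact List.getElem_mem hρ

theorem exists_hrule {M : MD} {r : MRule} (hr : r ∈ M.R) :
    ∃ ρ < M.R.length, hrule M ρ = r := by
  obtain ⟨ρ, hρ, rfl⟩ := List.getElem_of_mem hr
  exact ⟨ρ, hρ, by rw [hrule, List.getD_eq_getElem _ _ hρ]⟩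

theorem hb_bnd (M : MD) (x : List Bool) : HB M x (bnd M x) := by
  have h0 : sz M + x.length < 2 ^ bnd M x := by
    rw [bnd, length_toBits]; exact Nat.lt_size_self _
  have h1 : sz M = sz M.1 + sz M.2 + 1 := sz_prod M
  refine ⟨by omega, ?_, fun ρ k => ?_⟩
  · have h2 : sz M.1 = sz M.1.1 + sz M.1.2 + 1 := sz_prod _
    have h3 : sz M.1.2 = sz M.1.2.1 + sz M.1.2.2 + 1 := sz_prod _
    have h4 := sz_un M.1.2.1
    unfold MD.d
    omega
  · have h2 : sz M.2 = sz M.2.1 + sz M.2.2 + 1 := sz_prod _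
    have h3 : sz M.2.2 = sz M.2.2.1 + sz M.2.2.2 + 1 := sz_prod _
    have h4 : sz M.R = sz M.2.2.2 := rfl
    have hpos : 0 < 2 ^ bnd M x := by positivity
    by_cases hρ : ρ < M.R.length
    · have h5 := sz_le_of_mem (hrule_mem hρ)
      have h6 : sz (hrule M ρ) = sz (hrule M ρ).1 + sz (hrule M ρ).2 + 1 := sz_prod _
      have h7 : sz (hrule M ρ).2 = sz (hrule M ρ).2.1 + sz (hrule M ρ).2.2 + 1 := sz_prod _
      have h8 : sz (hrule M ρ).2.2 = sz (hrule M ρ).2.2.1 + sz (hrule M ρ).2.2.2 + 1 := sz_prod _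
      by_cases hk : k < (hrule M ρ).2.2.2.length
      · have h9 : htop M ρ k ∈ (hrule M ρ).2.2.2 := by
          rw [htop, List.getD_eq_getElem _ _ hk]
          exact List.getElem_mem hk
        have h10 := sz_le_of_mem h9
        have h11 := length_le_sz (htop M ρ k)
        omega
      · rw [htop, List.getD_eq_default _ _ (not_lt.1 hk)]
        exact hpos
    · rw [htop, hrule, List.getD_eq_default _ _ (not_lt.1 hρ)]
      simp

theorem haddr_unique {w t j t' j' : ℕ} (hj : j < w) (hj' : j' < w)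
    (h : t * w + j = t' * w + j') : t = t' ∧ j = j' := by
  have h1 : (t * w + j) / w = t := by
    rw [mul_comm, Nat.mul_add_div (by omega), Nat.div_eq_of_lt hj, add_zero]
  have h2 : (t' * w + j') / w = t' := by
    rw [mul_comm, Nat.mul_add_div (by omega), Nat.div_eq_of_lt hj', add_zero]
  have h3 : t = t' := by rw [← h1, h, h2]
  subst h3
  exact ⟨rfl, by omega⟩

/-- The meaning of the facts. -/
def HTr (M : MD) (st : ℕ → ℕ) (cell : ℕ → ℕ → ℕ → ℕ) (L B : ℕ) (pol : Bool) : Wire → ℤ → Prop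
  | (0, s, _), a => s ≤ L + B + L ∧ ∃ t j : ℕ, a = (t * 2 ^ (L + B + 1) + j : ℕ) ∧
      j < 2 ^ min s (L + B) ∧ t < 2 ^ (s - (L + B))
  | (1, _, _), a => ∃ t j : ℕ,
      a + ((2 ^ L - 1) * 2 ^ (L + B + 1) : ℕ) = (t * 2 ^ (L + B + 1) + j : ℕ) ∧
      t ≤ 2 ^ L ∧ j < 2 ^ (L + B + 1) ∧ (cell t M.k₁ j = M.cF ↔ pol = false)
  | (2, s, _), a => ∃ t : ℕ, a = (t * 2 ^ (L + B + 1) : ℕ) ∧ t < 2 ^ L ∧ st t = s
  | (3, k, γ), a => ∃ t j : ℕ, a = (t * 2 ^ (L + B + 1) + j : ℕ) ∧ t ≤ 2 ^ L ∧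
      j < 2 ^ (L + B + 1) ∧ cell t k j = γ
  | (4, ρ, p), a => ∃ t : ℕ, a = (t * 2 ^ (L + B + 1) : ℕ) ∧ t < 2 ^ L ∧
      st t = (hrule M ρ).1 ∧ ∀ p' < p, cell t (p' / M.d) (p' % M.d) = hwin M ρ (p' / M.d) (p' % M.d)
  | (5, ρ, _), a => ∃ t j : ℕ, a = (t * 2 ^ (L + B + 1) + j : ℕ) ∧ t < 2 ^ L ∧
      j < 2 ^ (L + B) ∧ M.Match st cell (hrule M ρ) t
  | _, _ => False

theorem hmatch_of {M : MD} {st : ℕ → ℕ} {cell : ℕ → ℕ → ℕ → ℕ} {ρ t : ℕ}
    (h1 : st t = (hrule M ρ).1) (h2 : ∀ p' < M.κ * M.d,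
      cell t (p' / M.d) (p' % M.d) = hwin M ρ (p' / M.d) (p' % M.d)) :
    M.Match st cell (hrule M ρ) t := by
  refine ⟨h1, fun k hk j hj => ?_⟩
  have hlt : M.d * k + j < M.κ * M.d := by
    calc M.d * k + j < M.d * (k + 1) := by rw [Nat.mul_succ]; omega
      _ ≤ M.d * M.κ := Nat.mul_le_mul_left _ hk
      _ = _ := mul_comm _ _
  have := h2 _ hlt
  rwa [Nat.mul_add_div (by omega), Nat.div_eq_of_lt hj, add_zero, Nat.mul_add_mod,
    Nat.mod_eq_of_lt hj] at this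

theorem hsound {M : MD} {x : List Bool} {b : Bool} {T L B : ℕ} {st : ℕ → ℕ}
    {cell : ℕ → ℕ → ℕ → ℕ} (h : M.Run x b T st cell) (hB : HB M x B) {pol : Bool}
    {W : Wire} {a : ℤ} (hD : Der (hornB M x L B pol) W a) : HTr M st cell L B pol W a := by
  have hw : 2 ^ (L + B + 1) = 2 * 2 ^ (L + B) := by rw [pow_succ, mul_comm]
  have hBP : 2 ^ B ≤ 2 ^ (L + B) := Nat.pow_le_pow_right (by norm_num) (by omega)
  have hLpos : 0 < 2 ^ L := by positivity
  have hx := hB.hx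
  have hd := hB.hd
  induction hD with
  | ax => exact ⟨by omega, 0, 0, by simp, by positivity, by positivity⟩
  | rule r hr a _ _ ih1 ih2 =>
    rw [mem_hornB] at hr
    cases hr with
    | a1 s hs =>
      obtain ⟨-, t, j, e, hj, ht⟩ := ih1
      refine ⟨hs, t, j, by simpa [r1] using e, hj.trans_le ?_, ht.trans_le ?_⟩
      · exact Nat.pow_le_pow_right (by norm_num) (by omega)
      · exact Nat.pow_le_pow_right (by norm_num) (by omega)
    | a2 s hs =>
      obtain ⟨-, t, j, e, hj, ht⟩ := ih1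
      simp only [r1] at e
      by_cases hsP : s < L + B
      · rw [if_pos hsP, min_eq_left (by omega)] at e
        rw [min_eq_left hsP.le] at hj
        refine ⟨hs, t, j + 2 ^ s, by omega, ?_, ht.trans_le ?_⟩
        · rw [min_eq_left (by omega), pow_succ]; omega
        · exact Nat.pow_le_pow_right (by norm_num) (by omega)
      · rw [if_neg hsP, min_eq_left (by omega)] at e
        have e2 : 2 ^ (s + 1) = 2 ^ (s - (L + B)) * 2 ^ (L + B + 1) := by
          rw [← pow_add]; congr 1; omega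
        refine ⟨hs, t + 2 ^ (s - (L + B)), j, ?_, hj.trans_le ?_, ?_⟩
        · rw [add_mul, ← e2]; omega
        · exact Nat.pow_le_pow_right (by norm_num) (by omega)
        · rw [show s + 1 - (L + B) = s - (L + B) + 1 by omega, pow_succ]; omega
    | b =>
      obtain ⟨-, t, j, e, hj, ht⟩ := ih1
      simp only [r1, zero_tsub, pow_zero, Nat.lt_one_iff, Nat.zero_min] at e hj ht
      subst hj ht
      exact ⟨0, by simpa using e, hLpos, h.st0⟩
    | c j hj =>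
      obtain ⟨-, t, j', e, hj', ht⟩ := ih1
      simp only [r1, zero_tsub, pow_zero, Nat.lt_one_iff, Nat.zero_min] at e hj' ht
      subst hj' ht
      refine ⟨0, j, by omega, by omega, by omega, ?_⟩
      rw [h.cell0 _ h.k0, if_pos rfl, List.getD_eq_getElem _ _ (by simpa using hj),
        List.getD_eq_getElem _ _ hj, List.getElem_map]
    | d k hk =>
      obtain ⟨-, t, j, e, hj, ht⟩ := ih1
      obtain ⟨-, t', j', e', hj', ht'⟩ := ih2
      simp only [tsub_self, pow_zero, Nat.lt_one_iff, min_self] at e hj ht e' hj' ht'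
      subst ht ht'
      refine ⟨0, j, by omega, by omega, by omega, ?_⟩
      rw [h.cell0 _ hk]
      split_ifs at e' ⊢ with hk0
      · rw [List.getD_eq_default _ _ (by rw [List.length_map]; omega)]
      · rfl
    | e1 ρ hρ =>
      obtain ⟨t, e, ht, hs⟩ := ih1
      exact ⟨t, by simpa [r1] using e, ht, hs, fun p' hp' => absurd hp' (Nat.not_lt_zero _)⟩
    | e2 ρ hρ =>
      obtain ⟨t, e, ht, hs, hc⟩ := ih1
      exact ⟨t, 0, by simpa [r1] using e, ht, by positivity, hmatch_of hs hc⟩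
    | e3 ρ hρ =>
      obtain ⟨t, j, e, ht, hj, hm⟩ := ih1
      obtain ⟨-, t', j', e', hj', ht'⟩ := ih2
      rw [min_eq_right (by omega)] at hj'
      simp only at e e'
      obtain ⟨h1, h2⟩ := haddr_unique (w := 2 ^ (L + B + 1)) (t := t) (j := j + 1) (t' := t')
        (j' := j') (by omega) (by omega) (by omega)
      exact ⟨t, j + 1, by omega, ht, by omega, hm⟩
    | e4 ρ hρ =>
      obtain ⟨t, e, ht, hs, hc⟩ := ih1
      obtain ⟨-, t', j', e', hj', ht'⟩ := ih2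
      rw [min_eq_right (by omega)] at hj'
      rw [show L + B + L - (L + B) = L by omega] at ht'
      simp only at e e'
      have e3 : (t + 1) * 2 ^ (L + B + 1) = t * 2 ^ (L + B + 1) + 2 ^ (L + B + 1) := by ring
      obtain ⟨h1, h2⟩ := haddr_unique (w := 2 ^ (L + B + 1)) (t := t + 1) (j := 0) (t' := t')
        (j' := j') (by omega) (by omega) (by omega)
      exact ⟨t + 1, by omega, by omega, (h.step t _ (hrule_mem hρ) (hmatch_of hs hc)).1⟩
    | f ρ hρ p hp =>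
      obtain ⟨t, e, ht, hs, hc⟩ := ih1
      obtain ⟨t', j', e', ht', hj', hc'⟩ := ih2
      simp only at e e'
      have hd0 : 0 < M.d := Nat.pos_of_ne_zero fun h0 => by simp [h0] at hp
      have hpd := Nat.mod_lt p hd0
      obtain ⟨h1, h2⟩ := haddr_unique (w := 2 ^ (L + B + 1)) (t := t) (j := p % M.d) (t' := t')
        (j' := j') (by omega) (by omega) (by omega)
      refine ⟨t, by omega, ht, hs, fun p' hp' => ?_⟩
      rcases Nat.lt_succ_iff_lt_or_eq.1 hp' with h3 | rfl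
      · exact hc p' h3
      · rw [← hc', h1, ← h2]
    | g ρ hρ k hk j hj =>
      obtain ⟨t, e, ht, hs, hc⟩ := ih1
      simp only [r1] at e
      have hl := hB.htop ρ k
      have e3 : (t + 1) * 2 ^ (L + B + 1) = t * 2 ^ (L + B + 1) + 2 ^ (L + B + 1) := by ring
      refine ⟨t + 1, j, by omega, ht, by omega, ?_⟩
      rw [(h.step t _ (hrule_mem hρ) (hmatch_of hs hc)).2 k hk j]
      exact if_pos hj
    | h ρ hρ k hk γ hγ =>
      obtain ⟨t, j, e, ht, hj, hm⟩ := ih1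
      obtain ⟨t', j', e', ht', hj', hc'⟩ := ih2
      simp only at e e'
      have hl := hB.htop ρ k
      have e3 : (t + 1) * 2 ^ (L + B + 1) = t * 2 ^ (L + B + 1) + 2 ^ (L + B + 1) := by ring
      obtain ⟨h1, h2⟩ := haddr_unique (w := 2 ^ (L + B + 1)) (t := t) (j := j + M.d) (t' := t')
        (j' := j') (by omega) (by omega) (by omega)
      refine ⟨t + 1, j + (htop M ρ k).length, by omega, ht, by omega, ?_⟩
      rw [(h.step t _ (hrule_mem hρ) hm).2 k hk]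
      refine (if_neg (by change ¬ _ < (htop M ρ k).length; omega)).trans ?_
      change cell t k (j + (htop M ρ k).length - (htop M ρ k).length + M.d) = γ
      rw [Nat.add_sub_cancel, h1, h2, hc']
    | i γ hγ hp =>
      obtain ⟨t, j, e, ht, hj, hc⟩ := ih1
      exact ⟨t, j, e, ht, hj, by rw [hc]; exact hp⟩

end Crest.Agent.R290
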