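import Crest.Agent.R290.Long

/-!
# rid 290, task Lines: lines, amplifier indices, primes
-/

set_option autoImplicit false

namespace Crest.Agent.R290

theorem Lines_digit {a a' b b' n : ℕ} (hb : b < n) (hb' : b' < n) (h : a * n + b = a' * n + b') :
    a = a' ∧ b = b' := by
  have h1 : (a * n + b) % n = (a' * n + b') % n := by rw [h]
  rw [Nat.mul_add_mod_self_right, Nat.mul_add_mod_self_right, Nat.mod_eq_of_lt hb,
    Nat.mod_eq_of_lt hb'] at h1
  subst h1
  exact ⟨Nat.eq_of_mul_eq_mul_right (by omega) (Nat.add_right_cancel h), rfl⟩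

theorem Lines_lt {a b m n : ℕ} (ha : a < m) (hb : b < n) : a * n + b < m * n :=
  calc a * n + b < (a + 1) * n := by rw [add_mul]; omega
    _ ≤ m * n := Nat.mul_le_mul_right _ ha

theorem Lines_qq_mem {qs : List ℕ} {i : ℕ} (hi : i < qs.length) : qq qs i ∈ qs := by
  rw [qq, List.getD_eq_getElem _ _ hi]
  exact List.getElem_mem hi

theorem Lines_mem_filter (q X p : ℕ) :
    p ∈ ((List.range X).filter fun p => decide (q ≤ p) && decide (2 ≤ p) &&
      (List.range (min p X)).all fun d => decide (d < 2) || decide (p % d ≠ 0)) ↔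
    p < X ∧ p.Prime ∧ q ≤ p := by
  simp only [List.mem_filter, List.mem_range, Bool.and_eq_true, decide_eq_true_eq,
    List.all_eq_true, Bool.or_eq_true, Nat.prime_def_lt']
  refine and_congr_right fun hp => ?_
  rw [min_eq_left hp.le]
  constructor
  · rintro ⟨⟨h1, h2⟩, h3⟩
    refine ⟨⟨h2, fun d hd hdp hdvd => ?_⟩, h1⟩
    rcases h3 d hdp with h | h
    · omega
    · exact h (Nat.mod_eq_zero_of_dvd hdvd)
  · rintro ⟨⟨h2, h3⟩, h1⟩
    refine ⟨⟨h1, h2⟩, fun d hdp => ?_⟩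
    rcases lt_or_ge d 2 with h | h
    · exact Or.inl h
    · exact Or.inr fun e => h3 d h hdp (Nat.dvd_of_mod_eq_zero e)

theorem Lines_sq_le (x : ℕ) (hx : 4 ≤ x) : x ^ 2 ≤ 2 ^ x := by
  induction x, hx using Nat.le_induction with
  | base => norm_num
  | succ x hx ih => rw [pow_succ 2]; nlinarith

theorem Lines_pi (x : ℕ) (hx : 8 ≤ x) : x ≤ (Nat.primesLE (x ^ 2 - 1)).card + 8 := by
  by_contra hcon
  push Not at hcon
  have hx2 : 64 ≤ x ^ 2 := by nlinarith
  set N := x ^ 2 - 1 with hN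
  set c := (Nat.primesLE N).card with hc
  have h1 := Chebyshev.two_pow_le_mul_lcmUpto N
  have h2 : Nat.lcmUpto N ≤ N ^ c := by
    rw [Nat.lcmUpto_eq_prod_pow_log]
    exact Finset.prod_le_pow_card _ _ _ fun p _ => Nat.pow_log_le_self p (by omega)
  have h3 : N + 1 ≤ 2 ^ x := by
    have := Lines_sq_le x (by omega)
    omega
  have h4 : 2 ^ N ≤ 2 ^ (x * (c + 1)) :=
    calc 2 ^ N ≤ (N + 1) * N ^ c := h1.trans (Nat.mul_le_mul_left _ h2)
      _ ≤ 2 ^ x * (2 ^ x) ^ c := Nat.mul_le_mul h3 (Nat.pow_le_pow_left (by omega) _)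
      _ = 2 ^ (x * (c + 1)) := by rw [pow_mul, pow_succ']
  have h5 := (Nat.pow_le_pow_iff_right (by norm_num)).1 h4
  have h6 : x * (c + 1) + x * 8 ≤ x ^ 2 := by
    rw [← mul_add, sq]
    exact Nat.mul_le_mul_left _ (by omega)
  omega

theorem mem_copies {lam σ : ℕ} {j : Cp} : j ∈ copies lam σ ↔ j.1 < lam ∧ j.2 < σ * (lam + 1) := by
  obtain ⟨a, b⟩ := j
  simp [copies]

theorem nodup_copies (lam σ : ℕ) : (copies lam σ).Nodup := by
  exact List.Nodup.product List.nodup_range List.nodup_range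

theorem length_line (lam σ g : ℕ) (l : Cp) : (line lam σ g l).length = lam := by
  simp [line]

theorem nodup_line (lam σ g : ℕ) (l : Cp) : (line lam σ g l).Nodup := by
  refine List.Nodup.map (fun x y h => ?_) List.nodup_range
  exact congrArg Prod.fst h

/-- The slope is `< G lam (lam + 1) = σ`, the intercept `< σ`. -/
theorem line_subset {G lam g : ℕ} {l : Cp} (hg : g < G) (hl : l ∈ copies lam (G * lam * (lam + 1))) :
    ∀ j ∈ line lam (G * lam * (lam + 1)) g l, j ∈ copies lam (G * lam * (lam + 1)) := by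
  intro j hj
  rw [mem_copies] at hl ⊢
  obtain ⟨hl1, hl2⟩ := hl
  obtain ⟨x, hx, rfl⟩ := List.mem_map.1 hj
  rw [List.mem_range] at hx
  refine ⟨hx, ?_⟩
  set σ := G * lam * (lam + 1) with hσ
  have hpos : 0 < σ := by
    rcases Nat.eq_zero_or_pos σ with h | h
    · rw [h] at hl2; omega
    · exact h
  have h1 : l.2 % σ < σ := Nat.mod_lt _ hpos
  have h2 : l.2 / σ < lam + 1 := Nat.div_lt_of_lt_mul hl2
  have h3 : g * lam + l.1 + 1 ≤ G * lam :=
    calc g * lam + l.1 + 1 ≤ (g + 1) * lam := by rw [add_mul]; omega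
      _ ≤ G * lam := Nat.mul_le_mul_right _ hg
  have h4 : (g * lam + l.1) * (lam + 1) + l.2 / σ ≤ σ :=
    calc (g * lam + l.1) * (lam + 1) + l.2 / σ ≤ (g * lam + l.1 + 1) * (lam + 1) := by
          rw [add_mul (g * lam + l.1)]; omega
      _ ≤ σ := Nat.mul_le_mul_right _ h3
  have h5 : x * ((g * lam + l.1) * (lam + 1) + l.2 / σ) ≤ lam * σ := Nat.mul_le_mul hx.le h4
  change l.2 % σ + x * ((g * lam + l.1) * (lam + 1) + l.2 / σ) < σ * (lam + 1)
  rw [mul_add σ, mul_comm σ lam]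
  omega

/-- Two common points with different first coordinates force equal slope and intercept, and
(slope, intercept) determines `(g, l)` for `l ∈ copies`. -/
theorem line_inter {lam σ g g' : ℕ} {l l' : Cp} (hl : l ∈ copies lam σ) (hl' : l' ∈ copies lam σ)
    (hne : (g, l) ≠ (g', l')) {j j' : Cp} (h1 : j ∈ line lam σ g l) (h2 : j ∈ line lam σ g' l')
    (h3 : j' ∈ line lam σ g l) (h4 : j' ∈ line lam σ g' l') : j = j' := by
  rw [mem_copies] at hl hl'
  obtain ⟨x, -, rfl⟩ := List.mem_map.1 h1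
  obtain ⟨y, -, rfl⟩ := List.mem_map.1 h3
  obtain ⟨x', -, hx⟩ := List.mem_map.1 h2
  obtain ⟨y', -, hy⟩ := List.mem_map.1 h4
  obtain ⟨rfl, hx2⟩ := Prod.mk.inj hx
  obtain ⟨rfl, hy2⟩ := Prod.mk.inj hy
  by_contra hxy
  have hxy' : x' ≠ y' := fun h => hxy (by rw [h])
  apply hne
  set s := (g * lam + l.1) * (lam + 1) + l.2 / σ with hs
  set s' := (g' * lam + l'.1) * (lam + 1) + l'.2 / σ with hs'
  have hss : s = s' := by
    have e : ((x' : ℤ) - y') * ((s : ℤ) - s') = 0 := by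
      have e1 : ((l'.2 % σ : ℕ) : ℤ) + x' * s' = (l.2 % σ : ℕ) + x' * s := by exact_mod_cast hx2
      have e2 : ((l'.2 % σ : ℕ) : ℤ) + y' * s' = (l.2 % σ : ℕ) + y' * s := by exact_mod_cast hy2
      linear_combination e2 - e1
    rcases mul_eq_zero.1 e with h | h
    · exact absurd (by exact_mod_cast sub_eq_zero.1 h) hxy'
    · exact_mod_cast sub_eq_zero.1 h
  have hc : l.2 % σ = l'.2 % σ := by
    rw [hss] at hx2; omega
  have h2 : l.2 / σ < lam + 1 := Nat.div_lt_of_lt_mul hl.2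
  have h2' : l'.2 / σ < lam + 1 := Nat.div_lt_of_lt_mul hl'.2
  obtain ⟨e1, e2⟩ := Lines_digit h2 h2' hss
  obtain ⟨e3, e4⟩ := Lines_digit hl.1 hl'.1 e1
  have e5 : l.2 = l'.2 := by
    rw [← Nat.div_add_mod l.2 σ, ← Nat.div_add_mod l'.2 σ, e2, hc]
  exact Prod.ext e3 (Prod.ext e4 e5)

theorem qq_le_sum (qs : List ℕ) {i : ℕ} (hi : i < qs.length) : qq qs i ≤ qs.sum := by
  exact List.le_sum_of_mem (Lines_qq_mem hi)

theorem qq_pos {qs : List ℕ} (hq : ∀ q ∈ qs, 0 < q) (i : ℕ) : 0 < qq qs i := by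
  rcases lt_or_ge i qs.length with hi | hi
  · exact hq _ (Lines_qq_mem hi)
  · rw [qq, List.getD_eq_default _ _ hi]
    exact Nat.one_pos

theorem amIdx_lt {H : List HRule} {qs : List ℕ} {W : Wire} {i α : ℕ} (hW : W ∈ wires H)
    (hi : i < qs.length) (hα : α < qq qs i) : amIdx H qs W i α < gnum H qs := by
  have h1 : (wires H).idxOf W < (wires H).length := List.idxOf_lt_length_of_mem hW
  have h2 := Lines_lt h1 hi
  have h3 := Lines_lt h2 (hα.trans_le (qq_le_sum qs hi))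
  unfold amIdx gnum
  omega

theorem amIdx_inj {H : List HRule} {qs : List ℕ} {W W' : Wire} {i i' α α' : ℕ}
    (hW : W ∈ wires H) (hW' : W' ∈ wires H) (hi : i < qs.length) (hi' : i' < qs.length)
    (hα : α < qq qs i) (hα' : α' < qq qs i') (h : amIdx H qs W i α = amIdx H qs W' i' α') :
    W = W' ∧ i = i' ∧ α = α' := by
  unfold amIdx at h
  obtain ⟨e1, e2⟩ := Lines_digit (hα.trans_le (qq_le_sum qs hi))
    (hα'.trans_le (qq_le_sum qs hi')) (Nat.add_left_cancel h)
  obtain ⟨e3, e4⟩ := Lines_digit hi hi' e1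
  exact ⟨(List.idxOf_inj hW).1 e3, e4, e2⟩

theorem ruleAt_mem {H : List HRule} {γ : ℕ} (h : γ < H.length) : ruleAt H γ ∈ H := by
  rw [ruleAt, List.getD_eq_getElem _ _ h]
  exact List.getElem_mem h

theorem exists_ruleAt {H : List HRule} {ρ : HRule} (h : ρ ∈ H) :
    ∃ γ < H.length, ruleAt H γ = ρ := by
  obtain ⟨γ, hγ, rfl⟩ := List.getElem_of_mem h
  exact ⟨γ, hγ, List.getD_eq_getElem _ _ hγ⟩

theorem mem_wires_of_rule {H : List HRule} {ρ : HRule} (h : ρ ∈ H) :
    ρ.1 ∈ wires H ∧ ρ.2.1.1 ∈ wires H ∧ ρ.2.2.1 ∈ wires H := by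
  refine ⟨?_, ?_, ?_⟩ <;>
    exact List.mem_cons_of_mem _ (List.mem_cons_of_mem _ (List.mem_flatMap.2 ⟨ρ, h, by simp⟩))

/-- `rowv` only depends on the residue of the address. -/
theorem rowv_eq_iff {qs : List ℕ} (hq : ∀ q ∈ qs, 0 < q) {W W' : Wire} {j j' : Cp} {i i' : ℕ}
    {a a' : ℤ} : rowv qs W j i a = rowv qs W' j' i' a' ↔
      W = W' ∧ j = j' ∧ i = i' ∧ a % (qq qs i : ℤ) = a' % (qq qs i : ℤ) := by
  simp only [rowv, Sum.inl.injEq, Prod.mk.injEq]
  refine and_congr_right fun _ => and_congr_right fun _ => and_congr_right fun hi => ?_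
  subst hi
  have h0 : (qq qs i : ℤ) ≠ 0 := by exact_mod_cast (qq_pos hq i).ne'
  have h1 := Int.emod_nonneg a h0
  have h2 := Int.emod_nonneg a' h0
  omega

theorem gateL_congr (H : List HRule) (qs : List ℕ) (lam σ γ : ℕ) (l : Cp) (i : ℕ) {a a' : ℤ}
    (h : a % (qq qs i : ℤ) = a' % (qq qs i : ℤ)) :
    gateL H qs lam σ γ l i a = gateL H qs lam σ γ l i a' := by
  have key : ∀ (W : Wire) (j : Cp) (δ : ℤ), rowv qs W j i (a + δ) = rowv qs W j i (a' + δ) := by
    intro W j δ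
    have : (a + δ) % (qq qs i : ℤ) = (a' + δ) % (qq qs i : ℤ) := Int.ModEq.add_right δ h
    rw [rowv, rowv, this]
  have key0 := key (ruleAt H γ).1 l 0
  rw [add_zero, add_zero] at key0
  simp only [gateL, key, key0]

/-- The filter in `primesFrom` keeps exactly the primes `p` with `q ≤ p < (q + r + 8) ^ 2`. -/
theorem primesFrom_spec (q r : ℕ) :
    (primesFrom q r).Nodup ∧ ∀ p ∈ primesFrom q r, p.Prime ∧ q ≤ p := by
  refine ⟨(List.nodup_range.filter _).sublist (List.take_sublist _ _), fun p hp => ?_⟩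
  exact ((Lines_mem_filter q _ p).1 (List.mem_of_mem_take hp)).2

/-- `π (x ^ 2) ≥ x` for `x ≥ 8` (`Chebyshev.pi_ge`, or `Chebyshev.two_pow_le_mul_lcmUpto` as in
`R19.Digits.primes_lower`), `x ^ 2` is not prime, at most `q` primes are below `q`. -/
theorem length_primesFrom (q r : ℕ) : (primesFrom q r).length = r := by
  rw [primesFrom, List.length_take]
  refine min_eq_left ?_
  refine le_trans ?_ (List.toFinset_card_le _)
  have h1 := Lines_pi (q + r + 8) (by omega)
  have h2 : (Nat.primesLE ((q + r + 8) ^ 2 - 1)).card - (Finset.range q).card ≤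
      (Nat.primesLE ((q + r + 8) ^ 2 - 1) \ Finset.range q).card := Finset.le_card_sdiff _ _
  rw [Finset.card_range] at h2
  refine le_trans (by omega : r ≤ (Nat.primesLE ((q + r + 8) ^ 2 - 1) \ Finset.range q).card)
    (Finset.card_le_card fun p hp => ?_)
  rw [Finset.mem_sdiff, Finset.mem_range, not_lt] at hp
  rw [List.mem_toFinset, Lines_mem_filter]
  have h3 := Nat.le_of_mem_primesLE hp.1
  have h4 : 0 < (q + r + 8) ^ 2 := by positivity
  exact ⟨by omega, Nat.prime_of_mem_primesLE hp.1, hp.2⟩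

/-- If `a ≡ a'` in `m + 1` rows, the product of `m + 1` distinct primes `≥ q` divides `a - a' ≠ 0`,
so `q ^ (m + 1) ≤ |a - a'| ≤ D`. -/
theorem agree_primesFrom {q r D m : ℕ} (h : D < q ^ (m + 1)) : Agree (primesFrom q r) D m := by
  intro a a' hne hD
  by_contra hcon
  push Not at hcon
  set qs := primesFrom q r with hqs
  obtain ⟨hnd, hpr⟩ := primesFrom_spec q r
  rw [← hqs] at hnd hpr
  set S := (Finset.range qs.length).filter fun i => a % (qq qs i : ℤ) = a' % (qq qs i : ℤ) with hS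
  have hlt : ∀ i ∈ S, i < qs.length := fun i hi =>
    Finset.mem_range.1 (Finset.mem_filter.1 hi).1
  have hdvd : ∏ i ∈ S, qq qs i ∣ (a - a').natAbs := by
    refine Finset.prod_dvd_of_isRelPrime (fun i hi j hj hij => ?_) fun i hi => ?_
    · have hi' := hlt i hi
      have hj' := hlt j hj
      refine Nat.coprime_iff_isRelPrime.1 ((Nat.coprime_primes (hpr _ (Lines_qq_mem hi')).1
        (hpr _ (Lines_qq_mem hj')).1).2 fun e => hij ?_)
      rw [qq, qq, List.getD_eq_getElem _ _ hi', List.getD_eq_getElem _ _ hj'] at e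
      exact (List.Nodup.getElem_inj_iff hnd).1 e
    · rw [← Int.natCast_dvd]
      exact (Int.ModEq.dvd (Finset.mem_filter.1 hi).2.symm)
  have h1 : q ^ S.card ≤ ∏ i ∈ S, qq qs i :=
    Finset.pow_card_le_prod _ _ _ fun i hi => (hpr _ (Lines_qq_mem (hlt i hi))).2
  have h2 : ∏ i ∈ S, qq qs i ≤ (a - a').natAbs :=
    Nat.le_of_dvd (Int.natAbs_pos.2 (sub_ne_zero.2 hne)) hdvd
  have h3 : (a - a').natAbs ≤ D := by
    rw [← Int.natCast_natAbs] at hD
    exact_mod_cast hD
  have hq : 0 < q := by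
    rcases Nat.eq_zero_or_pos q with h0 | h0
    · rw [h0] at h; simp at h
    · exact h0
  have h4 : q ^ (m + 1) ≤ q ^ S.card := Nat.pow_le_pow_right hq hcon
  omega

end Crest.Agent.R290
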