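import Crest.Agent.R290.Lin

/-!
# rid 290: Horn systems over integer addresses and their linear systems (definitions)

A fact is a pair (wire, integer address).  The only initial fact is `(w0, 0)`; a rule
`(out, (W₁, δ₁), (W₂, δ₂))` derives `(out, a)` from `(W₁, a + δ₁)` and `(W₂, a + δ₂)`.

The linear system `longSys H qs lam b`: there are `r = qs.length` rows, row `i` sees an address
modulo `qs[i]`.  Every wire `W` has many copies `j`; the fact `(W, a)` is represented by the
equations `factL W j a = 0`, one for every copy `j`.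
-/

set_option autoImplicit false

namespace Crest.Agent.R290

/-- Wires. -/
abbrev Wire := ℕ × ℕ × ℕ

/-- Rules: conclusion, first premise with its shift, second premise with its shift. -/
abbrev HRule := Wire × (Wire × ℤ) × (Wire × ℤ)

/-- The initial wire. -/
def w0 : Wire := (0, 0, 0)

/-- The final wire. -/
def wf : Wire := (1, 0, 0)

/-- Derivable facts. -/
inductive Der (H : List HRule) : Wire → ℤ → Prop
  | ax : Der H w0 0
  | rule (ρ : HRule) (hρ : ρ ∈ H) (a : ℤ) : Der H ρ.2.1.1 (a + ρ.2.1.2) →
      Der H ρ.2.2.1 (a + ρ.2.2.2) → Der H ρ.1 a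

/-- Addresses and shifts are bounded by `N`, and the final wire is never read. -/
structure HornOK (H : List HRule) (N : ℕ) : Prop where
  bdd : ∀ W a, Der H W a → |a| ≤ N
  shift : ∀ ρ ∈ H, |ρ.2.1.2| ≤ N ∧ |ρ.2.2.2| ≤ N
  nowf : ∀ ρ ∈ H, ρ.2.1.1 ≠ wf ∧ ρ.2.2.1 ≠ wf

/-- Names of copies. -/
abbrev Cp := ℕ × ℕ

/-- Variables: (wire, copy, row, residue), or the scalar `u j`. -/
abbrev LVar := (Wire × Cp × ℕ × ℕ) ⊕ Cp

instance decEqWire : DecidableEq Wire := inferInstance

instance decEqWVar : DecidableEq (Wire × Cp × ℕ × ℕ) := inferInstance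

instance decEqLVar : DecidableEq LVar := inferInstance

/-- All wires (with repetitions). -/
def wires (H : List HRule) : List Wire :=
  w0 :: wf :: H.flatMap fun ρ => [ρ.1, ρ.2.1.1, ρ.2.2.1]

/-- Bound for the first index of a line. -/
def gnum (H : List HRule) (qs : List ℕ) : ℕ :=
  2 * H.length + 2 + (wires H).length * qs.length * qs.sum

/-- Bound for slopes and intercepts of lines. -/
def sigma (H : List HRule) (qs : List ℕ) (lam : ℕ) : ℕ := gnum H qs * lam * (lam + 1)

/-- All copies. -/
def copies (lam σ : ℕ) : List Cp := List.range lam ×ˢ List.range (σ * (lam + 1))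

/-- The line with name `(g, l)`: intercept `l.2 % σ`, slope `(g lam + l.1)(lam + 1) + l.2 / σ`. -/
def line (lam σ g : ℕ) (l : Cp) : List Cp :=
  (List.range lam).map fun x => (x, l.2 % σ + x * ((g * lam + l.1) * (lam + 1) + l.2 / σ))

/-- The modulus of row `i`. -/
def qq (qs : List ℕ) (i : ℕ) : ℕ := qs.getD i 1

/-- The variable of copy `j` of wire `W` in row `i` for the address `a`. -/
def rowv (qs : List ℕ) (W : Wire) (j : Cp) (i : ℕ) (a : ℤ) : LVar :=
  Sum.inl (W, j, i, (a % (qq qs i : ℤ)).toNat)

/-- The variables of the fact `(W, a)` in copy `j`. -/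
def factL (qs : List ℕ) (W : Wire) (j : Cp) (a : ℤ) : List LVar :=
  (List.range qs.length).map fun i => rowv qs W j i a

/-- Rule number `γ`. -/
def ruleAt (H : List HRule) (γ : ℕ) : HRule := H.getD γ (w0, (w0, 0), (w0, 0))

/-- The long equation of rule `γ` for the output copy `l`, row `i` and address `a`
(it only depends on `a` modulo `qq qs i`). -/
def gateL (H : List HRule) (qs : List ℕ) (lam σ γ : ℕ) (l : Cp) (i : ℕ) (a : ℤ) : List LVar :=
  ((line lam σ (2 * γ) l).map fun j => rowv qs (ruleAt H γ).2.1.1 j i (a + (ruleAt H γ).2.1.2)) ++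
  ((line lam σ (2 * γ + 1) l).map fun j =>
    rowv qs (ruleAt H γ).2.2.1 j i (a + (ruleAt H γ).2.2.2)) ++
  [rowv qs (ruleAt H γ).1 l i a]

/-- The line number of the amplifier of the variable `(W, _, i, α)`. -/
def amIdx (H : List HRule) (qs : List ℕ) (W : Wire) (i α : ℕ) : ℕ :=
  2 + (((wires H).idxOf W * qs.length + i) * qs.sum + α)

/-- The amplifier equation of the variable `(W, l, i, α)`. -/
def amL (H : List HRule) (qs : List ℕ) (lam σ : ℕ) (W : Wire) (l : Cp) (i α : ℕ) : List LVar :=
  ((line lam σ (amIdx H qs W i α) l).map Sum.inr) ++ [Sum.inl (W, l, i, α)]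

/-- The long system with explicit `σ`. -/
def longSysS (H : List HRule) (qs : List ℕ) (lam σ : ℕ) (b : ℕ → Cp → Bool) :
    List (Eqn LVar) :=
  ((List.range H.length).flatMap fun γ => (copies lam σ).flatMap fun l =>
    (List.range qs.length).flatMap fun i => (List.range (qq qs i)).map fun α : ℕ =>
      (gateL H qs lam σ γ l i α, false)) ++
  ((copies lam σ).map fun j => (factL qs w0 j 0, false)) ++
  ((copies lam σ).map fun j => (factL qs wf j 0 ++ [Sum.inr j], false)) ++
  ((wires H).flatMap fun W => (copies lam σ).flatMap fun l =>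
    (List.range qs.length).flatMap fun i => (List.range (qq qs i)).map fun α =>
      (amL H qs lam σ W l i α, false)) ++
  ((List.range 2).flatMap fun g => (copies lam σ).map fun l =>
    ((line lam σ g l).map Sum.inr, b g l))

/-- The long system. -/
def longSys (H : List HRule) (qs : List ℕ) (lam : ℕ) (b : ℕ → Cp → Bool) : List (Eqn LVar) :=
  longSysS H qs lam (sigma H qs lam) b

/-- Two distinct addresses at distance at most `D` agree in at most `m` rows. -/
def Agree (qs : List ℕ) (D m : ℕ) : Prop :=
  ∀ a a' : ℤ, a ≠ a' → |a - a'| ≤ D →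
    ((Finset.range qs.length).filter fun i => a % (qq qs i : ℤ) = a' % (qq qs i : ℤ)).card ≤ m

/-- The first `r` primes that are at least `q`. -/
def primesFrom (q r : ℕ) : List ℕ :=
  ((List.range ((q + r + 8) ^ 2)).filter fun p =>
    decide (q ≤ p) && decide (2 ≤ p) &&
      (List.range (min p ((q + r + 8) ^ 2))).all fun d => decide (d < 2) || decide (p % d ≠ 0)).take r

theorem mem_longSysS {H : List HRule} {qs : List ℕ} {lam σ : ℕ} {b : ℕ → Cp → Bool}
    {e : Eqn LVar} : e ∈ longSysS H qs lam σ b ↔
    (∃ γ < H.length, ∃ l ∈ copies lam σ, ∃ i < qs.length, ∃ α < qq qs i,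
      e = (gateL H qs lam σ γ l i (α : ℕ), false)) ∨
    (∃ j ∈ copies lam σ, e = (factL qs w0 j 0, false)) ∨
    (∃ j ∈ copies lam σ, e = (factL qs wf j 0 ++ [Sum.inr j], false)) ∨
    (∃ W ∈ wires H, ∃ l ∈ copies lam σ, ∃ i < qs.length, ∃ α < qq qs i,
      e = (amL H qs lam σ W l i α, false)) ∨
    (∃ g < 2, ∃ l ∈ copies lam σ, e = ((line lam σ g l).map Sum.inr, b g l)) := by
  simp only [longSysS, List.mem_append, List.mem_flatMap, List.mem_map, List.mem_range, or_assoc,
    eq_comm (a := e)]

theorem homog_longSys (H : List HRule) (qs : List ℕ) (lam : ℕ) (b : ℕ → Cp → Bool) :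
    homog (longSys H qs lam b) = longSys H qs lam fun _ _ => false := by
  simp [homog, longSys, longSysS, List.map_flatMap, Function.comp_def]

end Crest.Agent.R290
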