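import Crest.Agent.Lib.PT.All
import Crest.Prelude.Def_WordRAM
import Crest.Prelude.Def_BitEnc

/-!
# rid 290, task RAM: universal simulation of the word RAM in polynomial time
-/

set_option autoImplicit false

namespace Crest.Agent.R290

open Crest.Agent.Lib.PT Crest.WordRAM

/-- Data of a program: word-length constant, number of registers, instructions
(opcode and three numbers). -/
abbrev RD := Un × Un × List (ℕ × ℕ × ℕ × ℕ)

namespace RAM

/-! ### Bitwise operations -/

theorem testBit_ofBits (l : List Bool) : ∀ i, (ofBits l).testBit i = l.getD i false := by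
  induction l with
  | nil => intro i; simp [ofBits]
  | cons b l ih =>
    intro i
    have : ofBits (b :: l) = Nat.bit b (ofBits l) := rfl
    rw [this]
    cases i with
    | zero => simp
    | succ i => rw [Nat.testBit_bit_succ, ih]; simp

/-- A bitwise operation computed digit by digit. -/
def bw (f : Bool → Bool → Bool) (x y : ℕ) : ℕ :=
  ofBits ((List.range (x.size + y.size)).map fun i => f (x.testBit i) (y.testBit i))

theorem testBit_bw (f : Bool → Bool → Bool) (hf : f false false = false) (x y i : ℕ) :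
    (bw f x y).testBit i = f (x.testBit i) (y.testBit i) := by
  unfold bw
  rw [testBit_ofBits]
  by_cases h : i < x.size + y.size
  · simp [List.getD_eq_getElem?_getD, h]
  · have hx : x.testBit i = false :=
      Nat.testBit_eq_false_of_lt ((Nat.lt_size_self x).trans_le
        (Nat.pow_le_pow_right (by norm_num) (by omega)))
    have hy : y.testBit i = false :=
      Nat.testBit_eq_false_of_lt ((Nat.lt_size_self y).trans_le
        (Nat.pow_le_pow_right (by norm_num) (by omega)))
    simp [List.getD_eq_getElem?_getD, h, hx, hy, hf]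

theorem bw_and (x y : ℕ) : bw (fun a b => a && b) x y = x &&& y :=
  Nat.eq_of_testBit_eq fun i => by rw [testBit_bw _ rfl, Nat.testBit_and]

theorem bw_or (x y : ℕ) : bw (fun a b => a || b) x y = x ||| y :=
  Nat.eq_of_testBit_eq fun i => by rw [testBit_bw _ rfl, Nat.testBit_or]

theorem bw_xor (x y : ℕ) : bw (fun a b => xor a b) x y = x ^^^ y :=
  Nat.eq_of_testBit_eq fun i => by rw [testBit_bw _ rfl, Nat.testBit_xor]

section pt

variable {α : Type} [Enc α]

@[fun_prop] theorem and_pt {x y : α → ℕ} (hx : PT x) (hy : PT y) : PT fun a => x a &&& y a :=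
  PT.of_eq (g := fun a => bw (fun a b => a && b) (x a) (y a)) (by unfold bw; fun_prop)
    fun _ => bw_and _ _

@[fun_prop] theorem or_pt {x y : α → ℕ} (hx : PT x) (hy : PT y) : PT fun a => x a ||| y a :=
  PT.of_eq (g := fun a => bw (fun a b => a || b) (x a) (y a)) (by unfold bw; fun_prop)
    fun _ => bw_or _ _

@[fun_prop] theorem xor_pt {x y : α → ℕ} (hx : PT x) (hy : PT y) : PT fun a => x a ^^^ y a :=
  PT.of_eq (g := fun a => bw (fun a b => xor a b) (x a) (y a)) (by unfold bw; fun_prop)
    fun _ => bw_xor _ _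

end pt

/-- Left shift by an amount below `w`. -/
def shlW (w : Un) (x y : ℕ) : ℕ := if y < w.n then x <<< y else 0

@[fun_prop] theorem shlW_pt {α : Type} [Enc α] {w : α → Un} {x y : α → ℕ} (hw : PT w) (hx : PT x)
    (hy : PT y) : PT fun a => shlW (w a) (x a) (y a) := by
  have h : PT fun a => x a <<< min (y a) (w a).n :=
    PT.nat_shiftLeft hx (by fun_prop) (PB.min_right _ (by fun_prop))
  refine PT.of_eq (g := fun a => if y a < (w a).n then x a <<< min (y a) (w a).n else 0)
    (by fun_prop) fun a => ?_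
  unfold shlW
  split_ifs with h'
  · rw [min_eq_left h'.le]
  · rfl

/-! ### The simulated machine -/

/-- Instruction codes. -/
abbrev IC := ℕ × ℕ × ℕ × ℕ

/-- Environment: code, word length, input. -/
abbrev Env := List IC × Un × List Bool

/-- State: program counter, halting flag, register writes, memory writes. -/
abbrev St := ℕ × Bool × List (ℕ × ℕ) × List (ℕ × ℕ)

/-- Read a register. -/
def rd (E : Env) (l : List (ℕ × ℕ)) (k : ℕ) : ℕ :=
  (l.lookup k).getD (if k = 0 then E.2.2.length % 2 ^ E.2.1.n else 0)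

/-- Read a memory cell. -/
def md (E : Env) (l : List (ℕ × ℕ)) (k : ℕ) : ℕ :=
  (l.lookup k).getD ((E.2.2.getD k false).toNat % 2 ^ E.2.1.n)

/-- The value computed by a register-writing instruction (before reduction). -/
def alu (w : Un) (op v x y m : ℕ) : ℕ :=
  if op = 0 then v else if op = 1 then x else if op = 2 then x + y else if op = 3 then x - y
  else if op = 4 then x * y else if op = 5 then x / y else if op = 6 then x % y
  else if op = 7 then x &&& y else if op = 8 then x ||| y else if op = 9 then x ^^^ y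
  else if op = 10 then shlW w x y else if op = 11 then (if y < w.n then x >>> y else 0) else m

/-- The condition of a jump instruction. -/
def jc (op x y : ℕ) : Bool :=
  if op = 14 then true else if op = 15 then decide (x = 0) else if op = 16 then decide (x = y)
  else decide (x < y)

/-- Execute the instruction `i`. -/
def exec (E : Env) (s : St) (i : IC) : St :=
  if i.1 ≤ 12 then
    (s.1 + 1, false, (i.2.1, alu E.2.1 i.1 i.2.2.1 (rd E s.2.2.1 i.2.2.1) (rd E s.2.2.1 i.2.2.2)
      (md E s.2.2.2 (rd E s.2.2.1 i.2.2.1)) % 2 ^ E.2.1.n) :: s.2.2.1, s.2.2.2)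
  else if i.1 = 13 then
    (s.1 + 1, false, s.2.2.1,
      (rd E s.2.2.1 i.2.2.1 % 2 ^ E.2.1.n, rd E s.2.2.1 i.2.1 % 2 ^ E.2.1.n) :: s.2.2.2)
  else if i.1 ≤ 17 then
    (if jc i.1 (rd E s.2.2.1 i.2.1) (rd E s.2.2.1 i.2.2.1) = true then i.2.2.2 else s.1 + 1,
      false, s.2.2.1, s.2.2.2)
  else (s.1, true, s.2.2.1, s.2.2.2)

/-- One simulated step. -/
def sstep (E : Env) (s : St) : St :=
  if s.2.1 = true then s else exec E s (E.1.getD s.1 (19, 0, 0, 0))

section pt

variable {α : Type} [Enc α]

@[fun_prop] theorem rd_pt {E : α → Env} {l : α → List (ℕ × ℕ)} {k : α → ℕ} (hE : PT E) (hl : PT l)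
    (hk : PT k) : PT fun a => rd (E a) (l a) (k a) := by unfold rd; fun_prop

@[fun_prop] theorem md_pt {E : α → Env} {l : α → List (ℕ × ℕ)} {k : α → ℕ} (hE : PT E) (hl : PT l)
    (hk : PT k) : PT fun a => md (E a) (l a) (k a) := by unfold md; fun_prop

@[fun_prop] theorem alu_pt {w : α → Un} {op v x y m : α → ℕ} (hw : PT w) (h1 : PT op) (h2 : PT v)
    (h3 : PT x) (h4 : PT y) (h5 : PT m) :
    PT fun a => alu (w a) (op a) (v a) (x a) (y a) (m a) := by unfold alu; fun_prop

@[fun_prop] theorem jc_pt {op x y : α → ℕ} (h1 : PT op) (h3 : PT x) (h4 : PT y) :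
    PT fun a => jc (op a) (x a) (y a) := by unfold jc; fun_prop

theorem exec_pt {E : α → Env} {s : α → St} {i : α → IC} (hE : PT E) (hs : PT s) (hi : PT i) :
    PT fun a => exec (E a) (s a) (i a) := by unfold exec; fun_prop

theorem sstep_pt {E : α → Env} {s : α → St} (hE : PT E) (hs : PT s) :
    PT fun a => sstep (E a) (s a) := by
  unfold sstep
  exact PT.ite (by fun_prop) hs (exec_pt hE hs (by fun_prop))

end pt

/-- The simulated run. -/
def srun (E : Env) (t : ℕ) : St := (sstep E)^[t] (0, false, [], [])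

/-- Size invariant. -/
def SzInv (E : Env) (k : ℕ) (s : St) : Prop :=
  s.1 < 2 ^ (sz E + k) ∧ sz s.2.2.1 ≤ 1 + k * (sz E + 8 * E.2.1.n + 4) ∧
    sz s.2.2.2 ≤ 1 + k * (sz E + 8 * E.2.1.n + 4)

theorem sz_getD_le (E : Env) (j : ℕ) :
    (E.1.getD j (19, 0, 0, 0)).1 = 19 ∨ sz (E.1.getD j (19, 0, 0, 0)) ≤ sz E := by
  rw [List.getD_eq_getElem?_getD]
  rcases h : E.1[j]? with _ | i
  · left; rfl
  · right
    have h1 := sz_le_of_mem (List.mem_of_getElem? h)
    have h2 := sz_prod E
    simp only [Option.getD_some]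
    omega

theorem szInv_step (E : Env) (k : ℕ) (s : St) (h : SzInv E k s) : SzInv E (k + 1) (sstep E s) := by
  obtain ⟨h1, h2, h3⟩ := h
  have hp : 2 ^ (sz E + (k + 1)) = 2 * 2 ^ (sz E + k) := by rw [← add_assoc, pow_succ]; ring
  have hm : (k + 1) * (sz E + 8 * E.2.1.n + 4) =
      k * (sz E + 8 * E.2.1.n + 4) + (sz E + 8 * E.2.1.n + 4) := by ring
  have hw : ∀ v : ℕ, sz (v % 2 ^ E.2.1.n) ≤ 4 * E.2.1.n + 1 := fun v =>
    sz_nat_le_of_lt (Nat.mod_lt _ (by positivity))
  unfold sstep
  split_ifs with hh
  · exact ⟨by omega, by omega, by omega⟩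
  have hi := sz_getD_le E s.1
  generalize E.1.getD s.1 (19, 0, 0, 0) = i at hi
  obtain ⟨op, a, b, c⟩ := i
  have hsz : sz ((op, a, b, c) : IC) = sz op + (sz a + (sz b + sz c + 1) + 1) + 1 := rfl
  unfold exec
  simp only
  split_ifs with c1 c2 c3 c4
  · have hi' : sz ((op, a, b, c) : IC) ≤ sz E := hi.resolve_left (by simp only; omega)
    refine ⟨by simp only; omega, ?_, by simp only; omega⟩
    simp only [sz_cons, sz_mk]
    have := hw (alu E.2.1 op b (rd E s.2.2.1 b) (rd E s.2.2.1 c) (md E s.2.2.2 (rd E s.2.2.1 b)))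
    omega
  · refine ⟨by simp only; omega, by simp only; omega, ?_⟩
    simp only [sz_cons, sz_mk]
    have := hw (rd E s.2.2.1 b)
    have := hw (rd E s.2.2.1 a)
    omega
  · have hi' : sz ((op, a, b, c) : IC) ≤ sz E := hi.resolve_left (by simp only; omega)
    refine ⟨?_, by simp only; omega, by simp only; omega⟩
    exact (lt_two_pow_sz c).trans_le (Nat.pow_le_pow_right (by norm_num) (by omega))
  · exact ⟨by simp only; omega, by simp only; omega, by simp only; omega⟩
  · exact ⟨by simp only; omega, by simp only; omega, by simp only; omega⟩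

theorem srun_pt {α : Type} [Enc α] {E : α → Env} {t : α → ℕ} (hE : PT E) (ht : PT t) (hb : PB t) :
    PT fun a => srun (E a) (t a) := by
  unfold srun
  refine PT.iterate_inv (f := fun a => sstep (E a)) (fun a k s => SzInv (E a) k s) ht hb
    (PT.const _) (fun a => ⟨by positivity, by simp, by simp⟩)
    (fun a k s _ h => szInv_step _ _ _ h)
    (PT.restrict (f := fun p : α × St => sstep (E p.1) p.2)
      (sstep_pt (hE.comp PT.id.fst) PT.id.snd) _)
    (B := fun a => 4 * (sz (E a) + t a) + 2 * (t a * (sz (E a) + 8 * (E a).2.1.n + 4)) + 9)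
    (by fun_prop) fun a k s hk h => ?_
  obtain ⟨h1, h2, h3⟩ := h
  obtain ⟨pc, hl, R, M⟩ := s
  have e1 := sz_nat_le_of_lt h1
  have e2 := sz_bool_le hl
  have e3 := Nat.mul_le_mul_right (sz (E a) + 8 * (E a).2.1.n + 4) hk
  simp only [sz_mk] at *
  omega

/-! ### Correctness -/

/-- The code of an instruction (the random stream is `0`). -/
def icode {r : ℕ} : Instr r → IC
  | .const d v => (0, d, v, 0)
  | .copy d s => (1, d, s, 0)
  | .add d a b => (2, d, a, b)
  | .sub d a b => (3, d, a, b)
  | .mul d a b => (4, d, a, b)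
  | .quot d a b => (5, d, a, b)
  | .rem d a b => (6, d, a, b)
  | .and d a b => (7, d, a, b)
  | .or d a b => (8, d, a, b)
  | .xor d a b => (9, d, a, b)
  | .shl d a b => (10, d, a, b)
  | .shr d a b => (11, d, a, b)
  | .load d a => (12, d, a, 0)
  | .store s a => (13, s, a, 0)
  | .jump l => (14, 0, 0, l)
  | .jumpIfZero a l => (15, a, 0, l)
  | .jumpIfEq a b l => (16, a, b, l)
  | .jumpIfLt a b l => (17, a, b, l)
  | .rand d => (0, d, 0, 0)
  | .halt => (19, 0, 0, 0)

/-- The simulation relation. -/
structure Rel {r : ℕ} (E : Env) (c : Cfg r) (s : St) : Prop where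
  pc : s.1 = c.pc
  halted : s.2.1 = c.halted
  regs : ∀ j : Fin r, rd E s.2.2.1 j = c.regs j
  mem : ∀ a, md E s.2.2.2 a = c.mem a
  regs_lt : ∀ j, c.regs j < 2 ^ E.2.1.n
  mem_lt : ∀ a, c.mem a < 2 ^ E.2.1.n

theorem rd_cons (E : Env) (l : List (ℕ × ℕ)) (d v k : ℕ) :
    rd E ((d, v) :: l) k = if k = d then v else rd E l k := by
  unfold rd
  by_cases h : k = d
  · simp [h]
  · have : (k == d) = false := by simpa using h
    simp [List.lookup_cons, h, this]

theorem md_cons (E : Env) (l : List (ℕ × ℕ)) (d v k : ℕ) :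
    md E ((d, v) :: l) k = if k = d then v else md E l k := by
  unfold md
  by_cases h : k = d
  · simp [h]
  · have : (k == d) = false := by simpa using h
    simp [List.lookup_cons, h, this]

theorem Rel.write {r : ℕ} {E : Env} {c : Cfg r} {s : St} (h : Rel E c s) (hh : c.halted = false)
    (d : Fin r) (v v' n : ℕ) (hv : v' % 2 ^ E.2.1.n = v) :
    Rel E { c with pc := c.pc + 1, regs := writeReg c.regs d v, drawn := n }
      (s.1 + 1, false, (d.1, v' % 2 ^ E.2.1.n) :: s.2.2.1, s.2.2.2) where
  pc := by simp [h.pc]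
  halted := hh.symm
  regs j := by
    simp only [rd_cons, writeReg, h.regs, hv, Fin.ext_iff]
  mem := h.mem
  regs_lt j := by
    simp only [writeReg]
    split_ifs
    · rw [← hv]; exact Nat.mod_lt _ (by positivity)
    · exact h.regs_lt j
  mem_lt := h.mem_lt

theorem Rel.jump {r : ℕ} {E : Env} {c : Cfg r} {s : St} (h : Rel E c s) (hh : c.halted = false)
    (p p' : ℕ) (hp : p' = p) : Rel E { c with pc := p } (p', false, s.2.2.1, s.2.2.2) :=
  ⟨hp, hh.symm, h.regs, h.mem, h.regs_lt, h.mem_lt⟩

theorem Rel.halt {r : ℕ} {E : Env} {c : Cfg r} {s : St} (h : Rel E c s) :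
    Rel E { c with halted := true } (s.1, true, s.2.2.1, s.2.2.2) :=
  ⟨h.pc, rfl, h.regs, h.mem, h.regs_lt, h.mem_lt⟩

theorem rel_step (P : Program) (w : Un) (x : List Bool) (c : Cfg P.numRegs) (s : St)
    (h : Rel (P.code.map icode, w, x) c s) :
    Rel (P.code.map icode, w, x) (step P w.n (fun _ => 0) c) (sstep (P.code.map icode, w, x) s) := by
  unfold step sstep
  rw [h.halted]
  by_cases hh : c.halted = true
  · simpa [hh] using h
  rw [if_neg hh, if_neg hh]
  have hf : c.halted = false := by simpa using hh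
  have hlt := h.regs_lt
  have hml := h.mem_lt
  have hr := h.regs
  have hm := h.mem
  have hpos : 0 < 2 ^ w.n := by positivity
  simp only [List.getD_eq_getElem?_getD, List.getElem?_map, h.pc] at hlt hml hr hm ⊢
  rcases P.code[c.pc]? with _ | i
  · exact h.halt
  have md : ∀ v : ℕ, v < 2 ^ w.n → v % 2 ^ w.n = v := fun v hv => Nat.mod_eq_of_lt hv
  cases i with
  | const d v => exact h.write hf d _ _ _ rfl
  | copy d a => exact h.write hf d _ _ _ (by simp [icode, alu, hr, md _ (hlt a)])
  | add d a b => exact h.write hf d _ _ _ (by simp [icode, alu, hr])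
  | sub d a b =>
    exact h.write hf d _ _ _ (by
      simp [icode, alu, hr, md _ ((Nat.sub_le _ (c.regs b)).trans_lt (hlt a))])
  | mul d a b => exact h.write hf d _ _ _ (by simp [icode, alu, hr])
  | quot d a b =>
    exact h.write hf d _ _ _ (by
      simp [icode, alu, hr, md _ ((Nat.div_le_self _ (c.regs b)).trans_lt (hlt a))])
  | rem d a b =>
    exact h.write hf d _ _ _ (by
      simp [icode, alu, hr, md _ ((Nat.mod_le _ (c.regs b)).trans_lt (hlt a))])
  | and d a b =>
    exact h.write hf d _ _ _ (by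
      simp [icode, alu, hr, md _ ((Nat.and_le_left (m := c.regs b)).trans_lt (hlt a))])
  | or d a b =>
    exact h.write hf d _ _ _ (by simp [icode, alu, hr, md _ (Nat.or_lt_two_pow (hlt a) (hlt b))])
  | xor d a b =>
    exact h.write hf d _ _ _ (by simp [icode, alu, hr, md _ (Nat.xor_lt_two_pow (hlt a) (hlt b))])
  | shl d a b =>
    refine h.write hf d _ _ _ ?_
    by_cases hb : c.regs b < w.n <;> simp [icode, alu, hr, shlW, hb]
  | shr d a b =>
    refine h.write hf d _ _ _ ?_
    have := md _ ((Nat.shiftRight_le (c.regs a) (c.regs b)).trans_lt (hlt a))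
    by_cases hb : c.regs b < w.n <;> simp [icode, alu, hr, hb, this]
  | load d a => exact h.write hf d _ _ _ (by simp [icode, alu, hr, hm, md _ (hml _)])
  | store a b =>
    refine ⟨by simp [exec, icode, h.pc], hf.symm, h.regs, fun k => ?_, h.regs_lt, fun k => ?_⟩
    · simp [exec, icode, md_cons, hr, hm, md _ (hlt _), writeMem]
    · simp only [writeMem]
      split_ifs
      · exact hlt _
      · exact hml _
  | jump l => exact h.jump hf _ _ rfl
  | jumpIfZero a l => exact h.jump hf _ _ (by simp [icode, jc, hr, h.pc])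
  | jumpIfEq a b l => exact h.jump hf _ _ (by simp [icode, jc, hr, h.pc])
  | jumpIfLt a b l => exact h.jump hf _ _ (by simp [icode, jc, hr, h.pc])
  | rand d => exact h.write hf d _ _ _ rfl
  | halt => exact h.halt

theorem rel_init (P : Program) (w : Un) (x : List Bool) :
    Rel (P.code.map icode, w, x) (init P w.n (x.map fun b => if b then 1 else 0))
      (0, false, [], []) where
  pc := rfl
  halted := rfl
  regs j := by simp [rd, init]
  mem a := by
    simp only [md, init, List.lookup_nil, Option.getD_none, List.getD_eq_getElem?_getD,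
      List.getElem?_map]
    rcases x[a]? with _ | b
    · simp
    · cases b <;> simp
  regs_lt j := by
    simp only [init]
    split_ifs
    · exact Nat.mod_lt _ (by positivity)
    · positivity
  mem_lt a := Nat.mod_lt _ (by positivity)

theorem rel_run (P : Program) (w : Un) (x : List Bool) (t : ℕ) :
    Rel (P.code.map icode, w, x) (run P w.n (fun _ => 0) (x.map fun b => if b then 1 else 0) t)
      (srun (P.code.map icode, w, x) t) := by
  unfold run srun
  induction t with
  | zero => exact rel_init P w x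
  | succ t ih =>
    rw [Function.iterate_succ_apply', Function.iterate_succ_apply']
    exact rel_step P w x _ _ ih

theorem run_stable (P : Program) (w : ℕ) (ρ : ℕ → ℕ) (x : List ℕ) {T t : ℕ} (hT : T ≤ t)
    (h : (run P w ρ x T).halted = true) : run P w ρ x t = run P w ρ x T := by
  obtain ⟨k, rfl⟩ := Nat.exists_eq_add_of_le' hT
  unfold run at *
  rw [Function.iterate_add_apply]
  generalize (step P w ρ)^[T] (init P w x) = c at h
  exact Function.iterate_fixed (by unfold step; rw [if_pos h]) k

theorem output_eq {r : ℕ} (c : Cfg r) : c.output = [1] ↔ c.reg 0 = 1 ∧ c.mem (c.reg 1) = 1 := by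
  unfold Cfg.output
  constructor
  · intro h
    have h1 : c.reg 0 = 1 := by simpa using congrArg List.length h
    rw [h1] at h
    exact ⟨h1, by simpa using h⟩
  · rintro ⟨h1, h2⟩
    rw [h1]; simp [h2]

/-- Read register `k` of a program with `r` registers. -/
def rg (E : Env) (r : ℕ) (s : St) (k : ℕ) : ℕ := if k < r then rd E s.2.2.1 k else 0

theorem Rel.reg {r : ℕ} {E : Env} {c : Cfg r} {s : St} (h : Rel E c s) (k : ℕ) :
    rg E r s k = c.reg k := by
  unfold rg Cfg.reg
  split_ifs with hk
  · exact h.regs ⟨k, hk⟩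
  · rfl

/-- The acceptance test. -/
def acc (E : Env) (r : ℕ) (s : St) : Bool :=
  decide (rg E r s 0 = 1 ∧ md E s.2.2.2 (rg E r s 1) = 1)

theorem acc_pt {α : Type} [Enc α] {E : α → Env} {r : α → ℕ} {s : α → St} (hE : PT E) (hr : PT r)
    (hs : PT s) : PT fun a => acc (E a) (r a) (s a) := by
  unfold acc rg; fun_prop

/-- The environment of an input of the simulator. -/
def env (p : RD × List Bool × Un) : Env :=
  (p.1.2.2, ⟨p.1.1.n * ((parseNat p.2.1).1 + 1).size⟩, p.2.1)

theorem env_pt : PT env := by unfold env; fun_prop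

theorem clog_eq (n : ℕ) : Nat.clog 2 (n + 2) = (n + 1).size := by
  apply le_antisymm
  · rw [Nat.clog_le_iff_le_pow (by norm_num)]
    exact Nat.lt_size_self (n + 1)
  · rw [Nat.size_le]
    exact Nat.le_pow_clog (by norm_num) (n + 2)

end RAM

open RAM in
/-- Simulated configuration: (pc, halted, registers as a list, memory as an association list of the
writes in front of the input).  The word length `c₀ * clog 2 (n + 2)` is polynomially bounded
(`n = (parseNat x).1`; `Nat.clog 2 (n + 2) = (n + 1).size`).  Reduce every written value modulo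
`2 ^ w` (or prove the invariant that registers and memory hold words) and bound the program
counter by `max` of the jump targets plus the number of steps, to get the size bound for
`PT.iterate_inv`.  `&&&`, `|||`, `^^^` through `bits`/`testBit` if `Lib.PT` lacks them; `a <<< b` is
`a * 2 ^ min b w`.  A halted configuration is a fixed point of `step`, so `run .. t = run .. T`.
The output is `[1]` iff register `0` holds `1` and the cell at register `1` holds `1`. -/
theorem exists_simRAM : ∃ sim : RD × List Bool × Un → Bool, PT sim ∧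
    ∀ (P : Program) (c₀ : ℕ), ∃ D : RD, ∀ (n : ℕ) (r : List Bool) (T t : ℕ), T ≤ t →
      (run P (c₀ * Nat.clog 2 (n + 2)) (fun _ => 0)
        ((Crest.Enc.natCode n ++ r).map fun b => if b then 1 else 0) T).halted = true →
      (sim (D, Crest.Enc.natCode n ++ r, ⟨t⟩) = true ↔
        (run P (c₀ * Nat.clog 2 (n + 2)) (fun _ => 0)
          ((Crest.Enc.natCode n ++ r).map fun b => if b then 1 else 0) T).output = [1]) := by
  refine ⟨fun p => acc (env p) p.1.2.1.n (srun (env p) p.2.2.n),
    acc_pt env_pt (by fun_prop) (srun_pt env_pt (by fun_prop) (by fun_prop)), fun P c₀ => ?_⟩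
  refine ⟨(⟨c₀⟩, ⟨P.numRegs⟩, P.code.map icode), fun n r T t hT hh => ?_⟩
  have h := rel_run P ⟨c₀ * Nat.clog 2 (n + 2)⟩ (Crest.Enc.natCode n ++ r) t
  simp only at h
  rw [run_stable P _ _ _ hT hh] at h
  have he : env ((⟨c₀⟩, ⟨P.numRegs⟩, P.code.map icode), Crest.Enc.natCode n ++ r, ⟨t⟩) =
      (P.code.map icode, ⟨c₀ * Nat.clog 2 (n + 2)⟩, Crest.Enc.natCode n ++ r) := by
    simp [env, clog_eq]
  simp only [he, acc, decide_eq_true_eq, h.reg, h.mem, output_eq]

end Crest.Agent.R290
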