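import Crest.Agent.R290.Diag
import Crest.Agent.R290.RAM
import Crest.Agent.R290.WL2

/-!
# rid 290: the unconditional lower bounds (helper93)
-/

set_option autoImplicit false

namespace Crest.Agent.R290

open Crest.WLRefine Crest.Agent.Lib.PT Crest.Enc

theorem rpow_le_pow_div {C k n : ℕ} (hC : 0 < C) (hk : C ≤ k) (hn : 1 ≤ n) :
    (n : ℝ) ^ ((1 / (2 * C) : ℝ) * k) ≤ ((n ^ (k / C) : ℕ) : ℝ) := by
  rw [Nat.cast_pow, ← Real.rpow_natCast]
  refine Real.rpow_le_rpow_of_exponent_le (by exact_mod_cast hn) ?_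
  have h1 : 1 ≤ k / C := (Nat.le_div_iff_mul_le hC).2 (by omega)
  have h2 : k < C * (k / C + 1) := Nat.lt_mul_div_succ k hC
  have h3 : k ≤ 2 * C * (k / C) := by nlinarith
  have h4 : (k : ℝ) ≤ 2 * C * (k / C : ℕ) := by exact_mod_cast h3
  have h5 : (0 : ℝ) < 2 * C := by positivity
  rw [one_div, inv_mul_le_iff₀ h5]
  exact h4

/-- The abstract lower bound: a simulated decider of a relation between `Game (k + 1)` and `Game k`
needs more than `n ^ (k / C)` steps. -/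
theorem lower_abstract {δ : Type} [Enc δ] [Dec δ] (sim : δ × List Bool × Un → Bool)
    (hsim : PT sim) : ∃ c : ℝ, 0 < c ∧ ∃ k₀ : ℕ, 1 ≤ k₀ ∧ ∀ k ≥ k₀, ∀ (D : δ) (T : ℕ → ℕ)
      (Rel : ∀ n, (Fin n → Fin n → Bool) → (Fin n → Fin n → Bool) → Prop),
      (∀ n G H, 0 < n → Rel n G H → Game G H k) → (∀ n G H, Game G H (k + 1) → Rel n G H) →
      (∀ n G H, SimpleConnDiamTwo G → SimpleConnDiamTwo H → ∀ t, T n ≤ t →
        (sim (D, adjMatrixCode G ++ adjMatrixCode H, ⟨t⟩) = true ↔ Rel n G H)) →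
      ∃ n₀ : ℕ, ∀ n ≥ n₀, (n : ℝ) ^ (c * k) ≤ T n := by
  obtain ⟨C, k₀, hC, h⟩ := diag sim hsim
  refine ⟨1 / (2 * C), by positivity, max (max k₀ C) 1, le_max_right _ _,
    fun k hk D T Rel h1 h2 h3 => ?_⟩
  obtain ⟨n₀, hn₀⟩ := h k (le_trans (le_trans (le_max_left _ _) (le_max_left _ _)) hk) D
  refine ⟨max n₀ 1, fun n hn => ?_⟩
  have hn1 : 1 ≤ n := le_trans (le_max_right _ _) hn
  refine (rpow_le_pow_div hC (le_trans (le_trans (le_max_right _ _) (le_max_left _ _)) hk)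
    hn1).trans ?_
  by_contra hlt
  have hT : T n ≤ n ^ (k / C) := by
    have : (T n : ℝ) < ((n ^ (k / C) : ℕ) : ℝ) := not_le.1 hlt
    exact_mod_cast this.le
  obtain ⟨G, H, hG, hH, g1, g2⟩ := hn₀ n (le_trans (le_max_left _ _) hn)
  have := h3 n G H hG hH _ hT
  cases hs : sim (D, adjMatrixCode G ++ adjMatrixCode H, ⟨n ^ (k / C)⟩)
  · have := this.2 (h2 n G H (g2 hs))
    rw [hs] at this; cases this
  · exact g1 hs (h1 n G H hn1 (this.1 hs))

theorem lower_tm :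
    ∃ c : ℝ, 0 < c ∧ ∃ k₀ : ℕ, ∀ k ≥ k₀,
      (∀ (g : Crest.WLRefine.diamTwoPairCodes → Bool),
        (∀ x, x.1 ∈ Crest.WLRefine.jointEquivLang k ↔ g x = true) →
        ∀ M : Turing.TM2ComputableInTime (fun x : Crest.WLRefine.diamTwoPairCodes => x.1)
            Computability.encodeBool g,
          ∃ n₀ : ℕ, ∀ n ≥ n₀,
            (n : ℝ) ^ (c * k) ≤ M.time (2 * ((Crest.Enc.natCode n).length + n * n))) ∧
      (∀ (g : Crest.WLRefine.diamTwoPairCodes → Bool),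
        (∀ x, x.1 ∈ Crest.WLRefine.sepEquivLang k ↔ g x = true) →
        ∀ M : Turing.TM2ComputableInTime (fun x : Crest.WLRefine.diamTwoPairCodes => x.1)
            Computability.encodeBool g,
          ∃ n₀ : ℕ, ∀ n ≥ n₀,
            (n : ℝ) ^ (c * k) ≤ M.time (2 * ((Crest.Enc.natCode n).length + n * n))) := by
  obtain ⟨sim, hsim, hs⟩ := exists_simMD
  obtain ⟨c, hc, k₀, hk₀, h⟩ := lower_abstract sim hsim
  have key : ∀ (g : Crest.WLRefine.diamTwoPairCodes → Bool)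
      (M : Turing.TM2ComputableInTime (fun x : Crest.WLRefine.diamTwoPairCodes => x.1)
        Computability.encodeBool g), ∃ D : MD, ∀ (n : ℕ) (G H : Fin n → Fin n → Bool)
        (hG : SimpleConnDiamTwo G) (hH : SimpleConnDiamTwo H) (t : ℕ),
        M.time (2 * ((Crest.Enc.natCode n).length + n * n)) ≤ t →
        sim (D, adjMatrixCode G ++ adjMatrixCode H, ⟨t⟩) =
          g ⟨adjMatrixCode G ++ adjMatrixCode H, n, G, H, hG, hH, rfl⟩ := by
    intro g M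
    obtain ⟨D, hD⟩ := exists_md M.toTM2ComputableAux
    refine ⟨D, fun n G H hG hH t ht => hs D _ _ _ t (hD _ _ _
      ⟨M.outputsFun ⟨adjMatrixCode G ++ adjMatrixCode H, n, G, H, hG, hH, rfl⟩⟩) ?_⟩
    simpa [length_adjMatrixCode, two_mul] using ht
  refine ⟨c, hc, k₀, fun k hk => ⟨fun g hg M => ?_, fun g hg M => ?_⟩⟩
  · obtain ⟨D, hD⟩ := key g M
    refine h k hk D _ (fun n G H => JEquiv k G H)
      (fun n G H hn hr => game_of_jequiv (hk₀.trans hk) hn hr) (fun n G H hg => hg.jequiv)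
      fun n G H hG hH t ht => ?_
    rw [hD n G H hG hH t ht, ← hg, mem_jointEquivLang]
    exact ⟨fun h => h.2.2, fun h => ⟨hG.1, hH.1, h⟩⟩
  · obtain ⟨D, hD⟩ := key g M
    refine h k hk D _ (fun n G H => SEquiv k G H)
      (fun n G H hn hr => game_of_sequiv (hk₀.trans hk) hn hr)
      (fun n G H hg => (hg.mono (Nat.le_succ k)).sequiv) fun n G H hG hH t ht => ?_
    rw [hD n G H hG hH t ht, ← hg, mem_sepEquivLang]
    exact ⟨fun h => h.2.2, fun h => ⟨hG.1, hH.1, h⟩⟩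

theorem lower_ram :
    ∃ c : ℝ, 0 < c ∧ ∃ k₀ : ℕ, ∀ k ≥ k₀, ∀ c₀ : ℕ,
      (∀ (P : Crest.WordRAM.Program) (T : ℕ → ℕ),
        (∀ (n : ℕ) (G H : Fin n → Fin n → Bool), Crest.WLRefine.SimpleConnDiamTwo G →
          Crest.WLRefine.SimpleConnDiamTwo H → ∀ ρ : ℕ → ℕ,
            (Crest.WordRAM.run P (c₀ * Nat.clog 2 (n + 2)) ρ (((Crest.WLRefine.adjMatrixCode G ++ Crest.WLRefine.adjMatrixCode H).map fun b => if b then 1 else 0)) (T n)).halted = true ∧
            ((Crest.WordRAM.run P (c₀ * Nat.clog 2 (n + 2)) ρ (((Crest.WLRefine.adjMatrixCode G ++ Crest.WLRefine.adjMatrixCode H).map fun b => if b then 1 else 0)) (T n)).output = [1] ↔ Crest.WLRefine.JEquiv k G H)) →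
        ∃ n₀ : ℕ, ∀ n ≥ n₀, (n : ℝ) ^ (c * k) ≤ T n) ∧
      (∀ (P : Crest.WordRAM.Program) (T : ℕ → ℕ),
        (∀ (n : ℕ) (G H : Fin n → Fin n → Bool), Crest.WLRefine.SimpleConnDiamTwo G →
          Crest.WLRefine.SimpleConnDiamTwo H → ∀ ρ : ℕ → ℕ,
            (Crest.WordRAM.run P (c₀ * Nat.clog 2 (n + 2)) ρ (((Crest.WLRefine.adjMatrixCode G ++ Crest.WLRefine.adjMatrixCode H).map fun b => if b then 1 else 0)) (T n)).halted = true ∧
            ((Crest.WordRAM.run P (c₀ * Nat.clog 2 (n + 2)) ρ (((Crest.WLRefine.adjMatrixCode G ++ Crest.WLRefine.adjMatrixCode H).map fun b => if b then 1 else 0)) (T n)).output = [1] ↔ Crest.WLRefine.SEquiv k G H)) →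
        ∃ n₀ : ℕ, ∀ n ≥ n₀, (n : ℝ) ^ (c * k) ≤ T n) := by
  obtain ⟨sim, hsim, hs⟩ := exists_simRAM
  obtain ⟨c, hc, k₀, hk₀, h⟩ := lower_abstract sim hsim
  have e : ∀ {n : ℕ} (G H : Fin n → Fin n → Bool), ∃ r,
      adjMatrixCode G ++ adjMatrixCode H = natCode n ++ r := fun G H =>
    ⟨_, by rw [adjMatrixCode, List.append_assoc]⟩
  refine ⟨c, hc, k₀, fun k hk c₀ => ⟨fun P T hP => ?_, fun P T hP => ?_⟩⟩
  · obtain ⟨D, hD⟩ := hs P c₀
    refine h k hk D _ (fun n G H => JEquiv k G H)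
      (fun n G H hn hr => game_of_jequiv (hk₀.trans hk) hn hr) (fun n G H hg => hg.jequiv)
      fun n G H hG hH t ht => ?_
    obtain ⟨h1, h2⟩ := hP n G H hG hH fun _ => 0
    obtain ⟨r, hr⟩ := e G H
    rw [hr] at h1 h2 ⊢
    rw [hD n r _ t ht h1, h2]
  · obtain ⟨D, hD⟩ := hs P c₀
    refine h k hk D _ (fun n G H => SEquiv k G H)
      (fun n G H hn hr => game_of_sequiv (hk₀.trans hk) hn hr)
      (fun n G H hg => (hg.mono (Nat.le_succ k)).sequiv) fun n G H hG hH t ht => ?_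
    obtain ⟨h1, h2⟩ := hP n G H hG hH fun _ => 0
    obtain ⟨r, hr⟩ := e G H
    rw [hr] at h1 h2 ⊢
    rw [hD n r _ t ht h1, h2]

end Crest.Agent.R290
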