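import Crest.Agent.R290.Long
import Crest.Agent.R290.Gr
import Crest.Agent.Lib.PT.All
import Crest.Agent.Lib.CookLevin.Frame

/-!
# rid 290: numeric machines, their Horn systems, and the whole reduction (definitions)

`MD` is the numeric description of a stack machine (as `Lib.CookLevin.Mach`, but a tuple with
unary sizes, so that it can be the input of a polynomial-time function).
-/

set_option autoImplicit false

namespace Crest.Agent.R290

open Crest.Agent.Lib.PT

/-- A transition rule: state, window, new state, new tops of the stacks. -/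
abbrev MRule := ℕ × List (List ℕ) × ℕ × List (List ℕ)

/-- Numeric machine: `((κ, d, g), (k₀, k₁, s₀), (code false, code true, cF), rules)`. -/
abbrev MD := (Un × Un × Un) × (ℕ × ℕ × ℕ) × (ℕ × ℕ × ℕ) × List MRule

namespace MD

variable (M : MD)

/-- number of stacks -/
def κ : ℕ := M.1.1.n
/-- window size -/
def d : ℕ := M.1.2.1.n
/-- bound for the symbol codes -/
def g : ℕ := M.1.2.2.n
/-- input stack -/
def k₀ : ℕ := M.2.1.1
/-- output stack -/
def k₁ : ℕ := M.2.1.2.1
/-- initial state -/
def s₀ : ℕ := M.2.1.2.2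
/-- codes of the input bits -/
def cL (c : Bool) : ℕ := cond c M.2.2.1.2.1 M.2.2.1.1
/-- code of the answer `false` -/
def cF : ℕ := M.2.2.1.2.2
/-- rules -/
def R : List MRule := M.2.2.2

/-- The rule `r` applies at time `t`. -/
def Match (st : ℕ → ℕ) (cell : ℕ → ℕ → ℕ → ℕ) (r : MRule) (t : ℕ) : Prop :=
  st t = r.1 ∧ ∀ k < M.κ, ∀ j < M.d, cell t k j = (r.2.1.getD k []).getD j 0

/-- `st, cell` describe the run on `x`, with answer `b` from time `T` on
(`cell t k j` is the code of symbol `j` from the top of stack `k`, `0` below the bottom). -/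
structure Run (x : List Bool) (b : Bool) (T : ℕ) (st : ℕ → ℕ) (cell : ℕ → ℕ → ℕ → ℕ) : Prop where
  k0 : M.k₀ < M.κ
  k1 : M.k₁ < M.κ
  st0 : st 0 = M.s₀
  cell0 : ∀ k < M.κ, ∀ j, cell 0 k j = if k = M.k₀ then (x.map M.cL).getD j 0 else 0
  ex : ∀ t, ∃ r ∈ M.R, M.Match st cell r t
  step : ∀ t, ∀ r ∈ M.R, M.Match st cell r t → st (t + 1) = r.2.2.1 ∧ ∀ k < M.κ, ∀ j,
    cell (t + 1) k j = if j < (r.2.2.2.getD k []).length then (r.2.2.2.getD k []).getD j 0
      else cell t k (j - (r.2.2.2.getD k []).length + M.d)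
  lt : ∀ t k j, cell t k j < M.g
  fin : ∀ t, T ≤ t → (cell t M.k₁ 0 = M.cF ↔ b = false)

/-- The machine answers `b` on `x` within `T` steps. -/
def Answers (x : List Bool) (b : Bool) (T : ℕ) : Prop := ∃ st cell, M.Run x b T st cell

end MD

/-- A rule with one premise. -/
def r1 (out W : Wire) (δ : ℤ) : HRule := (out, (W, δ), (W, δ))

/-- `2 ^ bnd M x` bounds the input length, the window size and the lengths of all new tops. -/
def bnd (M : MD) (x : List Bool) : ℕ := ((toBits M).length + x.length).size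

/-- The Horn system of the first `2 ^ L` steps of `M` on `x`.  With `P = L + B` the address of
position `j` at time `t` is `t * 2 ^ (P + 1) + j`.  Wires: `(0, s, 0)` doubling (`(0, P, 0)` holds on
`[0, 2 ^ P)`, `(0, P + L, 0)` on the rectangle `t < 2 ^ L`, `j < 2 ^ P`), `(2, s, 0)` state,
`(3, k, γ)` cell contents, `(4, ρ, p)` the state and the first `p` window cells match rule `ρ`,
`(5, ρ, 0)` rule `ρ` applies (broadcast along the row), `wf` the answer is `pol`. -/
def hornB (M : MD) (x : List Bool) (L B : ℕ) (pol : Bool) : List HRule :=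
  ((List.range (L + B + L)).flatMap fun s =>
    [r1 (0, s + 1, 0) (0, s, 0) 0,
     r1 (0, s + 1, 0) (0, s, 0)
      (-((2 ^ min (if s < L + B then s else s + 1) (L + B + L) : ℕ) : ℤ))]) ++
  [r1 (2, M.s₀, 0) w0 0] ++
  ((List.range x.length).map fun j => r1 (3, M.k₀, M.cL (x.getD j false)) w0 (-(j : ℤ))) ++
  ((List.range M.κ).map fun k =>
    ((3, k, 0), ((0, L + B, 0), 0), ((0, L + B, 0), if k = M.k₀ then -(x.length : ℤ) else 0))) ++
  ((List.range M.R.length).flatMap fun ρ =>
    [r1 (4, ρ, 0) (2, (M.R.getD ρ (0, [], 0, [])).1, 0) 0,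
     r1 (5, ρ, 0) (4, ρ, M.κ * M.d) 0,
     ((5, ρ, 0), ((5, ρ, 0), -1), ((0, L + B + L, 0), 0)),
     ((2, (M.R.getD ρ (0, [], 0, [])).2.2.1, 0),
       ((4, ρ, M.κ * M.d), -((2 ^ (L + B + 1) : ℕ) : ℤ)), ((0, L + B + L, 0), 0))] ++
    ((List.range (M.κ * M.d)).map fun p =>
      ((4, ρ, p + 1), ((4, ρ, p), 0),
        ((3, p / M.d, ((M.R.getD ρ (0, [], 0, [])).2.1.getD (p / M.d) []).getD (p % M.d) 0),
          ((p % M.d : ℕ) : ℤ)))) ++
    ((List.range M.κ).flatMap fun k =>
      ((List.range ((M.R.getD ρ (0, [], 0, [])).2.2.2.getD k []).length).map fun j =>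
        r1 (3, k, ((M.R.getD ρ (0, [], 0, [])).2.2.2.getD k []).getD j 0) (4, ρ, M.κ * M.d)
          (-((2 ^ (L + B + 1) + j : ℕ) : ℤ))) ++
      ((List.range M.g).map fun γ =>
        ((3, k, γ),
          ((5, ρ, 0),
            -((2 ^ (L + B + 1) + ((M.R.getD ρ (0, [], 0, [])).2.2.2.getD k []).length : ℕ) : ℤ)),
          ((3, k, γ),
            -((2 ^ (L + B + 1) + ((M.R.getD ρ (0, [], 0, [])).2.2.2.getD k []).length : ℕ) : ℤ) +
              (M.d : ℤ)))))) ++
  (((List.range M.g).filter fun γ => decide (γ = M.cF) != pol).map fun γ =>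
    r1 wf (3, M.k₁, γ) (((2 ^ L - 1) * 2 ^ (L + B + 1) : ℕ) : ℤ))

/-- The Horn system of the first `2 ^ L` steps of `M` on `x`. -/
def horn (M : MD) (x : List Bool) (L : ℕ) (pol : Bool) : List HRule := hornB M x L (bnd M x) pol

/-- The system with three variables per equation attached to a computation; `tw` is the common
right-hand side of the pure equations. -/
def sys (M : MD) (x : List Bool) (L q k : ℕ) (pol tw : Bool) : List (Eqn (List LVar)) :=
  chain (longSys (horn M x L pol) (primesFrom q (k / 3)) (13 * (k / 3)) fun _ _ => tw)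

/-- Number of equations of `sys`. -/
def sysM (M : MD) (x : List Bool) (L q k : ℕ) (pol : Bool) : ℕ := (sys M x L q k pol false).length

/-- The graphs of the reduction, on numbers. -/
def sysG (M : MD) (x : List Bool) (L q k : ℕ) (pol tw : Bool) : ℕ → ℕ → Bool :=
  gN (sysM M x L q k pol) (sys M x L q k pol tw)

/-- Number of vertices of the graphs of the reduction. -/
def sysN (M : MD) (x : List Bool) (L q k : ℕ) (pol : Bool) : ℕ := nV (sysM M x L q k pol)

end Crest.Agent.R290
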