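import Crest.Agent.R290.Game

/-!
# rid 290, task WL1: a winning family gives equal Weisfeiler-Leman colours
-/

set_option autoImplicit false

namespace Crest.Agent.R290

open Crest.WLRefine

variable {n m k : ℕ} {G : Fin n → Fin n → Bool} {H : Fin m → Fin m → Bool}

/-- Reindexing a histogram along a bijection. -/
theorem wl1_map_univ_eq {α β γ : Type} [Fintype α] [Fintype β] (f : α ≃ β) (a : α → γ) (b : β → γ)
    (h : ∀ z, a z = b (f z)) :
    (Finset.univ : Finset α).val.map a = (Finset.univ : Finset β).val.map b := by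
  have e : (Finset.univ : Finset β).val = (Finset.univ : Finset α).val.map f := by
    rw [← Finset.map_univ_equiv f]
    rfl
  rw [e, Multiset.map_map]
  exact Multiset.map_congr rfl fun z _ => h z

theorem wl1_ncard_range_le {α : Type} (g : Fin k → α) : (Set.range g).ncard ≤ k := by
  rw [← Set.image_univ]
  refine (Set.ncard_image_le).trans ?_
  simp [Set.ncard_univ]

theorem wl1_atomic_eq {K : ℕ} {Pos : Set (Fin n × Fin m) → Prop} (h : IsGame G H K Pos)
    (v : Fin k → Fin n) (w : Fin k → Fin m) (hp : Pos (Set.range fun i => (v i, w i))) :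
    atomicType G v = atomicType H w := by
  unfold atomicType
  refine Prod.ext ?_ ?_
  · funext i j
    have := h.inj hp _ ⟨i, rfl⟩ _ ⟨j, rfl⟩
    exact decide_eq_decide.2 this
  · funext i j
    exact h.adj hp _ ⟨i, rfl⟩ _ ⟨j, rfl⟩

theorem wl1_range_update_subset {V W : Type} (v : Fin k → V) (w : Fin k → W) (i : Fin k) (z : V)
    (c : W) :
    (Set.range fun j => (Function.update v i z j, Function.update w i c j)) ⊆
      insert (z, c) ((fun j => (v j, w j)) '' {j | j ≠ i}) := by
  rintro _ ⟨j, rfl⟩
  by_cases hj : j = i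
  · subst hj
    simp
  · refine Or.inr ⟨j, hj, ?_⟩
    simp [Function.update_of_ne hj]

/-- Induction on `s`.  Round `0`: `inj` and `adj`.  Round `s + 1`: the position has at most `k`
pairs, `ext` gives `f`; for every `z, i` the position of `update v i z, update w i (f z)` is a
subset of `insert (z, f z) _` (`down`); reindex the multiset along `f`. -/
theorem jcolor_eq_of_game {Pos : Set (Fin n × Fin m) → Prop} (h : IsGame G H (k + 1) Pos) (s : ℕ)
    (v : Fin k → Fin n) (w : Fin k → Fin m) (hp : Pos (Set.range fun i => (v i, w i))) :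
    jcolor G k s v = jcolor H k s w := by
  induction s generalizing v w with
  | zero => exact wl1_atomic_eq h v w hp
  | succ s ih =>
    obtain ⟨f, hf⟩ := h.ext hp (Nat.lt_succ_of_le (wl1_ncard_range_le _))
    refine Prod.ext (ih v w hp) ?_
    refine wl1_map_univ_eq f _ _ fun z => ?_
    funext i
    refine ih _ _ (h.down (hf z) ((wl1_range_update_subset v w i z (f z)).trans ?_))
    exact Set.insert_subset_insert (Set.image_subset_range _ _)

/-- As `jcolor_eq_of_game`; for coordinate `i` first remove the pair `i` (at most `k - 1` pairs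
remain), then use `ext`. -/
theorem scolor_eq_of_game {Pos : Set (Fin n × Fin m) → Prop} (h : IsGame G H k Pos) (s : ℕ)
    (v : Fin k → Fin n) (w : Fin k → Fin m) (hp : Pos (Set.range fun i => (v i, w i))) :
    scolor G k s v = scolor H k s w := by
  induction s generalizing v w with
  | zero => exact wl1_atomic_eq h v w hp
  | succ s ih =>
    refine Prod.ext (ih v w hp) ?_
    funext i
    have hc : ((fun j => (v j, w j)) '' {j | j ≠ i}).ncard < k := by
      refine lt_of_le_of_lt Set.ncard_image_le ?_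
      have h1 : ({j | j ≠ i} : Set (Fin k)) ⊂ Set.univ :=
        Set.ssubset_univ_iff.2 fun he => by
          have : i ∈ ({j | j ≠ i} : Set (Fin k)) := he ▸ Set.mem_univ i
          exact this rfl
      have h2 := Set.ncard_lt_ncard h1
      simpa [Set.ncard_univ] using h2
    obtain ⟨f, hf⟩ := h.ext (h.down hp (Set.image_subset_range _ _)) hc
    refine wl1_map_univ_eq f _ _ fun z => ?_
    exact ih _ _ (h.down (hf z) (wl1_range_update_subset v w i z (f z)))

/-- Induction on `k`: `(v₀, v) ↦ (f_v v₀, F v)` with `f_v` from `ext` at the position of `v`. -/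
theorem exists_tuple_equiv {V W : Type} {G : V → V → Bool} {H : W → W → Bool} {K : ℕ}
    {Pos : Set (V × W) → Prop} (h : IsGame G H K Pos) (hk : k ≤ K) :
    ∃ F : (Fin k → V) ≃ (Fin k → W), ∀ v, Pos (Set.range fun i => (v i, F v i)) := by
  induction k with
  | zero =>
    refine ⟨Equiv.ofUnique _ _, fun v => ?_⟩
    rw [Set.range_eq_empty]
    exact h.empty
  | succ k ih =>
    obtain ⟨F, hF⟩ := ih (Nat.le_of_succ_le hk)
    have hex : ∀ v : Fin k → V, ∃ f : V ≃ W, ∀ z,
        Pos (insert (z, f z) (Set.range fun i => (v i, F v i))) := fun v =>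
      h.ext (hF v) (lt_of_le_of_lt (wl1_ncard_range_le _) hk)
    choose f hf using hex
    refine ⟨(Fin.consEquiv fun _ => V).symm.trans (((Equiv.prodCongrLeft f).trans
      (Equiv.prodCongr (Equiv.refl W) F)).trans (Fin.consEquiv fun _ => W)), fun v => ?_⟩
    refine h.down (hf (Fin.tail v) (v 0)) ?_
    rintro _ ⟨i, rfl⟩
    refine Fin.cases ?_ (fun j => ?_) i
    · exact Or.inl rfl
    · exact Or.inr ⟨j, rfl⟩

theorem Game.jequiv (h : Game G H (k + 1)) : JEquiv k G H := by
  obtain ⟨Pos, hP⟩ := h
  obtain ⟨F, hF⟩ := exists_tuple_equiv (k := k) hP (Nat.le_succ k)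
  intro s
  exact wl1_map_univ_eq F _ _ fun v => jcolor_eq_of_game hP s v (F v) (hF v)

theorem Game.sequiv (h : Game G H k) : SEquiv k G H := by
  obtain ⟨Pos, hP⟩ := h
  obtain ⟨F, hF⟩ := exists_tuple_equiv (k := k) hP le_rfl
  intro s
  exact wl1_map_univ_eq F _ _ fun v => scolor_eq_of_game hP s v (F v) (hF v)

theorem wl1_crcolor_eq {Pos : Set (Fin n × Fin m) → Prop} (h : IsGame G H 2 Pos) (s : ℕ)
    (a : Fin n) (c : Fin m) (hp : Pos {(a, c)}) : crcolor G s a = crcolor H s c := by
  induction s generalizing a c with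
  | zero => rfl
  | succ s ih =>
    obtain ⟨f, hf⟩ := h.ext hp (by simp)
    refine Prod.ext (ih a c hp) ?_
    have e : (Finset.univ.filter fun w => H c w = true) =
        (Finset.univ.filter fun w => G a w = true).map f.toEmbedding := by
      ext w
      have := h.adj (hf (f.symm w)) (a, c) (Or.inr rfl) _ (Or.inl rfl)
      simp only [Equiv.apply_symm_apply] at this
      simp [Finset.mem_map_equiv, this]
    show Multiset.map (crcolor G s) (Finset.univ.filter fun w => G a w = true).val =
      Multiset.map (crcolor H s) (Finset.univ.filter fun w => H c w = true).val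
    rw [e, Finset.map_val, Multiset.map_map]
    refine Multiset.map_congr rfl fun z _ => ?_
    exact ih z (f z) (h.down (hf z) (Set.singleton_subset_iff.2 (Or.inl rfl)))

/-- `Pos {(a, c)}` implies equal `crcolor` at every round: the bijection given by `ext` maps
neighbours of `a` onto neighbours of `c`. -/
theorem Game.crequiv (h : Game G H 2) : CREquiv G H := by
  obtain ⟨Pos, hP⟩ := h
  obtain ⟨f, hf⟩ := hP.ext hP.empty (by simp)
  intro s
  refine wl1_map_univ_eq f _ _ fun z => wl1_crcolor_eq hP s z (f z) ?_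
  simpa using hf z

/-- Positions: subsets of the graph of the isomorphism. -/
theorem game_of_iso (h : AdjIso G H) (K : ℕ) : Game G H K := by
  obtain ⟨e, he⟩ := h
  refine ⟨fun S => ∀ p ∈ S, p.2 = e p.1, ?_, ?_, ?_, ?_, ?_⟩
  · intro p hp
    exact absurd hp (Set.notMem_empty p)
  · intro S S' hS hs p hp
    exact hS p (hs hp)
  · intro S hS p hp q hq
    rw [hS p hp, hS q hq]
    exact e.injective.eq_iff.symm
  · intro S hS p hp q hq
    rw [hS p hp, hS q hq, he]
  · intro S hS _
    refine ⟨e, fun z p hp => ?_⟩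
    rcases hp with rfl | hp
    · rfl
    · exact hS p hp

/-- The composed family is winning for `(G, G)`. -/
theorem wl1_isGame_comp {K : ℕ} {Pos : Set (Fin n × Fin m) → Prop} (h : IsGame G H K Pos)
    (hK : 0 < K) :
    IsGame G G K (fun S => ∃ γ : Fin n × Fin n → Fin m,
      Pos ((fun p => (p.1, γ p)) '' S) ∧ Pos ((fun p => (p.2, γ p)) '' S)) where
  empty := by
    obtain ⟨f, -⟩ := h.ext h.empty (by simpa using hK)
    exact ⟨fun p => f p.1, by simpa using h.empty, by simpa using h.empty⟩
  down := by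
    rintro S S' ⟨γ, h1, h2⟩ hs
    exact ⟨γ, h.down h1 (Set.image_mono hs), h.down h2 (Set.image_mono hs)⟩
  inj := by
    rintro S ⟨γ, h1, h2⟩ p hp q hq
    exact (h.inj h1 _ (Set.mem_image_of_mem _ hp) _ (Set.mem_image_of_mem _ hq)).trans
      (h.inj h2 _ (Set.mem_image_of_mem _ hp) _ (Set.mem_image_of_mem _ hq)).symm
  adj := by
    rintro S ⟨γ, h1, h2⟩ p hp q hq
    exact (h.adj h1 _ (Set.mem_image_of_mem _ hp) _ (Set.mem_image_of_mem _ hq)).trans
      (h.adj h2 _ (Set.mem_image_of_mem _ hp) _ (Set.mem_image_of_mem _ hq)).symm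
  ext := by
    rintro S ⟨γ, h1, h2⟩ hc
    obtain ⟨f₁, hf₁⟩ := h.ext h1 (lt_of_le_of_lt Set.ncard_image_le hc)
    obtain ⟨f₂, hf₂⟩ := h.ext h2 (lt_of_le_of_lt Set.ncard_image_le hc)
    refine ⟨f₁.trans f₂.symm, fun z => ?_⟩
    by_cases hz : (z, (f₁.trans f₂.symm) z) ∈ S
    · rw [Set.insert_eq_of_mem hz]
      exact ⟨γ, h1, h2⟩
    · have hu : ∀ p ∈ S, Function.update γ (z, (f₁.trans f₂.symm) z) (f₁ z) p = γ p :=
        fun p hp => Function.update_of_ne (fun he : p = _ => hz (by rw [← he]; exact hp)) _ _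
      refine ⟨Function.update γ (z, (f₁.trans f₂.symm) z) (f₁ z), h.down (hf₁ z) ?_,
        h.down (hf₂ (f₂.symm (f₁ z))) ?_⟩
      · rintro _ ⟨p, hp | hp, rfl⟩
        · subst hp
          exact Or.inl (by simp)
        · exact Or.inr ⟨p, hp, by simp only [hu p hp]⟩
      · rintro _ ⟨p, hp | hp, rfl⟩
        · subst hp
          exact Or.inl (by simp)
        · exact Or.inr ⟨p, hp, by simp only [hu p hp]⟩

/-- Let `Pos` be winning for `(G, H)`.  The family of all `S ⊆ V × V` for which some
`γ : V × V → W` has `Pos ((fun p => (p.1, γ p)) '' S)` and `Pos ((fun p => (p.2, γ p)) '' S)` is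
winning for `(G, G)` (compose the two bijections; update `γ` at the new pair if it is new).  Hence
`Pos {(a, c)}` and `Pos {(a', c)}` give `a = a'`.  The bijection `f` from `ext` at `∅` is an
isomorphism: for `a, a'` extend `{(a, f a)}` by `(a', f' a')`, and `f' a' = f a'` by uniqueness. -/
theorem iso_of_rigid {K : ℕ} (hr : Rigid G K) (h : Game G H K) (hK : 2 ≤ K) : AdjIso G H := by
  obtain ⟨Pos, hP⟩ := h
  have huniq : ∀ a a' c, Pos {(a, c)} → Pos {(a', c)} → a = a' := fun a a' c h1 h2 =>
    hr _ (wl1_isGame_comp hP (by omega)) a a' ⟨fun _ => c, by simpa using h1, by simpa using h2⟩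
  obtain ⟨f, hf⟩ := hP.ext hP.empty (by simp; omega)
  have hf' : ∀ a, Pos {(a, f a)} := fun a => by simpa using hf a
  refine ⟨f, fun a a' => ?_⟩
  obtain ⟨g, hg⟩ := hP.ext (hf' a) (by simp; omega)
  have h1 : Pos {(a', g a')} := hP.down (hg a') (Set.singleton_subset_iff.2 (Or.inl rfl))
  have h2 : Pos {(f.symm (g a'), g a')} := by simpa using hf' (f.symm (g a'))
  have h3 : g a' = f a' := by
    rw [huniq _ _ _ h1 h2]
    have := huniq _ _ _ h1 h2
    rw [← this]
    exact (f.symm_apply_eq.1 this.symm)
  have := hP.adj (hg a') (a, f a) (Or.inr rfl) _ (Or.inl rfl)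
  simp only [h3] at this
  exact this.symm

end Crest.Agent.R290
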