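import Crest.Agent.R290.Refine
import Crest.Agent.R290.WL1
import Crest.Agent.R290.WL2
import Crest.Agent.R290.Cone
import Crest.Prelude.Def_ExpTime

/-!
# rid 290, task Member: the three languages are in EXPTIME

Use `PT.timeBoundPred_pad` with the clock `τ x = 2 ^ ((|x| + 2) ^ 2)` (or similar) and absorb
`c (N + τ + 1) ^ e ≤ c' 2 ^ (N ^ 3) + c'`.  Parse with `parseNat`, `parseGraph` (or `take`/`drop`/
`chunks`) and accept only if re-encoding gives the input back; then the input is
`natCode k ++ adjMatrixCode G ++ adjMatrixCode H` and `mem_varDimEquivLang` etc. apply.  Clamp the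
dimension: for `k, k' ≥ max n 1`, `JEquiv k G H ↔ AdjIso G H ↔ JEquiv k' G H` (`iso_of_jequiv`,
`game_of_iso`, `Game.jequiv`), so replace `k` by `min k (n + 2)`.  Connectedness: `n` rounds of
closure from vertex `0`, or (exponential time is allowed) every nonempty proper subset of vertices
(`words [false, true] n`) has an edge leaving it.  For `wlDimLeLang`: only `k' ≤ min k (n + 2)`
matter (every `k' ≥ max n 2` identifies), equivalent graphs have the same order
(`order_eq_of_jequiv`, `order_eq_of_crequiv`), enumerate all `n × n` matrices with `words`, and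
test `AdjIso` as `JEquiv (n + 1)`.
-/

set_option autoImplicit false

namespace Crest.Agent.R290

open Crest.WLRefine Crest.ExpTime Crest.Agent.Lib.PT Crest.Enc

namespace Mem

variable {α : Type} [Enc α]

/-! ### Padding -/

theorem inEXP_of_pad {L : Set (List Bool)} {g : List Bool × Un → Prop} (hg : PT g)
    (h : ∀ x : List Bool, x ∈ L ↔ g (x, ⟨2 ^ ((x.length + 4) ^ 2)⟩)) : InEXP L := by
  classical
  obtain ⟨c, k, hc⟩ := PT.timeBoundPred_pad (τ := fun x => 2 ^ ((x.length + 4) ^ 2))
    (by fun_prop) (g := fun p => decide (g p)) hg.decide'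
  refine ⟨3, _, c * 2 ^ (k * ((26 * k + 4) ^ 2 + 1)), hc _ fun x => ?_, fun x => by
    rw [h x]; simp⟩
  generalize x.length = n
  have h1 : n + 1 ≤ 2 ^ ((n + 4) ^ 2) :=
    Nat.lt_two_pow_self.trans_le (Nat.pow_le_pow_right (by omega) (by nlinarith))
  have h2 : n + 2 ^ ((n + 4) ^ 2) + 1 ≤ 2 ^ ((n + 4) ^ 2 + 1) := by rw [pow_succ 2]; omega
  have h3 : ((n + 4) ^ 2 + 1) * k ≤ k * ((26 * k + 4) ^ 2 + 1) + n ^ 3 := by
    rcases le_or_gt n (26 * k) with h3 | h3
    · have : (n + 4) ^ 2 ≤ (26 * k + 4) ^ 2 := Nat.pow_le_pow_left (by omega) _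
      nlinarith [Nat.zero_le (n ^ 3)]
    · have h4 : (n + 4) ^ 2 + 1 ≤ 26 * n ^ 2 := by nlinarith
      have h5 : 26 * n ^ 2 * k ≤ n ^ 3 := by
        calc 26 * n ^ 2 * k = n ^ 2 * (26 * k) := by ring
          _ ≤ n ^ 2 * n := Nat.mul_le_mul_left _ h3.le
          _ = n ^ 3 := by ring
      have h6 := Nat.mul_le_mul_right k h4
      omega
  calc c * (n + 2 ^ ((n + 4) ^ 2) + 1) ^ k ≤ c * (2 ^ ((n + 4) ^ 2 + 1)) ^ k :=
        Nat.mul_le_mul_left _ (Nat.pow_le_pow_left h2 _)
    _ ≤ c * 2 ^ (k * ((26 * k + 4) ^ 2 + 1) + n ^ 3) := by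
        rw [← pow_mul]
        exact Nat.mul_le_mul_left _ (Nat.pow_le_pow_right (by omega) h3)
    _ = c * 2 ^ (k * ((26 * k + 4) ^ 2 + 1)) * 2 ^ n ^ 3 := by rw [pow_add, mul_assoc]
    _ ≤ _ := Nat.le_add_right _ _

theorem clock_le {n m k N : ℕ} (hn : n ≤ N) (hm : m ≤ N) (hk : k ≤ N + 3) :
    (n + m + 2) ^ (k + 1) ≤ 2 ^ ((N + 4) ^ 2) := by
  have h1 : n + m + 2 ≤ 2 ^ (N + 4) := by
    have : N < 2 ^ N := Nat.lt_two_pow_self
    rw [pow_add]; omega
  calc (n + m + 2) ^ (k + 1) ≤ (2 ^ (N + 4)) ^ (k + 1) := Nat.pow_le_pow_left h1 _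
    _ ≤ _ := by
      rw [← pow_mul]
      exact Nat.pow_le_pow_right (by omega) (by nlinarith)

/-! ### Matrices as lists of rows -/

/-- entry of a list of rows -/
def ent (A : List (List Bool)) (i j : ℕ) : Bool := (A.getD i []).getD j false

@[fun_prop] theorem ent_pt {A : α → List (List Bool)} {i j : α → ℕ} (hA : PT A) (hi : PT i)
    (hj : PT j) : PT fun a => ent (A a) (i a) (j a) := by
  unfold ent; fun_prop

/-- the rows of `toMat n (ent A)` -/
def nrm (n : ℕ) (A : List (List Bool)) : List (List Bool) :=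
  (List.range n).map fun i => (List.range n).map fun j => ent A i j

@[fun_prop] theorem nrm_pt {A : α → List (List Bool)} {n : α → ℕ} (hn : PT n) (hb : PB n)
    (hA : PT A) : PT fun a => nrm (n a) (A a) := by
  unfold nrm; fun_prop

theorem rowsOf_toMat (n : ℕ) (A : List (List Bool)) : rowsOf (toMat n (ent A)) = nrm n A := by
  unfold rowsOf nrm toMat
  refine List.ext_getElem (by simp) fun i h1 h2 => ?_
  simp only [List.getElem_ofFn, List.getElem_map, List.getElem_range]
  refine List.ext_getElem (by simp) fun j h3 h4 => ?_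
  simp

theorem toMat_rowsOf {n : ℕ} (G : Fin n → Fin n → Bool) : toMat n (ent (rowsOf G)) = G := by
  funext i j
  simp [toMat, ent, rowsOf]

theorem length_rowsOf {n : ℕ} (G : Fin n → Fin n → Bool) : (rowsOf G).length = n := by
  simp [rowsOf]

@[fun_prop] theorem matCode_pt {A : α → List (List Bool)} {n : α → ℕ} (hn : PT n) (hb : PB n)
    (hA : PT A) : PT fun a => matCode (n a) (ent (A a)) := by
  unfold matCode; fun_prop

theorem le_length_matCode (n : ℕ) (g : ℕ → ℕ → Bool) : n ≤ (matCode n g).length := by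
  simp only [matCode, List.length_append, List.length_flatMap, List.length_map, List.length_range,
    List.map_const', List.sum_replicate, smul_eq_mul]
  nlinarith [Nat.le_mul_self n]

theorem parseGraph_adj {n : ℕ} (G : Fin n → Fin n → Bool) (r : List Bool) :
    parseGraph (adjMatrixCode G ++ r) = (rowsOf G, r) := by
  unfold parseGraph
  simp only [adjMatrixCode, List.append_assoc, parseNat_natCode, List.flatMap_def,
    ← List.ofFn_eq_map, rowsOf]
  refine parseN_ofFn (fun i r => ?_) (fun i => ?_) r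
  · simpa using parseN_parseBool (List.ofFn fun j => G i j) r
  · rw [← List.length_pos_iff, List.length_ofFn]; exact i.pos

/-- the dimension -/
def pk (x : List Bool) : ℕ := (parseNat x).1
/-- the first graph -/
def pA (x : List Bool) : List (List Bool) := (parseGraph (parseNat x).2).1
/-- the second graph -/
def pB (x : List Bool) : List (List Bool) := (parseGraph (parseGraph (parseNat x).2).2).1

@[fun_prop] theorem pk_pt {x : α → List Bool} (hx : PT x) : PT fun a => pk (x a) := by
  unfold pk; fun_prop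
@[fun_prop] theorem pA_pt {x : α → List Bool} (hx : PT x) : PT fun a => pA (x a) := by
  unfold pA; fun_prop
@[fun_prop] theorem pB_pt {x : α → List Bool} (hx : PT x) : PT fun a => pB (x a) := by
  unfold pB; fun_prop

theorem parse₂ {n m : ℕ} (k : ℕ) (G : Fin n → Fin n → Bool) (H : Fin m → Fin m → Bool) :
    pk (natCode k ++ adjMatrixCode G ++ adjMatrixCode H) = k ∧
    pA (natCode k ++ adjMatrixCode G ++ adjMatrixCode H) = rowsOf G ∧
    pB (natCode k ++ adjMatrixCode G ++ adjMatrixCode H) = rowsOf H := by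
  have := parseGraph_adj H []
  rw [List.append_nil] at this
  simp only [pk, pA, pB, List.append_assoc, parseNat_natCode, parseGraph_adj, this, and_self]

theorem parse₁ {n : ℕ} (k : ℕ) (G : Fin n → Fin n → Bool) :
    pk (natCode k ++ adjMatrixCode G) = k ∧ pA (natCode k ++ adjMatrixCode G) = rowsOf G := by
  have := parseGraph_adj G []
  rw [List.append_nil] at this
  simp only [pk, pA, parseNat_natCode, this, and_self]

attribute [irreducible] pk pA pB ent nrm

/-! ### Enumeration -/

/-- clamp by the clock -/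
def cl (n t : ℕ) : ℕ := if 2 ^ ((n + 1) ^ 2) ≤ t then n else 0

/-- all rows -/
def allRows (n t : ℕ) : List (List Bool) := PT.words [false, true] (cl n t)

/-- all matrices -/
def allMats (n t : ℕ) : List (List (List Bool)) := PT.words (allRows n t) (cl n t)

theorem cl_pt {n t : α → ℕ} (hn : PT n) (hb : PB n) (ht : PT t) : PT fun a => cl (n a) (t a) := by
  unfold cl; fun_prop

theorem cl_pb {n : α → ℕ} (hb : PB n) (t : α → ℕ) : PB fun a => cl (n a) (t a) :=
  hb.mono fun a => by unfold cl; split_ifs <;> omega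

theorem two_pow_cl (n t : ℕ) : 2 ^ ((cl n t + 1) ^ 2) ≤ t + 2 := by
  unfold cl
  split_ifs with h
  · omega
  · simp

theorem allRows_pt {n t : α → ℕ} (hn : PT n) (hb : PB n) (ht : PT t) (htb : PB t) :
    PT fun a => allRows (n a) (t a) := by
  refine PT.words_pt (PT.const _) (cl_pt hn hb ht) (cl_pb hb t)
    ((htb.add (PB.const 2)).mono fun a => le_trans ?_ (two_pow_cl (n a) (t a)))
  generalize cl (n a) (t a) = c
  calc ([false, true].length + 1) ^ c ≤ (2 ^ 2) ^ c := Nat.pow_le_pow_left (by simp) _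
    _ ≤ _ := by
      rw [← pow_mul]
      exact Nat.pow_le_pow_right (by omega) (by nlinarith)

theorem allMats_pt {n t : α → ℕ} (hn : PT n) (hb : PB n) (ht : PT t) (htb : PB t) :
    PT fun a => allMats (n a) (t a) := by
  refine PT.words_pt (allRows_pt hn hb ht htb) (cl_pt hn hb ht) (cl_pb hb t)
    ((htb.add (PB.const 2)).mono fun a => le_trans ?_ (two_pow_cl (n a) (t a)))
  rw [allRows, PT.length_words]
  generalize cl (n a) (t a) = c
  have h1 : [false, true].length ^ c + 1 ≤ 2 ^ (c + 1) := by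
    have : 1 ≤ 2 ^ c := Nat.one_le_two_pow
    show 2 ^ c + 1 ≤ 2 ^ (c + 1)
    rw [pow_succ]
    omega
  calc _ ≤ (2 ^ (c + 1)) ^ c := Nat.pow_le_pow_left h1 _
    _ ≤ _ := by
      rw [← pow_mul]
      exact Nat.pow_le_pow_right (by omega) (by nlinarith)

theorem cl_eq {n N : ℕ} (h : n ≤ N) : cl n (2 ^ ((N + 4) ^ 2)) = n :=
  if_pos (Nat.pow_le_pow_right (by omega) (Nat.pow_le_pow_left (by omega) _))

theorem mem_allRows {n N : ℕ} (h : n ≤ N) {S : List Bool} (hS : S.length = n) :
    S ∈ allRows n (2 ^ ((N + 4) ^ 2)) := by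
  rw [allRows, cl_eq h, PT.mem_words]
  exact ⟨hS, fun b _ => by cases b <;> simp⟩

theorem mem_allMats {n N : ℕ} (h : n ≤ N) (H : Fin n → Fin n → Bool) :
    rowsOf H ∈ allMats n (2 ^ ((N + 4) ^ 2)) := by
  rw [allMats, cl_eq h, PT.mem_words]
  refine ⟨length_rowsOf H, fun r hr => mem_allRows h ?_⟩
  simp only [rowsOf, List.mem_ofFn] at hr
  obtain ⟨i, rfl⟩ := hr
  simp

attribute [irreducible] allRows allMats

/-! ### Graph properties -/

theorem simple_pt {A : α → List (List Bool)} {n : α → ℕ} (hn : PT n) (hb : PB n) (hA : PT A) :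
    PT fun a => IsSimple (toMat (n a) (ent (A a))) := by
  have h : PT fun a => (∀ i < n a, ∀ j < n a, ent (A a) i j = ent (A a) j i) ∧
      ∀ i < n a, ent (A a) i i = false :=
    (PT.ball_lt hn hb (PT.ball_lt (n := fun p : α × ℕ => n p.1)
      (q := fun p j => ent (A p.1) p.2 j = ent (A p.1) j p.2) (by fun_prop) (by fun_prop)
      (by fun_prop))).and (PT.ball_lt hn hb (by fun_prop))
  refine h.of_iff fun a => ?_
  simp only [IsSimple, toMat]
  exact and_congr ⟨fun h v w => h _ v.2 _ w.2, fun h i hi j hj => h ⟨i, hi⟩ ⟨j, hj⟩⟩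
    ⟨fun h v => h _ v.2, fun h i hi => h ⟨i, hi⟩⟩

theorem deg_pt {A : α → List (List Bool)} {n : α → ℕ} (hn : PT n) (hb : PB n) (hA : PT A) :
    PT fun a => MaxDegLeThree (toMat (n a) (ent (A a))) := by
  have h : PT fun a => ∀ i < n a,
      ∑ j ∈ Finset.range (n a), (if ent (A a) i j = true then 1 else 0) ≤ 3 :=
    PT.ball_lt hn hb (by fun_prop)
  refine h.of_iff fun a => ?_
  simp only [MaxDegLeThree, toMat, Finset.card_filter]
  have e : ∀ i, ∑ w : Fin (n a), (if ent (A a) i w = true then 1 else 0) =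
      ∑ j ∈ Finset.range (n a), (if ent (A a) i j = true then 1 else 0) := fun i =>
    Fin.sum_univ_eq_sum_range (fun j => if ent (A a) i j = true then 1 else 0) _
  simp only [e]
  exact ⟨fun h v => h _ v.2, fun h i hi => h ⟨i, hi⟩⟩

/-- connectedness, by enumerating all sets of vertices -/
def Conn (n : ℕ) (A : List (List Bool)) (t : ℕ) : Prop :=
  0 < n ∧ ∀ S ∈ allRows n t, S.getD 0 false = true →
    (∀ i < n, ∀ j < n, S.getD i false = true → (ent A i j = true ∨ ent A j i = true) →
      S.getD j false = true) → ∀ i < n, S.getD i false = true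

theorem conn_pt {A : α → List (List Bool)} {n t : α → ℕ} (hn : PT n) (hb : PB n) (hA : PT A)
    (ht : PT t) (htb : PB t) : PT fun a => Conn (n a) (A a) (t a) := by
  unfold Conn
  refine PT.and (by fun_prop) (PT.ball (allRows_pt hn hb ht htb) ?_)
  refine PT.imp (by fun_prop) (PT.imp ?_ ?_)
  · refine PT.ball_lt (n := fun p : α × List Bool => n p.1)
      (q := fun p i => ∀ j < n p.1, p.2.getD i false = true →
        (ent (A p.1) i j = true ∨ ent (A p.1) j i = true) → p.2.getD j false = true)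
      (by fun_prop) (by fun_prop) ?_
    refine PT.ball_lt (n := fun p : (α × List Bool) × ℕ => n p.1.1)
      (q := fun p j => p.1.2.getD p.2 false = true →
        (ent (A p.1.1) p.2 j = true ∨ ent (A p.1.1) j p.2 = true) → p.1.2.getD j false = true)
      (by fun_prop) (by fun_prop) ?_
    exact PT.imp (by fun_prop) (PT.imp (by fun_prop) (by fun_prop))
  · exact PT.ball_lt (n := fun p : α × List Bool => n p.1)
      (q := fun p i => p.2.getD i false = true) (by fun_prop) (by fun_prop) (by fun_prop)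

theorem conn_iff {n N : ℕ} (h : n ≤ N) (A : List (List Bool)) :
    (adjGraph (toMat n (ent A))).Connected ↔ Conn n A (2 ^ ((N + 4) ^ 2)) := by
  classical
  constructor
  · intro hc
    have hn : 0 < n := hc.nonempty.elim fun v => v.pos
    refine ⟨hn, fun S _ h0 hcl i hi => ?_⟩
    have h1 := (SimpleGraph.reachable_iff_reflTransGen _ _).1 (hc.preconnected ⟨0, hn⟩ ⟨i, hi⟩)
    have h2 : ∀ v : Fin n, Relation.ReflTransGen (adjGraph (toMat n (ent A))).Adj ⟨0, hn⟩ v →
        S.getD v false = true := by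
      intro v hv
      induction hv with
      | refl => exact h0
      | tail _ hab ih =>
        rw [adjGraph, SimpleGraph.fromRel_adj] at hab
        exact hcl _ (Fin.is_lt _) _ (Fin.is_lt _) ih hab.2
    exact h2 _ h1
  · rintro ⟨hn, hc⟩
    have key : ∀ (i : ℕ) (hi : i < n), (List.ofFn fun v : Fin n =>
        decide ((adjGraph (toMat n (ent A))).Reachable ⟨0, hn⟩ v)).getD i false = true ↔
        (adjGraph (toMat n (ent A))).Reachable ⟨0, hn⟩ ⟨i, hi⟩ := by
      intro i hi
      rw [List.getD_eq_getElem _ _ (by simpa using hi)]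
      simp
    rw [SimpleGraph.connected_iff_exists_forall_reachable]
    refine ⟨⟨0, hn⟩, fun w => (key w.1 w.2).1 (hc _ (mem_allRows h (by simp))
      ((key 0 hn).2 (SimpleGraph.Reachable.refl _)) (fun i hi j hj h1 h2 => ?_) w.1 w.2)⟩
    rw [key i hi] at h1
    rw [key j hj]
    by_cases hij : i = j
    · subst hij; exact h1
    · refine h1.trans (SimpleGraph.Adj.reachable ?_)
      rw [adjGraph, SimpleGraph.fromRel_adj]
      exact ⟨fun h' => hij (congrArg Fin.val h'), h2⟩

attribute [irreducible] Conn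

/-! ### Equivalence tests -/

/-- the test of `JEquiv` -/
def JD (k n : ℕ) (A : List (List Bool)) (m : ℕ) (B : List (List Bool)) (t : Un) : Prop :=
  Classical.choose exists_jdec ((k, nrm n A, nrm m B), t) = true

theorem JD_pt {A B : α → List (List Bool)} {k n m : α → ℕ} {t : α → Un} (hk : PT k) (hn : PT n)
    (hnb : PB n) (hA : PT A) (hm : PT m) (hmb : PB m) (hB : PT B) (ht : PT t) :
    PT fun a => JD (k a) (n a) (A a) (m a) (B a) (t a) :=
  ((Classical.choose_spec exists_jdec).1.comp
    ((hk.pair ((nrm_pt hn hnb hA).pair (nrm_pt hm hmb hB))).pair ht)).eq_true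

theorem JD_iff {k n m N : ℕ} (A B : List (List Bool)) (h1 : 1 ≤ k) (hn : n ≤ N) (hm : m ≤ N)
    (hk : k ≤ N + 3) : JD k n A m B ⟨2 ^ ((N + 4) ^ 2)⟩ ↔
      JEquiv k (toMat n (ent A)) (toMat m (ent B)) := by
  rw [JD, ← rowsOf_toMat, ← rowsOf_toMat]
  exact (Classical.choose_spec exists_jdec).2 k n m _ _ _ h1 (clock_le hn hm hk)

theorem cr_pt {A B : α → List (List Bool)} {n m : α → ℕ} (hn : PT n)
    (hnb : PB n) (hA : PT A) (hm : PT m) (hmb : PB m) (hB : PT B) :
    PT fun a => CREquiv (toMat (n a) (ent (A a))) (toMat (m a) (ent (B a))) := by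
  obtain ⟨f, hf, h⟩ := exists_crdec
  refine (hf.comp ((nrm_pt hn hnb hA).pair (nrm_pt hm hmb hB))).eq_true.of_iff fun a => ?_
  rw [← rowsOf_toMat, ← rowsOf_toMat, h]

attribute [irreducible] JD

theorem jequiv_iff_iso {n m k : ℕ} {G : Fin n → Fin n → Bool} {H : Fin m → Fin m → Bool}
    (hk : 1 ≤ k) (hn : n ≤ k) : JEquiv k G H ↔ AdjIso G H :=
  ⟨iso_of_jequiv hk hn, fun h => (game_of_iso h _).jequiv⟩

theorem jequiv_clamp {n m k : ℕ} {G : Fin n → Fin n → Bool} {H : Fin m → Fin m → Bool} :
    JEquiv (min k (n + 2)) G H ↔ JEquiv k G H := by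
  rcases le_total k (n + 2) with h | h
  · rw [min_eq_left h]
  · rw [min_eq_right h, jequiv_iff_iso (by omega) (by omega),
      jequiv_iff_iso (by omega) (by omega)]

theorem identifies_iff {n k : ℕ} {G : Fin n → Fin n → Bool} (hk : 1 ≤ k) :
    Identifies k G ↔ ∀ H : Fin n → Fin n → Bool, IsSimple H → WLEquiv k G H →
      JEquiv (n + 1) G H := by
  constructor
  · intro h H hs he
    exact (jequiv_iff_iso (by omega) (by omega)).2 (h n H hs he)
  · intro h m H hs he
    have hm : n = m := by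
      unfold WLEquiv at he
      split_ifs at he
      · exact order_eq_of_crequiv he
      · exact order_eq_of_jequiv hk he
    subst hm
    exact (jequiv_iff_iso (by omega) (by omega)).1 (h H hs he)

theorem exists_dim_iff {n k : ℕ} {G : Fin n → Fin n → Bool} :
    (∃ k', 1 ≤ k' ∧ k' ≤ k ∧ Identifies k' G) ↔
      ∃ k' < min k (n + 2) + 1, 1 ≤ k' ∧ Identifies k' G := by
  constructor
  · rintro ⟨k', h1, h2, h3⟩
    rcases le_total k' (n + 2) with h | h
    · exact ⟨k', by omega, h1, h3⟩
    · refine ⟨n + 2, by omega, by omega, fun m H _ he => ?_⟩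
      rw [WLEquiv, if_neg (by omega)] at he
      exact iso_of_jequiv (by omega) (by omega) he
  · rintro ⟨k', h1, h2, h3⟩
    exact ⟨k', h2, by omega, h3⟩

/-- the test of `Identifies` -/
def ID (k n : ℕ) (A : List (List Bool)) (t : Un) : Prop :=
  ∀ B ∈ allMats n t.n, IsSimple (toMat n (ent B)) →
    ((k = 1 ∧ CREquiv (toMat n (ent A)) (toMat n (ent B))) ∨ (k ≠ 1 ∧ JD k n A n B t)) →
      JD (n + 1) n A n B t

theorem ID_pt {A : α → List (List Bool)} {k n : α → ℕ} {t : α → Un} (hk : PT k) (hn : PT n)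
    (hnb : PB n) (hA : PT A) (ht : PT t) : PT fun a => ID (k a) (n a) (A a) (t a) := by
  unfold ID
  refine PT.ball (allMats_pt hn hnb ht.un_n (PB.un ht)) ?_
  have hn' : PT fun p : α × List (List Bool) => n p.1 := by fun_prop
  have hb' : PB fun p : α × List (List Bool) => n p.1 := by fun_prop
  have hA' : PT fun p : α × List (List Bool) => A p.1 := by fun_prop
  have ht' : PT fun p : α × List (List Bool) => t p.1 := by fun_prop
  have hB' : PT fun p : α × List (List Bool) => p.2 := by fun_prop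
  refine PT.imp (simple_pt hn' hb' hB') (PT.imp (PT.or
    (PT.and (by fun_prop) (cr_pt hn' hb' hA' hn' hb' hB'))
    (PT.and (by fun_prop) (JD_pt (by fun_prop) hn' hb' hA' hn' hb' hB' ht'))) ?_)
  exact JD_pt (by fun_prop) hn' hb' hA' hn' hb' hB' ht'

theorem ID_iff {k n N : ℕ} (A : List (List Bool)) (h1 : 1 ≤ k) (hn : n ≤ N) (hk : k ≤ N + 3) :
    ID k n A ⟨2 ^ ((N + 4) ^ 2)⟩ ↔ Identifies k (toMat n (ent A)) := by
  rw [identifies_iff h1, ID]
  have e : ∀ B : List (List Bool), ((k = 1 ∧ CREquiv (toMat n (ent A)) (toMat n (ent B))) ∨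
      (k ≠ 1 ∧ JD k n A n B ⟨2 ^ ((N + 4) ^ 2)⟩)) ↔
      WLEquiv k (toMat n (ent A)) (toMat n (ent B)) := by
    intro B
    rw [JD_iff A B h1 hn hn hk, WLEquiv]
    split_ifs with h <;> simp [h]
  simp only [e, JD_iff A _ (Nat.le_add_left 1 n) hn hn (by omega : n + 1 ≤ N + 3)]
  constructor
  · intro h H
    have := h _ (mem_allMats hn H)
    rwa [toMat_rowsOf] at this
  · exact fun h B _ => h _

attribute [irreducible] ID

end Mem

open Mem

theorem varDim_inEXP : InEXP varDimEquivLang := by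
  refine inEXP_of_pad (g := fun p => p.1 = natCode (pk p.1) ++
      matCode (pA p.1).length (ent (pA p.1)) ++ matCode (pB p.1).length (ent (pB p.1)) ∧
      2 ≤ pk p.1 ∧ IsSimple (toMat (pA p.1).length (ent (pA p.1))) ∧
      IsSimple (toMat (pB p.1).length (ent (pB p.1))) ∧
      JD (min (pk p.1) ((pA p.1).length + 2)) (pA p.1).length (pA p.1) (pB p.1).length (pB p.1)
        p.2) ?_ fun x => ?_
  · exact PT.and (by fun_prop) (PT.and (by fun_prop)
      (PT.and (simple_pt (by fun_prop) (by fun_prop) (by fun_prop))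
      (PT.and (simple_pt (by fun_prop) (by fun_prop) (by fun_prop))
      (JD_pt (by fun_prop) (by fun_prop) (by fun_prop) (by fun_prop) (by fun_prop) (by fun_prop)
        (by fun_prop) (by fun_prop)))))
  have key : x = natCode (pk x) ++ matCode (pA x).length (ent (pA x)) ++
      matCode (pB x).length (ent (pB x)) → 2 ≤ pk x →
      (JD (min (pk x) ((pA x).length + 2)) (pA x).length (pA x) (pB x).length (pB x)
        ⟨2 ^ ((x.length + 4) ^ 2)⟩ ↔ JEquiv (pk x) (toMat (pA x).length (ent (pA x)))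
          (toMat (pB x).length (ent (pB x)))) := by
    intro hx hk
    have h1 := congrArg List.length hx
    have h2 := le_length_matCode (pA x).length (ent (pA x))
    have h3 := le_length_matCode (pB x).length (ent (pB x))
    simp only [List.length_append] at h1
    rw [JD_iff _ _ (by omega) (by omega) (by omega) (by omega), jequiv_clamp]
  constructor
  · rintro ⟨k, n, m, G, H, hk, sG, sH, hJ, hx⟩
    obtain ⟨e1, e2, e3⟩ := parse₂ k G H
    rw [← hx] at e1 e2 e3
    have hx' : x = natCode (pk x) ++ matCode (pA x).length (ent (pA x)) ++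
        matCode (pB x).length (ent (pB x)) := by
      rw [e1, e2, e3, length_rowsOf, length_rowsOf, ← adjMatrixCode_toMat, ← adjMatrixCode_toMat,
        toMat_rowsOf, toMat_rowsOf, ← hx]
    refine ⟨hx', e1 ▸ hk, ?_, ?_, (key hx' (e1 ▸ hk)).2 ?_⟩
    · show IsSimple (toMat (pA x).length (ent (pA x)))
      rwa [e2, length_rowsOf, toMat_rowsOf]
    · show IsSimple (toMat (pB x).length (ent (pB x)))
      rwa [e3, length_rowsOf, toMat_rowsOf]
    · rwa [e1, e2, e3, length_rowsOf, length_rowsOf, toMat_rowsOf, toMat_rowsOf]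
  · rintro ⟨hx, hk, sG, sH, hJ⟩
    exact ⟨_, _, _, _, _, hk, sG, sH, (key hx hk).1 hJ, by
      rw [adjMatrixCode_toMat, adjMatrixCode_toMat]; exact hx⟩

theorem subcubic_inEXP : InEXP subcubicVarDimEquivLang := by
  refine inEXP_of_pad (g := fun p => p.1 = natCode (pk p.1) ++
      matCode (pA p.1).length (ent (pA p.1)) ++ matCode (pA p.1).length (ent (pB p.1)) ∧
      2 ≤ pk p.1 ∧ 0 < (pA p.1).length ∧ (IsSimple (toMat (pA p.1).length (ent (pA p.1))) ∧
        Conn (pA p.1).length (pA p.1) p.2.n ∧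
        MaxDegLeThree (toMat (pA p.1).length (ent (pA p.1)))) ∧
      (IsSimple (toMat (pA p.1).length (ent (pB p.1))) ∧
        Conn (pA p.1).length (pB p.1) p.2.n ∧
        MaxDegLeThree (toMat (pA p.1).length (ent (pB p.1)))) ∧
      JD (min (pk p.1) ((pA p.1).length + 2)) (pA p.1).length (pA p.1) (pA p.1).length (pB p.1)
        p.2) ?_ fun x => ?_
  · exact PT.and (by fun_prop) (PT.and (by fun_prop) (PT.and (by fun_prop)
      (PT.and (PT.and (simple_pt (by fun_prop) (by fun_prop) (by fun_prop))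
        (PT.and (conn_pt (by fun_prop) (by fun_prop) (by fun_prop) (by fun_prop) (by fun_prop))
          (deg_pt (by fun_prop) (by fun_prop) (by fun_prop))))
      (PT.and (PT.and (simple_pt (by fun_prop) (by fun_prop) (by fun_prop))
        (PT.and (conn_pt (by fun_prop) (by fun_prop) (by fun_prop) (by fun_prop) (by fun_prop))
          (deg_pt (by fun_prop) (by fun_prop) (by fun_prop))))
      (JD_pt (by fun_prop) (by fun_prop) (by fun_prop) (by fun_prop) (by fun_prop) (by fun_prop)
        (by fun_prop) (by fun_prop))))))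
  have hlen : x = natCode (pk x) ++ matCode (pA x).length (ent (pA x)) ++
      matCode (pA x).length (ent (pB x)) → (pA x).length ≤ x.length := by
    intro hx
    have h1 := congrArg List.length hx
    have h2 := le_length_matCode (pA x).length (ent (pA x))
    simp only [List.length_append] at h1
    omega
  have key : (pA x).length ≤ x.length → 2 ≤ pk x →
      (JD (min (pk x) ((pA x).length + 2)) (pA x).length (pA x) (pA x).length (pB x)
        ⟨2 ^ ((x.length + 4) ^ 2)⟩ ↔ JEquiv (pk x) (toMat (pA x).length (ent (pA x)))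
          (toMat (pA x).length (ent (pB x)))) := by
    intro hx hk
    rw [JD_iff _ _ (by omega) hx hx (by omega), jequiv_clamp]
  constructor
  · rintro ⟨k, n, G, H, hk, hn, sG, sH, hJ, hx⟩
    obtain ⟨e1, e2, e3⟩ := parse₂ k G H
    rw [← hx] at e1 e2 e3
    have hx' : x = natCode (pk x) ++ matCode (pA x).length (ent (pA x)) ++
        matCode (pA x).length (ent (pB x)) := by
      rw [e1, e2, e3, length_rowsOf, ← adjMatrixCode_toMat, ← adjMatrixCode_toMat,
        toMat_rowsOf, toMat_rowsOf, ← hx]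
    have h1 : SimpleConnSubcubic (toMat (pA x).length (ent (pA x))) := by
      rwa [e2, length_rowsOf, toMat_rowsOf]
    have h2 : SimpleConnSubcubic (toMat (pA x).length (ent (pB x))) := by
      rwa [e2, e3, length_rowsOf, toMat_rowsOf]
    refine ⟨hx', e1 ▸ hk, ?_, ⟨h1.1, (conn_iff (hlen hx') _).1 h1.2.1, h1.2.2⟩,
      ⟨h2.1, (conn_iff (hlen hx') _).1 h2.2.1, h2.2.2⟩, (key (hlen hx') (e1 ▸ hk)).2 ?_⟩
    · show 0 < (pA x).length
      rwa [e2, length_rowsOf]
    · rwa [e1, e2, e3, length_rowsOf, toMat_rowsOf, toMat_rowsOf]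
  · rintro ⟨hx, hk, hn, sG, sH, hJ⟩
    exact ⟨_, _, _, _, hk, hn, ⟨sG.1, (conn_iff (hlen hx) _).2 sG.2.1, sG.2.2⟩,
      ⟨sH.1, (conn_iff (hlen hx) _).2 sH.2.1, sH.2.2⟩, (key (hlen hx) hk).1 hJ, by
      rw [adjMatrixCode_toMat, adjMatrixCode_toMat]; exact hx⟩

theorem wlDim_inEXP : InEXP wlDimLeLang := by
  refine inEXP_of_pad (g := fun p => p.1 = natCode (pk p.1) ++
      matCode (pA p.1).length (ent (pA p.1)) ∧
      1 ≤ pk p.1 ∧ 0 < (pA p.1).length ∧ IsSimple (toMat (pA p.1).length (ent (pA p.1))) ∧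
      ∃ k' < min (pk p.1) ((pA p.1).length + 2) + 1, 1 ≤ k' ∧
        ID k' (pA p.1).length (pA p.1) p.2) ?_ fun x => ?_
  · refine PT.and (by fun_prop) (PT.and (by fun_prop) (PT.and (by fun_prop)
      (PT.and (simple_pt (by fun_prop) (by fun_prop) (by fun_prop)) ?_)))
    refine PT.bex_lt (n := fun p : List Bool × Un => min (pk p.1) ((pA p.1).length + 2) + 1)
      (q := fun p k' => 1 ≤ k' ∧ ID k' (pA p.1).length (pA p.1) p.2) (by fun_prop)
      ((PB.min_right _ (by fun_prop)).add (PB.const 1)) ?_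
    exact PT.and (by fun_prop) (ID_pt (by fun_prop) (by fun_prop) (by fun_prop) (by fun_prop)
      (by fun_prop))
  have key : x = natCode (pk x) ++ matCode (pA x).length (ent (pA x)) →
      ((∃ k' < min (pk x) ((pA x).length + 2) + 1, 1 ≤ k' ∧
        ID k' (pA x).length (pA x) ⟨2 ^ ((x.length + 4) ^ 2)⟩) ↔
        ∃ k', 1 ≤ k' ∧ k' ≤ pk x ∧ Identifies k' (toMat (pA x).length (ent (pA x)))) := by
    intro hx
    have h1 := congrArg List.length hx
    have h2 := le_length_matCode (pA x).length (ent (pA x))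
    simp only [List.length_append] at h1
    rw [exists_dim_iff]
    refine exists_congr fun k' => and_congr_right fun h3 => and_congr_right fun h4 => ?_
    exact ID_iff _ h4 (by omega) (by omega)
  constructor
  · rintro ⟨k, n, G, hk, hn, sG, hI, hx⟩
    obtain ⟨e1, e2⟩ := parse₁ k G
    rw [← hx] at e1 e2
    have hx' : x = natCode (pk x) ++ matCode (pA x).length (ent (pA x)) := by
      rw [e1, e2, length_rowsOf, ← adjMatrixCode_toMat, toMat_rowsOf, ← hx]
    refine ⟨hx', e1 ▸ hk, ?_, ?_, (key hx').2 ?_⟩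
    · show 0 < (pA x).length
      rwa [e2, length_rowsOf]
    · show IsSimple (toMat (pA x).length (ent (pA x)))
      rwa [e2, length_rowsOf, toMat_rowsOf]
    · rwa [e1, e2, length_rowsOf, toMat_rowsOf]
  · rintro ⟨hx, hk, hn, sG, hI⟩
    exact ⟨_, _, _, hk, hn, sG, (key hx).1 hI, by rw [adjMatrixCode_toMat]; exact hx⟩

end Crest.Agent.R290
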