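import Crest.Agent.R290.Game
import Crest.Prelude.Def_ParityLift

/-!
# rid 290, task PL1 (for S0438): parity lifts, counting and the strategy of the Duplicator
-/

set_option autoImplicit false

namespace Crest.Agent.R290

open Crest.WLRefine Crest.WLRefine.ParityLift

variable {t : ℕ}

namespace PL1

open Finset

/-- A Boolean as an element of `ZMod 2`. -/
def bz (b : Bool) : ZMod 2 := if b = true then 1 else 0

theorem bz_inj {a b : Bool} : bz a = bz b ↔ a = b := by
  revert a b; decide

theorem bz_xor (a : Bool) (s : ZMod 2) : bz (xor a (decide (s = 1))) = bz a + s := by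
  revert a s; decide

theorem two (x : ZMod 2) : x + x = 0 := by
  revert x; decide

theorem parity_iff {ι : Type} [Fintype ι] (z : ι → Bool) (b : Bool) :
    (univ.filter fun a => z a = true).card % 2 = b.toNat ↔ ∑ a, bz (z a) = bz b := by
  have h1 : ∑ a, bz (z a) = ((univ.filter fun a => z a = true).card : ZMod 2) := by
    simp only [bz, sum_boole]
  have h2 : bz b = ((b.toNat : ℕ) : ZMod 2) := by cases b <;> simp [bz]
  rw [h1, h2, ZMod.natCast_eq_natCast_iff']
  cases b <;> simp

theorem tAdj_symm (a a' : TV t) : tAdj a a' = tAdj a' a := by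
  rcases a with i | h <;> rcases a' with j | h' <;> simp [tAdj, eq_comm]

theorem tAdj_self (a : TV t) : tAdj a a = false := by
  rcases a with i | h <;> simp [tAdj]

variable {C : ChoiceSystem t}

theorem bAdj_symm (u v : BV C) : bAdj C u v = bAdj C v u := by
  rcases u with p | p <;> rcases v with q | q <;> simp [bAdj, Bool.or_comm]

theorem tAdj_of_bAdj {u v : BV C} (h : bAdj C u v = true) :
    tAdj (typeOf C u) (typeOf C v) = true := by
  rcases u with p | p <;> rcases v with q | q
  · simp only [bAdj, mainAgree, Bool.or_eq_true, decide_eq_true_eq] at h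
    simp only [typeOf, tAdj, decide_eq_true_eq]
    rcases h with ⟨h, -⟩ | ⟨h, -⟩
    · exact h.ne
    · exact h.ne'
  · simp only [bAdj, helperAgree, decide_eq_true_eq] at h
    simp only [typeOf, tAdj, decide_eq_true_eq]
    rcases h with ⟨h, -⟩ | ⟨h, -⟩ | h <;> simp [h]
  · simp only [bAdj, helperAgree, decide_eq_true_eq] at h
    simp only [typeOf, tAdj, decide_eq_true_eq]
    rcases h with ⟨h, -⟩ | ⟨h, -⟩ | h <;> simp [h]
  · simp [bAdj] at h

theorem exists_of_type_inl {u : BV C} {k : Fin t} (h : typeOf C u = Sum.inl k) :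
    ∃ d, u = Sum.inl ⟨k, d⟩ := by
  rcases u with ⟨i, d⟩ | p
  · simp only [typeOf, Sum.inl.injEq] at h
    subst h
    exact ⟨d, rfl⟩
  · simp [typeOf] at h

theorem exists_of_type_inr {u : BV C} {k : Helper t} (h : typeOf C u = Sum.inr k) :
    ∃ d, u = Sum.inr ⟨k, d⟩ := by
  rcases u with p | ⟨i, d⟩
  · simp [typeOf] at h
  · simp only [typeOf, Sum.inr.injEq] at h
    subst h
    exact ⟨d, rfl⟩

/-- The tag of a lift vertex as a function on all template vertices. -/
def tag {b : TV t → Bool} (x : LiftV C b) (a : TV t) : ZMod 2 :=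
  if h : tAdj (typeOf C x.1.1) a = true then bz (x.1.2 ⟨a, h⟩) else 0

/-- The sum over the template neighbours. -/
def par (a : TV t) (s : TV t → ZMod 2) : ZMod 2 := ∑ a' : Nbr a, s a'.1

theorem par_add (a : TV t) (s s' : TV t → ZMod 2) : par a (s + s') = par a s + par a s' := by
  simp [par, sum_add_distrib]

theorem par_single {a c : TV t} (h : tAdj a c = true) (r : ZMod 2) :
    par a (fun c' => if c' = c then r else 0) = r := by
  unfold par
  rw [sum_eq_single (⟨c, h⟩ : Nbr a)]
  · simp
  · intro x _ hx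
    exact if_neg fun e => hx (Subtype.ext e)
  · simp

variable {b b' : TV t → Bool}

theorem par_tag (x : LiftV C b) : par (typeOf C x.1.1) (tag x) = bz (b (typeOf C x.1.1)) := by
  rw [← (parity_iff _ _).1 x.2]
  exact sum_congr rfl fun a _ => dif_pos a.2

theorem lift_ext {x y : LiftV C b} (h : x.1.1 = y.1.1)
    (h' : ∀ a, tAdj (typeOf C x.1.1) a = true → tag x a = tag y a) : x = y := by
  obtain ⟨⟨u, z⟩, hz⟩ := x
  obtain ⟨⟨v, w⟩, hw⟩ := y
  simp only at h
  subst h
  have : z = w := by
    funext a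
    have := h' a.1 a.2
    simp only [tag, dif_pos a.2] at this
    exact bz_inj.1 this
  subst this
  rfl

theorem liftAdj_iff (x y : LiftV C b) : liftAdj C b x y = true ↔
    bAdj C x.1.1 y.1.1 = true ∧ tag x (typeOf C y.1.1) = tag y (typeOf C x.1.1) := by
  simp only [liftAdj, decide_eq_true_eq]
  constructor
  · rintro ⟨h, h', h1, h2⟩
    exact ⟨h1, by simp only [tag, dif_pos h, dif_pos h', h2]⟩
  · rintro ⟨h1, h2⟩
    have h := tAdj_of_bAdj h1
    have h' := tAdj_of_bAdj ((bAdj_symm _ _).trans h1)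
    simp only [tag, dif_pos h, dif_pos h'] at h2
    exact ⟨h, h', h1, bz_inj.1 h2⟩

/-- `y` is `x` with the tag shifted by `s`. -/
def Rel (s : TV t → ZMod 2) (x : LiftV C b) (y : LiftV C b') : Prop :=
  x.1.1 = y.1.1 ∧ ∀ a, tAdj (typeOf C x.1.1) a = true → tag y a = tag x a + s a

theorem Rel.par_eq {s : TV t → ZMod 2} {x : LiftV C b} {y : LiftV C b'} (h : Rel s x y) :
    bz (b' (typeOf C x.1.1)) = bz (b (typeOf C x.1.1)) + par (typeOf C x.1.1) s := by
  have h1 := par_tag y
  rw [← h.1] at h1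
  rw [← h1, ← par_tag x, ← par_add]
  exact sum_congr rfl fun a _ => h.2 a.1 a.2

/-- Shifting the tags. -/
def shift (τ : BV C → TV t → ZMod 2)
    (h : ∀ u, bz (b' (typeOf C u)) = bz (b (typeOf C u)) + par (typeOf C u) (τ u))
    (x : LiftV C b) : LiftV C b' :=
  ⟨⟨x.1.1, fun a => xor (x.1.2 a) (decide (τ x.1.1 a.1 = 1))⟩, (parity_iff _ _).2 (by
    simp only [bz_xor, sum_add_distrib]
    rw [(parity_iff _ _).1 x.2, h]
    rfl)⟩

theorem rel_shift (τ : BV C → TV t → ZMod 2)
    (h : ∀ u, bz (b' (typeOf C u)) = bz (b (typeOf C u)) + par (typeOf C u) (τ u))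
    (x : LiftV C b) : Rel (τ x.1.1) x (shift τ h x) :=
  ⟨rfl, fun a ha => by
    have ha' : tAdj (typeOf C (shift τ h x).1.1) a = true := ha
    unfold tag
    rw [dif_pos ha, dif_pos ha']
    exact bz_xor _ _⟩

theorem exists_equiv (τ : BV C → TV t → ZMod 2)
    (h : ∀ u, bz (b' (typeOf C u)) = bz (b (typeOf C u)) + par (typeOf C u) (τ u)) :
    ∃ f : LiftV C b ≃ LiftV C b', ∀ x, Rel (τ x.1.1) x (f x) := by
  have h' : ∀ u, bz (b (typeOf C u)) = bz (b' (typeOf C u)) + par (typeOf C u) (τ u) := fun u => by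
    rw [h, add_assoc, two, add_zero]
  refine ⟨⟨shift τ h, shift τ h', fun x => ?_, fun x => ?_⟩, rel_shift τ h⟩
  · refine lift_ext rfl fun a ha => ?_
    rw [(rel_shift τ h' _).2 a ha, (rel_shift τ h x).2 a ha]
    exact (add_assoc _ _ _).trans (by rw [show τ (shift τ h x).1.1 a = τ x.1.1 a from rfl, two,
      add_zero])
  · refine lift_ext rfl fun a ha => ?_
    rw [(rel_shift τ h _).2 a ha, (rel_shift τ h' x).2 a ha]
    exact (add_assoc _ _ _).trans (by rw [show τ (shift τ h' x).1.1 a = τ x.1.1 a from rfl, two,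
      add_zero])

/-- Twists. -/
def Sym (σ : BV C → TV t → ZMod 2) : Prop :=
  ∀ u v, bAdj C u v = true → σ u (typeOf C v) = σ v (typeOf C u)

theorem Sym.add {σ σ' : BV C → TV t → ZMod 2} (h : Sym σ) (h' : Sym σ') : Sym (σ + σ') :=
  fun u v huv => by simp only [Pi.add_apply, h u v huv, h' u v huv]

theorem Rel.eq_iff {σ : BV C → TV t → ZMod 2} {x x' : LiftV C b} {y y' : LiftV C b'}
    (h : Rel (σ x.1.1) x y) (h' : Rel (σ x'.1.1) x' y') : x = x' ↔ y = y' := by
  constructor
  · rintro rfl
    refine lift_ext (h.1.symm.trans h'.1) fun a ha => ?_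
    rw [← h.1] at ha
    rw [h.2 a ha, h'.2 a ha]
  · rintro rfl
    have e : x.1.1 = x'.1.1 := h.1.trans h'.1.symm
    refine lift_ext e fun a ha => ?_
    have h1 := h.2 a ha
    rw [e] at ha h1
    exact add_right_cancel (h1.symm.trans (h'.2 a ha))

theorem Rel.adj_eq {σ : BV C → TV t → ZMod 2} (hσ : Sym σ) {x x' : LiftV C b}
    {y y' : LiftV C b'} (h : Rel (σ x.1.1) x y) (h' : Rel (σ x'.1.1) x' y') :
    liftAdj C b x x' = liftAdj C b' y y' := by
  rw [Bool.eq_iff_iff, liftAdj_iff, liftAdj_iff, ← h.1, ← h'.1]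
  refine and_congr_right fun hb => ?_
  rw [h.2 _ (tAdj_of_bAdj hb), h'.2 _ (tAdj_of_bAdj ((bAdj_symm _ _).trans hb)), hσ _ _ hb,
    add_left_inj]

/-- The indicator of a type. -/
def ind (a : TV t) (u : BV C) : ZMod 2 := if typeOf C u = a then 1 else 0

/-- The twist along a template edge. -/
def edge (a a' : TV t) (φ : BV C → ZMod 2) (u : BV C) (c : TV t) : ZMod 2 :=
  if (typeOf C u = a ∧ c = a') ∨ (typeOf C u = a' ∧ c = a) then φ u else 0

theorem sym_edge {a a' : TV t} {φ : BV C → ZMod 2}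
    (h : ∀ u v, bAdj C u v = true → typeOf C u = a → typeOf C v = a' → φ u = φ v) :
    Sym (edge a a' φ) := by
  intro u v huv
  unfold edge
  by_cases h1 : typeOf C u = a ∧ typeOf C v = a'
  · rw [if_pos (Or.inl h1), if_pos (Or.inr h1.symm), h u v huv h1.1 h1.2]
  · by_cases h2 : typeOf C u = a' ∧ typeOf C v = a
    · rw [if_pos (Or.inr h2), if_pos (Or.inl h2.symm),
        h v u ((bAdj_symm _ _).trans huv) h2.2 h2.1]
    · rw [if_neg (by tauto), if_neg (by tauto)]

theorem par_edge {a a' : TV t} (h : tAdj a a' = true) (φ : BV C → ZMod 2) (u : BV C) :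
    par (typeOf C u) (edge a a' φ u) = (ind a u + ind a' u) * φ u := by
  have hne : a ≠ a' := by
    rintro rfl
    rw [tAdj_self] at h
    exact Bool.false_ne_true h
  unfold ind
  by_cases h1 : typeOf C u = a
  · have h2 : typeOf C u ≠ a' := h1 ▸ hne
    have : edge a a' φ u = fun c => if c = a' then φ u else 0 := by
      funext c; simp [edge, h1, hne]
    rw [this, par_single (h1 ▸ h), if_pos h1, if_neg h2, add_zero, one_mul]
  · by_cases h2 : typeOf C u = a'
    · have : edge a a' φ u = fun c => if c = a then φ u else 0 := by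
        funext c; simp [edge, h2, hne.symm]
      rw [this, par_single (by rw [h2, tAdj_symm]; exact h), if_pos h2, if_neg h1, zero_add,
        one_mul]
    · have : edge a a' φ u = 0 := by
        funext c; simp [edge, h1, h2]
      simp [this, h1, h2, par]

theorem edge_eq_zero {a a' : TV t} {φ : BV C → ZMod 2} {u : BV C}
    (h : typeOf C u = a → φ u = 0) (h' : typeOf C u = a' → φ u = 0) : edge a a' φ u = 0 := by
  funext c
  unfold edge
  split_ifs with hc
  · exact hc.elim (fun e => h e.1) fun e => h' e.1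
  · rfl

/-- The label of a base vertex for the pair `(i, j)`. -/
def lbl (i j : Fin t) : BV C → ℕ
  | Sum.inl p => if p.1 = i then (C.lamL p.1 j p.2 : ℕ) else (C.lamR i p.1 p.2 : ℕ)
  | Sum.inr p => p.2

theorem lbl_left (i j : Fin t) (d : Fin (C.dom i)) :
    lbl (C := C) i j (Sum.inl ⟨i, d⟩) = C.lamL i j d := if_pos rfl

theorem lbl_right {i j : Fin t} (h : i < j) (d : Fin (C.dom j)) :
    lbl (C := C) i j (Sum.inl ⟨j, d⟩) = C.lamR i j d := if_neg h.ne'

theorem lbl_main {i j : Fin t} (hij : i < j) {u v : BV C} (h : bAdj C u v = true)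
    (hu : typeOf C u = Sum.inl i) (hv : typeOf C v = Sum.inl j) : lbl i j u = lbl i j v := by
  obtain ⟨d, rfl⟩ := exists_of_type_inl hu
  obtain ⟨e, rfl⟩ := exists_of_type_inl hv
  simp only [bAdj, mainAgree, Bool.or_eq_true, decide_eq_true_eq] at h
  rw [lbl_left, lbl_right hij]
  rcases h with ⟨-, h⟩ | ⟨h, -⟩
  · rw [h]
  · exact absurd hij h.not_gt

theorem lbl_helper_left (k : Helper t) {u v : BV C} (h : bAdj C u v = true)
    (hu : typeOf C u = Sum.inl k.1.1) (hv : typeOf C v = Sum.inr k) :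
    lbl k.1.1 k.1.2.1 u = lbl k.1.1 k.1.2.1 v := by
  obtain ⟨d, rfl⟩ := exists_of_type_inl hu
  obtain ⟨e, rfl⟩ := exists_of_type_inr hv
  simp only [bAdj, helperAgree, decide_eq_true_eq] at h
  rw [lbl_left]
  rcases h with ⟨_, h⟩ | ⟨h, -⟩ | h
  · exact congrArg Fin.val h.symm
  · exact absurd h k.2.1.ne
  · exact absurd h k.2.2.1.symm

theorem lbl_helper_right (k : Helper t) {u v : BV C} (h : bAdj C u v = true)
    (hu : typeOf C u = Sum.inl k.1.2.1) (hv : typeOf C v = Sum.inr k) :
    lbl k.1.1 k.1.2.1 u = lbl k.1.1 k.1.2.1 v := by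
  obtain ⟨d, rfl⟩ := exists_of_type_inl hu
  obtain ⟨e, rfl⟩ := exists_of_type_inr hv
  simp only [bAdj, helperAgree, decide_eq_true_eq] at h
  rw [lbl_right k.2.1]
  rcases h with ⟨h, -⟩ | ⟨_, h⟩ | h
  · exact absurd h k.2.1.ne'
  · exact congrArg Fin.val h.symm
  · exact absurd h k.2.2.2.symm

/-- The indicator of the label `q`. -/
def chi (i j : Fin t) (q : ℕ) (u : BV C) : ZMod 2 := if lbl i j u = q then 1 else 0

/-- The defect set of a pair and a label. -/
def Dq (i j : Fin t) (q : ℕ) (u : BV C) : ZMod 2 :=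
  ind (Sum.inl i) u * (1 + chi i j q u) + ind (Sum.inl j) u * chi i j q u

theorem ind_of_ne {a : TV t} {u : BV C} (h : typeOf C u ≠ a) : ind a u = 0 := if_neg h

theorem ind_of_eq {a : TV t} {u : BV C} (h : typeOf C u = a) : ind a u = 1 := if_pos h

theorem exists_rho (m : Fin t) {i j : Fin t} (hij : i < j) (q : ℕ) :
    ∃ ρ : BV C → TV t → ZMod 2, Sym ρ ∧
      (∀ u, par (typeOf C u) (ρ u) = ind (Sum.inl m) u + Dq i j q u) ∧
      ∀ u k, typeOf C u = Sum.inl k → k ≠ m → Dq i j q u = 0 → ρ u = 0 := by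
  have hadj : tAdj (Sum.inl i : TV t) (Sum.inl j) = true := by simp [tAdj, hij.ne]
  have hi : ∀ u : BV C, typeOf C u = Sum.inl i → Dq i j q u = 1 + chi i j q u := fun u hu => by
    rw [Dq, ind_of_eq hu, ind_of_ne (by simp [hu, hij.ne]), one_mul, zero_mul, add_zero]
  have hj : ∀ u : BV C, typeOf C u = Sum.inl j → Dq i j q u = chi i j q u := fun u hu => by
    rw [Dq, ind_of_eq hu, ind_of_ne (by simp [hu, hij.ne']), one_mul, zero_mul, zero_add]
  by_cases hmi : m = i
  · subst hmi
    refine ⟨edge (Sum.inl m) (Sum.inl j) (chi m j q),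
      sym_edge fun u v h hu hv => by rw [chi, chi, lbl_main hij h hu hv], fun u => ?_,
      fun u k hu hk h0 => edge_eq_zero (fun h => absurd (Sum.inl.inj (hu.symm.trans h)) hk)
        fun h => (hj u h).symm.trans h0⟩
    rw [par_edge hadj, Dq]
    linear_combination (-1 : ZMod 2) * two (ind (Sum.inl m) u)
  by_cases hmj : m = j
  · subst hmj
    refine ⟨edge (Sum.inl i) (Sum.inl m) (fun u => 1 + chi i m q u),
      sym_edge fun u v h hu hv => by rw [chi, chi, lbl_main hij h hu hv], fun u => ?_,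
      fun u k hu hk h0 => edge_eq_zero (fun h => (hi u h).symm.trans h0)
        fun h => absurd (Sum.inl.inj (hu.symm.trans h)) hk⟩
    rw [par_edge hadj, Dq]
    ring
  obtain ⟨h, hh⟩ : ∃ h : Helper t, h = ⟨(i, j, m), hij, hmi, hmj⟩ := ⟨_, rfl⟩
  have a1 : tAdj (Sum.inl m : TV t) (Sum.inr h) = true := by simp [tAdj, hh]
  have a2 : tAdj (Sum.inl i : TV t) (Sum.inr h) = true := by simp [tAdj, hh]
  have a3 : tAdj (Sum.inl j : TV t) (Sum.inr h) = true := by simp [tAdj, hh]
  refine ⟨edge (Sum.inl m) (Sum.inr h) (fun _ => 1) +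
    edge (Sum.inl i) (Sum.inr h) (fun u => 1 + chi i j q u) +
    edge (Sum.inl j) (Sum.inr h) (chi i j q),
    ((sym_edge fun _ _ _ _ _ => rfl).add (sym_edge fun u v huv hu hv => ?_)).add
      (sym_edge fun u v huv hu hv => ?_), fun u => ?_, fun u k hu hk h0 => ?_⟩
  · subst hh
    have := lbl_helper_left _ huv hu hv
    simp only at this
    rw [chi, chi, this]
  · subst hh
    have := lbl_helper_right _ huv hu hv
    simp only at this
    rw [chi, chi, this]
  · rw [Pi.add_apply, Pi.add_apply, par_add, par_add, par_edge a1, par_edge a2, par_edge a3, Dq]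
    linear_combination two (ind (Sum.inr h) u * (1 + chi i j q u))
  · have hr : typeOf C u ≠ Sum.inr h := by simp [hu]
    rw [Pi.add_apply, Pi.add_apply,
      edge_eq_zero (fun h => absurd (Sum.inl.inj (hu.symm.trans h)) hk) (fun h => absurd h hr),
      edge_eq_zero (fun h => (hi u h).symm.trans h0) (fun h => absurd h hr),
      edge_eq_zero (fun h => (hj u h).symm.trans h0) (fun h => absurd h hr), add_zero, add_zero]

/-- The odd parity. -/
def st (u : BV C) : ZMod 2 := bz (liftStarParity t (typeOf C u))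

/-- Data for a position. -/
structure Dat (σ : BV C → TV t → ZMod 2)
    (S : Set (LiftV C (lift0Parity t) × LiftV C (liftStarParity t))) : Prop where
  sym : Sym σ
  rel : ∀ p ∈ S, Rel (σ p.1.1.1) p.1 p.2
  dfc : (∃ m, ∀ u, par (typeOf C u) (σ u) = st u + ind (Sum.inl m) u) ∨
    ∃ i j q, i < j ∧ (∀ u, par (typeOf C u) (σ u) = st u + Dq i j q u) ∧
      ∀ p ∈ S, ∃ k, typeOf C p.1.1.1 = Sum.inl k

theorem Rel.par_st {s : TV t → ZMod 2} {x : LiftV C (lift0Parity t)}
    {y : LiftV C (liftStarParity t)} (h : Rel s x y) : par (typeOf C x.1.1) s = st x.1.1 := by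
  have := h.par_eq
  rw [st, this]
  simp [lift0Parity, bz]

theorem exists_free {S : Set (LiftV C (lift0Parity t) × LiftV C (liftStarParity t))}
    (hS : S.ncard < t) : ∃ m, ∀ p ∈ S, typeOf C p.1.1.1 ≠ Sum.inl m := by
  by_contra hcon
  push Not at hcon
  choose P hP hP' using hcon
  have := Set.ncard_le_ncard_of_injOn (s := Set.univ) (t := S) P (fun a _ => hP a)
    fun a _ c _ e => Sum.inl.inj ((hP' a).symm.trans (e ▸ hP' c))
  rw [Set.ncard_univ, Nat.card_eq_fintype_card, Fintype.card_fin] at this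
  omega

theorem step1 {σ : BV C → TV t → ZMod 2}
    {S : Set (LiftV C (lift0Parity t) × LiftV C (liftStarParity t))} (h : Dat σ S)
    (hS : S.ncard < t) : ∃ (σ' : BV C → TV t → ZMod 2) (m : Fin t), Sym σ' ∧
      (∀ p ∈ S, Rel (σ' p.1.1.1) p.1 p.2) ∧
      ∀ u, par (typeOf C u) (σ' u) = st u + ind (Sum.inl m) u := by
  rcases h.dfc with ⟨m, hm⟩ | ⟨i, j, q, hij, hq, hmain⟩
  · exact ⟨σ, m, h.sym, h.rel, hm⟩
  obtain ⟨m, hm⟩ := exists_free hS
  obtain ⟨ρ, h1, h2, h3⟩ := exists_rho (C := C) m hij q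
  refine ⟨σ + ρ, m, h.sym.add h1, fun p hp => ?_, fun u => ?_⟩
  · obtain ⟨k, hk⟩ := hmain p hp
    have h4 := (h.rel p hp).par_st
    rw [hq, add_eq_left] at h4
    rw [Pi.add_apply, h3 _ k hk (fun e => hm p hp (e ▸ hk)) h4, add_zero]
    exact h.rel p hp
  · rw [Pi.add_apply, par_add, hq, h2]
    linear_combination two (Dq i j q u)

theorem step2 (hC : ¬ C.Successful) {σ : BV C → TV t → ZMod 2} {m : Fin t}
    {S : Set (LiftV C (lift0Parity t) × LiftV C (liftStarParity t))} (hS : S.ncard < t)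
    (hσ : Sym σ) (hrel : ∀ p ∈ S, Rel (σ p.1.1.1) p.1 p.2)
    (hm : ∀ u, par (typeOf C u) (σ u) = st u + ind (Sum.inl m) u) (u : BV C) :
    ∃ σ' : BV C → TV t → ZMod 2, par (typeOf C u) (σ' u) = st u ∧
      ∀ x y, x.1.1 = u → Rel (σ' u) x y → Dat σ' (insert (x, y) S) := by
  have hfree : ∀ p ∈ S, typeOf C p.1.1.1 ≠ Sum.inl m := fun p hp e => by
    have h4 := (hrel p hp).par_st
    rw [hm, add_eq_left, ind_of_eq e] at h4
    exact one_ne_zero h4
  have hins : ∀ {σ' : BV C → TV t → ZMod 2} {x y}, x.1.1 = u → Rel (σ' u) x y →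
      (∀ p ∈ S, σ' p.1.1.1 = σ p.1.1.1) → ∀ p ∈ insert (x, y) S, Rel (σ' p.1.1.1) p.1 p.2 := by
    rintro σ' x y hx hxy h p (rfl | hp)
    · exact hx ▸ hxy
    · exact h p hp ▸ hrel p hp
  by_cases hu : typeOf C u = Sum.inl m
  swap
  · exact ⟨σ, by rw [hm, ind_of_ne hu, add_zero], fun x y hx hxy =>
      ⟨hσ, hins hx hxy fun _ _ => rfl, Or.inl ⟨m, hm⟩⟩⟩
  by_cases h' : ∃ m', m' ≠ m ∧ ∀ p ∈ S, typeOf C p.1.1.1 ≠ Sum.inl m'
  · obtain ⟨m', hne, hm'⟩ := h'
    have hpar : ∀ v, par (typeOf C v)
        ((σ + edge (Sum.inl m) (Sum.inl m') fun _ => 1 : BV C → TV t → ZMod 2) v) =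
        st v + ind (Sum.inl m') v := fun v => by
      rw [Pi.add_apply, par_add, hm, par_edge (by simp [tAdj, hne.symm])]
      linear_combination two (ind (Sum.inl m) v)
    refine ⟨σ + edge (Sum.inl m) (Sum.inl m') fun _ => 1, ?_, fun x y hx hxy =>
      ⟨hσ.add (sym_edge fun _ _ _ _ _ => rfl), hins hx hxy fun p hp => ?_, Or.inl ⟨m', hpar⟩⟩⟩
    · rw [hpar, ind_of_ne (by simp [hu, hne.symm]), add_zero]
    · rw [Pi.add_apply, edge_eq_zero (fun e => absurd e (hfree p hp))
        (fun e => absurd e (hm' p hp)), add_zero]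
  push Not at h'
  choose P hP hP' using h'
  have hsurj : ∀ p ∈ S, ∃ k hk, p = P k hk := by
    refine Set.surj_on_of_inj_on_of_ncard_le (s := ({m}ᶜ : Set (Fin t))) (t := S) P hP
      (fun a c ha hc e => Sum.inl.inj ((hP' a ha).symm.trans (e ▸ hP' c hc))) ?_
    have := Set.ncard_add_ncard_compl ({m} : Set (Fin t))
    rw [Set.ncard_singleton, Nat.card_eq_fintype_card, Fintype.card_fin] at this
    omega
  have hw : ∀ k, ∃ d, (if hk : k = m then u else (P k hk).1.1.1) = Sum.inl ⟨k, d⟩ := fun k => by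
    refine exists_of_type_inl ?_
    split_ifs with hk
    · exact hk ▸ hu
    · exact hP' k hk
  choose d hd using hw
  obtain ⟨i, j, hij, hne⟩ : ∃ i j, i < j ∧ C.lamL i j (d i) ≠ C.lamR i j (d j) := by
    by_contra hcon
    push Not at hcon
    exact hC ⟨d, hcon⟩
  have hD : ∀ k, Dq i j (C.lamL i j (d i)) (Sum.inl ⟨k, d k⟩ : BV C) = 0 := fun k => by
    unfold Dq
    by_cases h1 : k = i
    · subst h1
      rw [ind_of_ne (a := Sum.inl j) (by simp [typeOf, hij.ne]), chi, lbl_left, if_pos rfl, two]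
      simp
    · rw [ind_of_ne (a := Sum.inl i) (by simp [typeOf, h1])]
      by_cases h2 : k = j
      · subst h2
        rw [chi, lbl_right hij, if_neg fun e => hne (Fin.ext e).symm]
        simp
      · rw [ind_of_ne (a := Sum.inl j) (by simp [typeOf, h2])]
        simp
  obtain ⟨ρ, h1, h2, h3⟩ := exists_rho (C := C) m hij (C.lamL i j (d i))
  have hpar : ∀ v, par (typeOf C v) ((σ + ρ) v) = st v + Dq i j (C.lamL i j (d i)) v := fun v => by
    rw [Pi.add_apply, par_add, hm, h2]
    linear_combination two (ind (Sum.inl m) v)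
  refine ⟨σ + ρ, ?_, fun x y hx hxy => ⟨hσ.add h1, hins hx hxy fun p hp => ?_,
    Or.inr ⟨i, j, _, hij, hpar, ?_⟩⟩⟩
  · have := hd m
    rw [dif_pos rfl] at this
    rw [hpar, this, hD, add_zero]
  · obtain ⟨k, hk, rfl⟩ := hsurj p hp
    have := hd k
    rw [dif_neg hk] at this
    rw [Pi.add_apply, h3 _ k (hP' k hk) hk (this ▸ hD k), add_zero]
  · rintro p (rfl | hp)
    · exact ⟨m, hx ▸ hu⟩
    · obtain ⟨k, hk, rfl⟩ := hsurj p hp
      exact ⟨k, hP' k hk⟩

theorem st_eq (ht : 0 < t) (u : BV C) : st u = ind (Sum.inl ⟨0, ht⟩) u := by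
  simp [st, ind, liftStarParity, bz, ht]

/-! ### Counting -/

theorem card_parity_le {ι : Type} [Fintype ι] [DecidableEq ι] (b : Bool) :
    Fintype.card {z : ι → Bool // (univ.filter fun a => z a = true).card % 2 = b.toNat} ≤
      2 ^ (Fintype.card ι - 1) := by
  rcases isEmpty_or_nonempty ι with h | ⟨⟨a⟩⟩
  · refine (Fintype.card_subtype_le _).trans ?_
    simp
  have := Fintype.card_le_of_injective
    (fun (z : {z : ι → Bool // (univ.filter fun a => z a = true).card % 2 = b.toNat})
      (c : {c // ¬ c = a}) => z.1 c.1) (fun z w e => ?_)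
  · simpa [Fintype.card_subtype_compl] using this
  have e' : ∀ c, c ≠ a → z.1 c = w.1 c := fun c hc => congrFun e ⟨c, hc⟩
  have h1 := ((parity_iff _ _).1 z.2).trans ((parity_iff _ _).1 w.2).symm
  rw [← add_sum_erase _ _ (mem_univ a), ← add_sum_erase _ _ (mem_univ a),
    sum_congr rfl fun c hc => congrArg bz (e' c (ne_of_mem_erase hc)), add_left_inj, bz_inj] at h1
  refine Subtype.ext (funext fun c => ?_)
  by_cases hc : c = a
  · rw [hc, h1]
  · exact e' c hc

theorem card_nbr (a : TV t) : Fintype.card (Nbr a) =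
    (univ.filter fun i => tAdj a (Sum.inl i) = true).card +
      (univ.filter fun h => tAdj a (Sum.inr h) = true).card := by
  rw [Fintype.card_subtype, card_filter, card_filter, card_filter, Fintype.sum_sum_type]

theorem card_nbr_inr (h : Helper t) : Fintype.card (Nbr (Sum.inr h : TV t)) ≤ 3 := by
  rw [card_nbr]
  have h1 : (univ.filter fun i => tAdj (Sum.inr h : TV t) (Sum.inl i) = true) ⊆
      {h.1.1, h.1.2.1, h.1.2.2} := fun i hi => by simpa [tAdj] using hi
  have h2 := (card_le_card h1).trans card_le_three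
  simpa [tAdj] using h2

theorem card_nbr_inl (i : Fin t) :
    Fintype.card (Nbr (Sum.inl i : TV t)) ≤ t - 1 + 3 * (t - 1).choose 2 := by
  rw [card_nbr]
  have hc : (univ.erase i).card = t - 1 := by simp
  have h1 : (univ.filter fun j => tAdj (Sum.inl i : TV t) (Sum.inl j) = true) ⊆ univ.erase i :=
    fun j hj => by
      simp only [tAdj, decide_eq_true_eq, mem_filter, mem_univ, true_and] at hj
      exact mem_erase.2 ⟨hj.symm, mem_univ _⟩
  have h2 : (univ.filter fun h => tAdj (Sum.inl i : TV t) (Sum.inr h) = true) ⊆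
      (univ.filter fun h : Helper t => i = h.1.2.2) ∪
        univ.filter fun h : Helper t => i = h.1.1 ∨ i = h.1.2.1 := fun h hh => by
    simp only [tAdj, decide_eq_true_eq, mem_filter, mem_univ, true_and, mem_union] at hh ⊢
    tauto
  have h3 : (univ.filter fun h : Helper t => i = h.1.2.2).card ≤ (t - 1).choose 2 := by
    rw [← hc, ← card_product_filter_lt]
    refine card_le_card_of_injOn (fun h => (h.1.1, h.1.2.1)) (fun h hh => ?_) fun h hh h' hh' e => ?_
    · have := h.2
      simp only [coe_filter, mem_univ, true_and, Set.mem_ofPred_eq, mem_product, mem_erase,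
        and_true] at hh ⊢
      subst hh
      exact ⟨⟨this.2.1.symm, this.2.2.symm⟩, this.1⟩
    · simp only [coe_filter, mem_univ, true_and, Set.mem_ofPred_eq, Prod.mk.injEq] at hh hh' e
      exact Subtype.ext (Prod.ext e.1 (Prod.ext e.2 (hh.symm.trans hh')))
  have h4 : (univ.filter fun h : Helper t => i = h.1.1 ∨ i = h.1.2.1).card ≤
      2 * (t - 1).choose 2 := by
    have h5 : (univ.erase i).offDiag.card = 2 * (t - 1).choose 2 := by
      have := Nat.choose_succ_right_eq (t - 1) 1
      rw [Nat.choose_one_right, Nat.mul_sub_one] at this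
      rw [offDiag_card, hc, ← this, mul_comm]
    rw [← h5]
    refine card_le_card_of_injOn (fun h => (if i = h.1.1 then h.1.2.1 else h.1.1, h.1.2.2))
      (fun h hh => ?_) fun h hh h' hh' e => ?_
    · have := h.2
      simp only [coe_filter, mem_univ, true_and, Set.mem_ofPred_eq, mem_coe, mem_offDiag,
        mem_erase, and_true] at hh ⊢
      split_ifs <;> omega
    · have a1 := h.2
      have a2 := h'.2
      simp only [coe_filter, mem_univ, true_and, Set.mem_ofPred_eq, Prod.mk.injEq] at hh hh' e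
      refine Subtype.ext (Prod.ext ?_ (Prod.ext ?_ e.2)) <;> have := e.1 <;>
        split_ifs at this <;> omega
  have := card_le_card h1
  have := (card_le_card h2).trans (card_union_le _ _)
  omega

theorem card_helper : Fintype.card (Helper t) ≤ 3 * t.choose 3 := by
  have h1 : (univ : Finset (Helper t)).card ≤
      ((univ.filter fun x : Fin t × Fin t => x.1 < x.2).sigma
        fun x => (univ.erase x.1).erase x.2).card := by
    refine card_le_card_of_injOn (fun h => ⟨(h.1.1, h.1.2.1), h.1.2.2⟩) (fun h _ => ?_)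
      fun h _ h' _ e => ?_
    · have := h.2
      simp only [coe_sigma, Set.mem_sigma_iff, mem_coe, mem_filter, mem_univ, true_and, mem_erase,
        and_true]
      tauto
    · simp only [Sigma.mk.injEq, Prod.mk.injEq, heq_eq_eq] at e
      exact Subtype.ext (Prod.ext e.1.1 (Prod.ext e.1.2 e.2))
  rw [card_sigma, sum_congr rfl (g := fun _ => t - 2) fun x hx => ?_, sum_const,
    Fintype.card_product_filter_lt, Fintype.card_fin, smul_eq_mul,
    ← Nat.choose_succ_right_eq] at h1
  · rw [mul_comm]; exact h1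
  · have := (mem_filter.1 hx).2
    rw [card_erase_of_mem (by simp [this.ne']), card_erase_of_mem (mem_univ _), card_univ,
      Fintype.card_fin]
    rfl

end PL1

open PL1

theorem lift_simple (C : ChoiceSystem t) (b : TV t → Bool) : IsSimple (asMatrix (liftAdj C b)) := by
  refine ⟨fun v w => ?_, fun v => ?_⟩
  · unfold asMatrix
    rw [Bool.eq_iff_iff, liftAdj_iff, liftAdj_iff, bAdj_symm, eq_comm (a := tag _ _)]
  · unfold asMatrix
    rw [Bool.eq_false_iff]
    intro h
    have := tAdj_of_bAdj ((liftAdj_iff _ _).1 h).1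
    rw [tAdj_self] at this
    exact Bool.false_ne_true this

/-- Every template vertex has a neighbour; flipping the tag at a fixed neighbour of main `0` is a
bijection. -/
theorem lift_card_eq (ht : 2 ≤ t) (C : ChoiceSystem t) :
    Fintype.card (LiftV C (lift0Parity t)) = Fintype.card (LiftV C (liftStarParity t)) := by
  have h0 : 0 < t := by omega
  obtain ⟨f, -⟩ := exists_equiv (C := C) (b := lift0Parity t) (b' := liftStarParity t)
    (fun u c => if c = Sum.inl ⟨1, ht⟩ then st u else 0) fun u => by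
      by_cases hu : typeOf C u = Sum.inl ⟨0, h0⟩
      · rw [par_single (by simp [hu, tAdj])]
        simp [st, lift0Parity, bz]
      · have : st u = 0 := by rw [st_eq h0, ind_of_ne hu]
        rw [show bz (liftStarParity t (typeOf C u)) = st u from rfl, this]
        simp [par, lift0Parity, bz]
  exact Fintype.card_congr f

/-- A main has `t - 1 + 3 C(t-1, 2)` template neighbours, a helper `3`; there are `3 C(t, 3)`
helpers; a base vertex of degree `D ≥ 1` has `2 ^ (D - 1)` even tags.  (Upper bounds suffice: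
inject the helpers at main `i` into `(pairs a < b of Fin t \ {i}) × Fin 3`, and all helpers into
`(3-subsets) × Fin 3`, or count `(pairs i < j) × (third)` as `C(t,2) (t-2) = 3 C(t,3)`.) -/
theorem lift_card_le (ht : 3 ≤ t) (C : ChoiceSystem t) (A : ℕ) (hA : C.SizeAtMost A) :
    Fintype.card (LiftV C (lift0Parity t)) ≤ A * orderFactor t := by
  have h1 := Fintype.card_le_of_injective (fun x : LiftV C (lift0Parity t) =>
    (⟨x.1.1, ⟨x.1.2, x.2⟩⟩ : Σ u : BV C, {z : Nbr (typeOf C u) → Bool //
      (Finset.univ.filter fun a => z a = true).card % 2 = false.toNat})) (by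
    rintro ⟨⟨u, z⟩, hz⟩ ⟨⟨v, w⟩, hw⟩ e
    cases e
    rfl)
  rw [Fintype.card_sigma, Fintype.sum_sum_type, Fintype.sum_sigma, Fintype.sum_sigma] at h1
  refine h1.trans ?_
  rw [orderFactor, mul_add]
  refine add_le_add ?_ ?_
  · refine (Finset.sum_le_card_nsmul _ _ (A * 2 ^ (t - 2 + 3 * (t - 1).choose 2))
      fun i _ => ?_).trans (le_of_eq ?_)
    · refine (Finset.sum_le_card_nsmul _ _ (2 ^ (t - 2 + 3 * (t - 1).choose 2))
        fun d _ => (card_parity_le _).trans (Nat.pow_le_pow_right two_pos ?_)).trans ?_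
      · have := card_nbr_inl i
        change Fintype.card (Nbr (Sum.inl i : TV t)) - 1 ≤ _
        omega
      · rw [Finset.card_univ, Fintype.card_fin, smul_eq_mul]
        exact Nat.mul_le_mul_right _ (hA.1 i)
    · rw [Finset.card_univ, Fintype.card_fin, smul_eq_mul]
      ring
  · refine (Finset.sum_le_card_nsmul _ _ (A * 2 ^ 2) fun h _ => ?_).trans ?_
    · refine (Finset.sum_le_card_nsmul _ _ (2 ^ 2)
        fun d _ => (card_parity_le _).trans (Nat.pow_le_pow_right two_pos ?_)).trans ?_
      · have := card_nbr_inr h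
        change Fintype.card (Nbr (Sum.inr h : TV t)) - 1 ≤ _
        omega
      · rw [Finset.card_univ, Fintype.card_fin, smul_eq_mul]
        exact Nat.mul_le_mul_right _ (hA.2 _ _ h.2.1)
    · rw [Finset.card_univ, smul_eq_mul]
      refine (Nat.mul_le_mul_right _ card_helper).trans (le_of_eq ?_)
      ring

/-- A TWIST is a map `σ : BV C → TV t → Bool` that is symmetric on base edges
(`bAdj u v → σ u (type v) = σ v (type u)`); its parity at `u` is the parity of the number of template
neighbours `a` of `type u` with `σ u a`.  Twists are closed under xor.  If the parity of `σ` at `u` is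
`b (type u)` then `(u, z) ↦ (u, z xor σ u)` maps the fibre of the even lift over `u` onto the fibre of
the `b`-lift, and preserves adjacency and equality.
Defect sets: `Dm m` = all base vertices of main type `m`; for `i < j` and a label `q`,
`Dq i j q` = vertices of type `i` with left label `≠ q` and vertices of type `j` with right label
`= q`.  Twists: `E m m'` (mains `m ≠ m'`) flips coordinate `m'` on type `m` and `m` on type `m'`;
odd exactly on `Dm m ∪ Dm m'`.  `ρ m (i, j, q)`, odd exactly on the symmetric difference of `Dm m` and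
`Dq i j q`, and zero on all MAIN vertices outside `Dm m ∪ Dq i j q`:
 `m = i`: flip the edge `i j` at the vertices (of both types) with label `q`;
 `m = j`: flip the edge `i j` at the vertices with label `≠ q`;
 otherwise `h = (i, j, m)`: flip coordinate `h` on all of type `m`, on type `i` with label `≠ q`, on
 type `j` with label `q`; on the helper vertex `(h, q')` flip coordinate `m`, and coordinate `i` if
 `q' ≠ q`, coordinate `j` if `q' = q`.
POSITIONS: `S` such that for some twist `σ` and defect set `D` with parity `b* (type u) xor [u ∈ D]`,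
all pairs of `S` are `((u, z), (u, z xor σ u))` with `u ∉ D`, and `D = Dm m`, or `D = Dq i j q` and all
`u` are mains.  (Start: `σ = 0`, `D = Dm 0`.)  EXTENSION for `S.ncard < t`: some main type `m` is not
pebbled; if `D = Dq ..` add `ρ m ..`, so `D = Dm m`.  For a base vertex `u` choose `σ_u`: `σ` if
`type u ≠ m`; if `type u = m` and another main `m'` is not pebbled, `σ xor E m m'`; otherwise `S`
has exactly one pebble on every main type `≠ m` and nothing else, together with `u` this is a choice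
`d`, it is not successful, so `lamL i j (d i) ≠ lamR i j (d j)` for some `i < j`: take
`σ xor ρ m (i, j, lamL i j (d i))`.  The bijection is `(u, z) ↦ (u, z xor σ_u u)`. -/
theorem lift_game (ht : 1 ≤ t) (C : ChoiceSystem t) (hC : ¬ C.Successful) :
    Game (liftAdj C (lift0Parity t)) (liftAdj C (liftStarParity t)) t := by
  refine ⟨fun S => ∃ σ, Dat σ S, ⟨0, fun _ _ _ => rfl, by simp, Or.inl ⟨⟨0, ht⟩, fun u => ?_⟩⟩,
    fun ⟨σ, h⟩ hS => ⟨σ, h.sym, fun p hp => h.rel p (hS hp), h.dfc.imp id
      fun ⟨i, j, q, h1, h2, h3⟩ => ⟨i, j, q, h1, h2, fun p hp => h3 p (hS hp)⟩⟩,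
    fun ⟨σ, h⟩ p hp q hq => (h.rel p hp).eq_iff (h.rel q hq),
    fun ⟨σ, h⟩ p hp q hq => Rel.adj_eq h.sym (h.rel p hp) (h.rel q hq), fun ⟨σ, h⟩ hS => ?_⟩
  · rw [st_eq ht, two]
    simp [par]
  · obtain ⟨σ', m, h1, h2, h3⟩ := step1 h hS
    choose τ hτ hτ' using step2 hC hS h1 h2 h3
    obtain ⟨f, hf⟩ := exists_equiv (C := C) (b := lift0Parity t) (b' := liftStarParity t)
      (fun u => τ u u) fun u => by
        rw [hτ]
        simp [st, lift0Parity, bz]
    exact ⟨f, fun z => ⟨τ z.1.1, hτ' _ z (f z) rfl (hf z)⟩⟩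

end Crest.Agent.R290
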