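import Crest.Agent.R290.PL2B

/-!
# rid 290, task PL2, part C: counting common neighbours in the parity lifts
-/

set_option autoImplicit false

namespace Crest.Agent.R290.PL2

open Crest.WLRefine Crest.WLRefine.ParityLift Finset

variable {t : ℕ} {C : ChoiceSystem t} {b : TV t → Bool}

/-- the helpers adjacent to three mains -/
def Hs (i j l : Fin t) : Finset (Helper t) :=
  univ.filter fun h => tAdj (Sum.inl i) (Sum.inr h) = true ∧ tAdj (Sum.inl j) (Sum.inr h) = true ∧
    tAdj (Sum.inl l) (Sum.inr h) = true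

theorem tAdj_inl_inr (p : Fin t) (h : Helper t) :
    tAdj (Sum.inl p) (Sum.inr h) = true ↔ p = h.1.1 ∨ p = h.1.2.1 ∨ p = h.1.2.2 := by
  simp [tAdj]

theorem mem_Hs {i j l : Fin t} {h : Helper t} :
    h ∈ Hs i j l ↔ (i = h.1.1 ∨ i = h.1.2.1 ∨ i = h.1.2.2) ∧
      (j = h.1.1 ∨ j = h.1.2.1 ∨ j = h.1.2.2) ∧ (l = h.1.1 ∨ l = h.1.2.1 ∨ l = h.1.2.2) := by
  simp [Hs, tAdj]

theorem adj_iff_of_mem_Hs {i j l : Fin t} (hij : i ≠ j) (hil : i ≠ l) (hjl : j ≠ l)
    {h : Helper t} (hh : h ∈ Hs i j l) (p : Fin t) :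
    tAdj (Sum.inl p) (Sum.inr h) = true ↔ p = i ∨ p = j ∨ p = l := by
  rw [tAdj_inl_inr]
  rw [mem_Hs] at hh
  obtain ⟨⟨x, y, z⟩, h1, h2, h3⟩ := h
  simp only [Fin.ext_iff, ne_eq] at *
  omega

/-- the helper with pair `{a, c}` and third vertex `e` -/
def mkH (a c e : Fin t) (hac : a ≠ c) (hea : e ≠ a) (hec : e ≠ c) : Helper t :=
  ⟨(min a c, max a c, e), min_lt_max.2 hac, by
    rcases min_choice a c with h | h <;> rw [h] <;> assumption, by
    rcases max_choice a c with h | h <;> rw [h] <;> assumption⟩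

theorem mkH_adj (a c e : Fin t) (hac : a ≠ c) (hea : e ≠ a) (hec : e ≠ c) (p : Fin t) :
    (p = (mkH a c e hac hea hec).1.1 ∨ p = (mkH a c e hac hea hec).1.2.1 ∨
      p = (mkH a c e hac hea hec).1.2.2) ↔ p = a ∨ p = c ∨ p = e := by
  simp only [mkH]
  rcases le_total a c with h | h
  · rw [min_eq_left h, max_eq_right h]
  · rw [min_eq_right h, max_eq_left h]; tauto

theorem card_Hs {i j l : Fin t} (hij : i ≠ j) (hil : i ≠ l) (hjl : j ≠ l) :
    (Hs i j l).card = 3 := by
  rw [← show ({i, j, l} : Finset (Fin t)).card = 3 from card_eq_three.2 ⟨i, j, l, hij, hil, hjl, rfl⟩]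
  refine card_bij (fun h _ => h.1.2.2) ?_ ?_ ?_
  · intro h hh
    have := (adj_iff_of_mem_Hs hij hil hjl hh h.1.2.2).1 ((tAdj_inl_inr _ _).2 (by simp))
    simpa using this
  · intro h hh h' hh' he
    have e1 := fun p => (tAdj_inl_inr p h).symm.trans ((adj_iff_of_mem_Hs hij hil hjl hh p).trans
      ((adj_iff_of_mem_Hs hij hil hjl hh' p).symm.trans (tAdj_inl_inr p h')))
    have a1 := (e1 h.1.1).1 (by simp)
    have a2 := (e1 h.1.2.1).1 (by simp)
    obtain ⟨⟨x, y, z⟩, h1, h2, h3⟩ := h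
    obtain ⟨⟨x', y', z'⟩, h1', h2', h3'⟩ := h'
    apply Subtype.ext
    dsimp only at he a1 a2 h1 h2 h3 h1' h2' h3' ⊢
    subst he
    simp only [Prod.mk.injEq, and_true]
    omega
  · intro r hr
    simp only [mem_insert, mem_singleton] at hr
    rcases hr with rfl | rfl | rfl
    · exact ⟨mkH j l r hjl hij hil, by simp only [mem_Hs, mkH_adj]; simp, rfl⟩
    · exact ⟨mkH i l r hil hij.symm hjl, by simp only [mem_Hs, mkH_adj]; simp, rfl⟩
    · exact ⟨mkH i j r hij hil.symm hjl.symm, by simp only [mem_Hs, mkH_adj]; simp, rfl⟩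

theorem exists_two_helpers (ht : 4 ≤ t) (e c : TV t) :
    ∃ a a' : Helper t, c.isLeft = true → a ≠ a' ∧ tAdj c (Sum.inr a) = true ∧
      tAdj c (Sum.inr a') = true ∧ Sum.inr a ≠ e ∧ Sum.inr a' ≠ e := by
  have h0 : 0 < t := by omega
  obtain ⟨m, hm⟩ : ∃ m : Fin t, c.isLeft = true → c = Sum.inl m := by
    rcases c with m | h
    · exact ⟨m, fun _ => rfl⟩
    · exact ⟨⟨0, h0⟩, by simp⟩
  obtain ⟨j, hj, -, -⟩ := exists_fourth ht m m m
  obtain ⟨l, hl, hl', -⟩ := exists_fourth ht m j j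
  have h3 := card_Hs hj.symm hl.symm hl'.symm
  have h2 : 1 < ((Hs m j l).filter fun h => Sum.inr h ≠ e).card := by
    have h4 : ((Hs m j l).filter fun h => ¬ Sum.inr h ≠ e).card ≤ 1 := by
      refine card_le_one.2 fun x hx y hy => ?_
      have hx' := (mem_filter.1 hx).2
      have hy' := (mem_filter.1 hy).2
      push Not at hx' hy'
      exact Sum.inr_injective (hx'.trans hy'.symm)
    have := card_filter_add_card_filter_not (s := Hs m j l) (fun h => Sum.inr h ≠ e)
    omega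
  obtain ⟨a, ha, a', ha', hne⟩ := one_lt_card.1 h2
  refine ⟨a, a', fun hc => ?_⟩
  rw [hm hc]
  exact ⟨hne, (mem_filter.1 (mem_filter.1 ha).1).2.1, (mem_filter.1 (mem_filter.1 ha').1).2.1,
    (mem_filter.1 ha).2, (mem_filter.1 ha').2⟩

/-- the number of main common neighbours is even -/
theorem even_main (ht : 4 ≤ t) (e : TV t) (x₁ x₂ x₃ : LiftV C b)
    (h₁ : (ty x₁).isLeft = true ∨ ty x₁ = e) (h₂ : (ty x₂).isLeft = true ∨ ty x₂ = e)
    (h₃ : (ty x₃).isLeft = true ∨ ty x₃ = e) :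
    ((univ.filter fun z => (liftAdj C b x₁ z = true ∧ liftAdj C b x₂ z = true ∧
      liftAdj C b x₃ z = true) ∧ (ty z).isLeft = true).card : ZMod 2) = 0 := by
  choose a a' ha using exists_two_helpers ht e
  refine even_card_of_flip _ (fun c => Sum.inr (a c)) (fun c => Sum.inr (a' c))
    (fun x hx h => (ha _ hx.2).1 (Sum.inr_injective h)) (fun x hx => (ha _ hx.2).2.1)
    (fun x hx => (ha _ hx.2).2.2.1) ?_
  intro x y hx hy htag
  have hty : ty y = ty x := congrArg (typeOf C) hy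
  have key : ∀ w : LiftV C b, ((ty w).isLeft = true ∨ ty w = e) → liftAdj C b w x = true →
      liftAdj C b w y = true := by
    intro w hw h
    rw [liftAdj_iff] at h ⊢
    rw [hy, hty, htag]
    · exact h
    · rintro h'
      rcases hw with hw | hw
      · rw [h'] at hw; simp at hw
      · exact (ha _ hx.2).2.2.2.1 (h'.symm.trans hw)
    · rintro h'
      rcases hw with hw | hw
      · rw [h'] at hw; simp at hw
      · exact (ha _ hx.2).2.2.2.2 (h'.symm.trans hw)
  exact ⟨⟨key _ h₁ hx.1.1, key _ h₂ hx.1.2.1, key _ h₃ hx.1.2.2⟩, hty ▸ hx.2⟩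

theorem isLeft_of_adj_helper {x z : LiftV C b} (hx : (ty x).isLeft = false)
    (h : liftAdj C b x z = true) : (ty z).isLeft = true := by
  have := tAdj_of_liftAdj h
  generalize ty x = c at *
  generalize ty z = c' at *
  rcases c with _ | _ <;> rcases c' with _ | _ <;> simp_all [tAdj]

theorem cod3_helper (ht : 4 ≤ t) (x₁ x₂ x₃ : LiftV C b) (hx : (ty x₁).isLeft = false)
    (h₂ : liftAdj C b x₁ x₂ = true) (h₃ : liftAdj C b x₁ x₃ = true) :
    ((cod3 (liftAdj C b) x₁ x₂ x₃ : ℕ) : ZMod 2) = 0 := by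
  rw [← even_main ht (ty x₁) x₁ x₂ x₃ (Or.inr rfl) (Or.inl (isLeft_of_adj_helper hx h₂))
    (Or.inl (isLeft_of_adj_helper hx h₃))]
  unfold cod3
  congr 2
  refine filter_congr fun z _ => ⟨fun h => ⟨h, isLeft_of_adj_helper hx h.1⟩, fun h => h.1⟩

theorem card_base_tag (u : BV C) (f : TV t → Bool)
    (hf : ∀ a', tAdj (typeOf C u) a' = false → f a' = false) :
    ((univ.filter fun z : LiftV C b => z.1.1 = u ∧ tag z = f).card : ZMod 2) =
      1 + ∑ a, bz (f a) + bz (b (typeOf C u)) := by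
  classical
  by_cases hs : ∑ a, bz (f a) = bz (b (typeOf C u))
  · have : (univ.filter fun z : LiftV C b => z.1.1 = u ∧ tag z = f) = {mkV u f hf hs} := by
      ext z
      simp only [mem_filter, mem_univ, true_and, mem_singleton]
      constructor
      · rintro ⟨h1, h2⟩
        exact liftV_ext h1 (h2.trans (tag_mkV _ _ _ _).symm)
      · rintro rfl
        exact ⟨rfl, tag_mkV _ _ _ _⟩
    rw [this, hs, card_singleton, add_assoc, CharTwo.add_self_eq_zero]
    simp
  · have : (univ.filter fun z : LiftV C b => z.1.1 = u ∧ tag z = f) = ∅ := by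
      refine filter_eq_empty_iff.2 fun z _ hz => hs ?_
      rw [← hz.1, ← hz.2]
      exact sum_tag z
    rw [this, card_empty]
    generalize ∑ a, bz (f a) = r at *
    generalize bz (b (typeOf C u)) = s at *
    revert r s
    decide

section Clique

variable {w : Fin t → LiftV C b} {d : (i : Fin t) → Fin (C.dom i)}

theorem label_agree (hw : ∀ p, (w p).1.1 = Sum.inl ⟨p, d p⟩)
    (hc : ∀ p q, p ≠ q → liftAdj C b (w p) (w q) = true) {p q : Fin t} (hpq : p < q) :
    C.lamL p q (d p) = C.lamR p q (d q) := by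
  have := ((liftAdj_iff _ _).1 (hc p q hpq.ne)).1
  rw [hw, hw] at this
  simp only [bAdj, mainAgree, Bool.or_eq_true, decide_eq_true_eq] at this
  rcases this with ⟨_, h⟩ | ⟨h, -⟩
  · exact h
  · exact absurd h (not_lt.2 hpq.le)

theorem adj_all_iff (hw : ∀ p, (w p).1.1 = Sum.inl ⟨p, d p⟩)
    (hc : ∀ p q, p ≠ q → liftAdj C b (w p) (w q) = true) (h : Helper t) (z : LiftV C b) :
    (ty z = Sum.inr h ∧ ∀ p, tAdj (Sum.inl p) (Sum.inr h) = true → liftAdj C b (w p) z = true) ↔
      z.1.1 = Sum.inr ⟨h, C.lamL h.1.1 h.1.2.1 (d h.1.1)⟩ ∧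
        tag z = Sum.elim (fun p => tag (w p) (Sum.inr h)) (fun _ => false) := by
  have hty : ∀ p, ty (w p) = Sum.inl p := fun p => congrArg (typeOf C) (hw p)
  constructor
  · rintro ⟨hz, hadj⟩
    constructor
    · obtain ⟨q, hq⟩ : ∃ q, z.1.1 = Sum.inr ⟨h, q⟩ := by
        unfold ty at hz
        generalize z.1.1 = u at hz
        rcases u with p | ⟨h', q⟩
        · simp [typeOf] at hz
        · obtain rfl : h' = h := Sum.inr_injective hz
          exact ⟨q, rfl⟩
      have := ((liftAdj_iff _ _).1 (hadj h.1.1 ((tAdj_inl_inr _ _).2 (Or.inl rfl)))).1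
      rw [hw, hq] at this
      simp only [bAdj, helperAgree, decide_eq_true_eq] at this
      rcases this with ⟨_, e⟩ | ⟨e, -⟩ | e
      · rw [hq, e]; rfl
      · exact absurd e h.2.1.ne
      · exact absurd e.symm h.2.2.1
    · funext a
      rcases a with p | h'
      · by_cases hp : tAdj (Sum.inl p) (Sum.inr h) = true
        · have := ((liftAdj_iff _ _).1 (hadj p hp)).2
          rw [hz, hty] at this
          exact this.symm
        · have hp' : tAdj (Sum.inl p) (Sum.inr h) = false := by simpa using hp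
          rw [Sum.elim_inl, tag_of_not_adj (w p) (by rw [hty]; exact hp'),
            tag_of_not_adj z (by rw [hz, tAdj_symm]; exact hp')]
      · exact tag_of_not_adj z (by rw [hz]; rfl)
  · rintro ⟨hz, htag⟩
    have hz' : ty z = Sum.inr h := congrArg (typeOf C) hz
    refine ⟨hz', fun p hp => (liftAdj_iff _ _).2 ⟨?_, ?_⟩⟩
    · rw [hw, hz]
      simp only [bAdj, helperAgree, decide_eq_true_eq]
      rcases (tAdj_inl_inr _ _).1 hp with rfl | rfl | rfl
      · exact Or.inl ⟨rfl, rfl⟩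
      · exact Or.inr (Or.inl ⟨rfl, label_agree hw hc h.2.1⟩)
      · exact Or.inr (Or.inr rfl)
    · rw [hz', hty, htag]; rfl

theorem cod3_clique (ht : 4 ≤ t) (hb : ∀ h, b (Sum.inr h) = false)
    (hw : ∀ p, (w p).1.1 = Sum.inl ⟨p, d p⟩)
    (hc : ∀ p q, p ≠ q → liftAdj C b (w p) (w q) = true) {i j l : Fin t}
    (hij : i ≠ j) (hil : i ≠ l) (hjl : j ≠ l) :
    ((cod3 (liftAdj C b) (w i) (w j) (w l) : ℕ) : ZMod 2) =
      1 + ∑ h ∈ Hs i j l, ∑ p, bz (tag (w p) (Sum.inr h)) := by
  classical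
  have hty : ∀ p, ty (w p) = Sum.inl p := fun p => congrArg (typeOf C) (hw p)
  unfold cod3
  rw [← card_filter_add_card_filter_not (fun z => (ty z).isLeft = true), Nat.cast_add,
    filter_filter, even_main ht (Sum.inl i) _ _ _ (Or.inl (by rw [hty]; rfl))
      (Or.inl (by rw [hty]; rfl)) (Or.inl (by rw [hty]; rfl)), zero_add, filter_filter]
  rw [card_eq_sum_card_fiberwise (f := ty) (t := (Hs i j l).map ⟨Sum.inr, Sum.inr_injective⟩)]
  · rw [sum_map, Nat.cast_sum]
    have e1 : (1 : ZMod 2) = ∑ h ∈ Hs i j l, 1 := by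
      rw [sum_const, card_Hs hij hil hjl]; rfl
    rw [e1, ← sum_add_distrib]
    refine sum_congr rfl fun h hh => ?_
    have := card_base_tag (b := b) (Sum.inr ⟨h, C.lamL h.1.1 h.1.2.1 (d h.1.1)⟩)
      (Sum.elim (fun p => tag (w p) (Sum.inr h)) (fun _ => false)) (by
        rintro (p | h') hp
        · exact tag_of_not_adj (w p) (by rw [hty, tAdj_symm]; exact hp)
        · rfl)
    rw [Fintype.sum_sum_type] at this
    simp only [typeOf, hb, Sum.elim_inl, Sum.elim_inr] at this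
    have h0 : bz false = 0 := rfl
    rw [h0, sum_const_zero, add_zero, add_zero] at this
    rw [← this, filter_filter]
    congr 2
    refine filter_congr fun z _ => ?_
    rw [← adj_all_iff hw hc h z]
    simp only [adj_iff_of_mem_Hs hij hil hjl hh, Function.Embedding.coeFn_mk]
    constructor
    · rintro ⟨⟨⟨h1, h2, h3⟩, -⟩, h4⟩
      refine ⟨h4, ?_⟩
      rintro p (rfl | rfl | rfl) <;> assumption
    · rintro ⟨h4, h5⟩
      exact ⟨⟨⟨h5 i (by simp), h5 j (by simp), h5 l (by simp)⟩, by rw [h4]; simp⟩, h4⟩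
  · intro z hz
    obtain ⟨⟨h1, h2, h3⟩, h4⟩ := (mem_filter.1 hz).2
    have h1' := tAdj_of_liftAdj h1
    have h2' := tAdj_of_liftAdj h2
    have h3' := tAdj_of_liftAdj h3
    rw [hty] at h1' h2' h3'
    generalize ty z = c at *
    rcases c with p | h
    · simp at h4
    · exact mem_coe.2 (mem_map.2 ⟨h, mem_filter.2 ⟨mem_univ _, h1', h2', h3'⟩, rfl⟩)

theorem sum_tags_clique (hw : ∀ p, (w p).1.1 = Sum.inl ⟨p, d p⟩)
    (hc : ∀ p q, p ≠ q → liftAdj C b (w p) (w q) = true) :
    ∑ h : Helper t, ∑ p, bz (tag (w p) (Sum.inr h)) = ∑ p : Fin t, bz (b (Sum.inl p)) := by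
  have hty : ∀ p, ty (w p) = Sum.inl p := fun p => congrArg (typeOf C) (hw p)
  have h1 : ∑ p : Fin t, bz (b (Sum.inl p)) = ∑ p, ∑ a, bz (tag (w p) a) :=
    sum_congr rfl fun p _ => by rw [sum_tag, hty]
  have h2 : ∑ x : Fin t × Fin t, bz (tag (w x.1) (Sum.inl x.2)) = 0 := by
    refine Finset.sum_involution (fun x _ => x.swap) ?_ ?_ (fun _ _ => mem_univ _) (fun _ _ => rfl)
    · rintro ⟨p, q⟩ _
      by_cases hpq : p = q
      · subst hpq
        exact CharTwo.add_self_eq_zero _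
      · have := ((liftAdj_iff _ _).1 (hc p q hpq)).2
        rw [hty, hty] at this
        simp only [Prod.swap, this]
        exact CharTwo.add_self_eq_zero _
    · rintro ⟨p, q⟩ _ hne heq
      obtain rfl : q = p := congrArg Prod.fst heq
      apply hne
      rw [tag_of_not_adj (w q) (by rw [hty]; simp [tAdj])]
      rfl
  rw [h1]
  simp only [Fintype.sum_sum_type, sum_add_distrib]
  rw [Fintype.sum_prod_type] at h2
  rw [h2, zero_add, sum_comm]

end Clique

theorem odd_iff_cast (N : ℕ) : Odd N ↔ (N : ZMod 2) = 1 := ZMod.natCast_eq_one_iff_odd.symm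

theorem sum_parity_of_oddClique (ht : 4 ≤ t) (hb : ∀ h, b (Sum.inr h) = false)
    {u : Fin t → LiftV C b} (hu : OddClique (liftAdj C b) u) :
    ∑ p : Fin t, bz (b (Sum.inl p)) = 0 := by
  classical
  have hmain : ∀ i, ∃ p, ty (u i) = Sum.inl p := by
    intro i
    obtain ⟨j, hj, -, -⟩ := exists_fourth ht i i i
    obtain ⟨l, hl, hl', -⟩ := exists_fourth ht i j j
    have h1 := (odd_iff_cast _).1 (hu.2 i j l hj.symm hl.symm hl'.symm)
    rcases hi : ty (u i) with p | h
    · exact ⟨p, rfl⟩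
    · rw [cod3_helper ht _ _ _ (by rw [hi]; rfl) (hu.1 i j hj.symm) (hu.1 i l hl.symm)] at h1
      exact absurd h1 (by decide)
  choose τ hτ using hmain
  have hinj : Function.Injective τ := by
    intro i j hij
    by_contra hne
    have := tAdj_of_liftAdj (hu.1 i j hne)
    rw [hτ, hτ, hij] at this
    simp [tAdj] at this
  let e : Fin t ≃ Fin t := Equiv.ofBijective τ (Finite.injective_iff_bijective.1 hinj)
  have hd : ∀ p, ∃ dp, (u (e.symm p)).1.1 = Sum.inl ⟨p, dp⟩ := by
    intro p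
    have h1 : ty (u (e.symm p)) = Sum.inl p := by
      rw [hτ]; exact congrArg Sum.inl (e.apply_symm_apply p)
    unfold ty at h1
    generalize (u (e.symm p)).1.1 = v at h1
    rcases v with ⟨p', dp⟩ | q
    · obtain rfl : p' = p := Sum.inl_injective h1
      exact ⟨dp, rfl⟩
    · simp [typeOf] at h1
  choose d hd using hd
  have hc : ∀ p q, p ≠ q → liftAdj C b (u (e.symm p)) (u (e.symm q)) = true :=
    fun p q hpq => hu.1 _ _ (e.symm.injective.ne hpq)
  rw [← sum_tags_clique (w := fun p => u (e.symm p)) hd hc]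
  rw [← Finset.sum_fiberwise univ (fun h : Helper t => Hs h.1.1 h.1.2.1 h.1.2.2)]
  refine sum_eq_zero fun T _ => ?_
  rcases (univ.filter fun h : Helper t => Hs h.1.1 h.1.2.1 h.1.2.2 = T).eq_empty_or_nonempty with
    h0 | ⟨h0, hh0⟩
  · rw [h0, sum_empty]
  · obtain rfl := (mem_filter.1 hh0).2
    have n1 : h0.1.1 ≠ h0.1.2.1 := h0.2.1.ne
    have n2 : h0.1.1 ≠ h0.1.2.2 := h0.2.2.1.symm
    have n3 : h0.1.2.1 ≠ h0.1.2.2 := h0.2.2.2.symm
    have hT : (univ.filter fun h : Helper t =>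
        Hs h.1.1 h.1.2.1 h.1.2.2 = Hs h0.1.1 h0.1.2.1 h0.1.2.2) = Hs h0.1.1 h0.1.2.1 h0.1.2.2 := by
      ext h
      simp only [mem_filter, mem_univ, true_and]
      constructor
      · intro he
        rw [← he, mem_Hs]
        simp
      · intro hh
        have e1 := fun p => (tAdj_inl_inr p h).symm.trans (adj_iff_of_mem_Hs n1 n2 n3 hh p)
        ext h'
        constructor
        · intro hh'
          have e2 := adj_iff_of_mem_Hs h.2.1.ne h.2.2.1.symm h.2.2.2.symm hh'
          refine mem_filter.2 ⟨mem_univ _, ?_, ?_, ?_⟩ <;> rw [e2, e1] <;> simp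
        · intro hh'
          have e2 := adj_iff_of_mem_Hs n1 n2 n3 hh'
          refine mem_filter.2 ⟨mem_univ _, ?_, ?_, ?_⟩ <;> rw [e2, ← e1] <;> simp
    rw [hT]
    have h1 := cod3_clique (w := fun p => u (e.symm p)) ht hb hd hc n1 n2 n3
    have h2 := (odd_iff_cast _).1 (hu.2 _ _ _ (e.symm.injective.ne n1) (e.symm.injective.ne n2)
      (e.symm.injective.ne n3))
    rw [h2] at h1
    exact (add_eq_left.1 h1.symm)

theorem not_oddClique_star (ht : 4 ≤ t) (u : Fin t → LiftV C (liftStarParity t)) :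
    ¬ OddClique (liftAdj C (liftStarParity t)) u := by
  intro hu
  have h := sum_parity_of_oddClique ht (fun h => by simp [liftStarParity]) hu
  have h0 : 0 < t := by omega
  rw [Finset.sum_eq_single ⟨0, h0⟩] at h
  · have : liftStarParity t (Sum.inl ⟨0, h0⟩) = true := by simp [liftStarParity, h0]
    rw [this] at h
    exact absurd h (by decide)
  · intro p _ hp
    have : liftStarParity t (Sum.inl p) = false := by
      simp only [liftStarParity, decide_eq_false_iff_not]
      rintro ⟨_, h⟩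
      exact hp (Sum.inl_injective h)
    rw [this]; rfl
  · simp

theorem exists_oddClique_even (ht : 4 ≤ t) (hC : C.Successful) :
    ∃ u : Fin t → LiftV C (lift0Parity t), OddClique (liftAdj C (lift0Parity t)) u := by
  obtain ⟨d, hd⟩ := hC
  let w : Fin t → LiftV C (lift0Parity t) := fun p =>
    mkV (Sum.inl ⟨p, d p⟩) (fun _ => false) (fun _ _ => rfl) (by simp [bz, lift0Parity])
  have hw : ∀ p, (w p).1.1 = Sum.inl ⟨p, d p⟩ := fun _ => rfl
  have htag : ∀ p, tag (w p) = fun _ => false := fun p => tag_mkV _ _ _ _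
  have hc : ∀ p q, p ≠ q → liftAdj C (lift0Parity t) (w p) (w q) = true := by
    intro p q hpq
    rw [liftAdj_iff, hw, hw, htag, htag]
    refine ⟨?_, rfl⟩
    simp only [bAdj, mainAgree, Bool.or_eq_true, decide_eq_true_eq]
    rcases lt_or_gt_of_ne hpq with h | h
    · exact Or.inl ⟨h, hd p q h⟩
    · exact Or.inr ⟨h, hd q p h⟩
  refine ⟨w, hc, fun i j l hij hil hjl => (odd_iff_cast _).2 ?_⟩
  rw [cod3_clique ht (fun _ => rfl) hw hc hij hil hjl]
  simp [htag, bz]

end Crest.Agent.R290.PL2
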