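import Crest.Agent.R290.WL1
import Crest.Prelude.Def_ParityLift
import Crest.Agent.R290.PL2C

/-!
# rid 290, task PL2 (for S0438): pure tuples in the disjoint union; a successful choice is detected
-/

set_option autoImplicit false

namespace Crest.Agent.R290

open Crest.WLRefine Crest.WLRefine.ParityLift

/-- Positions of the game of the disjoint union against itself. -/
def unionPos {n m : ℕ} (Pos : Set (Fin n × Fin m) → Prop)
    (S : Set ((Fin n ⊕ Fin m) × (Fin n ⊕ Fin m))) : Prop :=
  (∀ p ∈ S, (∃ a c, p = (Sum.inl a, Sum.inr c)) ∨ ∃ a c, p = (Sum.inr c, Sum.inl a)) ∧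
    Pos {q | (Sum.inl q.1, Sum.inr q.2) ∈ S} ∧ Pos {q | (Sum.inr q.2, Sum.inl q.1) ∈ S}

theorem IsGame.union {n m K : ℕ} {G : Fin n → Fin n → Bool} {H : Fin m → Fin m → Bool}
    {Pos : Set (Fin n × Fin m) → Prop} (h : IsGame G H K Pos) :
    IsGame (unionAdj G H) (unionAdj G H) K (unionPos Pos) where
  empty := ⟨by simp, by simpa using h.empty, by simpa using h.empty⟩
  down hS hs := ⟨fun p hp => hS.1 p (hs hp), h.down hS.2.1 fun _ hq => hs hq,
    h.down hS.2.2 fun _ hq => hs hq⟩
  inj hS p hp q hq := by
    rcases hS.1 p hp with ⟨a, c, rfl⟩ | ⟨a, c, rfl⟩ <;>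
      rcases hS.1 q hq with ⟨a', c', rfl⟩ | ⟨a', c', rfl⟩
    · simpa using h.inj hS.2.1 (a, c) hp (a', c') hq
    · simp
    · simp
    · simpa using (h.inj hS.2.2 (a, c) hp (a', c') hq).symm
  adj hS p hp q hq := by
    rcases hS.1 p hp with ⟨a, c, rfl⟩ | ⟨a, c, rfl⟩ <;>
      rcases hS.1 q hq with ⟨a', c', rfl⟩ | ⟨a', c', rfl⟩
    · exact h.adj hS.2.1 (a, c) hp (a', c') hq
    · rfl
    · rfl
    · exact (h.adj hS.2.2 (a, c) hp (a', c') hq).symm
  ext {S} hS hc := by
    have c1 : Set.ncard {q : Fin n × Fin m | (Sum.inl q.1, Sum.inr q.2) ∈ S} ≤ S.ncard :=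
      Set.ncard_le_ncard_of_injOn (fun q => (Sum.inl q.1, Sum.inr q.2)) (fun _ hq => hq)
        (fun x _ y _ hxy => by
          simp only [Prod.mk.injEq, Sum.inl.injEq, Sum.inr.injEq] at hxy
          exact Prod.ext hxy.1 hxy.2)
    have c2 : Set.ncard {q : Fin n × Fin m | (Sum.inr q.2, Sum.inl q.1) ∈ S} ≤ S.ncard :=
      Set.ncard_le_ncard_of_injOn (fun q => (Sum.inr q.2, Sum.inl q.1)) (fun _ hq => hq)
        (fun x _ y _ hxy => by
          simp only [Prod.mk.injEq, Sum.inl.injEq, Sum.inr.injEq] at hxy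
          exact Prod.ext hxy.2 hxy.1)
    obtain ⟨f₁, hf₁⟩ := h.ext hS.2.1 (c1.trans_lt hc)
    obtain ⟨f₂, hf₂⟩ := h.ext hS.2.2 (c2.trans_lt hc)
    refine ⟨(Equiv.sumCongr f₁ f₂.symm).trans (Equiv.sumComm _ _), ?_⟩
    rintro (a | c)
    · refine ⟨?_, h.down (hf₁ a) ?_, h.down hS.2.2 ?_⟩
      · rintro p (rfl | hp)
        · exact Or.inl ⟨a, f₁ a, rfl⟩
        · exact hS.1 p hp
      · rintro ⟨x, y⟩ (hq | hq)
        · left
          simpa using hq
        · exact Or.inr hq
      · rintro ⟨x, y⟩ (hq | hq)
        · simp at hq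
        · exact hq
    · refine ⟨?_, h.down hS.2.1 ?_, h.down (hf₂ (f₂.symm c)) ?_⟩
      · rintro p (rfl | hp)
        · exact Or.inr ⟨f₂.symm c, c, rfl⟩
        · exact hS.1 p hp
      · rintro ⟨x, y⟩ (hq | hq)
        · simp at hq
        · exact hq
      · rintro ⟨x, y⟩ (hq | hq)
        · left
          simpa [and_comm] using hq
        · exact Or.inr hq

theorem exists_union_game {n m k K : ℕ} {G : Fin n → Fin n → Bool} {H : Fin m → Fin m → Bool}
    (h : Game G H K) (hk : k ≤ K) :
    ∃ Pos, IsGame (asMatrix (unionAdj G H)) (asMatrix (unionAdj G H)) K Pos ∧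
      ∃ F : (Fin k → Fin n) ≃ (Fin k → Fin m), ∀ v, Pos (Set.range fun i =>
        ((Fintype.equivFin _ ∘ Sum.inl ∘ v) i, (Fintype.equivFin _ ∘ Sum.inr ∘ F v) i)) := by
  obtain ⟨Pos, hP⟩ := h
  obtain ⟨F, hF⟩ := exists_tuple_equiv hP hk
  refine ⟨_, hP.union.comap (Fintype.equivFin _).symm (Fintype.equivFin _).symm, F, fun v => ?_⟩
  rw [← Set.range_comp]
  refine ⟨?_, hP.down (hF v) ?_, hP.down hP.empty ?_⟩
  · rintro _ ⟨i, rfl⟩
    exact Or.inl ⟨v i, F v i, by simp⟩
  · rintro ⟨x, y⟩ ⟨i, hi⟩
    exact ⟨i, by simpa using hi⟩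
  · rintro ⟨x, y⟩ ⟨i, hi⟩
    simp at hi

/-- Game on `U = unionAdj G H` against itself: all pairs of `S` have the form `(inl a, inr c)` or
`(inr c, inl a)`, and both `{(a, c) | (inl a, inr c) ∈ S}`, `{(a, c) | (inr c, inl a) ∈ S}` are
positions; the bijection is `f₁ ⊕ f₂⁻¹` (swap the sides).  Transport with `IsGame.comap`, then
`exists_tuple_equiv` and `jcolor_eq_of_game`. -/
theorem pureJ_of_game {n m k : ℕ} {G : Fin n → Fin n → Bool} {H : Fin m → Fin m → Bool}
    (h : Game G H (k + 1)) : PureJEquiv k G H := by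
  intro s
  obtain ⟨Pos, hP, F, hF⟩ := exists_union_game h (Nat.le_succ k)
  unfold PureJHistEq
  rw [← Multiset.map_univ_val_equiv F, Multiset.map_map]
  exact Multiset.map_congr rfl fun v _ => jcolor_eq_of_game hP s _ _ (hF v)

theorem pureS_of_game {n m k : ℕ} {G : Fin n → Fin n → Bool} {H : Fin m → Fin m → Bool}
    (h : Game G H k) : PureSEquiv k G H := by
  intro s
  obtain ⟨Pos, hP, F, hF⟩ := exists_union_game h (le_refl k)
  unfold PureSHistEq
  rw [← Multiset.map_univ_val_equiv F, Multiset.map_map]
  exact Multiset.map_congr rfl fun v _ => scolor_eq_of_game hP s _ _ (hF v)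

theorem exists_oddClique_asMatrix {V κ : Type} [Fintype V] {Γ : V → V → Bool}
    (h : ∃ u : κ → V, OddClique Γ u) : ∃ u : κ → Fin (Fintype.card V), OddClique (asMatrix Γ) u :=
  let ⟨u, hu⟩ := h
  ⟨_, ((closedEmb_asMatrix Γ).oddClique_iff u).2 hu⟩

theorem not_oddClique_asMatrix {V κ : Type} [Fintype V] {Γ : V → V → Bool}
    (h : ∀ u : κ → V, ¬ OddClique Γ u) (u : κ → Fin (Fintype.card V)) :
    ¬ OddClique (asMatrix Γ) u := by
  intro hu
  refine h ((Fintype.equivFin V).symm ∘ u) (((closedEmb_asMatrix Γ).oddClique_iff _).1 ?_)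
  rwa [← Function.comp_assoc, Equiv.self_comp_symm, Function.id_comp]

/-- (Implemented with the simpler invariant `OddClique`: a clique all of whose triples have an odd
number of common neighbours, see `PL2A`, `PL2B`, `PL2C`.)
For a finite graph `Γ` and a `t`-tuple `u` let `cod Γ u A` (`A ⊆ Fin t`) be the number of common
neighbours of the `u i`, `i ∈ A`, and `Φ π Γ u :=` `u` is a clique (`Γ (u i) (u j)` for `i ≠ j`), and
(`t ≥ 5` or all `cod {i, j} % 4 = 2`), and `∑ over 3-subsets A, cod A ≡ π (mod 2)`.
(1) In a lift with parity `b`, if `Φ π` holds then all `u i` are mains of pairwise different types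
(types of adjacent vertices are adjacent in the template; a helper has only three neighbours; for
`t = 4` a helper vertex and an adjacent main have only main common neighbours, their number is a
multiple of `4` since a main has `12` template neighbours and only two coordinates and the parity
are prescribed).  For such a clique every triple `{i, j, l}` has an even number of main common
neighbours (flip two free tag coordinates), and for each of the three helpers `h` of the triple
exactly one common neighbour of type `h` if `z_i(h) + z_j(h) + z_l(h)` is even and none otherwise.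
Summing the parities of all tags, main edges cancel, so the number of violated helpers is
`≡ ∑ b (main)`.  Hence `π ≡ 3 C(t,3) + ∑ b(main)`: it is `π₀ = C(t,3)` in the even lift and `π₀ + 1`
in the other.  A successful choice with all-zero tags has `Φ π₀` in the even lift (for `t = 4` a pair
of mains has `3 (t - 2) = 6` helper common neighbours plus a multiple of `4`).
(2) `Φ π Γ u` only depends on `scolor Γ t 1 u` (for `|A| < t` read `cod A` off the multiset of a
coordinate outside `A`), and `∃ z, Φ π Γ (Fin.snoc v z)` only depends on `jcolor Γ k 2 v`,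
`t = k + 1` (triples inside `v`: round-1 colour of `v`; triples with `z`: round-1 colour of
`update v i z` for `i` outside the triple; adjacency of `z`: round 0).
(3) `Φ` is invariant under relabelling (`asMatrix`) and under passing to the disjoint union (common
neighbours and `z` stay in the same part).  It is convenient to prove (2) for two arbitrary matrices
`Γ, Γ'`, and (3) for an injection `ι` whose image is closed under adjacency. -/
theorem lift_detect_joint {k : ℕ} (hk : 4 ≤ k) (C : ChoiceSystem (k + 1)) (hC : C.Successful) :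
    (Finset.univ.val.map (jcolor (asMatrix (liftAdj C (lift0Parity (k + 1)))) k 2)) ≠
      Finset.univ.val.map (jcolor (asMatrix (liftAdj C (liftStarParity (k + 1)))) k 2) ∧
    ¬ PureJHistEq k 2 (asMatrix (liftAdj C (lift0Parity (k + 1))))
      (asMatrix (liftAdj C (liftStarParity (k + 1)))) :=
  detect_joint hk (exists_oddClique_asMatrix (PL2.exists_oddClique_even (by omega) hC))
    (not_oddClique_asMatrix (PL2.not_oddClique_star (by omega)))

theorem lift_detect_sep {k : ℕ} (hk : 4 ≤ k) (C : ChoiceSystem k) (hC : C.Successful) :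
    (Finset.univ.val.map (scolor (asMatrix (liftAdj C (lift0Parity k))) k 1)) ≠
      Finset.univ.val.map (scolor (asMatrix (liftAdj C (liftStarParity k))) k 1) ∧
    ¬ PureSHistEq k 1 (asMatrix (liftAdj C (lift0Parity k)))
      (asMatrix (liftAdj C (liftStarParity k))) :=
  detect_sep hk (exists_oddClique_asMatrix (PL2.exists_oddClique_even hk hC))
    (not_oddClique_asMatrix (PL2.not_oddClique_star hk))

end Crest.Agent.R290
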