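import Crest.Prelude.Def_ParityLift

/-!
# rid 290, task PL2, part A: cliques with odd triple codegrees are seen by the refinement
-/

set_option autoImplicit false

namespace Crest.Agent.R290

open Crest.WLRefine Crest.WLRefine.ParityLift Finset

/-- number of common neighbours of three vertices -/
def cod3 {V : Type} [Fintype V] (Γ : V → V → Bool) (a b c : V) : ℕ :=
  (univ.filter fun z => Γ a z = true ∧ Γ b z = true ∧ Γ c z = true).card

/-- `u` is a clique all of whose triples have an odd number of common neighbours -/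
def OddClique {V ι : Type} [Fintype V] (Γ : V → V → Bool) (u : ι → V) : Prop :=
  (∀ i j, i ≠ j → Γ (u i) (u j) = true) ∧
    ∀ i j l, i ≠ j → i ≠ l → j ≠ l → Odd (cod3 Γ (u i) (u j) (u l))

/-- the two tuples have the same adjacencies and triple codegrees -/
def SimT {V W ι : Type} [Fintype V] [Fintype W] (Γ : V → V → Bool) (u : ι → V)
    (Γ' : W → W → Bool) (u' : ι → W) : Prop :=
  (∀ i j, Γ (u i) (u j) = Γ' (u' i) (u' j)) ∧
    ∀ i j l, cod3 Γ (u i) (u j) (u l) = cod3 Γ' (u' i) (u' j) (u' l)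

theorem SimT.oddClique {V W ι : Type} [Fintype V] [Fintype W] {Γ : V → V → Bool} {u : ι → V}
    {Γ' : W → W → Bool} {u' : ι → W} (h : SimT Γ u Γ' u') (hu : OddClique Γ u) :
    OddClique Γ' u' :=
  ⟨fun i j hij => (h.1 i j) ▸ hu.1 i j hij, fun i j l h1 h2 h3 => (h.2 i j l) ▸ hu.2 i j l h1 h2 h3⟩

theorem exists_fourth {k : ℕ} (hk : 4 ≤ k) (i j l : Fin k) : ∃ a : Fin k, a ≠ i ∧ a ≠ j ∧ a ≠ l := by
  by_contra hcon
  push Not at hcon
  have hsub : (univ : Finset (Fin k)) ⊆ {i, j, l} := by
    intro a _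
    simp only [mem_insert, mem_singleton]
    by_cases h1 : a = i
    · exact Or.inl h1
    by_cases h2 : a = j
    · exact Or.inr (Or.inl h2)
    exact Or.inr (Or.inr (hcon a h1 h2))
  have h1 := card_le_card hsub
  have h2 : ({i, j, l} : Finset (Fin k)).card ≤ 3 := card_le_three
  rw [card_univ, Fintype.card_fin] at h1
  omega

theorem cod3_eq_countP {n k : ℕ} (Γ : Fin n → Fin n → Bool) (u : Fin k → Fin n) {a i j l : Fin k}
    (hi : a ≠ i) (hj : a ≠ j) (hl : a ≠ l) :
    cod3 Γ (u i) (u j) (u l) =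
      Multiset.card (((univ : Finset (Fin n)).val.map fun z =>
        atomicType Γ (Function.update u a z)).filter
          fun c => c.2 i a = true ∧ c.2 j a = true ∧ c.2 l a = true) := by
  rw [Multiset.filter_map, Multiset.card_map]
  unfold cod3
  rw [Finset.card_def, Finset.filter_val]
  congr 1
  apply Multiset.filter_congr
  intro z _
  simp [atomicType, Function.update_of_ne hi.symm, Function.update_of_ne hj.symm,
    Function.update_of_ne hl.symm]

variable {n m k : ℕ} {Γ : Fin n → Fin n → Bool} {Γ' : Fin m → Fin m → Bool}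

theorem simT_of_scolor (hk : 4 ≤ k) {u : Fin k → Fin n} {u' : Fin k → Fin m}
    (h : scolor Γ k 1 u = scolor Γ' k 1 u') : SimT Γ u Γ' u' := by
  have h1 : atomicType Γ u = atomicType Γ' u' := congrArg Prod.fst h
  have h2 : ∀ a, ((univ : Finset (Fin n)).val.map fun z => atomicType Γ (Function.update u a z)) =
      ((univ : Finset (Fin m)).val.map fun z => atomicType Γ' (Function.update u' a z)) :=
    fun a => congrFun (congrArg Prod.snd h) a
  refine ⟨fun i j => congrFun (congrFun (congrArg Prod.snd h1) i) j, fun i j l => ?_⟩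
  obtain ⟨a, hi, hj, hl⟩ := exists_fourth hk i j l
  rw [cod3_eq_countP Γ u hi hj hl, cod3_eq_countP Γ' u' hi hj hl, h2 a]

theorem simT_of_jcolor (hk : 4 ≤ k) {u : Fin k → Fin n} {u' : Fin k → Fin m}
    (h : jcolor Γ k 1 u = jcolor Γ' k 1 u') : SimT Γ u Γ' u' := by
  have h1 : atomicType Γ u = atomicType Γ' u' := congrArg Prod.fst h
  have h3 : ((univ : Finset (Fin n)).val.map fun z => fun i =>
        atomicType Γ (Function.update u i z)) =
      ((univ : Finset (Fin m)).val.map fun z => fun i => atomicType Γ' (Function.update u' i z)) :=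
    congrArg Prod.snd h
  have h2 : ∀ a, ((univ : Finset (Fin n)).val.map fun z => atomicType Γ (Function.update u a z)) =
      ((univ : Finset (Fin m)).val.map fun z => atomicType Γ' (Function.update u' a z)) := by
    intro a
    have := congrArg (Multiset.map fun f => f a) h3
    simpa only [Multiset.map_map, Function.comp_def] using this
  refine ⟨fun i j => congrFun (congrFun (congrArg Prod.snd h1) i) j, fun i j l => ?_⟩
  obtain ⟨a, hi, hj, hl⟩ := exists_fourth hk i j l
  rw [cod3_eq_countP Γ u hi hj hl, cod3_eq_countP Γ' u' hi hj hl, h2 a]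

theorem cons_eq_update {V : Type} (v : Fin k → V) (z : V) (a : Fin k) (i : Fin (k + 1))
    (hi : a.succ ≠ i) :
    (Fin.cons z v : Fin (k + 1) → V) i = Function.update v a z (Fin.cases a id i) := by
  induction i using Fin.cases with
  | zero => simp
  | succ c =>
    have : c ≠ a := fun h => hi (h ▸ rfl)
    simp [Function.update_of_ne this]

theorem simT_cons_of_jcolor (hk : 4 ≤ k) {v : Fin k → Fin n} {v' : Fin k → Fin m}
    (h : jcolor Γ k 2 v = jcolor Γ' k 2 v') (z : Fin n) :
    ∃ z' : Fin m, SimT Γ (Fin.cons z v : Fin (k + 1) → Fin n) Γ' (Fin.cons z' v') := by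
  have h3 : ((univ : Finset (Fin n)).val.map fun z => fun i =>
        jcolor Γ k 1 (Function.update v i z)) =
      ((univ : Finset (Fin m)).val.map fun z => fun i => jcolor Γ' k 1 (Function.update v' i z)) :=
    congrArg Prod.snd h
  have hz : (fun i => jcolor Γ k 1 (Function.update v i z)) ∈
      ((univ : Finset (Fin m)).val.map fun z => fun i =>
        jcolor Γ' k 1 (Function.update v' i z)) := by
    rw [← h3]
    exact Multiset.mem_map_of_mem _ (mem_univ z)
  obtain ⟨z', -, hz'⟩ := Multiset.mem_map.1 hz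
  have hs : ∀ a, SimT Γ (Function.update v a z) Γ' (Function.update v' a z') :=
    fun a => simT_of_jcolor hk (congrFun hz' a).symm
  have key : ∀ i j l : Fin (k + 1), ∃ a : Fin k, a.succ ≠ i ∧ a.succ ≠ j ∧ a.succ ≠ l := by
    intro i j l
    have h0 : 0 < k := by omega
    obtain ⟨a, h1, h2, h3⟩ := exists_fourth hk (Fin.cases ⟨0, h0⟩ id i) (Fin.cases ⟨0, h0⟩ id j)
      (Fin.cases ⟨0, h0⟩ id l)
    refine ⟨a, ?_, ?_, ?_⟩ <;> rintro rfl <;> simp at *
  refine ⟨z', fun i j => ?_, fun i j l => ?_⟩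
  · obtain ⟨a, hi, hj, -⟩ := key i j j
    rw [cons_eq_update v z a i hi, cons_eq_update v z a j hj, cons_eq_update v' z' a i hi,
      cons_eq_update v' z' a j hj]
    exact (hs a).1 _ _
  · obtain ⟨a, hi, hj, hl⟩ := key i j l
    rw [cons_eq_update v z a i hi, cons_eq_update v z a j hj, cons_eq_update v' z' a i hi,
      cons_eq_update v' z' a j hj, cons_eq_update v z a l hl, cons_eq_update v' z' a l hl]
    exact (hs a).2 _ _ _

/-- An embedding whose image is closed under adjacency. -/
structure ClosedEmb {V W : Type} (Γ : V → V → Bool) (Γ' : W → W → Bool) (ι : V → W) : Prop where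
  inj : Function.Injective ι
  adj : ∀ a b, Γ' (ι a) (ι b) = Γ a b
  closed : ∀ a w, Γ' (ι a) w = true → ∃ b, w = ι b

theorem ClosedEmb.cod3_eq {V W : Type} [Fintype V] [Fintype W] {Γ : V → V → Bool}
    {Γ' : W → W → Bool} {ι : V → W} (h : ClosedEmb Γ Γ' ι) (a b c : V) :
    cod3 Γ a b c = cod3 Γ' (ι a) (ι b) (ι c) := by
  unfold cod3
  refine card_bij (fun z _ => ι z) ?_ ?_ ?_
  · intro z hz
    simpa [h.adj] using hz
  · intro z _ z' _ hzz
    exact h.inj hzz
  · intro w hw
    have hw' := (mem_filter.1 hw).2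
    obtain ⟨z, rfl⟩ := h.closed a w hw'.1
    exact ⟨z, by simpa [h.adj] using hw', rfl⟩

theorem ClosedEmb.oddClique_iff {V W κ : Type} [Fintype V] [Fintype W] {Γ : V → V → Bool}
    {Γ' : W → W → Bool} {ι : V → W} (h : ClosedEmb Γ Γ' ι) (u : κ → V) :
    OddClique Γ' (ι ∘ u) ↔ OddClique Γ u := by
  unfold OddClique
  simp only [Function.comp_apply, h.adj, ← h.cod3_eq]

theorem closedEmb_asMatrix {V : Type} [Fintype V] (Γ : V → V → Bool) :
    ClosedEmb Γ (asMatrix Γ) (Fintype.equivFin V) :=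
  ⟨(Fintype.equivFin V).injective, fun a b => by simp [asMatrix],
    fun _ w _ => ⟨(Fintype.equivFin V).symm w, by simp⟩⟩

theorem closedEmb_inl (G : Fin n → Fin n → Bool) (H : Fin m → Fin m → Bool) :
    ClosedEmb G (asMatrix (unionAdj G H)) (Fintype.equivFin _ ∘ Sum.inl) := by
  refine ⟨(Fintype.equivFin _).injective.comp Sum.inl_injective,
    fun a b => by simp [asMatrix, unionAdj], fun a w hw => ?_⟩
  obtain ⟨w, rfl⟩ := (Fintype.equivFin _).surjective w
  rcases w with b | b
  · exact ⟨b, rfl⟩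
  · simp [asMatrix, unionAdj] at hw

theorem closedEmb_inr (G : Fin n → Fin n → Bool) (H : Fin m → Fin m → Bool) :
    ClosedEmb H (asMatrix (unionAdj G H)) (Fintype.equivFin _ ∘ Sum.inr) := by
  refine ⟨(Fintype.equivFin _).injective.comp Sum.inr_injective,
    fun a b => by simp [asMatrix, unionAdj], fun a w hw => ?_⟩
  obtain ⟨w, rfl⟩ := (Fintype.equivFin _).surjective w
  rcases w with b | b
  · simp [asMatrix, unionAdj] at hw
  · exact ⟨b, rfl⟩

theorem detect_sep (hk : 4 ≤ k) {G : Fin n → Fin n → Bool} {H : Fin m → Fin m → Bool}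
    (hG : ∃ u : Fin k → Fin n, OddClique G u) (hH : ∀ u : Fin k → Fin m, ¬ OddClique H u) :
    (univ.val.map (scolor G k 1)) ≠ univ.val.map (scolor H k 1) ∧ ¬ PureSHistEq k 1 G H := by
  obtain ⟨u, hu⟩ := hG
  constructor
  · intro h
    have : scolor G k 1 u ∈ (univ : Finset (Fin k → Fin m)).val.map (scolor H k 1) := by
      rw [← h]; exact Multiset.mem_map_of_mem _ (mem_univ u)
    obtain ⟨u', -, hu'⟩ := Multiset.mem_map.1 this
    exact hH u' ((simT_of_scolor hk hu'.symm).oddClique hu)
  · intro h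
    unfold PureSHistEq at h
    have : scolor (asMatrix (unionAdj G H)) k 1 (Fintype.equivFin _ ∘ Sum.inl ∘ u) ∈
        (univ : Finset (Fin k → Fin m)).val.map
      (fun v => scolor (asMatrix (unionAdj G H)) k 1 (Fintype.equivFin _ ∘ Sum.inr ∘ v)) := by
      rw [← h]; exact Multiset.mem_map_of_mem _ (mem_univ u)
    obtain ⟨u', -, hu'⟩ := Multiset.mem_map.1 this
    have h1 := ((closedEmb_inl G H).oddClique_iff u).2 hu
    have h2 := (simT_of_scolor hk hu'.symm).oddClique h1
    exact hH u' (((closedEmb_inr G H).oddClique_iff u').1 h2)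

theorem detect_joint (hk : 4 ≤ k) {G : Fin n → Fin n → Bool} {H : Fin m → Fin m → Bool}
    (hG : ∃ u : Fin (k + 1) → Fin n, OddClique G u)
    (hH : ∀ u : Fin (k + 1) → Fin m, ¬ OddClique H u) :
    (univ.val.map (jcolor G k 2)) ≠ univ.val.map (jcolor H k 2) ∧ ¬ PureJHistEq k 2 G H := by
  obtain ⟨u, hu⟩ := hG
  obtain ⟨z, v, rfl⟩ : ∃ z v, u = Fin.cons z v := ⟨u 0, Fin.tail u, (Fin.cons_self_tail u).symm⟩
  constructor
  · intro h
    have : jcolor G k 2 v ∈ (univ : Finset (Fin k → Fin m)).val.map (jcolor H k 2) := by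
      rw [← h]; exact Multiset.mem_map_of_mem _ (mem_univ v)
    obtain ⟨v', -, hv'⟩ := Multiset.mem_map.1 this
    obtain ⟨z', hz'⟩ := simT_cons_of_jcolor hk hv'.symm z
    exact hH _ (hz'.oddClique hu)
  · intro h
    unfold PureJHistEq at h
    have : jcolor (asMatrix (unionAdj G H)) k 2 (Fintype.equivFin _ ∘ Sum.inl ∘ v) ∈
        (univ : Finset (Fin k → Fin m)).val.map
      (fun v => jcolor (asMatrix (unionAdj G H)) k 2 (Fintype.equivFin _ ∘ Sum.inr ∘ v)) := by
      rw [← h]; exact Multiset.mem_map_of_mem _ (mem_univ v)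
    obtain ⟨v', -, hv'⟩ := Multiset.mem_map.1 this
    have h1 := ((closedEmb_inl G H).oddClique_iff _).2 hu
    obtain ⟨z', hz'⟩ := simT_cons_of_jcolor hk hv'.symm (Fintype.equivFin _ (Sum.inl z))
    have e1 : ((Fintype.equivFin (Fin n ⊕ Fin m) ∘ Sum.inl) ∘ (Fin.cons z v : Fin (k + 1) → Fin n)) =
        Fin.cons (Fintype.equivFin _ (Sum.inl z)) (Fintype.equivFin _ ∘ Sum.inl ∘ v) := by
      funext i
      induction i using Fin.cases <;> simp
    rw [e1] at h1
    have h2 := hz'.oddClique h1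
    have h0 : 0 < k := by omega
    have h3 := h2.1 (Fin.succ ⟨0, h0⟩) 0 (Fin.succ_ne_zero _)
    simp only [Fin.cons_succ, Fin.cons_zero] at h3
    obtain ⟨z'', rfl⟩ := (closedEmb_inr G H).closed (v' ⟨0, h0⟩) z' h3
    have e2 : ((Fintype.equivFin (Fin n ⊕ Fin m) ∘ Sum.inr) ∘
        (Fin.cons z'' v' : Fin (k + 1) → Fin m)) =
        Fin.cons ((Fintype.equivFin _ ∘ Sum.inr) z'') (Fintype.equivFin _ ∘ Sum.inr ∘ v') := by
      funext i
      induction i using Fin.cases <;> simp
    rw [← e2] at h2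
    exact hH _ (((closedEmb_inr G H).oddClique_iff _).1 h2)

end Crest.Agent.R290
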