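import Crest.Agent.R290.PL2A

/-!
# rid 290, task PL2, part B: cliques with odd triple codegrees in the parity lifts
-/

set_option autoImplicit false

namespace Crest.Agent.R290.PL2

open Crest.WLRefine Crest.WLRefine.ParityLift Finset

variable {t : ℕ} {C : ChoiceSystem t} {b : TV t → Bool}

/-- the type of a lift vertex -/
def ty (x : LiftV C b) : TV t := typeOf C x.1.1

/-- the tag of a lift vertex, extended by `false` -/
def tag (x : LiftV C b) (a : TV t) : Bool :=
  if h : tAdj (ty x) a = true then x.1.2 ⟨a, h⟩ else false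

/-- a Boolean as an element of `ZMod 2` -/
def bz (c : Bool) : ZMod 2 := if c = true then 1 else 0

theorem tAdj_symm (a a' : TV t) : tAdj a a' = tAdj a' a := by
  rcases a with i | h <;> rcases a' with j | h' <;> simp [tAdj, eq_comm]

theorem tAdj_of_bAdj {u v : BV C} (h : bAdj C u v = true) :
    tAdj (typeOf C u) (typeOf C v) = true := by
  have key : ∀ (p : Σ i : Fin t, Fin (C.dom i))
      (hq : Σ h : Helper t, Fin (C.lab h.1.1 h.1.2.1)), helperAgree C p hq = true →
      (p.1 = hq.1.1.1 ∨ p.1 = hq.1.1.2.1 ∨ p.1 = hq.1.1.2.2) := by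
    intro p hq h
    simp only [helperAgree, decide_eq_true_eq] at h
    rcases h with ⟨e, -⟩ | ⟨e, -⟩ | e
    · exact Or.inl e
    · exact Or.inr (Or.inl e)
    · exact Or.inr (Or.inr e)
  rcases u with p | hq <;> rcases v with q | hq'
  · simp only [bAdj, mainAgree, Bool.or_eq_true, decide_eq_true_eq] at h
    simp only [typeOf, tAdj, decide_eq_true_eq]
    rcases h with ⟨h, -⟩ | ⟨h, -⟩
    · exact h.ne
    · exact h.ne'
  · simpa [typeOf, tAdj] using key p hq' h
  · simpa [typeOf, tAdj] using key q hq h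
  · simp [bAdj] at h

theorem liftAdj_iff (x y : LiftV C b) :
    liftAdj C b x y = true ↔ bAdj C x.1.1 y.1.1 = true ∧ tag x (ty y) = tag y (ty x) := by
  unfold liftAdj
  rw [decide_eq_true_eq]
  constructor
  · rintro ⟨h, h', h1, h2⟩
    refine ⟨h1, ?_⟩
    unfold tag
    rw [dif_pos (show tAdj (ty x) (ty y) = true from h),
      dif_pos (show tAdj (ty y) (ty x) = true from h')]
    exact h2
  · rintro ⟨h1, h2⟩
    have h := tAdj_of_bAdj h1
    have h' : tAdj (typeOf C y.1.1) (typeOf C x.1.1) = true := by rw [tAdj_symm]; exact h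
    refine ⟨h, h', h1, ?_⟩
    unfold tag at h2
    rw [dif_pos (show tAdj (ty x) (ty y) = true from h),
      dif_pos (show tAdj (ty y) (ty x) = true from h')] at h2
    exact h2

theorem tAdj_of_liftAdj {x y : LiftV C b} (h : liftAdj C b x y = true) :
    tAdj (ty x) (ty y) = true := tAdj_of_bAdj ((liftAdj_iff x y).1 h).1

theorem card_filter_parity {α : Type} [Fintype α] (f : α → Bool) (c : Bool) :
    (univ.filter fun a => f a = true).card % 2 = c.toNat ↔ ∑ a, bz (f a) = bz c := by
  have h1 : ∑ a, bz (f a) = ((univ.filter fun a => f a = true).card : ZMod 2) := by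
    unfold bz
    rw [Finset.sum_boole]
  rw [h1]
  generalize (univ.filter fun a => f a = true).card = N
  rw [← ZMod.natCast_mod N 2]
  have : N % 2 = 0 ∨ N % 2 = 1 := by omega
  rcases this with h | h <;> rw [h] <;> cases c <;> simp [bz]

theorem sum_nbr (a : TV t) (f : TV t → Bool) (hf : ∀ a', tAdj a a' = false → f a' = false) :
    ∑ a' : Nbr a, bz (f a'.1) = ∑ a', bz (f a') := by
  rw [← Finset.sum_subtype (univ.filter fun a' => tAdj a a' = true) (by simp)
    (fun a' => bz (f a')), Finset.sum_filter]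
  refine Finset.sum_congr rfl fun a' _ => ?_
  split_ifs with h
  · rfl
  · rw [hf a' (by simpa using h)]; rfl

theorem tag_of_not_adj (x : LiftV C b) {a : TV t} (h : tAdj (ty x) a = false) :
    tag x a = false := by
  unfold tag
  rw [dif_neg (by simp [h])]

theorem tag_coe (x : LiftV C b) (a : Nbr (typeOf C x.1.1)) : tag x a.1 = x.1.2 a := by
  unfold tag
  rw [dif_pos (show tAdj (ty x) a.1 = true from a.2)]

theorem sum_tag (x : LiftV C b) : ∑ a, bz (tag x a) = bz (b (ty x)) := by
  rw [← sum_nbr (ty x) (tag x) fun _ h => tag_of_not_adj x h]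
  have := (card_filter_parity _ _).1 x.2
  rw [← show _ = bz (b (ty x)) from this]
  exact Finset.sum_congr rfl fun a _ => congrArg bz (tag_coe x a)

/-- a lift vertex from a base vertex and an extended tag -/
def mkV (u : BV C) (f : TV t → Bool) (hf : ∀ a', tAdj (typeOf C u) a' = false → f a' = false)
    (hs : ∑ a, bz (f a) = bz (b (typeOf C u))) : LiftV C b :=
  ⟨⟨u, fun a => f a.1⟩, (card_filter_parity _ _).2 ((sum_nbr _ f hf).trans hs)⟩

theorem mkV_base (u : BV C) (f : TV t → Bool) (hf) (hs) :
    (mkV (b := b) u f hf hs).1.1 = u := rfl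

theorem ty_mkV (u : BV C) (f : TV t → Bool) (hf) (hs) :
    ty (mkV (b := b) u f hf hs) = typeOf C u := rfl

theorem tag_mkV (u : BV C) (f : TV t → Bool) (hf) (hs) :
    tag (mkV (b := b) u f hf hs) = f := by
  funext a
  unfold tag
  split_ifs with h
  · rfl
  · exact (hf a (by simpa [ty_mkV] using h)).symm

theorem liftV_ext {x y : LiftV C b} (h1 : x.1.1 = y.1.1) (h2 : tag x = tag y) : x = y := by
  obtain ⟨⟨u, z⟩, hz⟩ := x
  obtain ⟨⟨v, w⟩, hw⟩ := y
  dsimp only at h1
  subst h1
  have : z = w := by
    funext a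
    exact (tag_coe ⟨⟨u, z⟩, hz⟩ a).symm.trans ((congrFun h2 a.1).trans (tag_coe ⟨⟨u, w⟩, hw⟩ a))
  subst this
  rfl

theorem bz_xor (c d : Bool) : bz (xor c d) = bz c + bz d := by
  cases c <;> cases d <;> simp [bz]; rfl

/-- flip two coordinates of the tag -/
def flip2 (x : LiftV C b) (a a' : TV t) (ha : tAdj (ty x) a = true) (ha' : tAdj (ty x) a' = true) :
    LiftV C b :=
  mkV x.1.1 (fun c => xor (tag x c) (xor (decide (c = a)) (decide (c = a'))))
    (fun c hc => by
      have h1 : c ≠ a := by rintro rfl; exact absurd (ha.symm.trans hc) (by simp)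
      have h2 : c ≠ a' := by rintro rfl; exact absurd (ha'.symm.trans hc) (by simp)
      simp [tag_of_not_adj x hc, h1, h2])
    (by
      simp only [bz_xor, Finset.sum_add_distrib, sum_tag]
      have h : ∀ d : TV t, ∑ c, bz (decide (c = d)) = 1 := by
        intro d
        simp [bz]
      rw [h, h]
      have : (1 : ZMod 2) + 1 = 0 := rfl
      rw [this, add_zero]
      rfl)

/-- A set of main vertices given by a condition on the base vertex and on tag coordinates which
leave two helper coordinates free has an even number of elements. -/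
theorem even_card_of_flip (Q : LiftV C b → Prop) [DecidablePred Q]
    (a a' : TV t → TV t) (hne : ∀ x, Q x → a (ty x) ≠ a' (ty x))
    (ha : ∀ x, Q x → tAdj (ty x) (a (ty x)) = true) (ha' : ∀ x, Q x → tAdj (ty x) (a' (ty x)) = true)
    (hQ : ∀ x y, Q x → y.1.1 = x.1.1 →
      (∀ c, c ≠ a (ty x) → c ≠ a' (ty x) → tag y c = tag x c) → Q y) :
    ((univ.filter Q).card : ZMod 2) = 0 := by
  rw [Finset.card_eq_sum_ones, Nat.cast_sum]
  have hm : ∀ x, x ∈ univ.filter Q → Q x := fun x hx => (mem_filter.1 hx).2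
  refine Finset.sum_involution
    (fun x hx => flip2 x _ _ (ha x (hm x hx)) (ha' x (hm x hx))) (fun _ _ => rfl) ?_ ?_ ?_
  · intro x hx _ heq
    have := congrFun (congrArg tag heq) (a (ty x))
    unfold flip2 at this
    rw [tag_mkV] at this
    simp [hne x (hm x hx)] at this
  · intro x hx
    refine mem_filter.2 ⟨mem_univ _, hQ x _ (hm x hx) rfl fun c h1 h2 => ?_⟩
    unfold flip2
    rw [tag_mkV]
    simp [h1, h2]
  · intro x hx
    refine liftV_ext rfl ?_
    funext c
    unfold flip2
    rw [tag_mkV, tag_mkV]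
    simp only [ty_mkV]
    change ((tag x c ^^ (decide (c = a (ty x)) ^^ decide (c = a' (ty x)))) ^^
      (decide (c = a (ty x)) ^^ decide (c = a' (ty x)))) = tag x c
    simp

end Crest.Agent.R290.PL2
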