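import Crest.Agent.R290.SoundC

/-!
# rid 290: the Duplicator survives when the final fact is not derivable
-/

set_option autoImplicit false

namespace Crest.Agent.R290

namespace Snd

namespace Mv

open Par

variable {p : Par} {R R' : Finset Ix} {gen : ℕ → Cp → Cp}

theorem der_of_tr (h : Mv p R R' gen) {γ : ℕ} (hγ : γ < p.H.length) {s : Bool} {b : ℤ}
    (ht : p.Tr (p.inW γ s) b) : Der p.H (p.inW γ s) b :=
  ht.elim id fun e => absurd e.1 (inW_ne h.ok hγ s)

theorem sat_fact {η : LVar → ZMod 2} {W : Wire} {j : Cp} {a : ℤ} (h : ¬ (W = wf ∧ a = 0)) :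
    Sat η (p.eqn (.fact W j a)) ↔
      ∑ i ∈ Finset.range p.qs.length, η (Sum.inl (W, j, i, res p.qs i a)) = 0 := by
  rw [← lsum_factX η j h]
  rfl

/-- After the first three repairs all required facts hold. -/
theorem facts_done (h : Mv p R R' gen) (η : LVar → ZMod 2)
    (h1 : ∀ e, ((p.Req R e ∨ NB p R R' gen e) ∨ NC p R R' e) → Sat η (p.eqn e))
    (h2 : ∀ z ∈ {z | ND p R R' z}, Sat η (p.eqn (tgD p gen z))) {W : Wire} {j : Cp} {b : ℤ}
    (he : p.Req R' (.fact W j b)) : Sat η (p.eqn (.fact W j b)) := by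
  classical
  have nong : ∀ W j b, p.Req R' (.fact W j b) → ¬ IsGen p R' gen W j →
      Sat η (p.eqn (.fact W j b)) := by
    intro W j b u1 u2
    by_cases u3 : p.Req R (.fact W j b)
    · exact h1 _ (Or.inl (Or.inl u3))
    · exact h1 _ (Or.inl (Or.inr ⟨W, j, b, rfl, u1, u3, u2⟩))
  by_cases hg : IsGen p R' gen W j
  swap
  · exact nong W j b he hg
  obtain ⟨γ, l, s, ha, rfl, rfl⟩ := hg
  obtain ⟨t1, t2⟩ := (req_fact h.real).1 he
  obtain ⟨a, rfl⟩ : ∃ a, b = a + p.inD γ s := ⟨b - p.inD γ s, by omega⟩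
  have hγ := (h.act_lt ha).1
  have t3 := h.ht_of_hf (Finset.Subset.refl _) ha t2
  have t4 : |a| ≤ 2 * p.N := by
    have u1 := tr_le h.ok t1
    have u2 := inD_le h.ok hγ s
    have u3 := abs_sub (a + p.inD γ s) (p.inD γ s)
    rw [add_sub_cancel_right] at u3
    omega
  by_cases hold : p.HT R γ l a
  · exact h1 _ (Or.inl (Or.inl (Or.inr ⟨t1, hold.hf_in h.ok s (h.jg_mem ha s)⟩)))
  have hsl : p.Tr (p.inW γ (sl p γ a)) (a + p.inD γ (sl p γ a)) := by
    unfold sl
    split_ifs with u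
    · exact u
    · cases s
      · exact absurd t1 u
      · exact t1
  have hD := h2 (γ, l, a) ⟨t3, hold, t4, hsl⟩
  by_cases hs : sl p γ a = s
  · simpa only [tgD, hs] using hD
  have hs0 : sl p γ a = false := by
    unfold sl at hs ⊢
    split_ifs at hs ⊢ with u
    · rfl
    · cases s
      · exact absurd t1 u
      · exact absurd rfl hs
  have hs1 : s = true := by
    cases s
    · exact absurd hs0 hs
    · rfl
  subst hs1
  simp only [tgD, hs0] at hD hsl
  have tr : ∀ s, p.Tr (p.inW γ s) (a + p.inD γ s) := fun s => by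
    cases s
    · exact hsl
    · exact t1
  have dout : Der p.H (p.outW γ) a :=
    Der.rule _ (ruleAt_mem hγ) a (h.der_of_tr hγ (tr false)) (h.der_of_tr hγ (tr true))
  have nf : ∀ s, ¬ (p.inW γ s = wf ∧ a + p.inD γ s = 0) := fun s e => inW_ne h.ok hγ s e.1
  have nfo : ¬ (p.outW γ = wf ∧ a = 0) := fun e => h.ok.hd (by rw [← e.1, ← e.2]; exact dout)
  -- values of the facts
  let φ : Bool → Cp → ZMod 2 := fun s j => ∑ i ∈ Finset.range p.qs.length,
    η (Sum.inl (p.inW γ s, j, i, res p.qs i (a + p.inD γ s)))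
  have hφ : ∀ s, ∀ j ∈ p.ln (gix γ s) l, j ≠ gen (gix γ s) l → φ s j = 0 := by
    intro s j hj hne
    have := nong _ j _ (Or.inr ⟨tr s, t3.hf_in h.ok s hj⟩) (by
      rintro ⟨γ', l', s', ha', -, rfl⟩
      obtain ⟨rfl, rfl, rfl⟩ := h.jg_line ha' ha hj
      exact hne rfl)
    exact (sat_fact (nf s)).1 this
  have hφ0 : φ false (gen (gix γ false) l) = 0 := by
    exact (sat_fact (nf false)).1 hD
  have hout : ∑ i ∈ Finset.range p.qs.length, η (Sum.inl (p.outW γ, l, i, res p.qs i a)) = 0 := by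
    have := nong _ l _ (Or.inr ⟨Or.inl dout, t3.hf_out h.ok⟩) (by
      rintro ⟨γ', l', s', ha', -, e⟩
      exact h.jg_ne_act (h.act_lt ha').2 ha e)
    exact (sat_fact nfo).1 this
  have hgate : ∑ i ∈ Finset.range p.qs.length, lsum η (gateL p.H p.qs p.lam p.σ γ l i a) = 0 := by
    refine Finset.sum_eq_zero fun i hi => ?_
    have u : p.Req R' (.gate γ l i (res p.qs i a)) :=
      Or.inr ⟨Finset.mem_range.1 hi, a, t4, t3, rfl⟩
    have v : Sat η (p.eqn (.gate γ l i (res p.qs i a))) := by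
      by_cases u3 : p.Req R (.gate γ l i (res p.qs i a))
      · exact h1 _ (Or.inl (Or.inl u3))
      · exact h1 _ (Or.inr ⟨_, _, _, _, rfl, u, u3⟩)
    rw [← gateL_congr _ _ _ _ _ _ _ (res_mod h.ok.hq i a)]
    exact v
  simp only [lsum_gateL, Finset.sum_add_distrib, sum_lsum_comm, hout, add_zero] at hgate
  have e0 := lsum_single (nodup_line _ _ _ _) (h.jg_mem ha false) (hφ false)
  have e1 := lsum_single (nodup_line _ _ _ _) (h.jg_mem ha true) (hφ true)
  have e2 : lsum (φ false) (p.ln (gix γ false) l) + lsum (φ true) (p.ln (gix γ true) l) = 0 :=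
    hgate
  rw [show lsum (φ false) (p.ln (gix γ false) l) = _ from e0,
    show lsum (φ true) (p.ln (gix γ true) l) = _ from e1, hφ0, zero_add] at e2
  exact (sat_fact (nf true)).2 e2

/-- Old required equations, and all required gates and facts. -/
def S4 (p : Par) (R R' : Finset Ix) (e : Ix) : Prop :=
  p.Req R e ∨ (p.Req R' e ∧ ∀ g l t c, e ≠ .uu g l t c)

theorem stepE (h : Mv p R R' gen) (η : LVar → ZMod 2) (hη : ∀ e, S4 p R R' e → Sat η (p.eqn e)) :
    ∃ η' : LVar → ZMod 2, (∀ e, S4 p R R' e → Sat η' (p.eqn e)) ∧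
      (∀ e ∈ {e | e ∈ R' ∧ e ∉ R ∧ ∃ g l t c, e = .uu g l t c}, Sat η' (p.eqn e)) ∧
      ∀ x, p.InP R x → η' x = η x := by
  refine fix_step p.eqn (p.InP R) _ {e | e ∈ R' ∧ e ∉ R ∧ ∃ g l t c, e = .uu g l t c}
    (R'.finite_toSet.subset fun e he => he.1) id ?_ η hη
  rintro _ ⟨h1, h2, g, l, t, c, rfl⟩
  have hr := h.real _ h1
  have hg := h.gen g l hr.1
  have gu : ∀ g' l' t' c', Ix.uu g' l' t' c' ∈ R' →
      Sum.inr (gen g l) ∈ (p.eqn (.uu g' l' t' c')).1 → Ix.uu g' l' t' c' = .uu g l t c := by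
    intro g' l' t' c' u hx
    have hr' := h.real _ u
    rw [mem_uu_inr hr'] at hx
    by_cases hn : (g', l') = (g, l)
    · simp only [Prod.mk.injEq] at hn
      obtain ⟨rfl, rfl⟩ := hn
      obtain ⟨rfl, rfl⟩ := uu_eq hr hr'
      rfl
    · exact absurd hx ((hg.2 _ u).2 false hn)
  have gg : ∀ γ l' i (a : ℤ), Sum.inr (gen g l) ∉ gateL p.H p.qs p.lam p.σ γ l' i a := by
    intro γ l' i a hx
    rcases mem_gateL.1 hx with ⟨_, _, _, e⟩ | e <;> cases e
  have gf : ∀ W j a, p.Req R' (.fact W j a) → Sum.inr (gen g l) ∉ p.factX W j a := by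
    intro W j a u hx
    rcases mem_factX.1 hx with ⟨_, _, e⟩ | ⟨rfl, rfl, e⟩
    · cases e
    · simp only [Sum.inr.injEq] at e
      subst e
      obtain ⟨i, -, e, he, hx⟩ := Heavy.exists h.ok.hr ((req_fact h.real).1 u).2
      have hne := (hg.2 e he).1
      have hre := h.real e he
      cases e with
      | gate γ l' i' α' =>
        rcases mem_gateL.1 hx with ⟨s, _, _, e⟩ | e
        · simp only [Sum.inl.injEq, Prod.mk.injEq] at e
          exact inW_ne h.ok hre.1 s e.1.symm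
        · simp only [Sum.inl.injEq, Prod.mk.injEq] at e
          exact hne e.2.1.symm
      | fact W' j' a' =>
        rcases mem_factX.1 hx with ⟨_, _, e⟩ | ⟨-, -, e⟩
        · simp only [Sum.inl.injEq, Prod.mk.injEq] at e
          exact hne e.2.1.symm
        · cases e
      | uu g' l' t' c' => exact hne (mem_uu_inl hre hx).2.symm
  have gR : ∀ e, p.Req R e → Sum.inr (gen g l) ∉ (p.eqn e).1 := by
    intro e he hx
    cases e with
    | gate γ l' i α => exact gg _ _ _ _ hx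
    | fact W j a => exact gf W j a (he.mono h.sub) hx
    | uu g' l' t' c' =>
      rcases he with he | he
      · exact h2 (gu _ _ _ _ (h.sub he) hx ▸ he)
      · exact he
  refine ⟨ind (Sum.inr (gen g l)), lsum_ind_mem (nodup_uu hr) ((mem_uu_inr hr).2 hg.1), ?_, ?_,
    fun x ⟨e, he, hx⟩ => ind_ne fun e' => gR e (Or.inl he) (e' ▸ hx)⟩
  · rintro _ ⟨u1, -, g', l', t', c', rfl⟩ hne
    exact lsum_ind_not fun hx => hne (gu _ _ _ _ u1 hx)
  · rintro e (he | ⟨he, hn⟩)
    · exact lsum_ind_not (gR e he)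
    · cases e with
      | gate γ l' i α => exact lsum_ind_not (gg _ _ _ _)
      | fact W j a => exact lsum_ind_not (gf W j a he)
      | uu g' l' t' c' => exact absurd rfl (hn _ _ _ _)

theorem extend (h : Mv p R R' gen) (η : LVar → ZMod 2) (hη : ∀ e, p.Req R e → Sat η (p.eqn e)) :
    ∃ η' : LVar → ZMod 2, (∀ e, p.Req R' e → Sat η' (p.eqn e)) ∧
      ∀ x, p.InP R x → η' x = η x := by
  obtain ⟨η₁, a1, a2, a3⟩ := h.stepB η hη
  obtain ⟨η₂, b1, b2, b3⟩ := h.stepC η₁ fun e he => he.elim (a1 e) (a2 e)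
  obtain ⟨η₃, c1, c2, c3⟩ := h.stepD η₂ fun e he => he.elim (b1 e) (b2 e)
  obtain ⟨η₄, d1, d2, d3⟩ := h.stepE η₃ (by
    rintro e (he | ⟨he, hn⟩)
    · exact c1 e (Or.inl (Or.inl he))
    · cases e with
      | gate γ l i α =>
        by_cases u : p.Req R (.gate γ l i α)
        · exact c1 _ (Or.inl (Or.inl u))
        · exact c1 _ (Or.inr ⟨_, _, _, _, rfl, he, u⟩)
      | fact W j a => exact h.facts_done η₃ c1 c2 he
      | uu g l t c => exact absurd rfl (hn _ _ _ _))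
  refine ⟨η₄, fun e he => ?_, fun x hx => by rw [d3 x hx, c3 x hx, b3 x hx, a3 x hx]⟩
  cases e with
  | gate γ l i α => exact d1 _ (Or.inr ⟨he, by simp⟩)
  | fact W j a => exact d1 _ (Or.inr ⟨he, by simp⟩)
  | uu g l t c =>
    rcases he with he | he
    · by_cases u : Ix.uu g l t c ∈ R
      · exact d1 _ (Or.inl (Or.inl u))
      · exact d2 _ ⟨he, u, _, _, _, _, rfl⟩
    · exact he.elim

end Mv

theorem lcons_par {p : Par} (hp : p.OK) : LCons (longSysS p.H p.qs p.lam p.σ p.b) p.K := by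
  refine lcons_of_indexed _ _ p.eqn p.Real (.fact w0 (0, 0) 0) (fun e he => ?_) p.Req
    (fun R i hi => Or.inl hi) (fun R R' i h hi => hi.mono h) (Par.not_req_empty hp) ?_
  · rcases mem_longSysS.1 he with ⟨γ, h1, l, h2, i, h3, α, h4, rfl⟩ | ⟨j, h1, rfl⟩ |
      ⟨j, h1, rfl⟩ | ⟨W, h1, l, h2, i, h3, α, h4, rfl⟩ | ⟨g, h1, l, h2, rfl⟩
    · exact ⟨.gate γ l i α, ⟨h1, h2, h3, h4⟩, rfl⟩
    · exact ⟨.fact w0 j 0, ⟨Or.inl rfl, h1, rfl⟩, by simp [Par.eqn, Par.factX, w0_ne_wf]⟩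
    · exact ⟨.fact wf j 0, ⟨Or.inr rfl, h1, rfl⟩, by simp [Par.eqn, Par.factX]⟩
    · exact ⟨.uu _ l _ false, ⟨h2, Or.inr ⟨W, h1, i, h3, α, h4, rfl, rfl, rfl⟩⟩, rfl⟩
    · exact ⟨.uu g l [] (p.b g l), ⟨h2, Or.inl ⟨h1, rfl, rfl⟩⟩, by simp [Par.eqn, Par.ln]⟩
  · intro R R' h1 h2 h3 η hη
    have := fun g l (hl : l ∈ copies p.lam p.σ) => Par.exists_gen hp h2 h3 g hl
    choose! gen hgen using this
    exact Mv.extend ⟨hp, h1, h2, h3, hgen⟩ η hη

end Snd

theorem core_sound {H : List HRule} {qs : List ℕ} {lam N m K : ℕ} (hH : HornOK H N)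
    (hd : ¬ Der H wf 0) (hq : ∀ q ∈ qs, 0 < q) (ha : Agree qs (6 * N) m)
    (hm : 800 * m ≤ qs.length) (hr : 0 < qs.length) (hK : K ≤ 4 * qs.length) (hlam : 3 * K < lam)
    (b : ℕ → Cp → Bool) : LCons (longSys H qs lam b) K :=
  Snd.lcons_par (p := ⟨H, qs, lam, sigma H qs lam, N, m, K, b⟩)
    ⟨hH, hd, hq, by simpa [← mul_assoc] using ha, hm, hr, hK, hlam⟩

end Crest.Agent.R290
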