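import Crest.Agent.R290.Mach
import Crest.Agent.R290.WL1
import Crest.Agent.R290.GrGame
import Crest.Agent.R290.GrStrat
import Crest.Agent.R290.Complete
import Crest.Agent.R290.Sound
import Crest.Agent.R290.Horn

/-!
# rid 290: correctness of the whole reduction (helper93)
-/

set_option autoImplicit false

namespace Crest.Agent.R290

open Crest.WLRefine

/-- The matrices of the reduction. -/
def sysMat (M : MD) (x : List Bool) (L q k : ℕ) (pol tw : Bool) :
    Fin (sysN M x L q k pol) → Fin (sysN M x L q k pol) → Bool :=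
  toMat (sysN M x L q k pol) (sysG M x L q k pol tw)

section

variable (M : MD) (x : List Bool) (L q k : ℕ) (pol : Bool)

theorem homog_sys (tw : Bool) : homog (sys M x L q k pol tw) = sys M x L q k pol false := by
  unfold sys
  rw [homog_chain, homog_longSys]

theorem length_sys (tw : Bool) : (sys M x L q k pol tw).length = sysM M x L q k pol := by
  unfold sysM
  rw [← homog_sys M x L q k pol tw, length_homog]

theorem sysMat_eq (tw : Bool) :
    sysMat M x L q k pol tw = grMat (sysM M x L q k pol) (sys M x L q k pol tw) := rfl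

theorem sysM_pos (hk : 3 ≤ k) : 0 < sysM M x L q k pol := by
  obtain ⟨ℓ, hℓ⟩ := pure_mem (H := horn M x L pol) (qs := primesFrom q (k / 3))
    (lam := 13 * (k / 3)) (by omega) false
  exact List.length_pos_of_mem (top_mem_chain hℓ)

theorem sysMat_subcubic (tw : Bool) : SimpleConnSubcubic (sysMat M x L q k pol tw) :=
  gr_subcubic (length_sys M x L q k pol tw)

theorem sysMat_noIsolated (hk : 3 ≤ k) (tw : Bool) : NoIsolated (sysMat M x L q k pol tw) :=
  gr_noIsolated (length_sys M x L q k pol tw) (sysM_pos M x L q k pol hk)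

theorem sysN_pos : 0 < sysN M x L q k pol := by
  unfold sysN; rw [nV_eq]; omega

end

variable {M : MD} {x : List Bool} {b : Bool} {T L q k : ℕ} {pol : Bool}

theorem primes_pos (q r : ℕ) : ∀ p ∈ primesFrom q r, 0 < p :=
  fun p hp => ((primesFrom_spec q r).2 p hp).1.pos

theorem sys_forced (h : M.Answers x b T) (hT : T < 2 ^ L) (hk : 6 ≤ k) (hb : b = pol)
    (tw : Bool) : Forced0 (sys M x L q k pol tw) k := by
  have hd := (horn_spec h hT pol).2.2 hb
  have := core_complete (qs := primesFrom q (k / 3)) (lam := 13 * (k / 3)) hd (primes_pos _ _)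
    (by rw [length_primesFrom]; omega) (by omega) fun _ _ => tw
  rw [length_primesFrom] at this
  exact this.mono (by omega)

theorem sys_not_game (h : M.Answers x b T) (hT : T < 2 ^ L) (hk : 6 ≤ k) (hb : b = pol) :
    ¬ Game (sysMat M x L q k pol false) (sysMat M x L q k pol true) k := by
  rintro ⟨Pos, hP⟩
  rw [sysMat_eq, sysMat_eq, ← homog_sys M x L q k pol true] at hP
  obtain ⟨𝒮, h1, h2, -⟩ := gr_strat (chain_len3 _) (length_sys M x L q k pol true)
    (sysM_pos M x L q k pol (by omega)) (by omega) hP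
  obtain ⟨ℓ, hℓ⟩ := pure_mem (H := horn M x L pol) (qs := primesFrom q (k / 3))
    (lam := 13 * (k / 3)) (by omega) true
  exact not_vstrat_of_forced0 (sys_forced h hT hk hb true) (by omega) (top_mem_chain hℓ) h1 h2

theorem sys_rigid (h : M.Answers x b T) (hT : T < 2 ^ L) (hk : 6 ≤ k) (hb : b = pol) :
    Rigid (sysMat M x L q k pol false) k := by
  intro Pos hP a c hac
  have hP' : IsGame (grMat (sysM M x L q k pol) (homog (sys M x L q k pol false)))
      (grMat (sysM M x L q k pol) (sys M x L q k pol false)) k Pos := by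
    rw [homog_sys]; exact hP
  obtain ⟨𝒮, h1, -, h3⟩ := gr_strat (chain_len3 _) (length_sys M x L q k pol false)
    (sysM_pos M x L q k pol (by omega)) (by omega) hP'
  rcases h3 a c hac with h4 | ⟨T', δ, y, h4, h5, h6, h7⟩
  · exact h4
  · exact absurd (sys_forced h hT hk hb false 𝒮 h1 T' δ h4 y h5 h6) h7

theorem long_lcons (h : M.Answers x b T) (hT : T < 2 ^ L) (hk : 2400 ≤ k) (hb : b ≠ pol)
    (hq : 2 ^ (2 * L + bnd M x + 5) ≤ q ^ (k / 2400 + 1)) (β : ℕ → Cp → Bool) :
    LCons (longSys (horn M x L pol) (primesFrom q (k / 3)) (13 * (k / 3)) β) (k + 1) := by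
  obtain ⟨h1, h2⟩ := horn_spec h hT pol
  refine core_sound (m := k / 2400) h1 (fun hd => hb (h2.1 hd)) (primes_pos _ _)
    (agree_primesFrom (lt_of_lt_of_le ?_ hq)) ?_ ?_ ?_ ?_ β
  · have : 0 < 2 ^ (2 * L + bnd M x + 2) := by positivity
    rw [show 2 * L + bnd M x + 5 = 2 * L + bnd M x + 2 + 3 by ring, pow_add _ _ 3]
    omega
  all_goals (try rw [length_primesFrom]); omega

theorem sys_game (h : M.Answers x b T) (hT : T < 2 ^ L) (hk : 2400 ≤ k) (hb : b ≠ pol)
    (hq : 2 ^ (2 * L + bnd M x + 5) ≤ q ^ (k / 2400 + 1)) :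
    Game (sysMat M x L q k pol false) (sysMat M x L q k pol true) (k + 1) := by
  rw [sysMat_eq, sysMat_eq, ← homog_sys M x L q k pol true]
  exact gr_game (chain_len3 _) (length_sys M x L q k pol true)
    (chain_lcons (long_lcons h hT hk hb hq _))

theorem sys_twin (h : M.Answers x b T) (hT : T < 2 ^ L) (hk : 2400 ≤ k) (hb : b ≠ pol)
    (hq : 2 ^ (2 * L + bnd M x + 5) ≤ q ^ (k / 2400 + 1)) :
    ∃ H : Fin (sysN M x L q k pol) → Fin (sysN M x L q k pol) → Bool, IsSimple H ∧
      Game (sysMat M x L q k pol false) H (k + 1) ∧ ¬ AdjIso (sysMat M x L q k pol false) H := by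
  obtain ⟨β, hβ⟩ := exists_unsolvable (H := horn M x L pol) (qs := primesFrom q (k / 3))
    (lam := 13 * (k / 3)) (by omega)
  set E := chain (longSys (horn M x L pol) (primesFrom q (k / 3)) (13 * (k / 3)) β) with hE
  have h0 : homog E = sys M x L q k pol false := by
    rw [hE, homog_chain, homog_longSys]; rfl
  have hl : E.length = sysM M x L q k pol := by
    unfold sysM; rw [← h0, length_homog]
  refine ⟨grMat (sysM M x L q k pol) E, (gr_subcubic hl).1, ?_, fun hiso => hβ ?_⟩
  · rw [sysMat_eq, ← h0]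
    exact gr_game (chain_len3 _) hl (chain_lcons (long_lcons h hT hk hb hq _))
  · refine solvable_of_chain (longSys_ne_nil (by omega) (by rw [length_primesFrom]; omega) β)
      (solvable_of_vstrat fun K => ?_)
    obtain ⟨Pos, hP⟩ := game_of_iso hiso (K + 5)
    rw [sysMat_eq, ← h0] at hP
    obtain ⟨𝒮, h1, h2, -⟩ := gr_strat (chain_len3 _) hl
      (sysM_pos M x L q k pol (by omega)) (by omega) hP
    exact ⟨𝒮, h1.mono (by omega), h2⟩

end Crest.Agent.R290
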