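import Crest.Agent.Lib.PT.All

/-!
# rid 290, task Refine: the generic refinement algorithm
-/

set_option autoImplicit false

namespace Crest.Agent.R290.Refine

open Crest.Agent.Lib.PT

section abstract

theorem perm_map_of_ker {ι A B : Type} {f : ι → A} {g : ι → B}
    (h : ∀ x y, f x = f y → g x = g y) {u v : List ι} (huv : (u.map f).Perm (v.map f)) :
    (u.map g).Perm (v.map g) := by
  rcases isEmpty_or_nonempty ι with hι | ⟨⟨x⟩⟩
  · rw [Subsingleton.elim u v]
  · have : Nonempty B := ⟨g x⟩
    obtain ⟨e, he⟩ := (Function.factorsThrough_iff (f := f) g).1 fun a b hab => h a b hab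
    have := huv.map e
    rwa [List.map_map, List.map_map, ← he] at this

theorem map_eq_of_ker {ι A B : Type} {f : ι → A} {g : ι → B}
    (h : ∀ x y, f x = f y → g x = g y) :
    ∀ u v : List ι, u.map f = v.map f → u.map g = v.map g
  | [], [], _ => rfl
  | [], _ :: _, h' => by simp at h'
  | _ :: _, [], h' => by simp at h'
  | a :: u, b :: v, h' => by
    simp only [List.map_cons, List.cons.injEq] at h' ⊢
    exact ⟨h a b h'.1, map_eq_of_ker h u v h'.2⟩

theorem perm_map_map_of_ker {ι A B : Type} {f : ι → A} {g : ι → B}
    (h : ∀ x y, f x = f y → g x = g y) {u v : List (List ι)}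
    (huv : (u.map (List.map f)).Perm (v.map (List.map f))) :
    (u.map (List.map g)).Perm (v.map (List.map g)) :=
  perm_map_of_ker (map_eq_of_ker h) huv

/-- the colourings `col s` are refined by the neighbourhood system `nb` -/
def Refines {ι : Type} {C : ℕ → Type} (nb : ι → List (List ι)) (col : ∀ s, ι → C s) : Prop :=
  ∀ s x y, col (s + 1) x = col (s + 1) y ↔
    col s x = col s y ∧ ((nb x).map (List.map (col s))).Perm ((nb y).map (List.map (col s)))

variable {ι : Type} {C : ℕ → Type} {nb : ι → List (List ι)} {col : ∀ s, ι → C s}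

theorem Refines.anti (h : Refines nb col) {s t : ℕ} (hst : s ≤ t) (x y : ι)
    (hxy : col t x = col t y) : col s x = col s y := by
  induction t, hst using Nat.le_induction with
  | base => exact hxy
  | succ t _ ih => exact ih ((h t x y).1 hxy).1

theorem Refines.stable (h : Refines nb col) {s : ℕ}
    (hs : ∀ x y, col s x = col s y → col (s + 1) x = col (s + 1) y) {t : ℕ} (hst : s ≤ t) :
    ∀ x y, col t x = col t y → col (t + 1) x = col (t + 1) y := by
  induction t, hst using Nat.le_induction with
  | base => exact hs
  | succ t _ ih =>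
    intro x y hxy
    exact (h (t + 1) x y).2 ⟨hxy, perm_map_map_of_ker ih ((h t x y).1 hxy).2⟩

theorem Refines.final [Fintype ι] (h : Refines nb col) {N : ℕ} (hN : Fintype.card ι ≤ N) (s : ℕ)
    (x y : ι) (hxy : col (N * N) x = col (N * N) y) : col s x = col s y := by
  classical
  let K : ℕ → Finset (ι × ι) := fun s => Finset.univ.filter fun p => col s p.1 = col s p.2
  have hex : ∃ s₀ ≤ N * N, ∀ x y, col s₀ x = col s₀ y → col (s₀ + 1) x = col (s₀ + 1) y := by
    by_contra hne
    push Not at hne
    have key : ∀ s ≤ N * N + 1, (K s).card + s ≤ (K 0).card := by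
      intro s
      induction s with
      | zero => intro _; simp
      | succ s ih =>
        intro hs
        obtain ⟨a, b, h1, h2⟩ := hne s (by omega)
        have : (K (s + 1)).card < (K s).card := by
          refine Finset.card_lt_card ⟨fun p hp => ?_, fun hsub => ?_⟩
          · simp only [K, Finset.mem_filter, Finset.mem_univ, true_and] at hp ⊢
            exact h.anti (Nat.le_succ s) _ _ hp
          · have : (a, b) ∈ K (s + 1) := hsub (by simpa [K] using h1)
            exact h2 (by simpa [K] using this)
        have := ih (by omega)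
        omega
    have h1 := key (N * N + 1) le_rfl
    have h2 : (K 0).card ≤ N * N := by
      refine (Finset.card_le_univ _).trans ?_
      rw [Fintype.card_prod]
      exact Nat.mul_le_mul hN hN
    omega
  obtain ⟨s₀, hs₀, hst⟩ := hex
  rcases le_total s (N * N) with hs | hs
  · exact h.anti hs x y hxy
  · induction s, hs using Nat.le_induction with
    | base => exact hxy
    | succ t ht ih => exact h.stable hst (hs₀.trans ht) x y ih

theorem findIdx_ker {I : List ι} (hI : ∀ x, x ∈ I) {R : ι → ι → Bool} (hr : ∀ x, R x x = true)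
    (hs : ∀ x y, R x y = true → R y x = true)
    (ht : ∀ x y z, R x y = true → R y z = true → R x z = true) (x y : ι) :
    I.findIdx (fun z => R z x) = I.findIdx (fun z => R z y) ↔ R x y = true := by
  constructor
  · intro h
    have hx : I.findIdx (fun z => R z x) < I.length :=
      List.findIdx_lt_length_of_exists ⟨x, hI x, hr x⟩
    have hy : I.findIdx (fun z => R z y) < I.length :=
      List.findIdx_lt_length_of_exists ⟨y, hI y, hr y⟩
    have h1 := List.findIdx_getElem (w := hx)
    have h2 := List.findIdx_getElem (w := hy)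
    simp only [← h] at h2
    exact ht _ _ _ (hs _ _ h1) h2
  · intro h
    congr 1
    funext z
    rw [Bool.eq_iff_iff]
    exact ⟨fun h1 => ht _ _ _ h1 h, fun h1 => ht _ _ _ h1 (hs _ _ h)⟩

end abstract

section algorithm

variable {β γ : Type} [DecidableEq β] [DecidableEq γ]

/-- the colour of an item -/
def look (L : List β) (c : List ℕ) (x : β) : ℕ := c.getD (L.idxOf x) 0

/-- two items have the same signature -/
def same (L : List β) (c : List ℕ) (e d : β × List (List β)) : Bool :=
  decide (look L c e.1 = look L c d.1 ∧
    (e.2.map (List.map (look L c))).Perm (d.2.map (List.map (look L c))))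

/-- one round of refinement -/
def step (D : List (β × List (List β))) (c : List ℕ) : List ℕ :=
  D.map fun d => D.findIdx fun e => same (D.map Prod.fst) c e d

/-- the colours after `|D|²` rounds -/
def final (D : List (β × List (List β))) (S : List γ) : List ℕ :=
  (step D)^[D.length * D.length] (S.map fun s => S.idxOf s)

/-- the decision procedure -/
def refDec (L₁ L₂ : List β) (D : List (β × List (List β))) (S : List γ) : Bool :=
  decide ((L₁.map (look (D.map Prod.fst) (final D S))).Perm
    (L₂.map (look (D.map Prod.fst) (final D S))))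

variable {α : Type} [Enc α] [Enc β] [Enc γ]

@[fun_prop] theorem look_pt {L : α → List β} {c : α → List ℕ} {x : α → β} (hL : PT L) (hc : PT c)
    (hx : PT x) : PT fun a => look (L a) (c a) (x a) := by
  unfold look; fun_prop

@[fun_prop] theorem same_pt {L : α → List β} {c : α → List ℕ} {e d : α → β × List (List β)}
    (hL : PT L) (hc : PT c) (he : PT e) (hd : PT d) : PT fun a => same (L a) (c a) (e a) (d a) := by
  unfold same; fun_prop

@[fun_prop] theorem step_pt {D : α → List (β × List (List β))} {c : α → List ℕ} (hD : PT D)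
    (hc : PT c) : PT fun a => step (D a) (c a) := by
  unfold step; fun_prop

omit [Enc β] in
theorem sz_step (D : List (β × List (List β))) (c : List ℕ) :
    sz (step D c) ≤ D.length * (4 * D.length + 1 + 1) + 1 := by
  have := sz_list_le (l := step D c) (B := 4 * D.length + 1) fun a ha => by
    obtain ⟨d, _, rfl⟩ := List.mem_map.1 ha
    have h1 := sz_nat_le_self (D.findIdx fun e => same (D.map Prod.fst) c e d)
    have h2 : (D.findIdx fun e => same (D.map Prod.fst) c e d) ≤ D.length := List.findIdx_le_length
    omega
  simpa [step] using this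

@[fun_prop] theorem final_pt {D : α → List (β × List (List β))} {S : α → List γ} (hD : PT D)
    (hS : PT S) : PT fun a => final (D a) (S a) := by
  have h0 : PT fun a => (S a).map fun s => (S a).idxOf s := by fun_prop
  refine PT.iterate (f := fun a => step (D a)) (by fun_prop) (by fun_prop) h0 (by fun_prop)
    (B := fun a => sz ((S a).map fun s => (S a).idxOf s) +
      ((D a).length * (4 * (D a).length + 1 + 1) + 1)) ((PB.sz h0).add (by fun_prop))
    fun a k _ => ?_
  cases k with
  | zero => simp
  | succ k =>
    rw [Function.iterate_succ_apply']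
    exact (sz_step _ _).trans (Nat.le_add_left _ _)

@[fun_prop] theorem refDec_pt {L₁ L₂ : α → List β} {D : α → List (β × List (List β))}
    {S : α → List γ} (h₁ : PT L₁) (h₂ : PT L₂) (hD : PT D) (hS : PT S) :
    PT fun a => refDec (L₁ a) (L₂ a) (D a) (S a) := by
  unfold refDec; fun_prop

end algorithm

section correct

variable {β γ ι : Type} [DecidableEq β] [DecidableEq γ] {e : ι → β}

theorem look_map (he : Function.Injective e) {I : List ι} (F : ι → ℕ) {x : ι} (hx : x ∈ I) :
    look (I.map e) (I.map F) (e x) = F x := by
  induction I with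
  | nil => simp at hx
  | cons a I ih =>
    by_cases h : a = x
    · subst h; simp [look]
    · have h' : e a ≠ e x := fun h1 => h (he h1)
      have := ih ((List.mem_cons.1 hx).resolve_left (Ne.symm h))
      simpa [look, List.idxOf_cons_ne _ h'] using this

theorem step_map (he : Function.Injective e) {I : List ι} (hI : ∀ x, x ∈ I)
    (nb : ι → List (List ι)) (F : ι → ℕ) :
    ∃ F' : ι → ℕ, step (I.map fun x => (e x, (nb x).map (List.map e))) (I.map F) = I.map F' ∧
      ∀ x y, F' x = F' y ↔ F x = F y ∧ ((nb x).map (List.map F)).Perm ((nb y).map (List.map F)) := by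
  let R : ι → ι → Bool := fun x y =>
    decide (F x = F y ∧ ((nb x).map (List.map F)).Perm ((nb y).map (List.map F)))
  have hl : look (I.map e) (I.map F) ∘ e = F := funext fun x => look_map he F (hI x)
  have hsame : ∀ x y, same (I.map e) (I.map F) (e x, (nb x).map (List.map e))
      (e y, (nb y).map (List.map e)) = R x y := by
    intro x y
    have h1 : ∀ x, ((nb x).map (List.map e)).map (List.map (look (I.map e) (I.map F)))
        = (nb x).map (List.map F) := by
      intro x
      rw [List.map_map]
      congr 1
      funext l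
      simp only [Function.comp_apply, List.map_map, hl]
    simp only [same, R, h1, look_map he F (hI _)]
  refine ⟨fun x => I.findIdx fun z => R z x, ?_, fun x y => ?_⟩
  · unfold step
    rw [List.map_map, List.map_map]
    refine List.map_congr_left fun x _ => ?_
    simp only [Function.comp_apply, List.findIdx_map]
    congr 1
    funext z
    exact hsame z x
  · rw [findIdx_ker hI (R := R)]
    · simp [R]
    · intro x; simp [R]
    · intro x y h
      simp only [R, decide_eq_true_eq] at h ⊢
      exact ⟨h.1.symm, h.2.symm⟩
    · intro x y z h h'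
      simp only [R, decide_eq_true_eq] at h h' ⊢
      exact ⟨h.1.trans h'.1, h.2.trans h'.2⟩

theorem iterate_map (he : Function.Injective e) {I : List ι} (hI : ∀ x, x ∈ I)
    {nb : ι → List (List ι)} {C : ℕ → Type} {col : ∀ s, ι → C s} (h : Refines nb col)
    (σ : ι → γ) (hσ : ∀ x y, σ x = σ y ↔ col 0 x = col 0 y) (s : ℕ) :
    ∃ F : ι → ℕ, (step (I.map fun x => (e x, (nb x).map (List.map e))))^[s]
        ((I.map σ).map fun t => (I.map σ).idxOf t) = I.map F ∧
      ∀ x y, F x = F y ↔ col s x = col s y := by
  induction s with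
  | zero =>
    refine ⟨fun x => (I.map σ).idxOf (σ x), by simp [Function.comp_def], fun x y => ?_⟩
    rw [← hσ]
    exact List.idxOf_inj (List.mem_map_of_mem (hI x))
  | succ s ih =>
    obtain ⟨F, hF, hk⟩ := ih
    obtain ⟨F', hF', hk'⟩ := step_map he hI nb F
    refine ⟨F', by rw [Function.iterate_succ_apply', hF, hF'], fun x y => ?_⟩
    rw [hk', h s x y, hk]
    exact and_congr_right fun _ =>
      ⟨perm_map_map_of_ker fun a b => (hk a b).1, perm_map_map_of_ker fun a b => (hk a b).2⟩

theorem refDec_iff [Fintype ι] (he : Function.Injective e) {I₁ I₂ : List ι}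
    (hI : ∀ x, x ∈ I₁ ++ I₂)
    {nb : ι → List (List ι)} {C : ℕ → Type} {col : ∀ s, ι → C s} (h : Refines nb col)
    (nbC : β → List (List β)) (hnb : ∀ x, nbC (e x) = (nb x).map (List.map e))
    (σ : β → γ) (hσ : ∀ x y, σ (e x) = σ (e y) ↔ col 0 x = col 0 y) :
    refDec (I₁.map e) (I₂.map e) ((I₁.map e ++ I₂.map e).map fun b => (b, nbC b))
        ((I₁.map e ++ I₂.map e).map σ) = true ↔
      ∀ s, (I₁.map (col s)).Perm (I₂.map (col s)) := by
  classical
  have e1 : ((I₁.map e ++ I₂.map e).map fun b => (b, nbC b))
      = (I₁ ++ I₂).map fun x => (e x, (nb x).map (List.map e)) := by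
    rw [← List.map_append, List.map_map]
    exact List.map_congr_left fun x _ => by simp [hnb]
  have e2 : (I₁.map e ++ I₂.map e).map σ = (I₁ ++ I₂).map fun x => σ (e x) := by
    rw [← List.map_append, List.map_map]; rfl
  obtain ⟨F, hF, hk⟩ := iterate_map he hI h (fun x => σ (e x)) hσ
    ((I₁ ++ I₂).length * (I₁ ++ I₂).length)
  have e3 : ((I₁ ++ I₂).map fun x => (e x, (nb x).map (List.map e))).map Prod.fst
      = (I₁ ++ I₂).map e := by
    rw [List.map_map]; rfl
  have hl : look ((I₁ ++ I₂).map e) ((I₁ ++ I₂).map F) ∘ e = F :=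
    funext fun x => look_map he F (hI x)
  have hN : Fintype.card ι ≤ (I₁ ++ I₂).length := by
    refine le_trans ?_ (List.toFinset_card_le _)
    exact Finset.card_le_card fun x _ => List.mem_toFinset.2 (hI x)
  unfold refDec final
  rw [e1, e2, List.length_map, hF, e3, List.map_map, List.map_map, hl, decide_eq_true_eq]
  constructor
  · intro hp s
    exact perm_map_of_ker (fun x y hxy => h.final hN s x y ((hk x y).1 hxy)) hp
  · intro hp
    exact perm_map_of_ker (fun x y => (hk x y).2) (hp _)

omit [DecidableEq β] in
theorem exists_map_eq (e : ι → β) : ∀ L : List β, (∀ b ∈ L, ∃ x, e x = b) → ∃ I : List ι, I.map e = L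
  | [], _ => ⟨[], rfl⟩
  | b :: L, h => by
    obtain ⟨x, hx⟩ := h b (by simp)
    obtain ⟨I, hI⟩ := exists_map_eq e L fun c hc => h c (by simp [hc])
    exact ⟨x :: I, by simp [hx, hI]⟩

omit [DecidableEq β] in
/-- a duplicate-free list of all codes enumerates the type -/
theorem exists_enum [Fintype ι] (he : Function.Injective e) {L : List β} (hL : L.Nodup)
    (h : ∀ b, b ∈ L ↔ ∃ x, e x = b) :
    ∃ I : List ι, I.map e = L ∧ (∀ x, x ∈ I) ∧ (I : Multiset ι) = Finset.univ.val := by
  obtain ⟨I, hI⟩ := exists_map_eq e L fun b hb => (h b).1 hb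
  have hmem : ∀ x, x ∈ I := fun x => by
    have : e x ∈ I.map e := hI ▸ (h _).2 ⟨x, rfl⟩
    exact (List.mem_map_of_injective he).1 this
  refine ⟨I, hI, hmem, ?_⟩
  have hnd : I.Nodup := List.Nodup.of_map e (hI ▸ hL)
  rw [Multiset.Nodup.ext (Multiset.coe_nodup.2 hnd) Finset.univ.nodup]
  intro x
  simp [hmem x]

end correct

end Crest.Agent.R290.Refine
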