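import Crest.Agent.R290.Game
import Crest.Agent.Lib.PT.All
import Crest.Agent.R290.RefineA

/-!
# rid 290, task Refine: deciding Weisfeiler-Leman equivalence in time polynomial in `n ^ k`
-/

set_option autoImplicit false

namespace Crest.Agent.R290

open Crest.WLRefine Crest.Agent.Lib.PT

/-- The rows of a matrix. -/
def rowsOf {n : ℕ} (G : Fin n → Fin n → Bool) : List (List Bool) :=
  List.ofFn fun i => List.ofFn (G i)

namespace Refine

/-- codes of the items of a disjoint union -/
def sumCode {X Y δ : Type} (e₁ : X → δ) (e₂ : Y → δ) : X ⊕ Y → Bool × δ :=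
  Sum.elim (fun x => (false, e₁ x)) (fun y => (true, e₂ y))

theorem refDec_sum_iff {X Y δ γ : Type} [Fintype X] [Fintype Y] [DecidableEq δ] [DecidableEq γ]
    {e₁ : X → δ} {e₂ : Y → δ} (he₁ : Function.Injective e₁) (he₂ : Function.Injective e₂)
    {W₁ W₂ : List δ} (hW₁ : W₁.Nodup) (hW₂ : W₂.Nodup) (hm₁ : ∀ b, b ∈ W₁ ↔ ∃ x, e₁ x = b)
    (hm₂ : ∀ b, b ∈ W₂ ↔ ∃ x, e₂ x = b) {nb : X ⊕ Y → List (List (X ⊕ Y))} {C : ℕ → Type}
    {col₁ : ∀ s, X → C s} {col₂ : ∀ s, Y → C s}
    (h : Refines nb fun s => Sum.elim (col₁ s) (col₂ s))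
    (nbC : Bool × δ → List (List (Bool × δ)))
    (hnb : ∀ x, nbC (sumCode e₁ e₂ x) = (nb x).map (List.map (sumCode e₁ e₂)))
    (σ : Bool × δ → γ) (hσ : ∀ x y, σ (sumCode e₁ e₂ x) = σ (sumCode e₁ e₂ y) ↔
      Sum.elim (col₁ 0) (col₂ 0) x = Sum.elim (col₁ 0) (col₂ 0) y) :
    refDec (W₁.map fun w => (false, w)) (W₂.map fun w => (true, w))
        (((W₁.map fun w => (false, w)) ++ W₂.map fun w => (true, w)).map fun b => (b, nbC b))
        (((W₁.map fun w => (false, w)) ++ W₂.map fun w => (true, w)).map σ) = true ↔
      ∀ s, Finset.univ.val.map (col₁ s) = Finset.univ.val.map (col₂ s) := by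
  obtain ⟨I₁, hI₁, hc₁, hu₁⟩ := exists_enum he₁ hW₁ hm₁
  obtain ⟨I₂, hI₂, hc₂, hu₂⟩ := exists_enum he₂ hW₂ hm₂
  have he : Function.Injective (sumCode e₁ e₂) := by
    rintro (x | x) (y | y) hxy <;> simp only [sumCode, Sum.elim_inl, Sum.elim_inr, Prod.mk.injEq,
      true_and, Bool.false_eq_true, Bool.true_eq_false, false_and] at hxy
    · rw [he₁ hxy]
    · rw [he₂ hxy]
  have e1 : (W₁.map fun w => (false, w)) = (I₁.map Sum.inl).map (sumCode e₁ e₂) := by
    rw [← hI₁, List.map_map, List.map_map]; rfl
  have e2 : (W₂.map fun w => (true, w)) = (I₂.map Sum.inr).map (sumCode e₁ e₂) := by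
    rw [← hI₂, List.map_map, List.map_map]; rfl
  rw [e1, e2, refDec_iff he (fun x => by
    rcases x with x | x
    · exact List.mem_append_left _ (List.mem_map_of_mem (hc₁ x))
    · exact List.mem_append_right _ (List.mem_map_of_mem (hc₂ x))) h nbC hnb σ hσ]
  refine forall_congr' fun s => ?_
  rw [← hu₁, ← hu₂, Multiset.map_coe, Multiset.map_coe, Multiset.coe_eq_coe, List.map_map,
    List.map_map]
  rfl

theorem length_rowsOf {n : ℕ} (G : Fin n → Fin n → Bool) : (rowsOf G).length = n := by
  simp [rowsOf]

theorem getD_rowsOf {n : ℕ} (G : Fin n → Fin n → Bool) (i j : Fin n) :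
    ((rowsOf G).getD i []).getD j false = G i j := by
  simp [rowsOf, List.getD_eq_getElem?_getD]

theorem coe_finRange (n : ℕ) : ((List.finRange n : List (Fin n)) : Multiset (Fin n))
    = Finset.univ.val := by
  rw [Multiset.Nodup.ext (Multiset.coe_nodup.2 (List.nodup_finRange n)) Finset.univ.nodup]
  intro x
  simp

/-! ### colour refinement -/

/-- neighbourhoods for colour refinement -/
def crNb (A B : List (List Bool)) (b : Bool × ℕ) : List (List (Bool × ℕ)) :=
  ((List.range (cond b.1 B A).length).filter fun w =>
    ((cond b.1 B A).getD b.2 []).getD w false).map fun w => [(b.1, w)]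

/-- the decision procedure for colour refinement -/
def crDec (p : List (List Bool) × List (List Bool)) : Bool :=
  refDec ((List.range p.1.length).map fun w => (false, w))
    ((List.range p.2.length).map fun w => (true, w))
    ((((List.range p.1.length).map fun w => (false, w)) ++
      (List.range p.2.length).map fun w => (true, w)).map fun b => (b, crNb p.1 p.2 b))
    ((((List.range p.1.length).map fun w => (false, w)) ++
      (List.range p.2.length).map fun w => (true, w)).map fun _ => ())

theorem crDec_pt : PT crDec := by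
  unfold crDec crNb; fun_prop

/-- abstract neighbourhoods for colour refinement -/
def crNbA {n m : ℕ} (G : Fin n → Fin n → Bool) (H : Fin m → Fin m → Bool) :
    Fin n ⊕ Fin m → List (List (Fin n ⊕ Fin m)) :=
  Sum.elim (fun v => ((List.finRange n).filter fun w => G v w).map fun w => [Sum.inl w])
    (fun v => ((List.finRange m).filter fun w => H v w).map fun w => [Sum.inr w])

theorem cr_mult {n : ℕ} (G : Fin n → Fin n → Bool) (s : ℕ) (v : Fin n) :
    ((((List.finRange n).filter fun w => G v w).map fun w => [crcolor G s w] :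
      List (List (CRColor s))) : Multiset (List (CRColor s)))
      = (crcolor G (s + 1) v).2.map fun c => [c] := by
  simp only [crcolor, Finset.filter_val, ← coe_finRange, Multiset.filter_coe,
    Multiset.map_coe]
  simp [Function.comp_def]

theorem cr_refines {n m : ℕ} (G : Fin n → Fin n → Bool) (H : Fin m → Fin m → Bool) :
    Refines (crNbA G H) fun s => Sum.elim (crcolor G s) (crcolor H s) := by
  intro s
  have h1 : ∀ x, (Sum.elim (crcolor G (s + 1)) (crcolor H (s + 1)) x).1
      = Sum.elim (crcolor G s) (crcolor H s) x := by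
    rintro (x | x) <;> rfl
  have h2 : ∀ x, (((crNbA G H x).map (List.map (Sum.elim (crcolor G s) (crcolor H s))) :
      List (List (CRColor s))) : Multiset (List (CRColor s)))
      = (Sum.elim (crcolor G (s + 1)) (crcolor H (s + 1)) x).2.map fun c => [c] := by
    rintro (x | x)
    · rw [Sum.elim_inl, ← cr_mult]
      simp [crNbA, Function.comp_def]
    · rw [Sum.elim_inr, ← cr_mult]
      simp [crNbA, Function.comp_def]
  intro x y
  beta_reduce
  rw [← Multiset.coe_eq_coe, h2, h2, ← h1 x, ← h1 y,
    (Multiset.map_injective (f := fun c : CRColor s => [c]) (fun a b h => by simpa using h)).eq_iff]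
  exact Prod.ext_iff

theorem filter_range_eq {n : ℕ} (G : Fin n → Fin n → Bool) (v : Fin n) :
    ((List.range n).filter fun w => ((rowsOf G).getD v []).getD w false)
      = ((List.finRange n).filter fun w => G v w).map Fin.val := by
  rw [← List.map_coe_finRange_eq_range, List.filter_map]
  congr 2
  funext w
  exact getD_rowsOf G v w

theorem crDec_iff {n m : ℕ} (G : Fin n → Fin n → Bool) (H : Fin m → Fin m → Bool) :
    crDec (rowsOf G, rowsOf H) = true ↔ CREquiv G H := by
  unfold crDec
  simp only [length_rowsOf]
  refine refDec_sum_iff (e₁ := Fin.val) (e₂ := Fin.val) Fin.val_injective Fin.val_injective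
    List.nodup_range List.nodup_range (fun b => ?_) (fun b => ?_) (cr_refines G H) _ ?_
    (fun _ => ()) (fun _ _ => by simp)
  · rw [List.mem_range]
    exact ⟨fun h => ⟨⟨b, h⟩, rfl⟩, fun ⟨x, hx⟩ => hx ▸ x.2⟩
  · rw [List.mem_range]
    exact ⟨fun h => ⟨⟨b, h⟩, rfl⟩, fun ⟨x, hx⟩ => hx ▸ x.2⟩
  · rintro (x | x)
    · simp only [crNb, sumCode, Sum.elim_inl, cond_false, length_rowsOf, filter_range_eq, crNbA,
        List.map_map]
      rfl
    · simp only [crNb, sumCode, Sum.elim_inr, cond_true, length_rowsOf, filter_range_eq, crNbA,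
        List.map_map]
      rfl

/-! ### the joint convention -/

/-- neighbourhoods of tuples -/
def jNb (A B : List (List Bool)) (b : Bool × List ℕ) : List (List (Bool × List ℕ)) :=
  (List.range (cond b.1 B A).length).map fun z =>
    (List.range b.2.length).map fun i => (b.1, b.2.set i z)

/-- atomic types of tuples -/
def jSig (A B : List (List Bool)) (b : Bool × List ℕ) : List (List Bool) × List (List Bool) :=
  (b.2.map fun p => b.2.map fun q => decide (p = q),
    b.2.map fun p => b.2.map fun q => ((cond b.1 B A).getD p []).getD q false)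

/-- the decision procedure, given the lists of tuples -/
def jDec (A B : List (List Bool)) (W₁ W₂ : List (List ℕ)) : Bool :=
  refDec (W₁.map fun w => (false, w)) (W₂.map fun w => (true, w))
    (((W₁.map fun w => (false, w)) ++ W₂.map fun w => (true, w)).map fun b => (b, jNb A B b))
    (((W₁.map fun w => (false, w)) ++ W₂.map fun w => (true, w)).map (jSig A B))

theorem jDec_pt {α : Type} [Enc α] {A B : α → List (List Bool)} {W₁ W₂ : α → List (List ℕ)}
    (hA : PT A) (hB : PT B) (h₁ : PT W₁) (h₂ : PT W₂) :
    PT fun a => jDec (A a) (B a) (W₁ a) (W₂ a) := by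
  unfold jDec jNb jSig; fun_prop

/-- the clamped dimension -/
def clampK (k N t : ℕ) : ℕ := if N ^ min k t ≤ t then min k t else 0

theorem clampK_eq {k N t : ℕ} (hN : 2 ≤ N) (h : N ^ (k + 1) ≤ t) : clampK k N t = k := by
  have h1 : k + 1 < N ^ (k + 1) := Nat.lt_pow_self (by omega)
  have h2 : N ^ k ≤ N ^ (k + 1) := Nat.pow_le_pow_right (by omega) (by omega)
  have h3 : min k t = k := by omega
  rw [clampK, h3, if_pos (by omega)]

theorem pow_clampK_le {k N t n : ℕ} (hn : n ≤ N) : n ^ clampK k N t ≤ t + 1 := by
  unfold clampK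
  split_ifs with h
  · exact (Nat.pow_le_pow_left hn _).trans (by omega)
  · simp

/-- codes of tuples -/
def tupCode {k n : ℕ} (v : Fin k → Fin n) : List ℕ := List.ofFn fun i => (v i : ℕ)

theorem tupCode_inj {k n : ℕ} : Function.Injective (tupCode (k := k) (n := n)) := by
  intro v w h
  funext i
  exact Fin.ext (congrFun (List.ofFn_injective h) i)

theorem mem_words_range {k n : ℕ} (b : List ℕ) :
    b ∈ PT.words (List.range n) k ↔ ∃ v : Fin k → Fin n, tupCode v = b := by
  rw [PT.mem_words]
  constructor
  · rintro ⟨rfl, h⟩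
    refine ⟨fun i => ⟨b[i], List.mem_range.1 (h _ (List.getElem_mem _))⟩, ?_⟩
    simp [tupCode]
  · rintro ⟨v, rfl⟩
    refine ⟨by simp [tupCode], fun c hc => ?_⟩
    obtain ⟨i, rfl⟩ := (List.mem_ofFn' _ _).1 hc
    exact List.mem_range.2 (v i).2

theorem tupCode_update {k n : ℕ} (v : Fin k → Fin n) (i : Fin k) (z : Fin n) :
    tupCode (Function.update v i z) = (tupCode v).set i z := by
  refine List.ext_getElem (by simp [tupCode]) fun j h1 h2 => ?_
  have hj : j < k := by simpa [tupCode] using h1
  simp only [tupCode, List.getElem_ofFn, List.getElem_set]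
  by_cases h : (i : ℕ) = j
  · subst h; simp
  · rw [if_neg h, Function.update_of_ne (fun h' => h (by rw [← h']))]

/-- abstract neighbourhoods of tuples -/
def jNbA (k n m : ℕ) : (Fin k → Fin n) ⊕ (Fin k → Fin m) →
    List (List ((Fin k → Fin n) ⊕ (Fin k → Fin m))) :=
  Sum.elim
    (fun v => (List.finRange n).map fun z => List.ofFn fun i => Sum.inl (Function.update v i z))
    (fun v => (List.finRange m).map fun z => List.ofFn fun i => Sum.inr (Function.update v i z))

theorem j_mult {n : ℕ} (G : Fin n → Fin n → Bool) (k s : ℕ) (v : Fin k → Fin n) :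
    (((List.finRange n).map fun z => List.ofFn fun i => jcolor G k s (Function.update v i z) :
      List (List (JColor k s))) : Multiset (List (JColor k s)))
      = (jcolor G k (s + 1) v).2.map List.ofFn := by
  simp only [jcolor, ← coe_finRange, Multiset.map_coe]
  simp [Function.comp_def]

theorem j_refines {n m : ℕ} (k : ℕ) (G : Fin n → Fin n → Bool) (H : Fin m → Fin m → Bool) :
    Refines (jNbA k n m) fun s => Sum.elim (jcolor G k s) (jcolor H k s) := by
  intro s
  have h1 : ∀ x, (Sum.elim (jcolor G k (s + 1)) (jcolor H k (s + 1)) x).1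
      = Sum.elim (jcolor G k s) (jcolor H k s) x := by
    rintro (x | x) <;> rfl
  have h2 : ∀ x, (((jNbA k n m x).map (List.map (Sum.elim (jcolor G k s) (jcolor H k s))) :
      List (List (JColor k s))) : Multiset (List (JColor k s)))
      = (Sum.elim (jcolor G k (s + 1)) (jcolor H k (s + 1)) x).2.map List.ofFn := by
    rintro (x | x)
    · rw [Sum.elim_inl, ← j_mult]
      simp [jNbA, Function.comp_def, List.map_ofFn]
    · rw [Sum.elim_inr, ← j_mult]
      simp [jNbA, Function.comp_def, List.map_ofFn]
  intro x y
  beta_reduce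
  rw [← Multiset.coe_eq_coe, h2, h2, ← h1 x, ← h1 y,
    (Multiset.map_injective (List.ofFn_injective (n := k))).eq_iff]
  exact Prod.ext_iff

theorem range_map_set {k n : ℕ} (b : Bool) (v : Fin k → Fin n) (z : Fin n) :
    ((List.range (tupCode v).length).map fun i => (b, (tupCode v).set i z))
      = List.ofFn fun i : Fin k => (b, tupCode (Function.update v i z)) := by
  refine List.ext_getElem (by simp [tupCode]) fun j h1 h2 => ?_
  simp [tupCode_update]

/-- the list form of an atomic type -/
def typeCode {k : ℕ} (c : JColor k 0) : List (List Bool) × List (List Bool) :=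
  (List.ofFn fun i => List.ofFn (c.1 i), List.ofFn fun i => List.ofFn (c.2 i))

theorem typeCode_inj {k : ℕ} : Function.Injective (typeCode (k := k)) := by
  intro c c' h
  simp only [typeCode, Prod.mk.injEq] at h
  refine Prod.ext (funext fun i => ?_) (funext fun i => ?_)
  · exact List.ofFn_injective (congrFun (List.ofFn_injective h.1) i)
  · exact List.ofFn_injective (congrFun (List.ofFn_injective h.2) i)

theorem sig_eq {k n : ℕ} (G : Fin n → Fin n → Bool) (v : Fin k → Fin n) :
    (((tupCode v).map fun p => (tupCode v).map fun q => decide (p = q)),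
      ((tupCode v).map fun p => (tupCode v).map fun q => ((rowsOf G).getD p []).getD q false))
      = typeCode (jcolor G k 0 v) := by
  simp only [tupCode, List.map_ofFn, Function.comp_def, getD_rowsOf, Fin.val_inj]
  rfl

theorem jDec_iff {n m : ℕ} (k : ℕ) (G : Fin n → Fin n → Bool) (H : Fin m → Fin m → Bool) :
    jDec (rowsOf G) (rowsOf H) (PT.words (List.range n) k) (PT.words (List.range m) k) = true ↔
      JEquiv k G H := by
  unfold jDec
  refine refDec_sum_iff (e₁ := tupCode) (e₂ := tupCode) tupCode_inj tupCode_inj
    (PT.nodup_words List.nodup_range k) (PT.nodup_words List.nodup_range k) mem_words_range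
    mem_words_range (j_refines k G H) _ ?_ _ ?_
  · rintro (x | x)
    · simp only [jNb, sumCode, Sum.elim_inl, cond_false, length_rowsOf, jNbA, List.map_map]
      rw [← List.map_coe_finRange_eq_range (n := n), List.map_map]
      refine List.map_congr_left fun z _ => ?_
      simp only [Function.comp_apply, range_map_set, List.map_ofFn]
      rfl
    · simp only [jNb, sumCode, Sum.elim_inr, cond_true, length_rowsOf, jNbA, List.map_map]
      rw [← List.map_coe_finRange_eq_range (n := m), List.map_map]
      refine List.map_congr_left fun z _ => ?_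
      simp only [Function.comp_apply, range_map_set, List.map_ofFn]
      rfl
  · have key : ∀ x, jSig (rowsOf G) (rowsOf H) (sumCode tupCode tupCode x)
        = typeCode (Sum.elim (jcolor G k 0) (jcolor H k 0) x) := by
      rintro (x | x)
      · exact sig_eq G x
      · exact sig_eq H x
    intro x y
    rw [key, key, typeCode_inj.eq_iff]

/-- the decision procedure with a clock -/
def jDecT (p : (ℕ × List (List Bool) × List (List Bool)) × Un) : Bool :=
  jDec p.1.2.1 p.1.2.2
    (PT.words (List.range p.1.2.1.length)
      (clampK p.1.1 (p.1.2.1.length + p.1.2.2.length + 2) p.2.n))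
    (PT.words (List.range p.1.2.2.length)
      (clampK p.1.1 (p.1.2.1.length + p.1.2.2.length + 2) p.2.n))

theorem jDecT_pt : PT jDecT := by
  have hm : PB fun p : (ℕ × List (List Bool) × List (List Bool)) × Un => min p.1.1 p.2.n :=
    PB.min_right _ (by fun_prop)
  have hk : PT fun p : (ℕ × List (List Bool) × List (List Bool)) × Un =>
      clampK p.1.1 (p.1.2.1.length + p.1.2.2.length + 2) p.2.n := by
    unfold clampK
    exact PT.ite (PT.nat_le (PT.nat_pow (by fun_prop) (by fun_prop) hm) (by fun_prop))
      (by fun_prop) (by fun_prop)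
  have hb : PB fun p : (ℕ × List (List Bool) × List (List Bool)) × Un =>
      clampK p.1.1 (p.1.2.1.length + p.1.2.2.length + 2) p.2.n := by
    unfold clampK
    exact PB.ite hm (by fun_prop)
  have ht : PB fun p : (ℕ × List (List Bool) × List (List Bool)) × Un => p.2.n + 1 := by fun_prop
  refine jDec_pt (by fun_prop) (by fun_prop)
    (PT.words_pt (by fun_prop) hk hb (ht.mono fun p => pow_clampK_le ?_))
    (PT.words_pt (by fun_prop) hk hb (ht.mono fun p => pow_clampK_le ?_))
  · rw [List.length_range]; omega
  · rw [List.length_range]; omega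

end Refine

/-- Suggested route: one GENERIC refinement.  A refinement system is a list `nb` of `N` items,
item `x` having a list `nb[x] : List (List ℕ)` of vectors of item numbers, and an initial colouring
`c₀ : List ℕ`.  One round: `sig x = (c[x], nb[x].map (·.map c[·]))`, new colour of `x` = least `y`
with `(sig y).1 = (sig x).1` and `(sig y).2 ~ (sig x).2` (`List.Perm`, `PT.perm`, `findIdx`); colours
stay `< N`.  Abstract lemma: if `col s : items → C s` satisfies
`col (s+1) x = col (s+1) y ↔ col s x = col s y ∧ (multisets of vectors of col s agree)`, then the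
computed colours after `s` rounds have the same kernel as `col s`; the kernels decrease, and once
stable stay stable, so they are stable from round `N` on; equality of the two histograms at round
`s + 1` implies it at round `s`, and only depends on the kernel.  So "for all `s`" is equivalent to
"at round `N`".  Items: the tuples of `G` followed by the tuples of `H` (`words (range n) k`,
`words_pt` with the clock `t` as bound; clamp with `min`/`if` so that the function is total). -/
theorem exists_jdec : ∃ f : (ℕ × List (List Bool) × List (List Bool)) × Un → Bool, PT f ∧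
    ∀ (k n m : ℕ) (G : Fin n → Fin n → Bool) (H : Fin m → Fin m → Bool) (t : ℕ), 1 ≤ k →
      (n + m + 2) ^ (k + 1) ≤ t → (f ((k, rowsOf G, rowsOf H), ⟨t⟩) = true ↔ JEquiv k G H) := by
  refine ⟨Refine.jDecT, Refine.jDecT_pt, fun k n m G H t _ ht => ?_⟩
  simp only [Refine.jDecT, Refine.length_rowsOf]
  rw [Refine.clampK_eq (by omega) ht]
  exact Refine.jDec_iff k G H

/-- The same generic refinement: items are the vertices, vectors of length one over neighbours. -/
theorem exists_crdec : ∃ f : List (List Bool) × List (List Bool) → Bool, PT f ∧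
    ∀ (n m : ℕ) (G : Fin n → Fin n → Bool) (H : Fin m → Fin m → Bool),
      (f (rowsOf G, rowsOf H) = true ↔ CREquiv G H) :=
  ⟨Refine.crDec, Refine.crDec_pt, fun _ _ G H => Refine.crDec_iff G H⟩

end Crest.Agent.R290
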