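import Crest.Agent.R290.Lines

/-!
# rid 290: abstract lemmas for the soundness proof
-/

set_option autoImplicit false

namespace Crest.Agent.R290.Snd

open Crest.Agent.R290

section general

variable {X : Type}

theorem lsum_add (η η' : X → ZMod 2) (ℓ : List X) :
    lsum (η + η') ℓ = lsum η ℓ + lsum η' ℓ := by
  induction ℓ with
  | nil => simp
  | cons x ℓ ih => simp only [lsum_cons, ih, Pi.add_apply]; ring

theorem lsum_zero_of {η : X → ZMod 2} {ℓ : List X} (h : ∀ x ∈ ℓ, η x = 0) : lsum η ℓ = 0 := by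
  induction ℓ with
  | nil => simp
  | cons x ℓ ih =>
    rw [lsum_cons, h x (by simp), ih fun y hy => h y (by simp [hy])]; rfl

theorem lsum_finsum {κ : Type} (s : Finset κ) (c : κ → ZMod 2) (Δ : κ → X → ZMod 2) (ℓ : List X) :
    lsum (fun x => ∑ n ∈ s, c n * Δ n x) ℓ = ∑ n ∈ s, c n * lsum (Δ n) ℓ := by
  induction ℓ with
  | nil => simp
  | cons x ℓ ih => simp only [lsum_cons, ih, mul_add, Finset.sum_add_distrib]

theorem lsum_map {β : Type} (η : X → ZMod 2) (f : β → X) (l : List β) :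
    lsum η (l.map f) = lsum (fun j => η (f j)) l := by
  simp [lsum, Function.comp_def]

theorem lsum_single {η : X → ZMod 2} {ℓ : List X} (hn : ℓ.Nodup) {x : X} (hx : x ∈ ℓ)
    (h : ∀ y ∈ ℓ, y ≠ x → η y = 0) : lsum η ℓ = η x := by
  induction ℓ with
  | nil => simp at hx
  | cons y ℓ ih =>
    rw [List.nodup_cons] at hn
    rw [lsum_cons]
    rcases List.mem_cons.1 hx with rfl | hx'
    · rw [lsum_zero_of fun z hz => h z (by simp [hz]) fun e => hn.1 (e ▸ hz), add_zero]
    · rw [h y (by simp) fun e => hn.1 (e ▸ hx'), zero_add]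
      exact ih hn.2 hx' fun z hz => h z (by simp [hz])

theorem sum_lsum_comm {β : Type} (s : Finset ℕ) (φ : β → ℕ → ZMod 2) (l : List β) :
    ∑ i ∈ s, lsum (fun j => φ j i) l = lsum (fun j => ∑ i ∈ s, φ j i) l := by
  induction l with
  | nil => simp
  | cons y l ih => simp only [lsum_cons, Finset.sum_add_distrib, ih]

theorem lsum_range (φ : ℕ → ZMod 2) (r : ℕ) :
    lsum φ (List.range r) = ∑ i ∈ Finset.range r, φ i := by
  induction r with
  | zero => simp
  | succ r ih => rw [List.range_succ, lsum_append, ih, Finset.sum_range_succ]; simp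

open Classical in
/-- Indicator of one variable. -/
noncomputable def ind (x : X) : X → ZMod 2 := fun y => if y = x then 1 else 0

theorem ind_self (x : X) : ind x x = 1 := by simp [ind]

theorem ind_ne {x y : X} (h : y ≠ x) : ind x y = 0 := by simp [ind, h]

theorem lsum_ind_not {x : X} {ℓ : List X} (h : x ∉ ℓ) : lsum (ind x) ℓ = 0 :=
  lsum_zero_of fun _ hy => ind_ne fun e => h (e ▸ hy)

theorem lsum_ind_mem {x : X} {ℓ : List X} (hn : ℓ.Nodup) (h : x ∈ ℓ) : lsum (ind x) ℓ = 1 := by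
  rw [lsum_single hn h fun y _ hy => ind_ne hy, ind_self]

/-- Repair finitely many equations at once. -/
theorem fix_step {ι κ : Type} (eqn : ι → Eqn X) (P : X → Prop) (S : ι → Prop) (N : Set κ)
    (hN : N.Finite) (tg : κ → ι)
    (h : ∀ n ∈ N, ∃ Δ : X → ZMod 2, lsum Δ (eqn (tg n)).1 = 1 ∧
      (∀ n' ∈ N, n' ≠ n → lsum Δ (eqn (tg n')).1 = 0) ∧
      (∀ e, S e → lsum Δ (eqn e).1 = 0) ∧ ∀ x, P x → Δ x = 0)
    (η : X → ZMod 2) (hη : ∀ e, S e → Sat η (eqn e)) :
    ∃ η' : X → ZMod 2, (∀ e, S e → Sat η' (eqn e)) ∧ (∀ n ∈ N, Sat η' (eqn (tg n))) ∧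
      ∀ x, P x → η' x = η x := by
  classical
  choose! Δ h1 h2 h3 h4 using h
  let c : κ → ZMod 2 := fun n => b2z (eqn (tg n)).2 - lsum η (eqn (tg n)).1
  refine ⟨η + fun x => ∑ n ∈ hN.toFinset, c n * Δ n x, fun e he => ?_, fun n hn => ?_,
    fun x hx => ?_⟩
  · unfold Sat
    rw [lsum_add, lsum_finsum, Finset.sum_eq_zero, add_zero]
    · exact hη e he
    · intro n hn
      rw [h3 n (by simpa using hn) e he, mul_zero]
  · unfold Sat
    rw [lsum_add, lsum_finsum, Finset.sum_eq_single n, h1 n hn]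
    · simp [c]
    · intro n' hn' hne
      rw [h2 n' (by simpa using hn') n hn hne.symm, mul_zero]
    · intro hn'; exact absurd (by simpa using hn) hn'
  · simp only [Pi.add_apply]
    rw [Finset.sum_eq_zero, add_zero]
    intro n hn
    rw [h4 n (by simpa using hn) x hx, mul_zero]

/-- From an indexed strategy to a strategy on the list of equations. -/
theorem lcons_of_indexed {ι : Type} (E : List (Eqn X)) (K : ℕ) (eqn : ι → Eqn X)
    (Real : ι → Prop) (i₀ : ι) (hE : ∀ e ∈ E, ∃ i, Real i ∧ eqn i = e)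
    (Req : Finset ι → ι → Prop) (self : ∀ R, ∀ i ∈ R, Req R i)
    (mono : ∀ R R' i, R ⊆ R' → Req R i → Req R' i) (empty : ∀ i, ¬ Req ∅ i)
    (ext : ∀ R R' : Finset ι, R ⊆ R' → (∀ i ∈ R', Real i) → R'.card ≤ K →
      ∀ η : X → ZMod 2, (∀ i, Req R i → Sat η (eqn i)) →
        ∃ η' : X → ZMod 2, (∀ i, Req R' i → Sat η' (eqn i)) ∧
          ∀ x, (∃ i ∈ R, x ∈ (eqn i).1) → η' x = η x) : LCons E K := by
  classical
  have : Nonempty ι := ⟨i₀⟩
  choose! sec h1 h2 using hE
  refine ⟨fun R η => (∀ e ∈ R, e ∈ E) ∧ ∀ i, Req (R.image sec) i → Sat η (eqn i), ?_, ?_, ?_, ?_⟩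
  · exact ⟨0, by simp, fun i hi => absurd (by simpa using hi) (empty i)⟩
  · intro R R' η hR h
    exact ⟨fun e he => h.1 e (hR he), fun i hi =>
      h.2 i (mono _ _ i (Finset.image_subset_image hR) hi)⟩
  · intro R η h e he
    rw [← h2 e (h.1 e he)]
    exact h.2 _ (self _ _ (Finset.mem_image_of_mem _ he))
  · intro R R' η hR hE' hc h
    obtain ⟨η', g1, g2⟩ := ext (R.image sec) (R'.image sec) (Finset.image_subset_image hR)
      (fun i hi => by
        obtain ⟨e, he, rfl⟩ := Finset.mem_image.1 hi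
        exact h1 e (hE' e he))
      (Finset.card_image_le.trans hc) η h.2
    refine ⟨η', ⟨hE', g1⟩, fun e he x hx => g2 x ⟨sec e, Finset.mem_image_of_mem _ he, ?_⟩⟩
    rw [h2 e (h.1 e he)]; exact hx

/-- A long list avoids few conditions that hold at most once. -/
theorem exists_avoid {β ζ : Type} (l : List β) (hl : l.Nodup) (I : Finset ζ) (B : ζ → β → Prop)
    (hB : ∀ z ∈ I, ∀ j ∈ l, ∀ j' ∈ l, B z j → B z j' → j = j') (hc : I.card < l.length) :
    ∃ j ∈ l, ∀ z ∈ I, ¬ B z j := by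
  classical
  by_contra hcon
  push Not at hcon
  have h1 : l.toFinset ⊆ I.biUnion fun z => l.toFinset.filter (B z) := by
    intro j hj
    obtain ⟨z, hz, hb⟩ := hcon j (by simpa using hj)
    exact Finset.mem_biUnion.2 ⟨z, hz, Finset.mem_filter.2 ⟨hj, hb⟩⟩
  have h2 := (Finset.card_le_card h1).trans (Finset.card_biUnion_le_card_mul I _ 1 fun z hz =>
    Finset.card_le_one.2 fun a ha b hb => by
      rw [Finset.mem_filter, List.mem_toFinset] at ha hb
      exact hB z hz a ha.1 b hb.1 ha.2 hb.2)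
  rw [List.toFinset_card_of_nodup hl] at h2
  omega

end general

section count

/-- The residue of an address in row `i`. -/
def res (qs : List ℕ) (i : ℕ) (a : ℤ) : ℕ := (a % (qq qs i : ℤ)).toNat

variable {qs : List ℕ}

theorem res_cast (hq : ∀ q ∈ qs, 0 < q) (i : ℕ) (a : ℤ) :
    ((res qs i a : ℕ) : ℤ) = a % (qq qs i : ℤ) :=
  Int.toNat_of_nonneg (Int.emod_nonneg _ (by have := qq_pos hq i; omega))

theorem res_eq_iff (hq : ∀ q ∈ qs, 0 < q) {i : ℕ} {a a' : ℤ} :
    res qs i a = res qs i a' ↔ a % (qq qs i : ℤ) = a' % (qq qs i : ℤ) := by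
  rw [← res_cast hq, ← res_cast hq, Nat.cast_inj]

theorem res_mod (hq : ∀ q ∈ qs, 0 < q) (i : ℕ) (a : ℤ) :
    ((res qs i a : ℕ) : ℤ) % (qq qs i : ℤ) = a % (qq qs i : ℤ) := by
  rw [res_cast hq, Int.emod_emod_of_dvd _ dvd_rfl]

theorem res_res (hq : ∀ q ∈ qs, 0 < q) (i : ℕ) (a : ℤ) : res qs i (res qs i a) = res qs i a :=
  (res_eq_iff hq).2 (res_mod hq i a)

theorem res_of_lt {i α : ℕ} (h : α < qq qs i) : res qs i α = α := by
  unfold res
  rw [Int.emod_eq_of_lt (by omega) (by omega)]; rfl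

theorem res_lt (hq : ∀ q ∈ qs, 0 < q) (i : ℕ) (a : ℤ) : res qs i a < qq qs i := by
  have h1 := res_cast hq i a
  have h2 := Int.emod_lt_of_pos a (b := qq qs i) (by have := qq_pos hq i; omega)
  omega

theorem res_add_congr (hq : ∀ q ∈ qs, 0 < q) {i : ℕ} {a a' : ℤ} (δ : ℤ) :
    res qs i (a + δ) = res qs i (a' + δ) ↔ res qs i a = res qs i a' := by
  rw [res_eq_iff hq, res_eq_iff hq]
  exact Int.emod_add_cancel_right δ

open Classical in
/-- The address `a` is covered in at least half of the rows. -/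
def Heavy (qs : List ℕ) (Q : ℕ → ℕ → Prop) (a : ℤ) : Prop :=
  qs.length ≤ 2 * ((Finset.range qs.length).filter fun i => Q i (res qs i a)).card

theorem Heavy.mono {Q Q' : ℕ → ℕ → Prop} {a a' : ℤ}
    (h : ∀ i < qs.length, Q i (res qs i a) → Q' i (res qs i a')) (ha : Heavy qs Q a) :
    Heavy qs Q' a' := by
  classical
  unfold Heavy at *
  refine ha.trans (Nat.mul_le_mul_left _ (Finset.card_le_card fun i hi => ?_))
  simp only [Finset.mem_filter, Finset.mem_range] at hi ⊢
  exact ⟨hi.1, h i hi.1 hi.2⟩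

theorem Heavy.exists {Q : ℕ → ℕ → Prop} {a : ℤ} (hr : 0 < qs.length) (ha : Heavy qs Q a) :
    ∃ i < qs.length, Q i (res qs i a) := by
  classical
  unfold Heavy at ha
  obtain ⟨i, hi⟩ := Finset.card_pos.1 (show 0 < _ by omega : 0 <
    ((Finset.range qs.length).filter fun i => Q i (res qs i a)).card)
  simp only [Finset.mem_filter, Finset.mem_range] at hi
  exact ⟨i, hi⟩

theorem heavy_of_all {Q : ℕ → ℕ → Prop} {a : ℤ} (h : ∀ i < qs.length, Q i (res qs i a)) :
    Heavy qs Q a := by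
  classical
  unfold Heavy
  rw [Finset.filter_true_of_mem fun i hi => h i (Finset.mem_range.1 hi), Finset.card_range]
  omega

open Classical in
theorem shared_rows_le (hq : ∀ q ∈ qs, 0 < q) {D m : ℕ} (ha : Agree qs (2 * D) m) {a : ℤ}
    (hD : |a| ≤ D) (A : Finset ℤ) (hA : ∀ a' ∈ A, |a'| ≤ D) :
    ((Finset.range qs.length).filter fun i =>
      ∃ a' ∈ A, a' ≠ a ∧ res qs i a' = res qs i a).card ≤ (A.erase a).card * m := by
  refine le_trans (Finset.card_le_card (t := (A.erase a).biUnion fun a' =>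
    (Finset.range qs.length).filter fun i => a' % (qq qs i : ℤ) = a % (qq qs i : ℤ)) ?_)
    (Finset.card_biUnion_le_card_mul _ _ _ fun a' ha' => ?_)
  · intro i hi
    simp only [Finset.mem_filter, Finset.mem_biUnion, Finset.mem_erase] at hi ⊢
    obtain ⟨h1, a', h2, h3, h4⟩ := hi
    exact ⟨a', ⟨h3, h2⟩, h1, (res_eq_iff hq).1 h4⟩
  · rw [Finset.mem_erase] at ha'
    refine ha a' a ha'.1 ?_
    have h1 := hA a' ha'.2
    have h2 := abs_sub a' a
    push_cast
    omega

theorem heavy_card (hq : ∀ q ∈ qs, 0 < q) {D m : ℕ} (ha : Agree qs (2 * D) m)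
    (hm : 800 * m ≤ qs.length) (hr : 0 < qs.length) {Q : ℕ → ℕ → Prop} (Pi : Finset (ℕ × ℕ))
    (hPi : Pi.card ≤ 13 * qs.length) (hQ : ∀ i α, Q i α → (i, α) ∈ Pi) (A : Finset ℤ)
    (hA : ∀ a ∈ A, |a| ≤ D ∧ Heavy qs Q a) : A.card ≤ 27 := by
  classical
  by_contra hcon
  obtain ⟨B, hB, hc⟩ := Finset.exists_subset_card_eq (s := A) (n := 28) (by omega)
  let pr : ℤ → Finset ℕ := fun a => (Finset.range qs.length).filter fun i =>
    Q i (res qs i a) ∧ ¬ ∃ a' ∈ B, a' ≠ a ∧ res qs i a' = res qs i a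
  have h1 : ∀ a ∈ B, qs.length ≤ 2 * (pr a).card + 54 * m := by
    intro a haB
    have h2 := (hA a (hB haB)).2
    have h3 := shared_rows_le hq ha (hA a (hB haB)).1 B fun a' h => (hA a' (hB h)).1
    rw [Finset.card_erase_of_mem haB, hc] at h3
    unfold Heavy at h2
    have h4 : ((Finset.range qs.length).filter fun i => Q i (res qs i a)) ⊆ pr a ∪
        (Finset.range qs.length).filter fun i =>
          ∃ a' ∈ B, a' ≠ a ∧ res qs i a' = res qs i a := by
      intro i hi
      simp only [pr, Finset.mem_union, Finset.mem_filter] at hi ⊢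
      tauto
    have h5 := (Finset.card_le_card h4).trans (Finset.card_union_le _ _)
    have h6 : ((Finset.range qs.length).filter fun i => Q i (res qs i a)).card ≤
        (pr a).card + (28 - 1) * m := h5.trans (Nat.add_le_add_left (by convert h3) _)
    have h7 : qs.length ≤
        2 * ((Finset.range qs.length).filter fun i => Q i (res qs i a)).card := by convert h2
    omega
  have h2 : (B.sigma pr).card ≤ Pi.card := by
    refine Finset.card_le_card_of_injOn (fun z => (z.2, res qs z.2 z.1)) (fun z hz => ?_) ?_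
    · simp only [Finset.coe_sigma, Set.mem_sigma_iff, Finset.mem_coe, pr, Finset.mem_filter] at hz
      exact hQ _ _ hz.2.2.1
    · rintro ⟨a, i⟩ hz ⟨a', i'⟩ hz' he
      simp only [Finset.coe_sigma, Set.mem_sigma_iff, Finset.mem_coe, pr, Finset.mem_filter,
        Prod.mk.injEq] at hz hz' he
      obtain ⟨rfl, he⟩ := he
      by_cases hne : a' = a
      · rw [hne]
      · exact absurd ⟨a', hz'.1, hne, he.symm⟩ hz.2.2.2
  rw [Finset.card_sigma] at h2
  have h3 : ∑ _a ∈ B, qs.length ≤ ∑ a ∈ B, (2 * (pr a).card + 54 * m) := Finset.sum_le_sum h1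
  rw [Finset.sum_add_distrib, ← Finset.mul_sum] at h3
  simp only [Finset.sum_const, hc, smul_eq_mul] at h3
  omega

/-- An address that is not heavy has an uncovered row shared with no other heavy address. -/
theorem priv_row (hq : ∀ q ∈ qs, 0 < q) {D m : ℕ} (ha : Agree qs (2 * D) m)
    (hm : 800 * m ≤ qs.length) (hr : 0 < qs.length) {Q Q' : ℕ → ℕ → Prop} (Pi : Finset (ℕ × ℕ))
    (hPi : Pi.card ≤ 13 * qs.length) (hQ : ∀ i α, Q' i α → (i, α) ∈ Pi) {a : ℤ} (hD : |a| ≤ D)
    (hn : ¬ Heavy qs Q a) : ∃ i < qs.length, ¬ Q i (res qs i a) ∧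
      ∀ a' : ℤ, |a'| ≤ D → Heavy qs Q' a' → a' ≠ a → res qs i a' ≠ res qs i a := by
  classical
  let A : Finset ℤ := (Finset.Icc (-(D : ℤ)) D).filter fun a' => Heavy qs Q' a'
  have hA : ∀ a' ∈ A, |a'| ≤ D ∧ Heavy qs Q' a' := fun a' h => by
    simp only [A, Finset.mem_filter, Finset.mem_Icc] at h
    exact ⟨abs_le.2 h.1, h.2⟩
  have h1 := heavy_card hq ha hm hr Pi hPi hQ A hA
  have h2 := shared_rows_le hq ha hD A fun a' h => (hA a' h).1
  have h3 : (A.erase a).card * m ≤ 27 * m :=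
    Nat.mul_le_mul_right _ (Finset.card_erase_le.trans h1)
  by_contra hcon
  push Not at hcon
  have h4 : Finset.range qs.length ⊆
      ((Finset.range qs.length).filter fun i => Q i (res qs i a)) ∪
        (Finset.range qs.length).filter fun i =>
          ∃ a' ∈ A, a' ≠ a ∧ res qs i a' = res qs i a := by
    intro i hi
    simp only [Finset.mem_union, Finset.mem_filter]
    by_cases h : Q i (res qs i a)
    · exact Or.inl ⟨hi, h⟩
    · obtain ⟨a', g1, g2, g3, g4⟩ := hcon i (Finset.mem_range.1 hi) h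
      refine Or.inr ⟨hi, a', ?_, g3, g4⟩
      simp only [A, Finset.mem_filter, Finset.mem_Icc]
      exact ⟨abs_le.1 g1, g2⟩
  have h5 := (Finset.card_le_card h4).trans (Finset.card_union_le _ _)
  rw [Finset.card_range] at h5
  have h6 : qs.length ≤ ((Finset.range qs.length).filter fun i => Q i (res qs i a)).card + 27 * m :=
    h5.trans (Nat.add_le_add_left (le_trans (by convert h2) h3) _)
  apply hn
  unfold Heavy
  have h7 : qs.length ≤
      2 * ((Finset.range qs.length).filter fun i => Q i (res qs i a)).card := by omega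
  convert h7

end count

end Crest.Agent.R290.Snd
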