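import Crest.Agent.R290.SoundA

/-!
# rid 290: required equations, generic copies
-/

set_option autoImplicit false

namespace Crest.Agent.R290.Snd

open Crest.Agent.R290

/-- Names of real and virtual equations. -/
inductive Ix
  | gate (γ : ℕ) (l : Cp) (i α : ℕ)
  | fact (W : Wire) (j : Cp) (a : ℤ)
  | uu (g : ℕ) (l : Cp) (t : List LVar) (c : Bool)

/-- Parameters. -/
structure Par where
  H : List HRule
  qs : List ℕ
  lam : ℕ
  σ : ℕ
  N : ℕ
  m : ℕ
  K : ℕ
  b : ℕ → Cp → Bool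

namespace Par

variable (p : Par)

/-- Hypotheses on the parameters. -/
structure OK : Prop where
  hH : HornOK p.H p.N
  hd : ¬ Der p.H wf 0
  hq : ∀ q ∈ p.qs, 0 < q
  ha : Agree p.qs (2 * (3 * p.N)) p.m
  hm : 800 * p.m ≤ p.qs.length
  hr : 0 < p.qs.length
  hK : p.K ≤ 4 * p.qs.length
  hlam : 3 * p.K < p.lam

/-- Input wire of slot `s`. -/
def inW (γ : ℕ) (s : Bool) : Wire := cond s (ruleAt p.H γ).2.2.1 (ruleAt p.H γ).2.1.1

/-- Shift of slot `s`. -/
def inD (γ : ℕ) (s : Bool) : ℤ := cond s (ruleAt p.H γ).2.2.2 (ruleAt p.H γ).2.1.2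

/-- Output wire. -/
def outW (γ : ℕ) : Wire := (ruleAt p.H γ).1

/-- The line with a given name. -/
def ln (g : ℕ) (l : Cp) : List Cp := line p.lam p.σ g l

/-- The variables of a fact, with the scalar for the final fact. -/
def factX (W : Wire) (j : Cp) (a : ℤ) : List LVar :=
  factL p.qs W j a ++ if W = wf ∧ a = 0 then [Sum.inr j] else []

/-- The equation with a given name. -/
def eqn : Ix → Eqn LVar
  | .gate γ l i α => (gateL p.H p.qs p.lam p.σ γ l i α, false)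
  | .fact W j a => (p.factX W j a, false)
  | .uu g l t c => ((p.ln g l).map Sum.inr ++ t, c)

/-- Names of equations of the system. -/
def Real : Ix → Prop
  | .gate γ l i α => γ < p.H.length ∧ l ∈ copies p.lam p.σ ∧ i < p.qs.length ∧ α < qq p.qs i
  | .fact W j a => (W = w0 ∨ W = wf) ∧ j ∈ copies p.lam p.σ ∧ a = 0
  | .uu g l t c => l ∈ copies p.lam p.σ ∧ ((g < 2 ∧ t = [] ∧ c = p.b g l) ∨
      ∃ W ∈ wires p.H, ∃ i < p.qs.length, ∃ α < qq p.qs i, g = amIdx p.H p.qs W i α ∧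
        t = [Sum.inl (W, l, i, α)] ∧ c = false)

/-- True facts, and the final fact. -/
def Tr (W : Wire) (a : ℤ) : Prop := Der p.H W a ∨ (W = wf ∧ a = 0)

/-- Variables of pebbled equations. -/
def InP (R : Finset Ix) (x : LVar) : Prop := ∃ e ∈ R, x ∈ (p.eqn e).1

/-- Heavy facts. -/
def HF (R : Finset Ix) (W : Wire) (j : Cp) (a : ℤ) : Prop :=
  Heavy p.qs (fun i α => p.InP R (Sum.inl (W, j, i, α))) a

/-- Heavy gate types. -/
def HT (R : Finset Ix) (γ : ℕ) (l : Cp) (a : ℤ) : Prop :=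
  Heavy p.qs (fun i α => Ix.gate γ l i α ∈ R) a

/-- Required equations. -/
def Req (R : Finset Ix) (e : Ix) : Prop := e ∈ R ∨
  match e with
  | .gate γ l i α => i < p.qs.length ∧
      ∃ a : ℤ, |a| ≤ 2 * p.N ∧ p.HT R γ l a ∧ α = res p.qs i a
  | .fact W j a => p.Tr W a ∧ p.HF R W j a
  | .uu _ _ _ _ => False

end Par

/-- The copy name of an equation. -/
def cp : Ix → Cp
  | .gate _ l _ _ => l
  | .fact _ j _ => j
  | .uu _ l _ _ => l

/-- Line number of slot `s` of gate `γ`. -/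
def gix (γ : ℕ) (s : Bool) : ℕ := 2 * γ + s.toNat

/-- The line numbers of an equation. -/
def gi : Ix → Bool → ℕ
  | .gate γ _ _ _, s => gix γ s
  | .fact _ _ _, _ => 0
  | .uu g _ _ _, _ => g

theorem gix_inj {γ γ' : ℕ} {s s' : Bool} (h : gix γ s = gix γ' s') : γ = γ' ∧ s = s' := by
  unfold gix at h
  cases s <;> cases s' <;> simp at h ⊢ <;> omega

theorem rowv_eq (qs : List ℕ) (W : Wire) (j : Cp) (i : ℕ) (a : ℤ) :
    rowv qs W j i a = Sum.inl (W, j, i, res qs i a) := rfl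

theorem w0_ne_wf : w0 ≠ wf := by decide

namespace Par

variable {p : Par}

theorem mem_gateL {γ : ℕ} {l : Cp} {i : ℕ} {a : ℤ} {x : LVar} :
    x ∈ gateL p.H p.qs p.lam p.σ γ l i a ↔
      (∃ s, ∃ j ∈ p.ln (gix γ s) l,
        x = Sum.inl (p.inW γ s, j, i, res p.qs i (a + p.inD γ s))) ∨
      x = Sum.inl (p.outW γ, l, i, res p.qs i a) := by
  simp only [gateL, List.mem_append, List.mem_map, List.mem_singleton, Bool.exists_bool, inW, inD,
    outW, ln, gix, rowv_eq, cond_true, cond_false, Bool.toNat_false, Bool.toNat_true, add_zero,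
    eq_comm (a := x)]

theorem lsum_gateL (η : LVar → ZMod 2) (γ : ℕ) (l : Cp) (i : ℕ) (a : ℤ) :
    lsum η (gateL p.H p.qs p.lam p.σ γ l i a) =
      lsum (fun j => η (Sum.inl (p.inW γ false, j, i, res p.qs i (a + p.inD γ false))))
        (p.ln (gix γ false) l) +
      lsum (fun j => η (Sum.inl (p.inW γ true, j, i, res p.qs i (a + p.inD γ true))))
        (p.ln (gix γ true) l) + η (Sum.inl (p.outW γ, l, i, res p.qs i a)) := by
  simp only [gateL, lsum_append, lsum_map, lsum_cons, lsum_nil, add_zero]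
  rfl

theorem mem_factX {W : Wire} {j : Cp} {a : ℤ} {x : LVar} :
    x ∈ p.factX W j a ↔ (∃ i < p.qs.length, x = Sum.inl (W, j, i, res p.qs i a)) ∨
      (W = wf ∧ a = 0 ∧ x = Sum.inr j) := by
  unfold factX factL
  split_ifs with h
  · simp [h, rowv_eq, eq_comm (a := x)]
  · simp only [List.append_nil, List.mem_map, List.mem_range, rowv_eq, eq_comm (a := x)]
    exact ⟨Or.inl, fun h' => h'.elim id fun h2 => absurd ⟨h2.1, h2.2.1⟩ h⟩

theorem nodup_factX (W : Wire) (j : Cp) (a : ℤ) : (p.factX W j a).Nodup := by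
  have h : (factL p.qs W j a).Nodup :=
    List.nodup_range.map fun i i' h => by simpa [rowv_eq] using (by
      simp only [rowv_eq, Sum.inl.injEq, Prod.mk.injEq] at h; exact h.2.2.1 : i = i')
  unfold factX
  split_ifs
  · rw [List.nodup_append]
    refine ⟨h, by simp, ?_⟩
    simp [factL, rowv_eq]
  · simpa using h

theorem lsum_factX (η : LVar → ZMod 2) {W : Wire} (j : Cp) {a : ℤ} (h : ¬ (W = wf ∧ a = 0)) :
    lsum η (p.factX W j a) =
      ∑ i ∈ Finset.range p.qs.length, η (Sum.inl (W, j, i, res p.qs i a)) := by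
  unfold factX factL
  rw [if_neg h, List.append_nil, lsum_map, lsum_range]
  rfl

theorem real_cp {e : Ix} (h : p.Real e) : cp e ∈ copies p.lam p.σ := by
  cases e with
  | gate γ l i α => exact h.2.1
  | fact W j a => exact h.2.1
  | uu g l t c => exact h.1

theorem uu_eq {g : ℕ} {l : Cp} {t t' : List LVar} {c c' : Bool} (h : p.Real (.uu g l t c))
    (h' : p.Real (.uu g l t' c')) : t = t' ∧ c = c' := by
  rcases h.2 with ⟨h1, rfl, rfl⟩ | ⟨W, hW, i, hi, α, hα, h1, rfl, rfl⟩ <;>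
    rcases h'.2 with ⟨h2, rfl, rfl⟩ | ⟨W', hW', i', hi', α', hα', h2, rfl, rfl⟩
  · exact ⟨rfl, rfl⟩
  · unfold amIdx at h2; omega
  · unfold amIdx at h1; omega
  · obtain ⟨rfl, rfl, rfl⟩ := amIdx_inj hW hW' hi hi' hα hα' (h1.symm.trans h2)
    exact ⟨rfl, rfl⟩

theorem mem_uu_inl {g : ℕ} {l : Cp} {t : List LVar} {c : Bool} (h : p.Real (.uu g l t c))
    {v : Wire × Cp × ℕ × ℕ} (hv : Sum.inl v ∈ (p.eqn (.uu g l t c)).1) :
    t = [Sum.inl v] ∧ v.2.1 = l := by
  simp only [eqn, List.mem_append, List.mem_map, reduceCtorEq, and_false, exists_false,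
    false_or] at hv
  rcases h.2 with ⟨-, rfl, -⟩ | ⟨W, -, i, -, α, -, -, rfl, -⟩
  · simp at hv
  · simp only [List.mem_singleton, Sum.inl.injEq] at hv
    subst hv
    exact ⟨rfl, rfl⟩

theorem mem_uu_inr {g : ℕ} {l : Cp} {t : List LVar} {c : Bool} (h : p.Real (.uu g l t c))
    {j : Cp} : Sum.inr j ∈ (p.eqn (.uu g l t c)).1 ↔ j ∈ p.ln g l := by
  rcases h.2 with ⟨-, rfl, -⟩ | ⟨W, -, i, -, α, -, -, rfl, -⟩ <;> simp [eqn]

theorem nodup_uu {g : ℕ} {l : Cp} {t : List LVar} {c : Bool} (h : p.Real (.uu g l t c)) :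
    (p.eqn (.uu g l t c)).1.Nodup := by
  have h1 : ((p.ln g l).map (Sum.inr : Cp → LVar)).Nodup :=
    (nodup_line _ _ _ _).map Sum.inr_injective
  rcases h.2 with ⟨-, rfl, -⟩ | ⟨W, -, i, -, α, -, -, rfl, -⟩
  · simpa [eqn] using h1
  · simp only [eqn]
    rw [List.nodup_append]
    exact ⟨h1, by simp, by simp⟩

theorem inD_le (hp : p.OK) {γ : ℕ} (h : γ < p.H.length) (s : Bool) : |p.inD γ s| ≤ p.N := by
  have := hp.hH.shift _ (ruleAt_mem h)
  cases s
  · exact this.1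
  · exact this.2

theorem inW_ne (hp : p.OK) {γ : ℕ} (h : γ < p.H.length) (s : Bool) : p.inW γ s ≠ wf := by
  have := hp.hH.nowf _ (ruleAt_mem h)
  cases s
  · exact this.1
  · exact this.2

theorem tr_le (hp : p.OK) {W : Wire} {a : ℤ} (h : p.Tr W a) : |a| ≤ p.N := by
  rcases h with h | ⟨-, rfl⟩
  · exact hp.hH.bdd W a h
  · simp

theorem InP.mono {R R' : Finset Ix} (h : R ⊆ R') {x : LVar} (hx : p.InP R x) : p.InP R' x :=
  let ⟨e, he, hx⟩ := hx
  ⟨e, h he, hx⟩

theorem HF.mono {R R' : Finset Ix} (h : R ⊆ R') {W : Wire} {j : Cp} {a : ℤ} (hx : p.HF R W j a) :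
    p.HF R' W j a := Heavy.mono (fun _ _ hi => hi.mono h) hx

theorem HT.mono {R R' : Finset Ix} (h : R ⊆ R') {γ : ℕ} {l : Cp} {a : ℤ} (hx : p.HT R γ l a) :
    p.HT R' γ l a := Heavy.mono (fun _ _ hi => h hi) hx

theorem Req.mono {R R' : Finset Ix} (h : R ⊆ R') {e : Ix} (he : p.Req R e) : p.Req R' e := by
  rcases he with he | he
  · exact Or.inl (h he)
  · right
    cases e with
    | gate γ l i α =>
      obtain ⟨h1, a, h2, h3, h4⟩ := he
      exact ⟨h1, a, h2, h3.mono h, h4⟩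
    | fact W j a => exact ⟨he.1, he.2.mono h⟩
    | uu g l t c => exact he

theorem not_req_empty (hp : p.OK) (e : Ix) : ¬ p.Req ∅ e := by
  rintro (he | he)
  · simp at he
  · cases e with
    | gate γ l i α =>
      obtain ⟨-, a, -, h3, -⟩ := he
      obtain ⟨i, -, hi⟩ := Heavy.exists hp.hr h3
      simp at hi
    | fact W j a =>
      obtain ⟨i, -, e, he, -⟩ := Heavy.exists hp.hr he.2
      simp at he
    | uu g l t c => exact he

theorem req_fact {R : Finset Ix} (hR : ∀ e ∈ R, p.Real e) {W : Wire} {j : Cp} {a : ℤ} :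
    p.Req R (.fact W j a) ↔ p.Tr W a ∧ p.HF R W j a := by
  refine ⟨?_, fun h => Or.inr h⟩
  rintro (he | he)
  · obtain ⟨h1, -, rfl⟩ := hR _ he
    refine ⟨?_, heavy_of_all fun i hi => ⟨_, he, mem_factX.2 (Or.inl ⟨i, hi, rfl⟩)⟩⟩
    rcases h1 with rfl | rfl
    · exact Or.inl Der.ax
    · exact Or.inr ⟨rfl, rfl⟩
  · exact he

/-- The gate type has a pebble. -/
def Act (R : Finset Ix) (γ : ℕ) (l : Cp) : Prop := ∃ i α, Ix.gate γ l i α ∈ R

theorem HT.act (hp : p.OK) {R : Finset Ix} {γ : ℕ} {l : Cp} {a : ℤ} (h : p.HT R γ l a) :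
    Act R γ l :=
  let ⟨i, _, hi⟩ := Heavy.exists hp.hr h
  ⟨i, _, hi⟩

theorem req_gate (hp : p.OK) {R : Finset Ix} (hR : ∀ e ∈ R, p.Real e) {γ : ℕ} {l : Cp} {i α : ℕ}
    (h : p.Req R (.gate γ l i α)) : Act R γ l ∧ i < p.qs.length ∧ res p.qs i α = α := by
  rcases h with h | ⟨h1, a, -, h3, rfl⟩
  · exact ⟨⟨i, α, h⟩, (hR _ h).2.2.1, res_of_lt (hR _ h).2.2.2⟩
  · exact ⟨h3.act hp, h1, res_res hp.hq i a⟩

theorem inP_of_gate (hp : p.OK) {R : Finset Ix} {γ : ℕ} {l : Cp} {i : ℕ} {a : ℤ}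
    (h : Ix.gate γ l i (res p.qs i a) ∈ R) :
    (∀ s, ∀ j ∈ p.ln (gix γ s) l,
      p.InP R (Sum.inl (p.inW γ s, j, i, res p.qs i (a + p.inD γ s)))) ∧
    p.InP R (Sum.inl (p.outW γ, l, i, res p.qs i a)) := by
  refine ⟨fun s j hj => ⟨_, h, mem_gateL.2 (Or.inl ⟨s, j, hj, ?_⟩)⟩,
    ⟨_, h, mem_gateL.2 (Or.inr ?_)⟩⟩
  · rw [(res_add_congr hp.hq _).2 (res_res hp.hq i a)]
  · rw [res_res hp.hq]

theorem HT.hf_in (hp : p.OK) {R : Finset Ix} {γ : ℕ} {l : Cp} {a : ℤ} (h : p.HT R γ l a)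
    (s : Bool) {j : Cp} (hj : j ∈ p.ln (gix γ s) l) : p.HF R (p.inW γ s) j (a + p.inD γ s) :=
  Heavy.mono (fun _ _ hi => (inP_of_gate hp hi).1 s j hj) h

theorem HT.hf_out (hp : p.OK) {R : Finset Ix} {γ : ℕ} {l : Cp} {a : ℤ} (h : p.HT R γ l a) :
    p.HF R (p.outW γ) l a :=
  Heavy.mono (fun _ _ hi => (inP_of_gate hp hi).2) h

/-- `j` is a generic point of the line `(g, l)`. -/
def Gen (p : Par) (R : Finset Ix) (g : ℕ) (l j : Cp) : Prop :=
  j ∈ p.ln g l ∧ ∀ e ∈ R, cp e ≠ j ∧ ∀ s, (gi e s, cp e) ≠ (g, l) → j ∉ p.ln (gi e s) (cp e)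

theorem exists_gen (hp : p.OK) {R : Finset Ix} (hR : ∀ e ∈ R, p.Real e) (hc : R.card ≤ p.K)
    (g : ℕ) {l : Cp} (hl : l ∈ copies p.lam p.σ) : ∃ j, p.Gen R g l j := by
  classical
  obtain ⟨j, hj, h⟩ := exists_avoid (p.ln g l) (nodup_line _ _ _ _)
    (R ×ˢ (Finset.univ : Finset (Option Bool)))
    (fun z j => match z.2 with
      | none => cp z.1 = j
      | some s => (gi z.1 s, cp z.1) ≠ (g, l) ∧ j ∈ p.ln (gi z.1 s) (cp z.1))
    (by
      rintro ⟨e, _ | s⟩ hz j hj j' hj' h1 h2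
      · exact h1.symm.trans h2
      · exact line_inter hl (real_cp (hR e (Finset.mem_product.1 hz).1)) (Ne.symm h1.1)
          hj h1.2 hj' h2.2)
    (by
      have := hp.hlam
      rw [Finset.card_product, ln, length_line]
      simp only [Finset.card_univ, Fintype.card_option, Fintype.card_bool]
      omega)
  exact ⟨j, hj, fun e he => ⟨h (e, none) (by simp [he]),
    fun s hs hm => h (e, some s) (by simp [he]) ⟨hs, hm⟩⟩⟩

/-- Rows and residues touched by an equation that is not a fact. -/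
def pat (p : Par) : Ix → Finset (ℕ × ℕ)
  | .gate γ _ i α => {(i, res p.qs i (α + p.inD γ false)), (i, res p.qs i (α + p.inD γ true)),
      (i, res p.qs i α)}
  | .uu _ _ [Sum.inl v] _ => {v.2.2}
  | _ => ∅

theorem card_pat (e : Ix) : (p.pat e).card ≤ 3 := by
  unfold pat
  split
  · exact Finset.card_le_three
  · simp
  · simp

theorem exists_pattern (hp : p.OK) {R : Finset Ix} (hR : ∀ e ∈ R, p.Real e) (hc : R.card ≤ p.K) :
    ∃ Pi : Finset (ℕ × ℕ), Pi.card ≤ 13 * p.qs.length ∧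
      (∀ W j i α, p.InP R (Sum.inl (W, j, i, α)) → (i, α) ∈ Pi) ∧
      ∀ γ l i α, Ix.gate γ l i α ∈ R → (i, α) ∈ Pi := by
  classical
  have key : ∀ W j i α, p.InP R (Sum.inl (W, j, i, α)) → (i, α) ∈
      ((Finset.range p.qs.length).image fun i => (i, 0)) ∪ R.biUnion p.pat := by
    rintro W j i α ⟨e, he, hx⟩
    have hr := hR e he
    simp only [Finset.mem_union, Finset.mem_image, Finset.mem_range, Finset.mem_biUnion]
    cases e with
    | gate γ l i' α' =>
      refine Or.inr ⟨_, he, ?_⟩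
      rcases mem_gateL.1 hx with ⟨s, j', -, h⟩ | h
      · simp only [Sum.inl.injEq, Prod.mk.injEq] at h
        obtain ⟨-, -, rfl, rfl⟩ := h
        cases s <;> simp [pat]
      · simp only [Sum.inl.injEq, Prod.mk.injEq] at h
        obtain ⟨-, -, rfl, rfl⟩ := h
        simp [pat]
    | fact W' j' a =>
      obtain ⟨-, -, rfl⟩ := hr
      rcases mem_factX.1 hx with ⟨i', hi', h⟩ | ⟨-, -, h⟩
      · simp only [Sum.inl.injEq, Prod.mk.injEq] at h
        obtain ⟨-, -, rfl, rfl⟩ := h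
        exact Or.inl ⟨i, hi', by simp [res]⟩
      · cases h
    | uu g l t c =>
      obtain ⟨rfl, -⟩ := mem_uu_inl hr hx
      exact Or.inr ⟨_, he, by simp [pat]⟩
  refine ⟨_, ?_, key, fun γ l i α h => ?_⟩
  · refine (Finset.card_union_le _ _).trans ?_
    have h1 : ((Finset.range p.qs.length).image fun i => ((i, 0) : ℕ × ℕ)).card ≤ p.qs.length :=
      Finset.card_image_le.trans (by simp)
    have h2 := Finset.card_biUnion_le_card_mul R p.pat 3 fun e _ => card_pat e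
    have := hp.hK
    omega
  · have h1 := res_of_lt (hR _ h).2.2.2
    exact key (p.outW γ) l i α ⟨_, h, mem_gateL.2 (Or.inr (by rw [h1]))⟩

theorem req_finite (hp : p.OK) {R : Finset Ix} (hR : ∀ e ∈ R, p.Real e) :
    {e | p.Req R e}.Finite := by
  classical
  have hP : {x | p.InP R x}.Finite :=
    (R.finite_toSet.biUnion fun e _ => (p.eqn e).1.finite_toSet).subset fun x ⟨e, he, hx⟩ =>
      Set.mem_biUnion he hx
  let F : Ix × ℕ × ℤ → Ix := fun z => match z.1 with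
    | .gate γ l _ _ => .gate γ l z.2.1 (res p.qs z.2.1 z.2.2)
    | e => e
  let G : LVar × ℤ → Ix := fun z => match z.1 with
    | .inl v => .fact v.1 v.2.1 z.2
    | .inr j => .fact w0 j 0
  refine ((R.finite_toSet.union ((R.finite_toSet.prod ((Set.finite_lt_nat p.qs.length).prod
    (Set.finite_Icc (-(2 * p.N : ℤ)) (2 * p.N)))).image F)).union
    ((hP.prod (Set.finite_Icc (-(p.N : ℤ)) p.N)).image G)).subset fun e he => ?_
  cases e with
  | gate γ l i α =>
    rcases he with he | ⟨h1, a, h2, h3, rfl⟩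
    · exact Or.inl (Or.inl he)
    · obtain ⟨i', α', h4⟩ := h3.act hp
      exact Or.inl (Or.inr ⟨(.gate γ l i' α', i, a), ⟨h4, h1, abs_le.1 h2⟩, rfl⟩)
  | fact W j a =>
    obtain ⟨h1, h2⟩ := (req_fact hR).1 he
    obtain ⟨i, -, hi⟩ := Heavy.exists hp.hr h2
    exact Or.inr ⟨(_, a), ⟨hi, abs_le.1 (tr_le hp h1)⟩, rfl⟩
  | uu g l t c =>
    rcases he with he | he
    · exact Or.inl (Or.inl he)
    · exact he.elim

end Par

end Crest.Agent.R290.Snd
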