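import Crest.Agent.R290.SoundB

/-!
# rid 290: the four repair steps
-/

set_option autoImplicit false

namespace Crest.Agent.R290.Snd

open Crest.Agent.R290

/-- The situation of one move: old position `R`, new position `R'`, generic points `gen`. -/
structure Mv (p : Par) (R R' : Finset Ix) (gen : ℕ → Cp → Cp) : Prop where
  ok : p.OK
  sub : R ⊆ R'
  real : ∀ e ∈ R', p.Real e
  card : R'.card ≤ p.K
  gen : ∀ g, ∀ l ∈ copies p.lam p.σ, p.Gen R' g l (gen g l)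

namespace Mv

open Par

variable {p : Par} {R R' : Finset Ix} {gen : ℕ → Cp → Cp}

theorem realR (h : Mv p R R' gen) : ∀ e ∈ R, p.Real e := fun e he => h.real e (h.sub he)

theorem act_lt (h : Mv p R R' gen) {γ : ℕ} {l : Cp} (ha : Act R' γ l) :
    γ < p.H.length ∧ l ∈ copies p.lam p.σ :=
  let ⟨_, _, hi⟩ := ha
  ⟨(h.real _ hi).1, (h.real _ hi).2.1⟩

theorem jg_mem (h : Mv p R R' gen) {γ : ℕ} {l : Cp} (ha : Act R' γ l) (s : Bool) :
    gen (gix γ s) l ∈ p.ln (gix γ s) l := (h.gen _ l (h.act_lt ha).2).1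

theorem jg_ne_cp (h : Mv p R R' gen) {g : ℕ} {l : Cp} (hl : l ∈ copies p.lam p.σ) {e : Ix}
    (he : e ∈ R') : cp e ≠ gen g l := ((h.gen g l hl).2 e he).1

theorem jg_line (h : Mv p R R' gen) {γ γ' : ℕ} {l l' : Cp} {s s' : Bool} (ha : Act R' γ l)
    (ha' : Act R' γ' l') (hm : gen (gix γ s) l ∈ p.ln (gix γ' s') l') :
    γ' = γ ∧ l' = l ∧ s' = s := by
  obtain ⟨i', α', he⟩ := ha'
  by_contra hne
  refine ((h.gen (gix γ s) l (h.act_lt ha).2).2 _ he).2 s' (fun e => hne ?_) hm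
  simp only [gi, cp, Prod.mk.injEq] at e
  obtain ⟨h1, h2⟩ := gix_inj e.1
  exact ⟨h1, e.2, h2⟩

theorem jg_ne_act (h : Mv p R R' gen) {g γ' : ℕ} {l l' : Cp} (hl : l ∈ copies p.lam p.σ)
    (ha' : Act R' γ' l') : l' ≠ gen g l :=
  let ⟨_, _, he⟩ := ha'
  h.jg_ne_cp hl he

/-- A generic variable inside the equation of an active gate. -/
theorem mem_gate_gen (h : Mv p R R' gen) {γ γ' : ℕ} {l l' : Cp} {s : Bool} (ha : Act R' γ l)
    (ha' : Act R' γ' l') {W : Wire} {i i' β : ℕ} {a' : ℤ}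
    (hx : Sum.inl (W, gen (gix γ s) l, i, β) ∈ gateL p.H p.qs p.lam p.σ γ' l' i' a') :
    γ' = γ ∧ l' = l ∧ i' = i ∧ W = p.inW γ s ∧ β = res p.qs i (a' + p.inD γ s) := by
  rcases mem_gateL.1 hx with ⟨s', j, hj, e⟩ | e
  · simp only [Sum.inl.injEq, Prod.mk.injEq] at e
    obtain ⟨rfl, rfl, rfl, rfl⟩ := e
    obtain ⟨rfl, rfl, rfl⟩ := h.jg_line ha ha' hj
    exact ⟨rfl, rfl, rfl, rfl, rfl⟩
  · simp only [Sum.inl.injEq, Prod.mk.injEq] at e
    exact absurd e.2.1.symm (h.jg_ne_act (h.act_lt ha).2 ha')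

/-- A pebbled generic variable. -/
theorem inP_gen (h : Mv p R R' gen) {R'' : Finset Ix} (hs : R'' ⊆ R') {γ : ℕ} {l : Cp} {s : Bool}
    (ha : Act R' γ l) {W : Wire} {i : ℕ} {a : ℤ}
    (hx : p.InP R'' (Sum.inl (W, gen (gix γ s) l, i, res p.qs i (a + p.inD γ s)))) :
    Ix.gate γ l i (res p.qs i a) ∈ R'' := by
  obtain ⟨e, he, hx⟩ := hx
  have hr := h.real e (hs he)
  have hne := h.jg_ne_cp (g := gix γ s) (h.act_lt ha).2 (hs he)
  cases e with
  | gate γ' l' i' α' =>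
    obtain ⟨rfl, rfl, rfl, -, h5⟩ := h.mem_gate_gen ha ⟨_, _, hs he⟩ hx
    rw [(res_add_congr h.ok.hq _).1 h5, res_of_lt hr.2.2.2]
    exact he
  | fact W' j' a' =>
    rcases mem_factX.1 hx with ⟨i', -, e⟩ | ⟨-, -, e⟩
    · simp only [Sum.inl.injEq, Prod.mk.injEq] at e
      exact absurd e.2.1.symm hne
    · cases e
  | uu g l' t c => exact absurd (mem_uu_inl hr hx).2.symm hne

theorem ht_of_hf (h : Mv p R R' gen) {R'' : Finset Ix} (hs : R'' ⊆ R') {γ : ℕ} {l : Cp} {s : Bool}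
    (ha : Act R' γ l) {W : Wire} {a : ℤ} (hx : p.HF R'' W (gen (gix γ s) l) (a + p.inD γ s)) :
    p.HT R'' γ l a :=
  Heavy.mono (fun _ _ hi => h.inP_gen hs ha hi) hx

/-- Generic pairs (wire, copy). -/
def IsGen (p : Par) (R' : Finset Ix) (gen : ℕ → Cp → Cp) (W : Wire) (j : Cp) : Prop :=
  ∃ γ l s, Act R' γ l ∧ W = p.inW γ s ∧ j = gen (gix γ s) l

/-- New non-generic facts. -/
def NB (p : Par) (R R' : Finset Ix) (gen : ℕ → Cp → Cp) (e : Ix) : Prop :=
  ∃ W j a, e = .fact W j a ∧ p.Req R' e ∧ ¬ p.Req R e ∧ ¬ IsGen p R' gen W j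

theorem stepB (h : Mv p R R' gen) (η : LVar → ZMod 2) (hη : ∀ e, p.Req R e → Sat η (p.eqn e)) :
    ∃ η' : LVar → ZMod 2, (∀ e, p.Req R e → Sat η' (p.eqn e)) ∧
      (∀ e ∈ {e | NB p R R' gen e}, Sat η' (p.eqn e)) ∧ ∀ x, p.InP R x → η' x = η x := by
  obtain ⟨Pi, hPi, hP1, -⟩ := exists_pattern h.ok h.real h.card
  refine fix_step p.eqn (p.InP R) (p.Req R) {e | NB p R R' gen e}
    ((req_finite h.ok h.real).subset fun e ⟨_, _, _, _, he, _⟩ => he) id ?_ η hη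
  rintro _ ⟨W, j, a, rfl, h1, h2, h3⟩
  obtain ⟨t1, t2⟩ := (req_fact h.real).1 h1
  have t3 : ¬ p.HF R W j a := fun hh => h2 ((req_fact h.realR).2 ⟨t1, hh⟩)
  have t4 := tr_le h.ok t1
  obtain ⟨i, hi, g1, g2⟩ := priv_row h.ok.hq h.ok.ha h.ok.hm h.ok.hr
    (Q' := fun i α => p.InP R' (Sum.inl (W, j, i, α))) Pi hPi (fun i α => hP1 W j i α)
    (a := a) (by push_cast; omega) t3
  have fa : ∀ W' j' a', p.Tr W' a' → p.HF R' W' j' a' →
      Sum.inl (W, j, i, res p.qs i a) ∈ p.factX W' j' a' → W' = W ∧ j' = j ∧ a' = a := by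
    intro W' j' a' u1 u2 hx
    rcases mem_factX.1 hx with ⟨i', -, e⟩ | ⟨-, -, e⟩
    · simp only [Sum.inl.injEq, Prod.mk.injEq] at e
      obtain ⟨rfl, rfl, rfl, e⟩ := e
      refine ⟨rfl, rfl, ?_⟩
      by_contra hne
      have := tr_le h.ok u1
      exact g2 a' (by push_cast; omega) u2 hne e.symm
    · cases e
  refine ⟨ind (Sum.inl (W, j, i, res p.qs i a)),
    lsum_ind_mem (nodup_factX W j a) (mem_factX.2 (Or.inl ⟨i, hi, rfl⟩)), ?_, ?_,
    fun x hx => ind_ne fun e => g1 (e ▸ hx)⟩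
  · rintro _ ⟨W', j', a', rfl, u1, -, -⟩ hne
    obtain ⟨u1, u2⟩ := (req_fact h.real).1 u1
    refine lsum_ind_not fun hx => hne ?_
    obtain ⟨rfl, rfl, rfl⟩ := fa W' j' a' u1 u2 hx
    rfl
  · intro e he
    refine lsum_ind_not fun hx => ?_
    rcases he with he | he
    · exact g1 ⟨e, he, hx⟩
    · cases e with
      | gate γ l i' α =>
        obtain ⟨-, a₀, u1, u2, rfl⟩ := he
        have hγ := (h.act_lt ((u2.mono h.sub).act h.ok)).1
        rcases mem_gateL.1 hx with ⟨s, j', hj', e⟩ | e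
        · simp only [Sum.inl.injEq, Prod.mk.injEq] at e
          obtain ⟨rfl, rfl, rfl, e⟩ := e
          have u3 := u2.hf_in h.ok s hj'
          have u4 := inD_le h.ok hγ s
          have u5 := abs_add_le a₀ (p.inD γ s)
          refine g2 (a₀ + p.inD γ s) (by push_cast; omega) (u3.mono h.sub)
            (fun e => t3 (e ▸ u3)) ?_
          rw [e, res_add_congr h.ok.hq, res_res h.ok.hq]
        · simp only [Sum.inl.injEq, Prod.mk.injEq] at e
          obtain ⟨rfl, rfl, rfl, e⟩ := e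
          have u3 := u2.hf_out h.ok
          refine g2 a₀ (by push_cast; omega) (u3.mono h.sub) (fun e => t3 (e ▸ u3)) ?_
          rw [e, res_res h.ok.hq]
      | fact W' j' a' =>
        obtain ⟨rfl, rfl, rfl⟩ := fa W' j' a' he.1 (he.2.mono h.sub) hx
        exact t3 he.2
      | uu g l t c => exact he

/-- New gate equations. -/
def NC (p : Par) (R R' : Finset Ix) (e : Ix) : Prop :=
  ∃ γ l i α, e = .gate γ l i α ∧ p.Req R' e ∧ ¬ p.Req R e

theorem lsum_ind_gate (h : Mv p R R' gen) {γ : ℕ} {l : Cp} (ha : Act R' γ l) (s : Bool) (i : ℕ)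
    (a : ℤ) : lsum (ind (Sum.inl (p.inW γ s, gen (gix γ s) l, i, res p.qs i (a + p.inD γ s))))
      (gateL p.H p.qs p.lam p.σ γ l i a) = 1 := by
  have h1 : ∀ s', lsum (fun j =>
      ind (Sum.inl (p.inW γ s, gen (gix γ s) l, i, res p.qs i (a + p.inD γ s)) : LVar)
        (Sum.inl (p.inW γ s', j, i, res p.qs i (a + p.inD γ s')))) (p.ln (gix γ s') l) =
      if s' = s then 1 else 0 := by
    intro s'
    split_ifs with hs
    · subst hs
      refine (lsum_single (nodup_line _ _ _ _) (h.jg_mem ha s') fun j _ hj => ?_).trans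
        (ind_self _)
      exact ind_ne (by simp [hj])
    · refine lsum_zero_of fun j hj => ind_ne fun e => hs ?_
      simp only [Sum.inl.injEq, Prod.mk.injEq] at e
      exact (h.jg_line ha ha (e.2.1 ▸ hj)).2.2
  rw [lsum_gateL, h1, h1, ind_ne]
  · cases s <;> simp
  · simp only [ne_eq, Sum.inl.injEq, Prod.mk.injEq, not_and]
    exact fun _ e => absurd e (h.jg_ne_act (h.act_lt ha).2 ha)

theorem not_mem_NB (_h : Mv p R R' gen) {γ : ℕ} {l : Cp} (ha : Act R' γ l) (s : Bool) (i β : ℕ)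
    {e : Ix} (he : NB p R R' gen e) :
    Sum.inl (p.inW γ s, gen (gix γ s) l, i, β) ∉ (p.eqn e).1 := by
  obtain ⟨W, j, a, rfl, -, -, h3⟩ := he
  intro hx
  rcases mem_factX.1 hx with ⟨i', -, e⟩ | ⟨-, -, e⟩
  · simp only [Sum.inl.injEq, Prod.mk.injEq] at e
    exact h3 ⟨γ, l, s, ha, e.1.symm, e.2.1.symm⟩
  · cases e

/-- A generic variable inside a heavy fact. -/
theorem gen_fact (h : Mv p R R' gen) {R'' : Finset Ix} (hs : R'' ⊆ R') {γ : ℕ} {l : Cp}
    (ha : Act R' γ l) {s : Bool} {i : ℕ} {a : ℤ} {W : Wire} {j : Cp} {b : ℤ} (t1 : p.Tr W b)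
    (t2 : p.HF R'' W j b)
    (hx : Sum.inl (p.inW γ s, gen (gix γ s) l, i, res p.qs i (a + p.inD γ s)) ∈ p.factX W j b) :
    i < p.qs.length ∧ |b - p.inD γ s| ≤ 2 * p.N ∧ p.HT R'' γ l (b - p.inD γ s) ∧
      res p.qs i (b - p.inD γ s) = res p.qs i a := by
  rcases mem_factX.1 hx with ⟨i', hi', e⟩ | ⟨-, -, e⟩
  · simp only [Sum.inl.injEq, Prod.mk.injEq] at e
    obtain ⟨rfl, rfl, rfl, e⟩ := e
    have u1 := tr_le h.ok t1
    have u2 := inD_le h.ok (h.act_lt ha).1 s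
    have u3 := abs_sub b (p.inD γ s)
    refine ⟨hi', by omega, h.ht_of_hf hs ha (W := p.inW γ s) (by rwa [sub_add_cancel]), ?_⟩
    rw [← res_add_congr h.ok.hq (p.inD γ s), sub_add_cancel, e]
  · cases e

theorem stepC (h : Mv p R R' gen) (η : LVar → ZMod 2)
    (hη : ∀ e, (p.Req R e ∨ NB p R R' gen e) → Sat η (p.eqn e)) :
    ∃ η' : LVar → ZMod 2, (∀ e, (p.Req R e ∨ NB p R R' gen e) → Sat η' (p.eqn e)) ∧
      (∀ e ∈ {e | NC p R R' e}, Sat η' (p.eqn e)) ∧ ∀ x, p.InP R x → η' x = η x := by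
  refine fix_step p.eqn (p.InP R) _ {e | NC p R R' e}
    ((req_finite h.ok h.real).subset fun e ⟨_, _, _, _, _, he, _⟩ => he) id ?_ η hη
  rintro _ ⟨γ, l, i, α, rfl, h1, h2⟩
  obtain ⟨ha, hi, hα⟩ := req_gate h.ok h.real h1
  have ga : ∀ γ' l' i' α', p.Req R' (.gate γ' l' i' α') →
      Sum.inl (p.inW γ false, gen (gix γ false) l, i, res p.qs i (α + p.inD γ false)) ∈
        gateL p.H p.qs p.lam p.σ γ' l' i' α' → Ix.gate γ' l' i' α' = Ix.gate γ l i α := by
    intro γ' l' i' α' u hx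
    obtain ⟨ha', -, hα'⟩ := req_gate h.ok h.real u
    obtain ⟨rfl, rfl, rfl, -, e⟩ := h.mem_gate_gen ha ha' hx
    rw [res_add_congr h.ok.hq, hα, hα'] at e
    rw [e]
  have gP : ¬ p.InP R
      (Sum.inl (p.inW γ false, gen (gix γ false) l, i, res p.qs i (α + p.inD γ false))) := by
    intro hx
    have := h.inP_gen h.sub ha hx
    rw [hα] at this
    exact h2 (Or.inl this)
  refine ⟨ind (Sum.inl (p.inW γ false, gen (gix γ false) l, i, res p.qs i (α + p.inD γ false))),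
    h.lsum_ind_gate ha false i α, ?_, ?_, fun x hx => ind_ne fun e => gP (e ▸ hx)⟩
  · rintro _ ⟨γ', l', i', α', rfl, u1, -⟩ hne
    exact lsum_ind_not fun hx => hne (ga _ _ _ _ u1 hx)
  · rintro e (he | he)
    · refine lsum_ind_not fun hx => ?_
      cases e with
      | gate γ' l' i' α' => exact h2 (ga _ _ _ _ (he.mono h.sub) hx ▸ he)
      | fact W j b =>
        obtain ⟨t1, t2⟩ := (req_fact h.realR).1 he
        obtain ⟨-, u2, u3, u4⟩ := h.gen_fact h.sub ha t1 t2 hx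
        exact h2 (Or.inr ⟨hi, _, u2, u3, by rw [u4, hα]⟩)
      | uu g l' t c =>
        rcases he with he | he
        · exact gP ⟨_, he, hx⟩
        · exact he
    · exact lsum_ind_not (h.not_mem_NB ha _ _ _ he)

open Classical in
/-- The first true premise. -/
noncomputable def sl (p : Par) (γ : ℕ) (a : ℤ) : Bool :=
  if p.Tr (p.inW γ false) (a + p.inD γ false) then false else true

/-- New heavy gate types with a true premise. -/
def ND (p : Par) (R R' : Finset Ix) (z : ℕ × Cp × ℤ) : Prop :=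
  p.HT R' z.1 z.2.1 z.2.2 ∧ ¬ p.HT R z.1 z.2.1 z.2.2 ∧ |z.2.2| ≤ 2 * p.N ∧
    p.Tr (p.inW z.1 (sl p z.1 z.2.2)) (z.2.2 + p.inD z.1 (sl p z.1 z.2.2))

/-- The generic fact that is repaired. -/
noncomputable def tgD (p : Par) (gen : ℕ → Cp → Cp) (z : ℕ × Cp × ℤ) : Ix :=
  .fact (p.inW z.1 (sl p z.1 z.2.2)) (gen (gix z.1 (sl p z.1 z.2.2)) z.2.1)
    (z.2.2 + p.inD z.1 (sl p z.1 z.2.2))

theorem stepD (h : Mv p R R' gen) (η : LVar → ZMod 2)
    (hη : ∀ e, ((p.Req R e ∨ NB p R R' gen e) ∨ NC p R R' e) → Sat η (p.eqn e)) :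
    ∃ η' : LVar → ZMod 2,
      (∀ e, ((p.Req R e ∨ NB p R R' gen e) ∨ NC p R R' e) → Sat η' (p.eqn e)) ∧
      (∀ z ∈ {z | ND p R R' z}, Sat η' (p.eqn (tgD p gen z))) ∧ ∀ x, p.InP R x → η' x = η x := by
  obtain ⟨Pi, hPi, -, hP2⟩ := exists_pattern h.ok h.real h.card
  have hfin : {z | ND p R R' z}.Finite := by
    let F : Ix × ℤ → ℕ × Cp × ℤ := fun z => match z.1 with
      | .gate γ l _ _ => (γ, l, z.2)
      | _ => (0, (0, 0), 0)
    refine ((R'.finite_toSet.prod (Set.finite_Icc (-(2 * p.N : ℤ)) (2 * p.N))).image F).subset ?_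
    rintro ⟨γ, l, a⟩ ⟨h1, -, h3, -⟩
    obtain ⟨i, α, hi⟩ := h1.act h.ok
    exact ⟨(.gate γ l i α, a), ⟨hi, abs_le.1 h3⟩, rfl⟩
  refine fix_step p.eqn (p.InP R) _ {z | ND p R R' z} hfin (tgD p gen) ?_ η hη
  rintro ⟨γ, l, a⟩ ⟨h1, h2, h3, h4⟩
  simp only at h1 h2 h3 h4
  have ha := h1.act h.ok
  obtain ⟨i, hi, g1, g2⟩ := priv_row h.ok.hq h.ok.ha h.ok.hm h.ok.hr
    (Q' := fun i α => Ix.gate γ l i α ∈ R') Pi hPi (fun i α => hP2 γ l i α)
    (a := a) (by push_cast; omega) h2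
  let x : Bool → LVar := fun s =>
    Sum.inl (p.inW γ s, gen (gix γ s) l, i, res p.qs i (a + p.inD γ s))
  have zero : ∀ ℓ : List LVar, (∀ s, x s ∉ ℓ) → lsum (ind (x false) + ind (x true)) ℓ = 0 :=
    fun ℓ hℓ => by rw [lsum_add, lsum_ind_not (hℓ _), lsum_ind_not (hℓ _), add_zero]
  have gP : ∀ s, ¬ p.InP R (x s) := fun s hx => g1 (h.inP_gen h.sub ha hx)
  have fa : ∀ s W j b, p.Tr W b → p.HF R' W j b → x s ∈ p.factX W j b → b = a + p.inD γ s := by
    intro s W j b t1 t2 hx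
    obtain ⟨-, u2, u3, u4⟩ := h.gen_fact (Finset.Subset.refl _) ha t1 t2 hx
    by_contra hne
    exact g2 _ (by push_cast; omega) u3 (fun e => hne (by omega)) u4
  have fj : ∀ s W j b, x s ∈ p.factX W j b → j = gen (gix γ s) l := by
    intro s W j b hx
    rcases mem_factX.1 hx with ⟨i', -, e⟩ | ⟨-, -, e⟩
    · simp only [x, Sum.inl.injEq, Prod.mk.injEq] at e
      exact e.2.1.symm
    · cases e
  have ga : ∀ γ' l' i' α', p.Req R' (.gate γ' l' i' α') →
      lsum (ind (x false) + ind (x true)) (gateL p.H p.qs p.lam p.σ γ' l' i' α') = 0 := by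
    intro γ' l' i' α' u
    obtain ⟨ha', -, hα'⟩ := req_gate h.ok h.real u
    by_cases hx : ∃ s, x s ∈ gateL p.H p.qs p.lam p.σ γ' l' i' α'
    · obtain ⟨s, hx⟩ := hx
      obtain ⟨rfl, rfl, rfl, -, e⟩ := h.mem_gate_gen ha ha' hx
      rw [res_add_congr h.ok.hq, res_eq_iff h.ok.hq] at e
      rw [← gateL_congr _ _ _ _ _ _ _ e, lsum_add, h.lsum_ind_gate ha, h.lsum_ind_gate ha]
      rfl
    · exact zero _ fun s hs => hx ⟨s, hs⟩
  refine ⟨ind (x false) + ind (x true), ?_, ?_, ?_, fun y hy => ?_⟩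
  · have k1 : ∀ s, lsum (ind (x s)) (p.eqn (tgD p gen (γ, l, a))).1 =
        if s = sl p γ a then 1 else 0 := by
      intro s
      split_ifs with hs
      · subst hs
        exact lsum_ind_mem (nodup_factX _ _ _) (mem_factX.2 (Or.inl ⟨i, hi, rfl⟩))
      · refine lsum_ind_not fun hx => hs ?_
        have := fj s _ _ _ hx
        exact (h.jg_line ha ha (this ▸ h.jg_mem ha s)).2.2
    rw [lsum_add, k1, k1]
    cases sl p γ a <;> simp
  · rintro ⟨γ', l', a'⟩ ⟨u1, -, -, u4⟩ hne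
    simp only at u1 u4
    refine zero _ fun s hx => hne ?_
    have ha' := u1.act h.ok
    have e1 := fj s _ _ _ hx
    obtain ⟨rfl, rfl, e2⟩ := h.jg_line ha ha' (e1 ▸ h.jg_mem ha' _)
    have e3 := fa s _ _ _ u4 (u1.hf_in h.ok _ (h.jg_mem ha' _)) hx
    rw [e2] at e3
    rw [show a' = a by omega]
  · rintro e ((he | he) | he)
    · cases e with
      | gate γ' l' i' α' => exact ga _ _ _ _ (he.mono h.sub)
      | fact W j b =>
        obtain ⟨t1, t2⟩ := (req_fact h.realR).1 he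
        refine zero _ fun s hx => h2 ?_
        have e1 := fa s W j b t1 (t2.mono h.sub) hx
        have := (h.gen_fact h.sub ha t1 t2 hx).2.2.1
        rwa [e1, add_sub_cancel_right] at this
      | uu g l' t c =>
        rcases he with he | he
        · exact zero _ fun s hx => gP s ⟨_, he, hx⟩
        · exact he.elim
    · exact zero _ fun s => h.not_mem_NB ha _ _ _ he
    · obtain ⟨γ', l', i', α', rfl, u, -⟩ := he
      exact ga _ _ _ _ u
  · have k : ∀ s, ind (x s) y = 0 := fun s => ind_ne fun e : y = x s => gP s (e ▸ hy)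
    rw [_root_.Pi.add_apply, k, k, add_zero]

end Mv

end Crest.Agent.R290.Snd
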